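import Vale.Agent.P159.H950.F6

/-!
Boundary spins given by a harmonic function; complex gauge fields.
-/

set_option linter.all false
set_option autoImplicit false

open MeasureTheory Filter Topology
open scoped BigOperators

namespace Vale.Agent.P159.H950

open Vale.Agent.P159 Vale.Agent.P159.UJ

theorem gA_zero (N : ℕ) : gA 0 N = 0 := by funext v; simp [gA]

theorem gB_zero (N : ℕ) : gB 0 N = 0 := by funext v; simp [gB]

theorem bdryZ_zero (N : ℕ) (b : ℝ) : bdryZ N b 0 = gaugeZ N b 0 0 := by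
  rw [bdryZ_eq, gA_zero, gB_zero]

/-- difference quotients -/
theorem dq {g p : ℝ → ℝ} (hg : ∀ x, HasDerivAt g (p x) x) {N : ℕ} (hN : 1 ≤ N) (k : ℤ) :
    ∃ ξ : ℝ, (k : ℝ) / N < ξ ∧ ξ < ((k : ℝ) + 1) / N ∧
      N * (g ((k : ℝ) / N) - g (((k : ℝ) + 1) / N)) = -p ξ := by
  have hN0 : (0 : ℝ) < N := by exact_mod_cast hN
  have hlt : (k : ℝ) / N < ((k : ℝ) + 1) / N := div_lt_div_of_pos_right (by linarith) hN0
  obtain ⟨ξ, ⟨h1, h2⟩, h3⟩ := exists_hasDerivAt_eq_slope g p hlt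
    (fun x _ => (hg x).continuousAt.continuousWithinAt) (fun x _ => hg x)
  refine ⟨ξ, h1, h2, ?_⟩
  have e : ((k : ℝ) + 1) / N - (k : ℝ) / N = 1 / N := by ring
  rw [e] at h3
  rw [h3]
  field_simp
  ring

theorem apx_bdry {g p q : ℝ → ℝ → ℝ} (hp : Continuous fun z : ℝ × ℝ => p z.1 z.2)
    (hq : Continuous fun z : ℝ × ℝ => q z.1 z.2)
    (dp : ∀ x y, HasDerivAt (fun x => g x y) (p x y) x)
    (dq' : ∀ x y, HasDerivAt (fun y => g x y) (q x y) y) :
    ApxG (fun x y => -p x y) (fun x y => -q x y) (gA g) (gB g) := by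
  intro ε hε
  obtain ⟨δ1, hδ1, h1⟩ := uc hp 2 hε
  obtain ⟨δ2, hδ2, h2⟩ := uc hq 2 hε
  have hlim : Tendsto (fun N : ℕ => (N : ℝ)⁻¹) atTop (𝓝 0) := tendsto_inv_atTop_nhds_zero_nat
  filter_upwards [hlim.eventually (ge_mem_nhds (lt_min hδ1 hδ2)), eventually_ge_atTop 1]
    with N e1 e2 v v1 v2 v3 v4
  have hNpos : (0 : ℝ) < N := by exact_mod_cast e2
  have hN1 : (1 : ℝ) ≤ N := by exact_mod_cast e2
  have r1 : (0 : ℝ) ≤ v.1 := by exact_mod_cast v1
  have r2 : (v.1 : ℝ) ≤ N := by exact_mod_cast v2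
  have r3 : (0 : ℝ) ≤ v.2 := by exact_mod_cast v3
  have r4 : (v.2 : ℝ) ≤ N := by exact_mod_cast v4
  have m1 := min_le_left δ1 δ2
  have m2 := min_le_right δ1 δ2
  have a0 : ∀ k : ℝ, 0 ≤ k → k ≤ N → 0 ≤ k / N ∧ k / N ≤ 1 := fun k h3 h4 =>
    ⟨by positivity, (div_le_one hNpos).2 h4⟩
  have hsl : ∀ k : ℝ, (k + 1) / N = k / N + (N : ℝ)⁻¹ := by intro k; field_simp
  have hinv : (N : ℝ)⁻¹ ≤ 1 := inv_le_one_of_one_le₀ hN1
  obtain ⟨b1, b2⟩ := a0 v.1 r1 r2
  obtain ⟨b3, b4⟩ := a0 v.2 r3 r4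
  constructor
  · obtain ⟨ξ, x1, x2, x3⟩ := dq (fun x => dp x ((v.2 : ℝ) / N)) e2 v.1
    have e3 : (N : ℝ) * gA g N v = -p ξ ((v.2 : ℝ) / N) := x3
    rw [e3]
    rw [hsl] at x2
    have := h1 ((v.1 : ℝ) / N) ((v.2 : ℝ) / N) ξ ((v.2 : ℝ) / N)
      (by rw [abs_le]; constructor <;> linarith) (by rw [abs_le]; constructor <;> linarith)
      (by rw [abs_le]; constructor <;> linarith) (by rw [abs_le]; constructor <;> linarith)
      (by rw [abs_le]; constructor <;> linarith) (by rw [sub_self, abs_zero]; exact hδ1.le)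
    have e4 : -p ξ ((v.2 : ℝ) / N) - -p ((v.1 : ℝ) / N) ((v.2 : ℝ) / N) =
      p ((v.1 : ℝ) / N) ((v.2 : ℝ) / N) - p ξ ((v.2 : ℝ) / N) := by ring
    rw [e4]
    exact this
  · obtain ⟨ξ, x1, x2, x3⟩ := dq (fun y => dq' ((v.1 : ℝ) / N) y) e2 v.2
    have e3 : (N : ℝ) * gB g N v = -q ((v.1 : ℝ) / N) ξ := x3
    rw [e3]
    rw [hsl] at x2
    have := h2 ((v.1 : ℝ) / N) ((v.2 : ℝ) / N) ((v.1 : ℝ) / N) ξ
      (by rw [abs_le]; constructor <;> linarith) (by rw [abs_le]; constructor <;> linarith)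
      (by rw [abs_le]; constructor <;> linarith) (by rw [abs_le]; constructor <;> linarith)
      (by rw [sub_self, abs_zero]; exact hδ2.le) (by rw [abs_le]; constructor <;> linarith)
    have e4 : -q ((v.1 : ℝ) / N) ξ - -q ((v.1 : ℝ) / N) ((v.2 : ℝ) / N) =
      q ((v.1 : ℝ) / N) ((v.2 : ℝ) / N) - q ((v.1 : ℝ) / N) ξ := by ring
    rw [e4]
    exact this

/-- the macroscopic limit with slowly varying boundary spins -/
theorem bdry_lim {b : ℝ} (hb : 0 < b) {g p q f : ℝ → ℝ → ℝ}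
    (hp : Continuous fun z : ℝ × ℝ => p z.1 z.2) (hq : Continuous fun z : ℝ × ℝ => q z.1 z.2)
    (hf : Continuous fun z : ℝ × ℝ => f z.1 z.2)
    (dp : ∀ x y, HasDerivAt (fun x => g x y) (p x y) x)
    (dq' : ∀ x y, HasDerivAt (fun y => g x y) (q x y) y)
    (dpp : ∀ x y, HasDerivAt (fun x => p x y) (f x y) x)
    (dqq : ∀ x y, HasDerivAt (fun y => q x y) (-f x y) y) :
    Tendsto (fun N => bdryZ N b g / bdryZ N b 0) atTop
      (𝓝 (Real.exp (-(helicity b / 2 *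
        ∫ x in (0 : ℝ)..1, ∫ y in (0 : ℝ)..1, (p x y ^ 2 + q x y ^ 2))))) := by
  have h := gauge_lim hb (P := fun x y => -p x y) (Q := fun x y => -q x y)
    (f := fun x y => -f x y) hp.neg hq.neg hf.neg (fun x y => (dpp x y).neg)
    (fun x y => (dqq x y).neg) (apx_bdry hp hq dp dq')
  simp only [neg_sq] at h
  refine h.congr fun N => ?_
  rw [bdryZ_eq, bdryZ_zero]

/-! ### Complex gauge fields -/

theorem gaugeEnergyC_cont (N : ℕ) (b : ℝ) (α β : ℤ × ℤ → ℝ) (w : ℂ) :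
    Continuous (gaugeEnergyC N b α β w) := by
  have h : ∀ (u v : ℤ × ℤ) (r : ℂ), Continuous fun φ : ℤ × ℤ → T => cosC (φ u - φ v) r := by
    intro u v r
    unfold cosC
    have h1 : Continuous fun φ : ℤ × ℤ → T => φ u - φ v :=
      (continuous_apply u).sub (continuous_apply v)
    exact ((Complex.continuous_ofReal.comp (cont_cos.comp h1)).mul continuous_const).sub
      ((Complex.continuous_ofReal.comp (cont_sin.comp h1)).mul continuous_const)
  unfold gaugeEnergyC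
  refine continuous_finsetSum _ fun i _ => continuous_finsetSum _ fun j _ => ?_
  exact continuous_const.mul ((((h _ _ _).add (h _ _ _)).add (h _ _ _)).add (h _ _ _))

theorem sum_KR_C (R : Finset (ℤ × ℤ)) (F : ℤ × ℤ → HT → ℂ) :
    ∑ e : KR R, F e.1 e.2 = ∑ c ∈ R, (F c (false, false) + F c (false, true) +
      F c (true, false) + F c (true, true)) := by
  rw [Fintype.sum_prod_type, ← Finset.sum_coe_sort R]
  refine Finset.sum_congr rfl fun c _ => ?_
  rw [Fintype.sum_prod_type]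
  simp only [Fintype.sum_bool]
  ring

theorem sum_blk_C (N : ℕ) (w : ℤ × ℤ → ℂ) : ∑ c ∈ blk 0 N, w c =
    ∑ i ∈ Finset.range N, ∑ j ∈ Finset.range N, w ((i : ℤ), (j : ℤ)) := by
  have h1 := sum_blk N (fun c => (w c).re)
  have h2 := sum_blk N (fun c => (w c).im)
  apply Complex.ext
  · rw [Complex.re_sum]
    rw [h1, Complex.re_sum]
    exact Finset.sum_congr rfl fun i _ => (Complex.re_sum _ _).symm
  · rw [Complex.im_sum]
    rw [h2, Complex.im_sum]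
    exact Finset.sum_congr rfl fun i _ => (Complex.im_sum _ _).symm

theorem gauge_sum_C (N : ℕ) (b : ℝ) (α β : ℤ × ℤ → ℝ) (w : ℂ) (φ : ℤ × ℤ → T) :
    ∑ e : KR (blk 0 N), ((b / 2 : ℝ) : ℂ) * cosC (φ (hu e.1 e.2) - φ (hv e.1 e.2))
      (w * tG α β N e) = gaugeEnergyC N b α β w φ := by
  have h := sum_KR_C (blk 0 N) (fun c t => ((b / 2 : ℝ) : ℂ) * cosC (φ (hu c t) - φ (hv c t))
    (w * ((if t.1 then β (hu c t) else α (hu c t) : ℝ) : ℂ)))
  unfold tG
  refine h.trans ?_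
  rw [sum_blk_C]
  unfold gaugeEnergyC
  refine Finset.sum_congr rfl fun i _ => Finset.sum_congr rfl fun j _ => ?_
  simp [hu, hv]
  ring

theorem Zl_gauge (N : ℕ) (b : ℝ) (α β : ℤ × ℤ → ℝ) (w : ℂ) :
    Zl muInf (fun _ : KR (blk 0 N) => b / 2) (chiR (blk 0 N)) (tG α β N) w =
      gaugeZC N b α β w := by
  unfold Zl ZZ gaugeZC
  have hc : Continuous fun φ : Ginf => Complex.exp (gaugeEnergyC N b α β w φ) :=
    Complex.continuous_exp.comp (gaugeEnergyC_cont N b α β w)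
  rw [integral_ext (inner N) hc]
  congr 1
  ext x
  congr 1
  rw [← gauge_sum_C, ← intR_blk0]
  refine Finset.sum_congr rfl fun e _ => ?_
  rfl

/-- the macroscopic limit in a complex gauge field -/
theorem gauge_lim_C {b : ℝ} (hb : 0 < b) {P Q f : ℝ → ℝ → ℝ} {α β : ℕ → ℤ × ℤ → ℝ}
    (hP : Continuous fun p : ℝ × ℝ => P p.1 p.2) (hQ : Continuous fun p : ℝ × ℝ => Q p.1 p.2)
    (hf : Continuous fun p : ℝ × ℝ => f p.1 p.2)
    (dP : ∀ x y, HasDerivAt (fun x => P x y) (f x y) x)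
    (dQ : ∀ x y, HasDerivAt (fun y => Q x y) (-f x y) y) (h : ApxG P Q α β) (w : ℂ) :
    Tendsto (fun N => gaugeZC N b (α N) (β N) w / gaugeZC N b (α N) (β N) 0) atTop
      (𝓝 (Complex.exp (-(w ^ 2 * (helicity b / 2 *
        ∫ x in (0 : ℝ)..1, ∫ y in (0 : ℝ)..1, (P x y ^ 2 + Q x y ^ 2) : ℝ))))) := by
  have hF : DF (mkF P Q) := ⟨fun d => by cases d <;> simpa [mkF], f, hf, dP, dQ⟩
  have h1 := (cplx_tw hb hF (apx_of_apxG hP hQ h)).1 w
  have e1 : w ^ 2 * (helicity b * en (mkF P Q) : ℝ) / 2 = w ^ 2 * (helicity b / 2 *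
      ∫ x in (0 : ℝ)..1, ∫ y in (0 : ℝ)..1, (P x y ^ 2 + Q x y ^ 2) : ℝ) := by
    unfold en mkF
    simp only [Bool.false_eq_true, if_false, if_true]
    push_cast
    ring
  rw [e1] at h1
  refine h1.congr fun N => ?_
  rw [Zl_gauge, ← Zl_zero muInf (fun _ : KR (blk 0 N) => b / 2) (chiR (blk 0 N))
    (tG (α N) (β N) N), Zl_gauge]

end Vale.Agent.P159.H950
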