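import Vale.Agent.P159.Bdl.B1
import Vale.Agent.P159.Bdl.B2

/-!
The parallelogram inequality for imaginary twists and its consequence: the logarithm of the
twisted partition function dominates half the quadratic form of the second order term.
-/

set_option linter.all false
set_option autoImplicit false

open MeasureTheory Filter Topology
open scoped BigOperators

namespace Vale.Agent.P159.H950

open Vale.Agent.P159 Vale.Agent.P159.UJ

section Par

variable {G : Type*} [AddCommGroup G] [TopologicalSpace G] [IsTopologicalAddGroup G]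
  [CompactSpace G] [SecondCountableTopology G] [MeasurableSpace G] [BorelSpace G]
  (μ : Measure G) [μ.IsAddHaarMeasure] [IsProbabilityMeasure μ]
  {κ : Type*} [Fintype κ] (J : κ → ℝ) (χ : κ → Chr G)

/-- sign of a word -/
noncomputable def wsg {n : ℕ} (w : Fin n → κ ⊕ κ) : ℂ :=
  ∏ i, (Sum.elim (fun _ => (1 : ℂ)) (fun _ => -1) (w i))

omit [Fintype κ] in
theorem wsg_sq {n : ℕ} (w : Fin n → κ ⊕ κ) : wsg w * wsg w = 1 := by
  unfold wsg
  rw [← Finset.prod_mul_distrib]
  refine Finset.prod_eq_one fun i _ => ?_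
  rcases w i with e | e <;> simp

theorem MM_neg' {n : ℕ} (w : Fin n → κ ⊕ κ) (p : κ → ℂ) :
    MM μ χ w (-p) = wsg w * MM μ χ w p := by
  unfold MM wsg
  rw [← integral_neg_eq_self, ← integral_const_mul]
  congr 1
  ext x
  simp_rw [tr_neg]
  rw [Finset.prod_mul_distrib]

theorem MM_sq_imag {n : ℕ} (w : Fin n → κ ⊕ κ) (p : κ → ℂ)
    (hp : ∀ e, (starRingEnd ℂ) (p e) = -p e) :
    wsg w * (MM μ χ w p * MM μ χ w p) = ((‖MM μ χ w p‖ ^ 2 : ℝ) : ℂ) := by
  have h1 : (starRingEnd ℂ) (MM μ χ w p) = wsg w * MM μ χ w p := by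
    rw [MM_conj, ← MM_neg']
    congr 1
    ext e
    exact hp e
  have h2 := Complex.mul_conj' (MM μ χ w p)
  push_cast
  rw [← h2, h1]
  ring

theorem LL_le_imag (hJ : ∀ e, 0 ≤ J e) (p r : κ → ℂ) (hp : ∀ e, (starRingEnd ℂ) (p e) = -p e)
    (hr : ∀ e, (starRingEnd ℂ) (r e) = -r e) :
    ‖LL μ J χ p p r (-r)‖ ≤ ‖LL μ J χ p p r r‖ := by
  have h1 := LL_hasSum μ J χ p p r (-r)
  have h2 := Complex.hasSum_re (LL_hasSum μ J χ p p r r)
  refine (HasSum.norm_le_of_bounded h1 h2 fun n => ?_).trans (Complex.re_le_norm _)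
  have hl : ∀ w : Fin n → κ ⊕ κ, (∏ i, (Sum.elim (fun e => 4 * (J e : ℂ))
      (fun e => 4 * (J e : ℂ)) (w i))) = ((∏ i, (Sum.elim (fun e => 4 * J e)
      (fun e => 4 * J e) (w i)) : ℝ) : ℂ) := by
    intro w
    push_cast
    refine Finset.prod_congr rfl fun i _ => ?_
    rcases w i with e | e <;> simp
  have hl0 : ∀ w : Fin n → κ ⊕ κ, 0 ≤ (∏ i, (Sum.elim (fun e => 4 * J e)
      (fun e => 4 * J e) (w i)) : ℝ) := by
    intro w
    refine Finset.prod_nonneg fun i _ => ?_
    rcases w i with e | e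
    · simpa using hJ e
    · simpa using hJ e
  have hterm : ∀ w : Fin n → κ ⊕ κ, (∏ i, (Sum.elim (fun e => 4 * (J e : ℂ))
      (fun e => 4 * (J e : ℂ)) (w i))) * ((MM μ χ w p * MM μ χ w r) *
      (MM μ χ w p * MM μ χ w r)) = (((∏ i, (Sum.elim (fun e => 4 * J e)
      (fun e => 4 * J e) (w i))) * (‖MM μ χ w p‖ ^ 2 * ‖MM μ χ w r‖ ^ 2) : ℝ) : ℂ) := by
    intro w
    rw [hl, Complex.ofReal_mul, Complex.ofReal_mul, ← MM_sq_imag μ χ w p hp,
      ← MM_sq_imag μ χ w r hr]
    have h := wsg_sq w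
    linear_combination (-(((∏ i, (Sum.elim (fun e => 4 * J e)
      (fun e => 4 * J e) (w i)) : ℝ) : ℂ) * (MM μ χ w p * MM μ χ w p *
      (MM μ χ w r * MM μ χ w r)))) * h
  unfold cof
  simp_rw [hterm]
  rw [norm_div, Complex.norm_natCast]
  rw [← Complex.ofReal_sum, ← Complex.ofReal_natCast, ← Complex.ofReal_div, Complex.ofReal_re]
  gcongr
  refine (norm_sum_le _ _).trans (Finset.sum_le_sum fun w _ => ?_)
  rw [hl, norm_mul, Complex.norm_real, Real.norm_of_nonneg (hl0 w)]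
  refine mul_le_mul_of_nonneg_left ?_ (hl0 w)
  have h3 : ‖MM μ χ w (-r)‖ = ‖MM μ χ w r‖ := by
    rcases MM_neg μ χ w r with h | h
    · rw [h]
    · rw [h, norm_neg]
  rw [norm_mul, norm_mul, norm_mul, h3]
  apply le_of_eq
  ring

/-- ratio of partition functions at an imaginary twist -/
theorem rho_pos' (y : κ → ℝ) : 0 ≤ rho μ J χ y := div_nonneg (norm_nonneg _) (norm_nonneg _)

theorem rho_zero : rho μ J χ 0 = 1 := by
  unfold rho
  have h : (fun e : κ => (((0 : κ → ℝ) e : ℝ) : ℂ) * Complex.I) = 0 := by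
    ext e; simp
  rw [h]
  exact div_self (ZZ_zero_pos μ J χ).ne'

variable (h2 : ∀ g : G, ∃ h : G, h + h = g)

include h2 in
/-- the parallelogram inequality for imaginary twists -/
theorem par_imag (hJ : ∀ e, 0 ≤ J e) (y v : κ → ℝ) :
    rho μ J χ y ^ 2 * rho μ J χ v ^ 2 ≤ rho μ J χ (y + v) * rho μ J χ (y - v) := by
  set p : κ → ℂ := fun e => ((y e / 2 : ℝ) : ℂ) * Complex.I with hp
  set r : κ → ℂ := fun e => ((v e / 2 : ℝ) : ℂ) * Complex.I with hr
  have key := LL_le_imag μ J χ hJ p r (fun e => by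
    simp only [hp, map_mul, Complex.conj_ofReal, Complex.conj_I]; ring) (fun e => by
    simp only [hr, map_mul, Complex.conj_ofReal, Complex.conj_I]; ring)
  rw [← KK_mul_KK μ J χ h2, ← KK_mul_KK μ J χ h2] at key
  have e1 : p + p = fun e => (y e : ℂ) * Complex.I := by
    ext e; simp only [hp, Pi.add_apply]; push_cast; ring
  have e2 : p - p = 0 := sub_self _
  have e3 : r + r = fun e => (v e : ℂ) * Complex.I := by
    ext e; simp only [hr, Pi.add_apply]; push_cast; ring
  have e4 : r - r = 0 := sub_self _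
  have e5 : r + -r = 0 := add_neg_cancel _
  have e6 : r - -r = fun e => (v e : ℂ) * Complex.I := by
    rw [sub_neg_eq_add, e3]
  rw [e1, e2, e3, e4, e5, e6] at key
  rw [← ZZ_mul_ZZ μ J χ h2, ← ZZ_mul_ZZ μ J χ h2, ← ZZ_mul_ZZ μ J χ h2,
    ← ZZ_mul_ZZ μ J χ h2] at key
  have c1 : ((fun e => (y e : ℂ) * Complex.I) + fun e => (v e : ℂ) * Complex.I) =
      fun e => (((y + v) e : ℝ) : ℂ) * Complex.I := by
    ext e; simp only [Pi.add_apply]; push_cast; ring
  have c2 : ((fun e => (y e : ℂ) * Complex.I) - fun e => (v e : ℂ) * Complex.I) =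
      fun e => (((y - v) e : ℝ) : ℂ) * Complex.I := by
    ext e; simp only [Pi.sub_apply]; push_cast; ring
  have c3 : ‖ZZ μ J χ (0 - fun e => (v e : ℂ) * Complex.I)‖
      = ‖ZZ μ J χ (fun e => (v e : ℂ) * Complex.I)‖ := by
    rw [← Complex.norm_conj, ZZ_conj]
    congr 2
    ext e
    simp only [Pi.sub_apply, Pi.zero_apply, zero_sub, map_neg, map_mul, Complex.conj_ofReal,
      Complex.conj_I, mul_neg, neg_neg]
  simp only [add_zero, sub_zero, zero_add, c1, c2, norm_mul, c3] at key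
  unfold rho
  have hz := ZZ_zero_pos μ J χ
  rw [div_pow, div_pow, div_mul_div_comm, div_mul_div_comm,
    div_le_div_iff₀ (by positivity) (by positivity)]
  have hz2 : 0 ≤ ‖ZZ μ J χ 0‖ ^ 2 := by positivity
  nlinarith only [mul_le_mul_of_nonneg_right key hz2]

end Par

end Vale.Agent.P159.H950
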