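import Vale.Agent.P159.H950.A1

/-!
The ratio of partition functions at an imaginary twist is at least the Gaussian value.
-/

set_option linter.all false
set_option autoImplicit false

open MeasureTheory Filter Topology
open scoped BigOperators

namespace Vale.Agent.P159.H950

open Vale.Agent.P159 Vale.Agent.P159.UJ

/-- constant of the fourth order error -/
noncomputable def K5 (S : ℝ) : ℝ := S + 6 * S ^ 2 + 4 * S ^ 3 + 16 * S ^ 4

theorem K5_nonneg {S : ℝ} (hS : 0 ≤ S) : 0 ≤ K5 S := by unfold K5; positivity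

theorem pointwise_lower {a β a2 β1 S Y : ℝ} (hS : 0 ≤ S) (hY0 : 0 ≤ Y) (hY1 : Y ≤ 1)
    (hSY : 2 * S * Y ≤ 1) (ha : |a| ≤ 2 * S * Y ^ 2) (ha2 : |a - a2| ≤ S * Y ^ 4)
    (hb1 : |β1| ≤ S * Y) (hb : |β - β1| ≤ S * Y ^ 3) :
    1 + a2 - β1 ^ 2 / 2 - K5 S * Y ^ 4 ≤ Real.exp a * Real.cos β := by
  have hY2 : Y ^ 2 ≤ Y := by nlinarith only [hY0, hY1]
  have hY3 : Y ^ 3 ≤ Y := by nlinarith only [hY2]
  have hbb : |β| ≤ 2 * S * Y := by
    calc |β| = |β1 + (β - β1)| := by ring_nf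
      _ ≤ |β1| + |β - β1| := abs_add_le _ _
      _ ≤ S * Y + S * Y ^ 3 := add_le_add hb1 hb
      _ ≤ 2 * S * Y := by nlinarith only [hS, hY3]
  have hb_one : |β| ≤ 1 := hbb.trans hSY
  have ha_one : |a| ≤ 1 := by
    refine ha.trans (le_trans ?_ hSY)
    nlinarith only [hS, hY2]
  have hcos0 : 0 ≤ Real.cos β := (Real.cos_pos_of_le_one hb_one).le
  have h3 := Real.one_sub_sq_div_two_le_cos (x := β)
  have h1 : 1 + a ≤ Real.exp a := by linarith only [Real.add_one_le_exp a]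
  have h0 : 0 ≤ 1 + a := by linarith only [(abs_le.1 ha_one).1]
  have hβ2 : β ^ 2 ≤ 4 * S ^ 2 * Y ^ 2 := by
    have := pow_le_pow_left₀ (abs_nonneg _) hbb 2
    rw [sq_abs] at this
    nlinarith only [this]
  have s1 : (1 + a) * (1 - β ^ 2 / 2) ≤ Real.exp a * Real.cos β :=
    (mul_le_mul_of_nonneg_left h3 h0).trans (mul_le_mul_of_nonneg_right h1 hcos0)
  have t2 : a * β ^ 2 ≤ 8 * S ^ 3 * Y ^ 4 := by
    calc a * β ^ 2 ≤ |a| * β ^ 2 := mul_le_mul_of_nonneg_right (le_abs_self a) (sq_nonneg _)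
      _ ≤ (2 * S * Y ^ 2) * (4 * S ^ 2 * Y ^ 2) :=
          mul_le_mul ha hβ2 (sq_nonneg _) (by positivity)
      _ = 8 * S ^ 3 * Y ^ 4 := by ring
  have h5 : |β ^ 2 - β1 ^ 2| ≤ 3 * S ^ 2 * Y ^ 4 := by
    rw [show β ^ 2 - β1 ^ 2 = (β - β1) * (β + β1) by ring, abs_mul]
    calc |β - β1| * |β + β1| ≤ (S * Y ^ 3) * (2 * S * Y + S * Y) := by
          gcongr
          exact (abs_add_le _ _).trans (add_le_add hbb hb1)
      _ = 3 * S ^ 2 * Y ^ 4 := by ring
  have h6 := (abs_le.1 h5).2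
  have t3 := (abs_le.1 ha2).1
  have h7 : 0 ≤ S ^ 2 * Y ^ 4 := by positivity
  have h8 : 0 ≤ S ^ 4 * Y ^ 4 := by positivity
  have h9 : 0 ≤ S ^ 3 * Y ^ 4 := by positivity
  unfold K5
  nlinarith only [s1, t2, h6, t3, h7, h8, h9]

section Low

variable {G : Type*} [AddCommGroup G] [TopologicalSpace G] [IsTopologicalAddGroup G]
  [CompactSpace G] [SecondCountableTopology G] [MeasurableSpace G] [BorelSpace G]
  (μ : Measure G) [μ.IsAddHaarMeasure] [IsProbabilityMeasure μ]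
  {κ : Type*} [Fintype κ] (J : κ → ℝ) (χ : κ → Chr G)

theorem rho_ge_gibbs (y : κ → ℝ) :
    gibbs μ J χ (fun x => Real.exp (∑ e, J e * (Real.cosh (y e) - 1) * (χ e).c x) *
      Real.cos (∑ e, J e * Real.sinh (y e) * (χ e).s x)) ≤ rho μ J χ y := by
  unfold rho gibbs
  have h := ZZ_real μ J χ (fun _ => 0)
  have h1 : (fun e : κ => (((fun _ => 0 : κ → ℝ) e : ℝ) : ℂ)) = 0 := by ext e; simp
  rw [h1] at h
  have h2 : ‖ZZ μ J χ 0‖ = ∫ x, Real.exp (∑ e, J e * (χ e).c x) ∂μ := by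
    rw [h]
    simp only [Real.cos_zero, mul_one, Real.sin_zero, mul_zero, sub_zero]
  rw [h2, ZZ_imag, Complex.norm_real]
  exact div_le_div_of_nonneg_right (Real.le_norm_self _) (weight_pos μ J χ).le

/-- second order expansion, lower bound -/
theorem rho_second_lower (hJ : ∀ e, 0 ≤ J e) {S : ℝ} (hS : ∑ e, J e = S) (y : κ → ℝ) {Y : ℝ}
    (hY1 : Y ≤ 1) (hSY : 2 * S * Y ≤ 1) (hy : ∀ e, |y e| ≤ Y) (hY0 : 0 ≤ Y) :
    1 + Qform μ J χ y / 2 - K5 S * Y ^ 4 ≤ rho μ J χ y := by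
  have hS0 : 0 ≤ S := hS ▸ Finset.sum_nonneg fun e _ => hJ e
  have hpt : ∀ x, 
      1 + (∑ e, J e * y e ^ 2 * (χ e).c x) / 2 - (∑ e, J e * y e * (χ e).s x) ^ 2 / 2 -
      K5 S * Y ^ 4 ≤ Real.exp (∑ e, J e * (Real.cosh (y e) - 1) * (χ e).c x) *
      Real.cos (∑ e, J e * Real.sinh (y e) * (χ e).s x) := by
    intro x
    have hc1 : ∀ e, |y e| ≤ 1 := fun e => (hy e).trans hY1
    apply pointwise_lower hS0 hY0 hY1 hSY
    · refine (abs_sumc_le χ _ x).trans ?_
      rw [← hS, Finset.mul_sum, Finset.sum_mul]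
      refine Finset.sum_le_sum fun e _ => ?_
      have h1 := cosh_sub_bound (hc1 e)
      have h2 : y e ^ 2 ≤ Y ^ 2 := by
        rw [← sq_abs]; exact pow_le_pow_left₀ (abs_nonneg _) (hy e) 2
      have h3 : |y e| ^ 4 ≤ Y ^ 2 := by
        have : |y e| ^ 4 = |y e| ^ 2 * |y e| ^ 2 := by ring
        rw [this, sq_abs]
        have h4 : y e ^ 2 ≤ 1 := by
          rw [← sq_abs]; exact pow_le_one₀ (abs_nonneg _) (hc1 e)
        nlinarith only [h2, h4]
      have h4 : |Real.cosh (y e) - 1| ≤ 2 * Y ^ 2 := by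
        rw [abs_of_nonneg (by linarith [Real.one_le_cosh (y e)])]
        have := (abs_le.1 h1).2
        nlinarith only [h2, h3, this]
      rw [abs_mul, abs_of_nonneg (hJ e)]
      nlinarith only [h4, hJ e]
    · rw [Finset.sum_div, ← Finset.sum_sub_distrib]
      have h0 : ∀ e, J e * (Real.cosh (y e) - 1) * (χ e).c x - J e * y e ^ 2 * (χ e).c x / 2
          = (J e * (Real.cosh (y e) - 1 - y e ^ 2 / 2)) * (χ e).c x := fun e => by ring
      simp_rw [h0]
      refine (abs_sumc_le χ _ x).trans ?_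
      rw [← hS, Finset.sum_mul]
      refine Finset.sum_le_sum fun e _ => ?_
      rw [abs_mul, abs_of_nonneg (hJ e)]
      refine mul_le_mul_of_nonneg_left ?_ (hJ e)
      exact (cosh_sub_bound (hc1 e)).trans (pow_le_pow_left₀ (abs_nonneg _) (hy e) 4)
    · refine (abs_sums_le χ _ x).trans ?_
      rw [← hS, Finset.sum_mul]
      refine Finset.sum_le_sum fun e _ => ?_
      rw [abs_mul, abs_of_nonneg (hJ e)]
      exact mul_le_mul_of_nonneg_left (hy e) (hJ e)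
    · rw [← Finset.sum_sub_distrib]
      have h0 : ∀ e, J e * Real.sinh (y e) * (χ e).s x - J e * y e * (χ e).s x
          = (J e * (Real.sinh (y e) - y e)) * (χ e).s x := fun e => by ring
      simp_rw [h0]
      refine (abs_sums_le χ _ x).trans ?_
      rw [← hS, Finset.sum_mul]
      refine Finset.sum_le_sum fun e _ => ?_
      rw [abs_mul, abs_of_nonneg (hJ e)]
      refine mul_le_mul_of_nonneg_left ?_ (hJ e)
      exact (sinh_sub_bound (hc1 e)).trans (pow_le_pow_left₀ (abs_nonneg _) (hy e) 3)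
  refine le_trans ?_ (rho_ge_gibbs μ J χ y)
  have hcc : Continuous (fun x => ∑ e, J e * y e ^ 2 * (χ e).c x) := cont_sumc χ _
  have hss : Continuous (fun x => ∑ e, J e * y e * (χ e).s x) := cont_sums χ _
  have hss2 : Continuous (fun x => (∑ e, J e * y e * (χ e).s x) ^ 2) := hss.pow 2
  have h1 : gibbs μ J χ (fun x => (1 - K5 S * Y ^ 4) +
        (1 / 2) * (∑ e, J e * y e ^ 2 * (χ e).c x) +
          (-1 / 2) * (∑ e, J e * y e * (χ e).s x) ^ 2) ≤
      gibbs μ J χ (fun x => Real.exp (∑ e, J e * (Real.cosh (y e) - 1) * (χ e).c x) *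
      Real.cos (∑ e, J e * Real.sinh (y e) * (χ e).s x)) := by
    apply gibbs_mono
    · exact (continuous_const.add (continuous_const.mul hcc)).add
        (continuous_const.mul (hss.pow 2))
    · exact (Real.continuous_exp.comp (cont_sumc χ _)).mul
        (Real.continuous_cos.comp (cont_sums χ _))
    · intro x
      have := hpt x
      linarith
  refine le_trans (le_of_eq ?_) h1
  rw [gibbs_lin μ J χ _ _ _ hcc hss2, Qform]
  ring

theorem Qform_smul (c : ℝ) (y : κ → ℝ) : Qform μ J χ (c • y) = c ^ 2 * Qform μ J χ y := by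
  rw [← QQ_zero, ← QQ_zero, QQ_smul2]

theorem Qform_nonneg (h2 : ∀ g : G, ∃ h : G, h + h = g) (hJ : ∀ e, 0 ≤ J e) (y : κ → ℝ) :
    0 ≤ Qform μ J χ y := by
  have h1 := lowerZ μ J χ h2 hJ y
  have h3 := Zr_le μ J χ h2 hJ y
  have h4 : Zr μ J χ y / Zr μ J χ 0 ≤ 1 := (div_le_one (Zr_pos μ J χ 0)).2 h3
  have h5 := h1.trans h4
  rw [Real.exp_le_one_iff, QQ_zero] at h5
  linarith

theorem abs_le_sum (y : κ → ℝ) (e : κ) : |y e| ≤ ∑ e, |y e| :=
  Finset.single_le_sum (f := fun e => |y e|) (fun e _ => abs_nonneg (y e)) (Finset.mem_univ e)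

/-- the Gaussian lower bound at imaginary twists -/
theorem rho_ge (h2 : ∀ g : G, ∃ h : G, h + h = g) (hJ : ∀ e, 0 ≤ J e) (y : κ → ℝ) :
    Real.exp (Qform μ J χ y / 2) ≤ rho μ J χ y := by
  obtain ⟨S, hS⟩ : ∃ S, S = ∑ e, J e := ⟨_, rfl⟩
  have hS0 : 0 ≤ S := by rw [hS]; exact Finset.sum_nonneg fun e _ => hJ e
  obtain ⟨A, hA⟩ : ∃ A, A = 1 + ∑ e, |y e| := ⟨_, rfl⟩
  have hA1 : 1 ≤ A := by
    rw [hA]; linarith [Finset.sum_nonneg fun e (_ : e ∈ Finset.univ) => abs_nonneg (y e)]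
  have haA : ∀ e, |y e| ≤ A := by
    intro e
    have := abs_le_sum y e
    linarith only [hA, this]
  obtain ⟨q, hq⟩ : ∃ q, q = Qform μ J χ y := ⟨_, rfl⟩
  have hq0 : 0 ≤ q := by rw [hq]; exact Qform_nonneg μ J χ h2 hJ y
  obtain ⟨k, hk⟩ : ∃ k, k = K5 S := ⟨_, rfl⟩
  have hk0 : 0 ≤ k := by rw [hk]; exact K5_nonneg hS0
  set r : (κ → ℝ) → ℝ := fun s => rho μ J χ s with hr
  have hr0 : ∀ s, 0 ≤ r s := fun s => rho_pos' μ J χ s
  have hstep : ∀ s : κ → ℝ, r s ^ 4 ≤ r (s + s) := by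
    intro s
    have h := par_imag μ J χ h2 hJ s s
    rw [sub_self, rho_zero, mul_one] at h
    calc r s ^ 4 = r s ^ 2 * r s ^ 2 := by ring
      _ ≤ r (s + s) := h
  have hiter : ∀ n : ℕ, ∀ s : κ → ℝ, r s ^ (4 ^ n) ≤ r ((2 : ℝ) ^ n • s) := by
    intro n
    induction n with
    | zero => intro s; simp
    | succ n ih =>
      intro s
      have h1 := hstep ((2 : ℝ) ^ n • s)
      have h3 : (2 : ℝ) ^ n • s + (2 : ℝ) ^ n • s = (2 : ℝ) ^ (n + 1) • s := by
        rw [← add_smul]; congr 1; ring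
      rw [h3] at h1
      refine le_trans ?_ h1
      rw [pow_succ, pow_mul]
      exact pow_le_pow_left₀ (pow_nonneg (hr0 s) _) (ih s) 4
  have hexp : ∀ u : ℝ, 0 < u → u * A ≤ 1 → 2 * S * (u * A) ≤ 1 → u ^ 2 * (k * A ^ 4) ≤ 1 / 2 →
      Real.exp (u ^ 2 * q / 2 - (2 * q ^ 2 + 4 * k * A ^ 4 + 2 * q) * u ^ 3) ≤ r (u • y) := by
    intro u hu h3 h4 h5
    have hA0 : 0 < A := by linarith only [hA1]
    have hu1 : u ≤ 1 := by nlinarith only [hA1, h3]
    have h := rho_second_lower μ J χ hJ hS.symm (u • y) (Y := u * A) h3 h4 (fun e => by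
      rw [Pi.smul_apply, smul_eq_mul, abs_mul, abs_of_pos hu]
      exact mul_le_mul_of_nonneg_left (haA e) hu.le) (by positivity)
    rw [Qform_smul, ← hq, ← hk] at h
    refine le_trans ?_ h
    have e1 : k * (u * A) ^ 4 ≤ (k * A ^ 4) * u ^ 3 := by
      have : k * (u * A) ^ 4 = (k * A ^ 4 * u ^ 3) * u := by ring
      rw [this]
      exact mul_le_of_le_one_right (by positivity) hu1
    by_cases hsm : u ^ 2 * q / 2 - (2 * q ^ 2 + 4 * k * A ^ 4 + 2 * q) * u ^ 3 ≤ 0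
    · -- then the exponential is at most 1/(1 - x)
      set x := u ^ 2 * q / 2 - (2 * q ^ 2 + 4 * k * A ^ 4 + 2 * q) * u ^ 3 with hx
      have hkA : 0 ≤ k * A ^ 4 := by positivity
      have e2 : Real.exp x ≤ 1 / (1 - x) := by
        have h6 := Real.add_one_le_exp (-x)
        rw [Real.exp_neg] at h6
        have h7 : 0 < 1 - x := by linarith
        rw [le_div_iff₀ h7]
        have h8 : (-x + 1) * Real.exp x ≤ (Real.exp x)⁻¹ * Real.exp x :=
          mul_le_mul_of_nonneg_right h6 (Real.exp_pos x).le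
        rw [inv_mul_cancel₀ (Real.exp_pos x).ne'] at h8
        linarith
      refine e2.trans ?_
      rw [div_le_iff₀ (by linarith)]
      -- 1 ≤ (1 + u²q/2 - k(uA)^4) (1 - x)
      have h10 : 0 ≤ k * (u * A) ^ 4 := by positivity
      have h11 : k * (u * A) ^ 4 ≤ 1 / 2 := by
        have : k * (u * A) ^ 4 = (u ^ 2 * (k * A ^ 4)) * u ^ 2 := by ring
        rw [this]
        calc (u ^ 2 * (k * A ^ 4)) * u ^ 2 ≤ (1 / 2) * 1 :=
              mul_le_mul h5 (by nlinarith only [hu, hu1]) (by positivity) (by norm_num)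
          _ = 1 / 2 := by ring
      have h12 : 0 ≤ u ^ 2 * q / 2 := by positivity
      have h13 : -x = (2 * q ^ 2 + 4 * k * A ^ 4 + 2 * q) * u ^ 3 - u ^ 2 * q / 2 := by
        rw [hx]; ring
      by_cases hc : k * (u * A) ^ 4 ≤ u ^ 2 * q / 2
      · have : 0 ≤ -x := by linarith
        nlinarith only [this, hc]
      · push Not at hc
        have h14 : 0 ≤ -x := by linarith
        have h15 : 4 * (k * A ^ 4) * u ^ 3 ≤ (2 * q ^ 2 + 4 * k * A ^ 4 + 2 * q) * u ^ 3 := by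
          apply mul_le_mul_of_nonneg_right _ (by positivity)
          nlinarith only [hq0, sq_nonneg q]
        have h16 : -x ≥ 4 * (k * (u * A) ^ 4) - u ^ 2 * q / 2 := by
          rw [h13]; linarith
        nlinarith only [h16, h14, hc, h10, h11, h12]
    · push Not at hsm
      set x := u ^ 2 * q / 2 - (2 * q ^ 2 + 4 * k * A ^ 4 + 2 * q) * u ^ 3 with hx
      have hkA : 0 ≤ k * A ^ 4 := by positivity
      have hxq : x ≤ u ^ 2 * q / 2 := by
        rw [hx]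
        have : 0 ≤ (2 * q ^ 2 + 4 * k * A ^ 4 + 2 * q) * u ^ 3 := by positivity
        linarith
      -- 4 q u <= 1 since x > 0
      have hqu : 4 * q * u ≤ 1 := by
        by_contra hcon
        push Not at hcon
        have : 0 < u ^ 2 := by positivity
        have hqpos : 0 < q := by
          by_contra h0
          push Not at h0
          have : q = 0 := le_antisymm h0 hq0
          rw [this] at hcon
          linarith
        have h17 : (2 * q ^ 2) * u ^ 3 ≤ (2 * q ^ 2 + 4 * k * A ^ 4 + 2 * q) * u ^ 3 := by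
          apply mul_le_mul_of_nonneg_right _ (by positivity)
          nlinarith only [hq0, hkA]
        have h18 : u ^ 2 * q / 2 < (2 * q ^ 2) * u ^ 3 := by
          have : (2 * q ^ 2) * u ^ 3 = (u ^ 2 * q / 2) * (4 * q * u) := by ring
          rw [this]
          have h19 : 0 < u ^ 2 * q / 2 := by positivity
          nlinarith only [h19, hcon]
        linarith
      have hx1 : |x| ≤ 1 := by
        rw [abs_of_pos hsm]
        nlinarith only [hxq, hqu, hu, hu1, hq0]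
      have h20 := Real.abs_exp_sub_one_sub_id_le hx1
      have h21 := (abs_le.1 h20).2
      have h22 : x ^ 2 ≤ (u ^ 2 * q / 2) ^ 2 := pow_le_pow_left₀ hsm.le hxq 2
      have h23 : (u ^ 2 * q / 2) ^ 2 ≤ (q ^ 2) * u ^ 3 := by
        have : (u ^ 2 * q / 2) ^ 2 = (q ^ 2 * u ^ 3) * (u / 4) := by ring
        rw [this]
        exact mul_le_of_le_one_right (by positivity) (by linarith)
      have h24 : 0 ≤ q ^ 2 * u ^ 3 := by positivity
      have h25 : 0 ≤ q * u ^ 3 := by positivity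
      have h26 : 0 ≤ (k * A ^ 4) * u ^ 3 := by positivity
      have hx' : x = u ^ 2 * q / 2 - (2 * q ^ 2 + 4 * k * A ^ 4 + 2 * q) * u ^ 3 := hx
      nlinarith only [h21, h22, h23, h24, h25, h26, e1, hx']
  have hr1 : 0 < r y := by
    obtain ⟨n, hn⟩ : ∃ n : ℕ, (2 : ℝ)⁻¹ ^ n * A ≤ 1 ∧ 2 * S * ((2 : ℝ)⁻¹ ^ n * A) ≤ 1 ∧
        ((2 : ℝ)⁻¹ ^ n) ^ 2 * (k * A ^ 4) ≤ 1 / 2 := by
      have htend : Tendsto (fun n : ℕ => (2 : ℝ)⁻¹ ^ n) atTop (𝓝 0) :=
        tendsto_pow_atTop_nhds_zero_of_lt_one (by norm_num) (by norm_num)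
      have c1 := (htend.mul_const A).eventually (ge_mem_nhds (by norm_num : (0:ℝ) * A < 1))
      have c2 := ((htend.mul_const A).const_mul (2 * S)).eventually
        (ge_mem_nhds (by norm_num : 2 * S * ((0:ℝ) * A) < 1))
      have c3 := ((htend.pow 2).mul_const (k * A ^ 4)).eventually
        (ge_mem_nhds (by norm_num : (0:ℝ) ^ 2 * (k * A ^ 4) < 1 / 2))
      exact (c1.and (c2.and c3)).exists
    have h6 := hexp ((2 : ℝ)⁻¹ ^ n) (by positivity) hn.1 hn.2.1 hn.2.2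
    have h7 := hiter n ((2 : ℝ)⁻¹ ^ n • y)
    have h8 : (2 : ℝ) ^ n • (2 : ℝ)⁻¹ ^ n • y = y := by
      rw [smul_smul, ← mul_pow]
      norm_num
    rw [h8] at h7
    exact lt_of_lt_of_le (pow_pos (lt_of_lt_of_le (Real.exp_pos _) h6) _) h7
  have hlog : ∀ n : ℕ, (2 : ℝ)⁻¹ ^ n * A ≤ 1 → 2 * S * ((2 : ℝ)⁻¹ ^ n * A) ≤ 1 →
      ((2 : ℝ)⁻¹ ^ n) ^ 2 * (k * A ^ 4) ≤ 1 / 2 →
      q / 2 - (2 * q ^ 2 + 4 * k * A ^ 4 + 2 * q) * (2 : ℝ)⁻¹ ^ n ≤ Real.log (r y) := by
    intro n h3 h4 h5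
    set u : ℝ := (2 : ℝ)⁻¹ ^ n with hu
    have hu0 : 0 < u := by positivity
    have h6 := hexp u hu0 h3 h4 h5
    have h7 := hiter n (u • y)
    have h8 : (2 : ℝ) ^ n • u • y = y := by
      rw [smul_smul, hu, ← mul_pow]
      norm_num
    rw [h8] at h7
    have h9 : Real.exp (((4 ^ n : ℕ) : ℝ) *
        (u ^ 2 * q / 2 - (2 * q ^ 2 + 4 * k * A ^ 4 + 2 * q) * u ^ 3)) ≤ r y := by
      rw [Real.exp_nat_mul]
      exact (pow_le_pow_left₀ (Real.exp_pos _).le h6 _).trans h7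
    rw [Real.le_log_iff_exp_le hr1]
    refine le_trans (le_of_eq ?_) h9
    congr 1
    have h10 : ((4 ^ n : ℕ) : ℝ) * u ^ 2 = 1 := by
      push_cast
      rw [hu, ← pow_mul, mul_comm n 2, pow_mul, ← mul_pow]
      norm_num
    linear_combination (-(q / 2) + (2 * q ^ 2 + 4 * k * A ^ 4 + 2 * q) * u) * h10
  have htend : Tendsto (fun n : ℕ => (2 : ℝ)⁻¹ ^ n) atTop (𝓝 0) :=
    tendsto_pow_atTop_nhds_zero_of_lt_one (by norm_num) (by norm_num)
  have hlim : Tendsto (fun n : ℕ => q / 2 - (2 * q ^ 2 + 4 * k * A ^ 4 + 2 * q) * (2 : ℝ)⁻¹ ^ n)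
      atTop (𝓝 (q / 2 - (2 * q ^ 2 + 4 * k * A ^ 4 + 2 * q) * 0)) :=
    tendsto_const_nhds.sub (tendsto_const_nhds.mul htend)
  have hfin : q / 2 - (2 * q ^ 2 + 4 * k * A ^ 4 + 2 * q) * 0 ≤ Real.log (r y) := by
    refine le_of_tendsto hlim ?_
    have c1 := (htend.mul_const A).eventually (ge_mem_nhds (by norm_num : (0:ℝ) * A < 1))
    have c2 := ((htend.mul_const A).const_mul (2 * S)).eventually
      (ge_mem_nhds (by norm_num : 2 * S * ((0:ℝ) * A) < 1))
    have c3 := ((htend.pow 2).mul_const (k * A ^ 4)).eventually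
      (ge_mem_nhds (by norm_num : (0:ℝ) ^ 2 * (k * A ^ 4) < 1 / 2))
    filter_upwards [c1, c2, c3] with n h3 h4 h5
    exact hlog n h3 h4 h5
  rw [mul_zero, sub_zero, Real.le_log_iff_exp_le hr1] at hfin
  rw [← hq]
  exact hfin

end Low

end Vale.Agent.P159.H950
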