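import Vale.Agent.P159.H950.A2

/-!
Algebra of the quadratic form, the tiling bound, transfer, and reflection positivity.
-/

set_option linter.all false
set_option autoImplicit false

open MeasureTheory Filter Topology
open scoped BigOperators

namespace Vale.Agent.P159.H950

open Vale.Agent.P159 Vale.Agent.P159.UJ

section Alg

variable {G : Type*} [AddCommGroup G] [TopologicalSpace G] [IsTopologicalAddGroup G]
  [CompactSpace G] [SecondCountableTopology G] [MeasurableSpace G] [BorelSpace G]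
  (μ : Measure G) [μ.IsAddHaarMeasure] [IsProbabilityMeasure μ]
  {κ : Type*} [Fintype κ] (J : κ → ℝ) (χ : κ → Chr G)

theorem Qform_add (y z : κ → ℝ) :
    Qform μ J χ (y + z) = Qform μ J χ y + Qform μ J χ z + 2 * QQ μ J χ 0 y z := by
  rw [← QQ_zero, ← QQ_zero, ← QQ_zero, QQ_add, QQ_symm μ J χ 0 (y + z) y,
    QQ_symm μ J χ 0 (y + z) z, QQ_add, QQ_add, QQ_symm μ J χ 0 z y]
  ring

theorem QQ_neg_right (y z : κ → ℝ) : QQ μ J χ 0 y (-z) = - QQ μ J χ 0 y z := by
  have h := QQ_smul μ J χ 0 y z (-1)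
  rw [neg_one_smul] at h
  rw [h]; ring

theorem Qform_neg (z : κ → ℝ) : Qform μ J χ (-z) = Qform μ J χ z := by
  have h := Qform_smul μ J χ (-1) z
  rw [neg_one_smul] at h
  rw [h]; ring

theorem Qform_par (y z : κ → ℝ) :
    Qform μ J χ (y + z) + Qform μ J χ (y - z) = 2 * Qform μ J χ y + 2 * Qform μ J χ z := by
  rw [sub_eq_add_neg, Qform_add, Qform_add, QQ_neg_right, Qform_neg]
  ring

theorem Qform_le (hJ : ∀ e, 0 ≤ J e) (y : κ → ℝ) : Qform μ J χ y ≤ ∑ e, J e * y e ^ 2 := by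
  unfold Qform
  have h1 : gibbs μ J χ (fun x => ∑ e, J e * y e ^ 2 * (χ e).c x) ≤
      gibbs μ J χ (fun _ => ∑ e, J e * y e ^ 2) := by
    apply gibbs_mono μ J χ (cont_sumc χ _) continuous_const
    intro x
    refine Finset.sum_le_sum fun e _ => ?_
    have := (abs_le.1 ((χ e).abs_c_le x)).2
    have h0 : 0 ≤ J e * y e ^ 2 := mul_nonneg (hJ e) (sq_nonneg _)
    nlinarith only [this, h0]
  rw [gibbs_const] at h1
  have h2 : 0 ≤ gibbs μ J χ (fun x => (∑ e, J e * y e * (χ e).s x) ^ 2) := by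
    have := gibbs_mono μ J χ (f := fun _ => (0 : ℝ))
      (g := fun x => (∑ e, J e * y e * (χ e).s x) ^ 2) continuous_const
      ((cont_sums χ _).pow 2) (fun x => sq_nonneg _)
    rwa [gibbs_const] at this
  linarith

theorem QQ_le_eta (h2 : ∀ g : G, ∃ h : G, h + h = g) (hJ : ∀ e, 0 ≤ J e) (y z : κ → ℝ)
    {η : ℝ} (hη : 0 < η) :
    2 * QQ μ J χ 0 y z ≤ η * Qform μ J χ y + 1 / η * Qform μ J χ z := by
  have h := Qform_nonneg μ J χ h2 hJ (η • y + (-z))
  rw [Qform_add, Qform_smul, Qform_neg, QQ_neg_right, QQ_symm μ J χ 0 (η • y) z, QQ_smul,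
    QQ_symm μ J χ 0 z y] at h
  have h3 : 0 ≤ (1 / η) * (η ^ 2 * Qform μ J χ y + Qform μ J χ z +
      2 * -(η * QQ μ J χ 0 y z)) := mul_nonneg (by positivity) h
  have h4 : (1 / η) * (η ^ 2 * Qform μ J χ y + Qform μ J χ z +
      2 * -(η * QQ μ J χ 0 y z)) = η * Qform μ J χ y + 1 / η * Qform μ J χ z -
      2 * QQ μ J χ 0 y z := by
    field_simp
    ring
  linarith

theorem Qform_add_le (h2 : ∀ g : G, ∃ h : G, h + h = g) (hJ : ∀ e, 0 ≤ J e) (y z : κ → ℝ)
    {η : ℝ} (hη : 0 < η) :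
    Qform μ J χ (y + z) ≤ (1 + η) * Qform μ J χ y + (1 + 1 / η) * Qform μ J χ z := by
  rw [Qform_add]
  have := QQ_le_eta μ J χ h2 hJ y z hη
  linarith

theorem rho_trivial (hJ : ∀ e, 0 ≤ J e) (y : κ → ℝ) :
    rho μ J χ y ≤ Real.exp (∑ e, J e * (Real.cosh (y e) - 1)) := by
  unfold rho
  have hz := ZZ_zero_pos μ J χ
  rw [div_le_iff₀ hz]
  have h := ZZ_real μ J χ (fun _ => 0)
  have h1 : (fun e : κ => (((fun _ => 0 : κ → ℝ) e : ℝ) : ℂ)) = 0 := by ext e; simp
  rw [h1] at h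
  have h2 : ‖ZZ μ J χ 0‖ = ∫ x, Real.exp (∑ e, J e * (χ e).c x) ∂μ := by
    rw [h]
    simp only [Real.cos_zero, mul_one, Real.sin_zero, mul_zero, sub_zero]
  rw [h2, ← integral_const_mul]
  unfold ZZ
  refine (norm_integral_le_integral_norm _).trans ?_
  refine integral_mono ?_ ?_ ?_
  · apply cint
    exact (Complex.continuous_exp.comp (continuous_finsetSum _ fun e _ =>
      continuous_const.mul ((χ e).cont_C _))).norm
  · apply cint
    exact continuous_const.mul (cont_weight J χ)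
  · intro x
    simp only
    rw [Complex.norm_exp, ← Real.exp_add]
    apply Real.exp_le_exp.2
    rw [Complex.re_sum, ← Finset.sum_add_distrib]
    refine Finset.sum_le_sum fun e _ => ?_
    have h3 : (((J e : ℝ) : ℂ) * (χ e).C (y e * Complex.I) x).re =
        J e * ((χ e).c x * Real.cosh (y e)) := by
      unfold Chr.C
      rw [Complex.cos_mul_I, Complex.sin_mul_I, ← Complex.ofReal_cosh, ← Complex.ofReal_sinh]
      simp only [Complex.mul_re, Complex.ofReal_re, Complex.sub_re, Complex.ofReal_im,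
        mul_zero, Complex.I_re, Complex.I_im, Complex.sub_im, Complex.mul_im, zero_mul, sub_zero,
        add_zero, mul_one, zero_add]
    rw [h3]
    have h4 := (abs_le.1 ((χ e).abs_c_le x)).2
    have h5 := Real.one_le_cosh (y e)
    nlinarith only [mul_nonneg (hJ e) (mul_nonneg (sub_nonneg.2 h4) (sub_nonneg.2 h5))]

end Alg

section Tile

variable {G : Type*} [AddCommGroup G] [TopologicalSpace G] [IsTopologicalAddGroup G]
  [CompactSpace G] [SecondCountableTopology G] [MeasurableSpace G] [BorelSpace G]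
  (μ : Measure G) [μ.IsAddHaarMeasure] [IsProbabilityMeasure μ]
  {κ : Type*} [Fintype κ] (J : κ → ℝ) (χ : κ → Chr G)

/-- wiring bound for a partition of the bonds into tiles -/
theorem tile_bound (h2 : ∀ g : G, ∃ h : G, h + h = g) (hJ : ∀ e, 0 ≤ J e)
    {ι : Type*} [DecidableEq ι] (S : Finset ι) (τ : κ → ι)
    (hτ : ∀ e, τ e ∈ S) (P : ι → G →+ G) (hP : ∀ k, Continuous (P k))
    (hχ : ∀ k e, τ e ≠ k → ∀ x, (χ e).c (P k x) = 1 ∧ (χ e).s (P k x) = 0) (y : κ → ℝ) :
    rho μ J χ y ≤ ∏ k ∈ S, rho μ (fun e : {e // τ e = k} => J e)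
      (fun e : {e // τ e = k} => (χ e).comp (P k) (hP k)) (fun e => y e) := by
  classical
  have hWc : ∀ k, Continuous (WW (fun e : {e // τ e = k} => J e)
      (fun e : {e // τ e = k} => χ e) (fun e => y e)) := by
    intro k
    exact Complex.continuous_exp.comp (continuous_finsetSum _ fun e _ =>
      continuous_const.mul ((χ e).cont_C _))
  have hwc : ∀ k, Continuous (fun x => Real.exp (∑ e : {e // τ e = k}, J e * (χ e).c x)) := by
    intro k
    exact Real.continuous_exp.comp (continuous_finsetSum _ fun e _ =>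
      continuous_const.mul (χ e).cont_c)
  have hit := block_iter μ (fun k => (P k : G → G)) hP
    (fun k => WW (fun e : {e // τ e = k} => J e) (fun e : {e // τ e = k} => χ e) (fun e => y e))
    (fun k x => Real.exp (∑ e : {e // τ e = k}, J e * (χ e).c x)) hWc hwc
    (fun k x => (Real.exp_pos _).le)
    (fun k => rho μ (fun e : {e // τ e = k} => J e)
      (fun e : {e // τ e = k} => (χ e).comp (P k) (hP k)) (fun e => y e))
    (fun k => div_nonneg (norm_nonneg _) (norm_nonneg _))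
    (by
      intro j k hjk x z
      unfold WW Chr.C
      congr 1
      refine Finset.sum_congr rfl fun e _ => ?_
      obtain ⟨h3, h4⟩ := hχ j e (by rw [e.2]; exact hjk.symm) z
      rw [(χ e).c_add, (χ e).s_add, h3, h4]
      simp)
    (by
      intro j k hjk x z
      congr 1
      refine Finset.sum_congr rfl fun e _ => ?_
      obtain ⟨h3, h4⟩ := hχ j e (by rw [e.2]; exact hjk.symm) z
      rw [(χ e).c_add, h3, h4]
      simp)
    (fun j k x y z => by abel)
    (fun k x => avg_bound μ h2 (fun e : {e // τ e = k} => J e) (fun e => hJ e)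
      (fun e : {e // τ e = k} => χ e) (P k) (hP k) (fun e => y e) x)
    S (fun _ => 1) continuous_const (fun k _ x z => rfl)
  have hfib : ∀ F : κ → ℂ, ∑ k ∈ S, ∑ e : {e // τ e = k}, F e = ∑ e, F e := by
    intro F
    rw [← Finset.sum_fiberwise_of_maps_to (s := Finset.univ) (t := S) (g := τ)
      (fun e _ => hτ e) F]
    refine Finset.sum_congr rfl fun k _ => ?_
    rw [Finset.sum_subtype (p := fun e => τ e = k) (Finset.univ.filter fun e => τ e = k)
      (by simp) F]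
  have hfibr : ∀ F : κ → ℝ, ∑ k ∈ S, ∑ e : {e // τ e = k}, F e = ∑ e, F e := by
    intro F
    rw [← Finset.sum_fiberwise_of_maps_to (s := Finset.univ) (t := S) (g := τ)
      (fun e _ => hτ e) F]
    refine Finset.sum_congr rfl fun k _ => ?_
    rw [Finset.sum_subtype (p := fun e => τ e = k) (Finset.univ.filter fun e => τ e = k)
      (by simp) F]
  have e1 : ∀ x, (1 : ℂ) * ∏ k ∈ S, WW (fun e : {e // τ e = k} => J e)
      (fun e : {e // τ e = k} => χ e) (fun e => y e) x =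
      Complex.exp (∑ e, J e * (χ e).C (y e * Complex.I) x) := by
    intro x
    unfold WW
    rw [one_mul, ← Complex.exp_sum]
    congr 1
    exact hfib fun e => J e * (χ e).C (y e * Complex.I) x
  have e2 : ∀ x, ‖(1 : ℂ)‖ * ∏ k ∈ S, Real.exp (∑ e : {e // τ e = k}, J e * (χ e).c x) =
      Real.exp (∑ e, J e * (χ e).c x) := by
    intro x
    rw [norm_one, one_mul, ← Real.exp_sum]
    congr 1
    exact hfibr fun e => J e * (χ e).c x
  simp only [e1, e2] at hit
  have h := ZZ_real μ J χ (fun _ => 0)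
  have h1 : (fun e : κ => (((fun _ => 0 : κ → ℝ) e : ℝ) : ℂ)) = 0 := by ext e; simp
  rw [h1] at h
  have h3 : ‖ZZ μ J χ 0‖ = ∫ x, Real.exp (∑ e, J e * (χ e).c x) ∂μ := by
    rw [h]
    simp only [Real.cos_zero, mul_one, Real.sin_zero, mul_zero, sub_zero]
  have hz := ZZ_zero_pos μ J χ
  unfold rho
  rw [div_le_iff₀ hz]
  rw [h3]
  exact hit

end Tile

section Transfer

variable {G : Type*} [AddCommGroup G] [TopologicalSpace G] [IsTopologicalAddGroup G]
  [CompactSpace G] [SecondCountableTopology G] [MeasurableSpace G] [BorelSpace G]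
  (μ : Measure G) [μ.IsAddHaarMeasure] [IsProbabilityMeasure μ]
  {κ κ' : Type*} [Fintype κ] [Fintype κ'] {J : κ → ℝ} {χ : κ → Chr G}
  {J' : κ' → ℝ} {χ' : κ' → Chr G}

theorem ZZ_tr (σ : κ ≃ κ') (m : G → G)
    (hm : ∀ F : G → ℂ, Continuous F → ∫ x, F (m x) ∂μ = ∫ x, F x ∂μ)
    (sg : κ → ℝ) (hsg : ∀ e, sg e = 1 ∨ sg e = -1)
    (hJ : ∀ e, J e = J' (σ e)) (hc : ∀ e x, (χ e).c x = (χ' (σ e)).c (m x))
    (hs : ∀ e x, (χ e).s x = sg e * (χ' (σ e)).s (m x)) {z : κ → ℂ} {z' : κ' → ℂ}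
    (hz : ∀ e, z e = sg e * z' (σ e)) :
    ZZ μ J χ z = ZZ μ J' χ' z' := by
  unfold ZZ
  rw [← hm (fun x => Complex.exp (∑ e, J' e * (χ' e).C (z' e) x))]
  · congr 1
    ext x
    congr 1
    rw [← Equiv.sum_comp σ]
    refine Finset.sum_congr rfl fun e _ => ?_
    rw [hJ]
    congr 1
    unfold Chr.C
    rw [hc, hs, hz]
    rcases hsg e with h | h
    · rw [h]; simp
    · rw [h]
      push_cast
      rw [neg_one_mul, neg_one_mul, Complex.cos_neg, Complex.sin_neg]
      ring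
  · exact Complex.continuous_exp.comp (continuous_finsetSum _ fun e _ =>
      continuous_const.mul ((χ' e).cont_C _))

theorem rho_tr (σ : κ ≃ κ') (m : G → G)
    (hm : ∀ F : G → ℂ, Continuous F → ∫ x, F (m x) ∂μ = ∫ x, F x ∂μ)
    (sg : κ → ℝ) (hsg : ∀ e, sg e = 1 ∨ sg e = -1)
    (hJ : ∀ e, J e = J' (σ e)) (hc : ∀ e x, (χ e).c x = (χ' (σ e)).c (m x))
    (hs : ∀ e x, (χ e).s x = sg e * (χ' (σ e)).s (m x)) {y : κ → ℝ} {y' : κ' → ℝ}
    (hy : ∀ e, y e = sg e * y' (σ e)) :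
    rho μ J χ y = rho μ J' χ' y' := by
  unfold rho
  rw [ZZ_tr μ σ m hm sg hsg hJ hc hs (z := fun e => y e * Complex.I)
    (z' := fun e => y' e * Complex.I) (fun e => by rw [hy]; push_cast; ring),
    ZZ_tr μ σ m hm sg hsg hJ hc hs (z := 0) (z' := 0) (fun e => by simp)]

theorem Qform_tr (σ : κ ≃ κ') (m : G → G)
    (hm : ∀ F : G → ℝ, Continuous F → ∫ x, F (m x) ∂μ = ∫ x, F x ∂μ)
    (sg : κ → ℝ) (hsg : ∀ e, sg e = 1 ∨ sg e = -1)
    (hJ : ∀ e, J e = J' (σ e)) (hc : ∀ e x, (χ e).c x = (χ' (σ e)).c (m x))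
    (hs : ∀ e x, (χ e).s x = sg e * (χ' (σ e)).s (m x)) {y : κ → ℝ} {y' : κ' → ℝ}
    (hy : ∀ e, y e = sg e * y' (σ e)) :
    Qform μ J χ y = Qform μ J' χ' y' := by
  have hsq : ∀ e, sg e * sg e = 1 := by
    intro e
    rcases hsg e with h | h <;> rw [h] <;> norm_num
  have hE : ∀ x, ∑ e, J e * (χ e).c x = ∑ e, J' e * (χ' e).c (m x) := by
    intro x
    rw [← Equiv.sum_comp σ]
    exact Finset.sum_congr rfl fun e _ => by rw [hJ, hc]
  have h1 : ∀ x, ∑ e, J e * y e ^ 2 * (χ e).c x = ∑ e, J' e * y' e ^ 2 * (χ' e).c (m x) := by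
    intro x
    rw [← Equiv.sum_comp σ]
    refine Finset.sum_congr rfl fun e _ => ?_
    rw [hJ, hc, hy]
    linear_combination (J' (σ e) * y' (σ e) ^ 2 * (χ' (σ e)).c (m x)) * hsq e
  have h3 : ∀ x, ∑ e, J e * y e * (χ e).s x = ∑ e, J' e * y' e * (χ' e).s (m x) := by
    intro x
    rw [← Equiv.sum_comp σ]
    refine Finset.sum_congr rfl fun e _ => ?_
    rw [hJ, hs, hy]
    linear_combination (J' (σ e) * y' (σ e) * (χ' (σ e)).s (m x)) * hsq e
  unfold Qform gibbs
  simp only [hE, h1, h3]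
  have c0 := cont_weight J' χ'
  rw [hm (fun x => Real.exp (∑ e, J' e * (χ' e).c x)) c0,
    hm (fun x => (∑ e, J' e * y' e ^ 2 * (χ' e).c x) * Real.exp (∑ e, J' e * (χ' e).c x))
      ((cont_sumc χ' _).mul c0),
    hm (fun x => (∑ e, J' e * y' e * (χ' e).s x) ^ 2 * Real.exp (∑ e, J' e * (χ' e).c x))
      (((cont_sums χ' _).pow 2).mul c0)]

end Transfer

end Vale.Agent.P159.H950
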