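import Vale.Agent.P159.H950.A3
import Vale.Agent.P159.Bdl.B4

/-!
Reflection positivity through sites.
-/

set_option linter.all false
set_option autoImplicit false

open MeasureTheory Filter Topology
open scoped BigOperators

namespace Vale.Agent.P159.H950

open Vale.Agent.P159 Vale.Agent.P159.UJ

section RP

variable {G : Type*} [AddCommGroup G] [TopologicalSpace G] [IsTopologicalAddGroup G]
  [CompactSpace G] [SecondCountableTopology G] [MeasurableSpace G] [BorelSpace G]
  (μ : Measure G) [μ.IsAddHaarMeasure] [IsProbabilityMeasure μ]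

/-- reflection positivity for a function of one side -/
theorem rp_pos (P : G → G) (hP : Continuous P) (R : G → G) (hR : Continuous R)
    (hRm : ∀ F : G → ℝ, Continuous F → ∫ x, F (R x) ∂μ = ∫ x, F x ∂μ)
    (hRR : ∀ x, R (R x) = x)
    {g : G → ℝ} (hg : Continuous g)
    (h1 : ∀ x z, g (R (x + P z)) = g (R x))
    (h2 : ∀ x, ∃ w, ∀ z, g (R x + P z) = g (x + P (w + z)))
    (h3 : ∀ x y z, g (x + P y + P z) = g (x + P (y + z))) :
    0 ≤ ∫ x, g x * g (R x) ∂μ := by
  have hga : Continuous (av μ P g) := av_cont μ hP hg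
  have hgR : Continuous (fun x => g (R x)) := hg.comp hR
  have hinv : ∀ (ν : Measure G), ν = μ → UJ.Inv ν P := by
    rintro ν rfl f hf z
    exact integral_add_right_eq_self (μ := ν) f (P z)
  have s1 : ∫ x, g x * g (R x) ∂μ = ∫ x, av μ P g x * g (R x) ∂μ := by
    have := int_mul_av μ (ν := μ) hP (hinv μ rfl) hgR hg (fun x z => h1 x z)
    simp only [mul_comm (g (R _))] at this
    exact this.symm
  have s2 : ∫ x, av μ P g x * g (R x) ∂μ = ∫ x, av μ P g (R x) * g x ∂μ := by
    rw [← hRm (fun x => av μ P g x * g (R x)) (hga.mul hgR)]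
    simp only [hRR]
  have s3 : ∀ x, av μ P g (R x) = av μ P g x := by
    intro x
    obtain ⟨w, hw⟩ := h2 x
    unfold av
    simp only [hw]
    exact integral_add_left_eq_self (μ := μ) (fun z => g (x + P z)) w
  have s4 : ∫ x, av μ P g x * av μ P g x ∂μ = ∫ x, av μ P g x * g x ∂μ := by
    refine int_mul_av μ (ν := μ) hP (hinv μ rfl) hga hg (fun x z => ?_)
    unfold av
    simp only [h3]
    exact integral_add_left_eq_self (μ := μ) (fun y => g (x + P y)) z
  rw [s1, s2]
  simp only [s3]
  rw [← s4]
  exact integral_nonneg fun x => mul_self_nonneg _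

variable {κ : Type*} [Fintype κ] (J : κ → ℝ) (χ : κ → Chr G)

/-- reflection positivity for the quadratic form -/
theorem rp_form (P : G → G) (hP : Continuous P) (R : G → G) (hR : Continuous R)
    (hRm : ∀ F : G → ℝ, Continuous F → ∫ x, F (R x) ∂μ = ∫ x, F x ∂μ)
    (hRR : ∀ x, R (R x) = x)
    (left : κ → Prop) (σ : κ ≃ κ) (hσ : ∀ e, left (σ e) ↔ ¬ left e)
    (hσσ : ∀ e, σ (σ e) = e)
    (sg : κ → ℝ) (hsg : ∀ e, sg e = 1 ∨ sg e = -1) (hsg2 : ∀ e, sg (σ e) = sg e)
    (hJ : ∀ e, J (σ e) = J e)
    (hc : ∀ e x, (χ e).c (R x) = (χ (σ e)).c x)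
    (hs : ∀ e x, (χ e).s (R x) = sg e * (χ (σ e)).s x)
    (hright : ∀ e, ¬ left e → ∀ x z, (χ e).c (x + P z) = (χ e).c x ∧
      (χ e).s (x + P z) = (χ e).s x)
    (hleft : ∀ x, ∃ w, ∀ e, left e → ∀ z, (χ e).c (R x + P z) = (χ e).c (x + P (w + z)) ∧
      (χ e).s (R x + P z) = (χ e).s (x + P (w + z)))
    (hadd : ∀ y z, P y + P z = P (y + z))
    (a : κ → ℝ) (ha : ∀ e, ¬ left e → a e = 0) :
    Qform μ J χ (fun e => a e + sg e * a (σ e)) ≤ 2 * Qform μ J χ a := by
  classical
  set a' : κ → ℝ := fun e => sg e * a (σ e) with ha'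
  have hsum : (fun e => a e + sg e * a (σ e)) = a + a' := rfl
  rw [hsum, Qform_add]
  have hsq : ∀ e, sg e * sg e = 1 := by
    intro e
    rcases hsg e with h | h <;> rw [h] <;> norm_num
  have hQ : Qform μ J χ a' = Qform μ J χ a := by
    refine Qform_tr μ σ R hRm sg hsg (fun e => (hJ e).symm) (fun e x => ?_) (fun e x => ?_)
      (fun e => rfl)
    · rw [hc, hσσ]
    · rw [hs, hσσ, hsg2, ← mul_assoc, hsq, one_mul]
  rw [hQ]
  -- the cross term
  suffices h : QQ μ J χ 0 a a' ≤ 0 by linarith
  -- energy of the left side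
  set E : G → ℝ := fun x => ∑ e, if left e then J e * (χ e).c x else 0 with hE
  set F : G → ℝ := fun x => ∑ e, J e * a e * (χ e).s x with hF
  have hEc : Continuous E := by
    refine continuous_finsetSum _ fun e _ => ?_
    by_cases h : left e
    · simp only [h, if_true]; exact continuous_const.mul (χ e).cont_c
    · simp only [h, if_false]; exact continuous_const
  have hFc : Continuous F := cont_sums χ _
  have hgc : Continuous (fun x => F x * Real.exp (E x)) :=
    hFc.mul (Real.continuous_exp.comp hEc)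
  have hFx : ∀ x y, (∀ e, left e → (χ e).c x = (χ e).c y ∧ (χ e).s x = (χ e).s y) →
      F x * Real.exp (E x) = F y * Real.exp (E y) := by
    intro x y hxy
    have e1 : F x = F y := by
      refine Finset.sum_congr rfl fun e _ => ?_
      by_cases h : left e
      · rw [(hxy e h).2]
      · rw [ha e h]; ring
    have e2 : E x = E y := by
      refine Finset.sum_congr rfl fun e _ => ?_
      by_cases h : left e
      · simp only [h, if_true, (hxy e h).1]
      · simp only [h, if_false]
    rw [e1, e2]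
  have key := rp_pos μ P hP R hR hRm hRR (g := fun x => F x * Real.exp (E x)) hgc
    (fun x z => hFx _ _ fun e he => by
      have hne : ¬ left (σ e) := fun h => ((hσ e).1 h) he
      have h5 := hright (σ e) hne x z
      rw [hc, hc, hs, hs, h5.1, h5.2]
      exact ⟨rfl, rfl⟩)
    (fun x => by
      obtain ⟨w, hw⟩ := hleft x
      exact ⟨w, fun z => hFx _ _ fun e he => hw e he z⟩)
    (fun x y z => by rw [add_assoc, hadd])
  -- the total weight
  have hER : ∀ x, E (R x) = ∑ e, if left e then 0 else J e * (χ e).c x := by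
    intro x
    simp only [hE]
    rw [← Equiv.sum_comp σ]
    refine Finset.sum_congr rfl fun e _ => ?_
    by_cases h : left e
    · have : ¬ left (σ e) := fun h' => ((hσ e).1 h') h
      simp only [h, this, if_true, if_false]
    · have : left (σ e) := (hσ e).2 h
      simp only [h, this, if_true, if_false]
      rw [hJ, hc, hσσ]
  have hEE : ∀ x, E x + E (R x) = ∑ e, J e * (χ e).c x := by
    intro x
    rw [hER]
    simp only [hE]
    rw [← Finset.sum_add_distrib]
    refine Finset.sum_congr rfl fun e _ => ?_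
    by_cases h : left e <;> simp [h]
  have hFR : ∀ x, F (R x) = ∑ e, J e * a' e * (χ e).s x := by
    intro x
    simp only [hF, ha']
    rw [← Equiv.sum_comp σ]
    refine Finset.sum_congr rfl fun e _ => ?_
    rw [hJ, hs, hσσ, hsg2]
    ring
  have hkey2 : ∫ x, (F x * Real.exp (E x)) * (F (R x) * Real.exp (E (R x))) ∂μ =
      ∫ x, ((∑ e, J e * a e * (χ e).s x) * (∑ e, J e * a' e * (χ e).s x)) *
        Real.exp (∑ e, J e * (χ e).c x) ∂μ := by
    congr 1
    ext x
    rw [← hEE, Real.exp_add, ← hFR]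
    ring
  rw [hkey2] at key
  unfold QQ
  have hjm : jm μ J χ 0 a = 0 := jm_zero μ J χ a
  rw [hjm, zero_mul, add_zero]
  have hB : Bt J χ 0 a a' = fun _ => 0 := by
    ext x
    unfold Bt
    refine Finset.sum_eq_zero fun e _ => ?_
    have : a e * a' e = 0 := by
      by_cases h : left e
      · have hne : ¬ left (σ e) := fun h' => ((hσ e).1 h') h
        simp only [ha', ha (σ e) hne, mul_zero]
      · rw [ha e h, zero_mul]
    rw [this]; ring
  rw [hB, ex_const, ex_zero]
  have hJt : (fun x => Jt J χ 0 a x * Jt J χ 0 a' x) = fun x =>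
      (∑ e, J e * a e * (χ e).s x) * (∑ e, J e * a' e * (χ e).s x) := by
    ext x
    unfold Jt
    simp only [St_zero]
  rw [hJt]
  unfold gibbs
  have h0 := weight_pos μ J χ
  have := div_nonneg key h0.le
  linarith

end RP

end Vale.Agent.P159.H950
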