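import Vale.Agent.P159.H950.A4
import Mathlib.Analysis.SpecialFunctions.Trigonometric.Series

/-!
Regions: finite unions of unit cells with wired boundary condition.
-/

set_option linter.all false
set_option autoImplicit false

open MeasureTheory Filter Topology
open scoped BigOperators

namespace Vale.Agent.P159.H950

open Vale.Agent.P159 Vale.Agent.P159.UJ

/-- types of the four half-bonds of a cell: direction (`true`: vertical) and side -/
abbrev HT : Type := Bool × Bool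

/-- first endpoint -/
def hu (c : ℤ × ℤ) (t : HT) : ℤ × ℤ :=
  (c.1 + (if t.1 && t.2 then 1 else 0), c.2 + (if (!t.1) && t.2 then 1 else 0))

/-- second endpoint -/
def hv (c : ℤ × ℤ) (t : HT) : ℤ × ℤ := hu c t + (if t.1 then (0, 1) else (1, 0))

/-- half-bonds of a region -/
abbrev KR (R : Finset (ℤ × ℤ)) : Type := R × HT

/-- inner sites of a region: all four cells around the site belong to the region -/
def intR (R : Finset (ℤ × ℤ)) : Set (ℤ × ℤ) :=
  {v | v ∈ R ∧ v - (1, 0) ∈ R ∧ v - (0, 1) ∈ R ∧ v - (1, 1) ∈ R}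

/-- characters of a region -/
noncomputable def chiR (R : Finset (ℤ × ℤ)) (e : KR R) : Chr Ginf :=
  (grad (hu e.1 e.2) (hv e.1 e.2)).comp (proj (intR R)) (proj_cont _)

/-- vector fields on cells; the flag is the direction -/
abbrev Fld : Type := ℤ × ℤ → Bool → ℝ

/-- the twist given by a vector field -/
def twR (R : Finset (ℤ × ℤ)) (y : Fld) (e : KR R) : ℝ := y e.1 e.2.1

/-- ratio of partition functions of the region at the imaginary twist `y` -/
noncomputable def rR (b : ℝ) (R : Finset (ℤ × ℤ)) (y : Fld) : ℝ :=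
  rho muInf (fun _ : KR R => b / 2) (chiR R) (twR R y)

/-- quadratic form of the region -/
noncomputable def qR (b : ℝ) (R : Finset (ℤ × ℤ)) (y : Fld) : ℝ :=
  Qform muInf (fun _ : KR R => b / 2) (chiR R) (twR R y)

theorem G_div2 : ∀ g : Ginf, ∃ h : Ginf, h + h = g := pi_div2

theorem half_nonneg' {b : ℝ} (hb : 0 ≤ b) (R : Finset (ℤ × ℤ)) : ∀ _e : KR R, 0 ≤ b / 2 :=
  fun _ => by linarith

/-- squared length of a field in a cell -/
def sq2 (y : Fld) (c : ℤ × ℤ) : ℝ := y c false ^ 2 + y c true ^ 2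

theorem sq2_nonneg (y : Fld) (c : ℤ × ℤ) : 0 ≤ sq2 y c := by unfold sq2; positivity

/-- discrete norm -/
noncomputable def nR (R : Finset (ℤ × ℤ)) (y : Fld) : ℝ := ∑ c ∈ R, sq2 y c

theorem nR_nonneg (R : Finset (ℤ × ℤ)) (y : Fld) : 0 ≤ nR R y :=
  Finset.sum_nonneg fun c _ => sq2_nonneg y c

theorem sum_KR (R : Finset (ℤ × ℤ)) (F : ℤ × ℤ → HT → ℝ) :
    ∑ e : KR R, F e.1 e.2 = ∑ c ∈ R, (F c (false, false) + F c (false, true) +
      F c (true, false) + F c (true, true)) := by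
  rw [Fintype.sum_prod_type, ← Finset.sum_coe_sort R]
  refine Finset.sum_congr rfl fun c _ => ?_
  rw [Fintype.sum_prod_type]
  simp only [Fintype.sum_bool]
  ring

theorem sum_tw (b : ℝ) (R : Finset (ℤ × ℤ)) (y : Fld) :
    ∑ e : KR R, b / 2 * twR R y e ^ 2 = b * nR R y := by
  have := sum_KR R (fun c t => b / 2 * y c t.1 ^ 2)
  rw [show (∑ e : KR R, b / 2 * twR R y e ^ 2) =
    ∑ e : KR R, (fun c t => b / 2 * y c t.1 ^ 2 : ℤ × ℤ → HT → ℝ) e.1 e.2 from rfl, this,
    nR, Finset.mul_sum]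
  refine Finset.sum_congr rfl fun c _ => ?_
  unfold sq2
  ring

theorem qR_nonneg {b : ℝ} (hb : 0 ≤ b) (R : Finset (ℤ × ℤ)) (y : Fld) : 0 ≤ qR b R y :=
  Qform_nonneg muInf _ _ G_div2 (half_nonneg' hb R) _

theorem qR_par (b : ℝ) (R : Finset (ℤ × ℤ)) (y z : Fld) :
    qR b R (y + z) + qR b R (y - z) = 2 * qR b R y + 2 * qR b R z :=
  Qform_par muInf _ _ (twR R y) (twR R z)

theorem qR_smul (b : ℝ) (R : Finset (ℤ × ℤ)) (s : ℝ) (y : Fld) :
    qR b R (s • y) = s ^ 2 * qR b R y :=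
  Qform_smul muInf _ _ s (twR R y)

theorem qR_neg (b : ℝ) (R : Finset (ℤ × ℤ)) (y : Fld) : qR b R (-y) = qR b R y :=
  Qform_neg muInf _ _ (twR R y)

theorem qR_le {b : ℝ} (hb : 0 ≤ b) (R : Finset (ℤ × ℤ)) (y : Fld) : qR b R y ≤ b * nR R y := by
  rw [← sum_tw]
  exact Qform_le muInf _ _ (half_nonneg' hb R) _

theorem qR_add_le {b : ℝ} (hb : 0 ≤ b) (R : Finset (ℤ × ℤ)) (y z : Fld) {η : ℝ} (hη : 0 < η) :
    qR b R (y + z) ≤ (1 + η) * qR b R y + (1 + 1 / η) * qR b R z :=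
  Qform_add_le muInf _ _ G_div2 (half_nonneg' hb R) (twR R y) (twR R z) hη

theorem nR_smul (R : Finset (ℤ × ℤ)) (s : ℝ) (y : Fld) : nR R (s • y) = s ^ 2 * nR R y := by
  unfold nR
  rw [Finset.mul_sum]
  refine Finset.sum_congr rfl fun c _ => ?_
  simp only [sq2, Pi.smul_apply, smul_eq_mul]
  ring

theorem nR_par (R : Finset (ℤ × ℤ)) (y z : Fld) :
    nR R (y + z) + nR R (y - z) = 2 * nR R y + 2 * nR R z := by
  unfold nR
  rw [Finset.mul_sum, Finset.mul_sum, ← Finset.sum_add_distrib, ← Finset.sum_add_distrib]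
  refine Finset.sum_congr rfl fun c _ => ?_
  simp only [sq2, Pi.add_apply, Pi.sub_apply]
  ring

theorem nR_mono {R R' : Finset (ℤ × ℤ)} (h : R ⊆ R') (y : Fld) : nR R y ≤ nR R' y :=
  Finset.sum_le_sum_of_subset_of_nonneg h fun c _ _ => sq2_nonneg y c

theorem nR_add_le (R : Finset (ℤ × ℤ)) (y z : Fld) {η : ℝ} (hη : 0 < η) :
    nR R (y + z) ≤ (1 + η) * nR R y + (1 + 1 / η) * nR R z := by
  unfold nR
  rw [Finset.mul_sum, Finset.mul_sum, ← Finset.sum_add_distrib]
  refine Finset.sum_le_sum fun c _ => ?_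
  simp only [sq2, Pi.add_apply]
  have key : ∀ a d : ℝ, (a + d) ^ 2 ≤ (1 + η) * a ^ 2 + (1 + 1 / η) * d ^ 2 := by
    intro a d
    have h1 : (1 + η) * a ^ 2 + (1 + 1 / η) * d ^ 2 - (a + d) ^ 2 = (η * a - d) ^ 2 / η := by
      field_simp
      ring
    have h2 : 0 ≤ (η * a - d) ^ 2 / η := by positivity
    linarith
  nlinarith only [key (y c false) (z c false), key (y c true) (z c true)]

theorem rR_ge {b : ℝ} (hb : 0 ≤ b) (R : Finset (ℤ × ℤ)) (y : Fld) :
    Real.exp (qR b R y / 2) ≤ rR b R y :=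
  rho_ge muInf _ _ G_div2 (half_nonneg' hb R) _

theorem rR_pos {b : ℝ} (hb : 0 ≤ b) (R : Finset (ℤ × ℤ)) (y : Fld) : 0 < rR b R y :=
  lt_of_lt_of_le (Real.exp_pos _) (rR_ge hb R y)

theorem card_KR (R : Finset (ℤ × ℤ)) : (Fintype.card (KR R) : ℝ) = 4 * R.card := by
  rw [Fintype.card_prod, Fintype.card_coe]
  simp only [Fintype.card_prod, Fintype.card_bool]
  push_cast
  ring

theorem sum_half (b : ℝ) (R : Finset (ℤ × ℤ)) : ∑ _e : KR R, b / 2 = 2 * b * R.card := by
  rw [Finset.sum_const, Finset.card_univ, nsmul_eq_mul, card_KR]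
  ring

theorem rR_upper {b : ℝ} (hb : 0 ≤ b) (R : Finset (ℤ × ℤ)) (y : Fld) {δ : ℝ} (hδ0 : 0 ≤ δ)
    (hδ1 : δ ≤ 1) (hδ : 4 * b * R.card * δ ≤ 1) (hy : ∀ c ∈ R, ∀ d, |y c d| ≤ δ) :
    rR b R y ≤ Real.exp (qR b R y / 2 + K5 (2 * b * R.card) * δ ^ 4) := by
  have h := rho_second muInf (fun _ : KR R => b / 2) (chiR R) (half_nonneg' hb R)
    (sum_half b R) (twR R y) (Y := δ) hδ1 (by linarith) (fun e => hy e.1 e.1.2 e.2.1) hδ0
  refine h.trans ?_
  have h2 := Real.add_one_le_exp (qR b R y / 2 + K5 (2 * b * R.card) * δ ^ 4)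
  unfold qR K5 at *
  linarith

theorem rR_trivial {b : ℝ} (hb : 0 ≤ b) (R : Finset (ℤ × ℤ)) (y : Fld)
    (hy : ∀ c ∈ R, ∀ d, |y c d| ≤ 1) :
    rR b R y ≤ Real.exp (b * nR R y) := by
  refine (rho_trivial muInf _ _ (half_nonneg' hb R) _).trans (Real.exp_le_exp.2 ?_)
  have h1 : ∀ e : KR R, b / 2 * (Real.cosh (twR R y e) - 1) ≤ b / 2 * twR R y e ^ 2 := by
    intro e
    refine mul_le_mul_of_nonneg_left ?_ (by linarith)
    have h2 : |twR R y e| ≤ 1 := hy e.1 e.1.2 e.2.1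
    have h3 := (abs_le.1 (cosh_sub_bound h2)).2
    have h4 : |twR R y e| ^ 4 ≤ twR R y e ^ 2 / 1 * 1 := by
      have : |twR R y e| ^ 4 = |twR R y e| ^ 2 * |twR R y e| ^ 2 := by ring
      rw [this, sq_abs]
      have h5 : twR R y e ^ 2 ≤ 1 := by
        rw [← sq_abs]; exact pow_le_one₀ (abs_nonneg _) h2
      nlinarith only [sq_nonneg (twR R y e), h5]
    -- use the exact bound cosh y - 1 ≤ y ^ 2 for |y| ≤ 1
    have h6 : Real.cosh (twR R y e) ≤ Real.exp (twR R y e ^ 2 / 2) :=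
      Real.cosh_le_exp_half_sq (twR R y e)
    have h7 : twR R y e ^ 2 / 2 ≤ 1 / 2 := by
      have h5 : twR R y e ^ 2 ≤ 1 := by
        rw [← sq_abs]; exact pow_le_one₀ (abs_nonneg _) h2
      linarith
    have h8 : Real.exp (twR R y e ^ 2 / 2) ≤ 1 + 2 * (twR R y e ^ 2 / 2) := by
      have h9 : |twR R y e ^ 2 / 2| ≤ 1 := by
        rw [abs_of_nonneg (by positivity)]; linarith
      have h10 := (abs_le.1 (Real.abs_exp_sub_one_sub_id_le h9)).2
      have h11 : 0 ≤ twR R y e ^ 2 / 2 := by positivity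
      nlinarith only [h10, h11, h7]
    linarith
  refine (Finset.sum_le_sum fun e _ => h1 e).trans ?_
  rw [sum_tw]

theorem twR_congr {R : Finset (ℤ × ℤ)} {y z : Fld} (h : ∀ c ∈ R, y c = z c) :
    twR R y = twR R z := by
  funext e
  unfold twR
  rw [h e.1 e.1.2]

theorem qR_congr (b : ℝ) {R : Finset (ℤ × ℤ)} {y z : Fld} (h : ∀ c ∈ R, y c = z c) :
    qR b R y = qR b R z := by
  unfold qR
  rw [twR_congr h]

theorem nR_congr {R : Finset (ℤ × ℤ)} {y z : Fld} (h : ∀ c ∈ R, y c = z c) :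
    nR R y = nR R z := by
  unfold nR sq2
  exact Finset.sum_congr rfl fun c hc => by rw [h c hc]

/-! ### Tiles -/

theorem mem_intR_hu {R : Finset (ℤ × ℤ)} {c : ℤ × ℤ} {t : HT} (h : hu c t ∈ intR R) : c ∈ R := by
  obtain ⟨h1, h2, h3, h4⟩ := h
  rcases t with ⟨_ | _, _ | _⟩
  · simpa [hu] using h1
  · have : hu c (false, true) - (0, 1) = c := by ext <;> simp [hu]
    rwa [this] at h3
  · simpa [hu] using h1
  · have : hu c (true, true) - (1, 0) = c := by ext <;> simp [hu]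
    rwa [this] at h2

theorem mem_intR_hv {R : Finset (ℤ × ℤ)} {c : ℤ × ℤ} {t : HT} (h : hv c t ∈ intR R) : c ∈ R := by
  obtain ⟨h1, h2, h3, h4⟩ := h
  rcases t with ⟨_ | _, _ | _⟩
  · have : hv c (false, false) - (1, 0) = c := by ext <;> simp [hu, hv]
    rwa [this] at h2
  · have : hv c (false, true) - (1, 1) = c := by ext <;> simp [hu, hv]
    rwa [this] at h4
  · have : hv c (true, false) - (0, 1) = c := by ext <;> simp [hu, hv]
    rwa [this] at h3
  · have : hv c (true, true) - (1, 1) = c := by ext <;> simp [hu, hv]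
    rwa [this] at h4

theorem intR_mono {R R' : Finset (ℤ × ℤ)} (h : R ⊆ R') : intR R ⊆ intR R' := by
  rintro v ⟨h1, h2, h3, h4⟩
  exact ⟨h h1, h h2, h h3, h h4⟩

/-- fibres of the tiling -/
def fibE {ι : Type*} [DecidableEq ι] (R : Finset (ℤ × ℤ)) (τ : ℤ × ℤ → ι) (k : ι) :
    {e : KR R // τ e.1 = k} ≃ KR (R.filter fun c => τ c = k) where
  toFun e := (⟨e.1.1, Finset.mem_filter.2 ⟨e.1.1.2, e.2⟩⟩, e.1.2)
  invFun e := ⟨(⟨e.1, (Finset.mem_filter.1 e.1.2).1⟩, e.2), (Finset.mem_filter.1 e.1.2).2⟩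
  left_inv e := rfl
  right_inv e := rfl

theorem proj_tile {R R' : Finset (ℤ × ℤ)} (h : R' ⊆ R) (x : Ginf) (v : ℤ × ℤ) :
    proj (intR R) (proj (intR R') x) v = proj (intR R') x v := by
  by_cases h1 : v ∈ intR R'
  · rw [proj_of_mem (intR_mono h h1)]
  · rw [proj_of_notMem h1]
    by_cases h2 : v ∈ intR R
    · rw [proj_of_mem h2, proj_of_notMem h1]
    · rw [proj_of_notMem h2]

theorem fib_c {ι : Type*} [DecidableEq ι] (R : Finset (ℤ × ℤ)) (τ : ℤ × ℤ → ι) (k : ι)
    (e : {e : KR R // τ e.1 = k}) (x : Ginf) :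
    ((chiR R e.1).comp (proj (intR (R.filter fun c => τ c = k))) (proj_cont _)).c x =
      (chiR (R.filter fun c => τ c = k) (fibE R τ k e)).c x := by
  show cosT (proj (intR R) (proj (intR (R.filter fun c => τ c = k)) x) (hu e.1.1 e.1.2) -
          proj (intR R) (proj (intR (R.filter fun c => τ c = k)) x) (hv e.1.1 e.1.2)) =
      cosT (proj (intR (R.filter fun c => τ c = k)) x (hu e.1.1 e.1.2) -
          proj (intR (R.filter fun c => τ c = k)) x (hv e.1.1 e.1.2))
  rw [proj_tile (Finset.filter_subset _ _), proj_tile (Finset.filter_subset _ _)]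

theorem fib_s {ι : Type*} [DecidableEq ι] (R : Finset (ℤ × ℤ)) (τ : ℤ × ℤ → ι) (k : ι)
    (e : {e : KR R // τ e.1 = k}) (x : Ginf) :
    ((chiR R e.1).comp (proj (intR (R.filter fun c => τ c = k))) (proj_cont _)).s x =
      (chiR (R.filter fun c => τ c = k) (fibE R τ k e)).s x := by
  show sinT (proj (intR R) (proj (intR (R.filter fun c => τ c = k)) x) (hu e.1.1 e.1.2) -
          proj (intR R) (proj (intR (R.filter fun c => τ c = k)) x) (hv e.1.1 e.1.2)) =
      sinT (proj (intR (R.filter fun c => τ c = k)) x (hu e.1.1 e.1.2) -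
          proj (intR (R.filter fun c => τ c = k)) x (hv e.1.1 e.1.2))
  rw [proj_tile (Finset.filter_subset _ _), proj_tile (Finset.filter_subset _ _)]

theorem rho_fib (b : ℝ) {ι : Type*} [DecidableEq ι] (R : Finset (ℤ × ℤ)) (τ : ℤ × ℤ → ι) (k : ι)
    (y : Fld) :
    rho muInf (fun e : {e : KR R // τ e.1 = k} => b / 2)
      (fun e : {e : KR R // τ e.1 = k} => (chiR R e.1).comp
        (proj (intR (R.filter fun c => τ c = k))) (proj_cont _)) (fun e => twR R y e.1) =
    rR b (R.filter fun c => τ c = k) y := by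
  have h := rho_tr muInf (J := fun e : {e : KR R // τ e.1 = k} => b / 2)
    (χ := fun e : {e : KR R // τ e.1 = k} => (chiR R e.1).comp
        (proj (intR (R.filter fun c => τ c = k))) (proj_cont _))
    (J' := fun _ : KR (R.filter fun c => τ c = k) => b / 2)
    (χ' := chiR (R.filter fun c => τ c = k))
    (fibE R τ k) (fun x => x) (fun F _ => rfl) (fun _ => 1)
    (fun _ => Or.inl rfl) (fun e => rfl) (fun e x => fib_c R τ k e x)
    (fun e x => by rw [one_mul]; exact fib_s R τ k e x)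
    (y := fun e => twR R y e.1) (y' := twR (R.filter fun c => τ c = k) y)
    (fun e => by rw [one_mul]; rfl)
  exact h

theorem tile_indep {ι : Type*} [DecidableEq ι] (R : Finset (ℤ × ℤ)) (τ : ℤ × ℤ → ι) (k : ι)
    (e : KR R) (he : τ e.1 ≠ k) (x : Ginf) :
    (chiR R e).c (proj (intR (R.filter fun c => τ c = k)) x) = 1 ∧
      (chiR R e).s (proj (intR (R.filter fun c => τ c = k)) x) = 0 := by
  have hz : ∀ v : ℤ × ℤ, (v = hu e.1 e.2 ∨ v = hv e.1 e.2) →
      proj (intR R) (proj (intR (R.filter fun c => τ c = k)) x) v = 0 := by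
    intro v hv'
    rw [proj_tile (Finset.filter_subset _ _)]
    apply proj_of_notMem
    rcases hv' with rfl | rfl
    · exact fun h => he (Finset.mem_filter.1 (mem_intR_hu h)).2
    · exact fun h => he (Finset.mem_filter.1 (mem_intR_hv h)).2
  constructor
  · show cosT (proj (intR R) (proj (intR (R.filter fun c => τ c = k)) x) (hu e.1 e.2) -
      proj (intR R) (proj (intR (R.filter fun c => τ c = k)) x) (hv e.1 e.2)) = 1
    rw [hz _ (Or.inl rfl), hz _ (Or.inr rfl), sub_zero, cosT_zero]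
  · show sinT (proj (intR R) (proj (intR (R.filter fun c => τ c = k)) x) (hu e.1 e.2) -
      proj (intR R) (proj (intR (R.filter fun c => τ c = k)) x) (hv e.1 e.2)) = 0
    rw [hz _ (Or.inl rfl), hz _ (Or.inr rfl), sub_zero, sinT_zero]

theorem rR_tile {b : ℝ} (hb : 0 ≤ b) {ι : Type*} [DecidableEq ι] (R : Finset (ℤ × ℤ))
    (S : Finset ι) (τ : ℤ × ℤ → ι) (hτ : ∀ c ∈ R, τ c ∈ S) (y : Fld) :
    rR b R y ≤ ∏ k ∈ S, rR b (R.filter fun c => τ c = k) y := by
  have h := tile_bound muInf (fun _ : KR R => b / 2) (chiR R) G_div2 (half_nonneg' hb R) S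
    (fun e : KR R => τ e.1) (fun e => hτ e.1 e.1.2)
    (fun k => proj (intR (R.filter fun c => τ c = k))) (fun k => proj_cont _)
    (fun k e he x => tile_indep R τ k e he x) (twR R y)
  have h2 : ∀ k ∈ S, rho muInf (fun e : {e : KR R // τ e.1 = k} => b / 2)
      (fun e : {e : KR R // τ e.1 = k} => (chiR R e.1).comp
        (proj (intR (R.filter fun c => τ c = k))) (proj_cont _)) (fun e => twR R y e.1) =
      rR b (R.filter fun c => τ c = k) y := fun k _ => rho_fib b R τ k y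
  rw [← Finset.prod_congr rfl h2]
  exact h

/-- subadditivity of the quadratic form -/
theorem qR_tile {b : ℝ} (hb : 0 ≤ b) {ι : Type*} [DecidableEq ι] (R : Finset (ℤ × ℤ))
    (S : Finset ι) (τ : ℤ × ℤ → ι) (hτ : ∀ c ∈ R, τ c ∈ S) (y : Fld) :
    qR b R y ≤ ∑ k ∈ S, qR b (R.filter fun c => τ c = k) y := by
  -- bound of the field on the region
  obtain ⟨M, hM1, hM⟩ : ∃ M : ℝ, 1 ≤ M ∧ ∀ c ∈ R, ∀ d, |y c d| ≤ M := by
    refine ⟨1 + ∑ c ∈ R, ∑ d, |y c d|, ?_, fun c hc d => ?_⟩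
    · have : 0 ≤ ∑ c ∈ R, ∑ d, |y c d| :=
        Finset.sum_nonneg fun c _ => Finset.sum_nonneg fun d _ => abs_nonneg _
      linarith
    · have h1 : |y c d| ≤ ∑ d, |y c d| :=
        Finset.single_le_sum (f := fun d => |y c d|) (fun d _ => abs_nonneg _)
          (Finset.mem_univ d)
      have h2 : ∑ d, |y c d| ≤ ∑ c ∈ R, ∑ d, |y c d| :=
        Finset.single_le_sum (f := fun c => ∑ d, |y c d|)
          (fun c _ => Finset.sum_nonneg fun d _ => abs_nonneg _) hc
      linarith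
  set k0 : ℝ := ∑ k ∈ S, K5 (2 * b * (R.filter fun c => τ c = k).card) with hk0
  have hk00 : 0 ≤ k0 := Finset.sum_nonneg fun k _ => K5_nonneg (by positivity)
  have key : ∀ u : ℝ, 0 < u → u * M ≤ 1 → 4 * b * R.card * (u * M) ≤ 1 →
      qR b R y ≤ (∑ k ∈ S, qR b (R.filter fun c => τ c = k) y) + 2 * k0 * M ^ 4 * u ^ 2 := by
    intro u hu h1 h2
    have h3 := (rR_ge hb R (u • y)).trans (rR_tile hb R S τ hτ (u • y))
    have h4 : ∏ k ∈ S, rR b (R.filter fun c => τ c = k) (u • y) ≤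
        ∏ k ∈ S, Real.exp (qR b (R.filter fun c => τ c = k) (u • y) / 2 +
          K5 (2 * b * (R.filter fun c => τ c = k).card) * (u * M) ^ 4) := by
      refine Finset.prod_le_prod (fun k _ => (rR_pos hb _ _).le) fun k _ => ?_
      refine rR_upper hb _ _ (by positivity) h1 ?_ fun c hc d => ?_
      · refine le_trans ?_ h2
        have : ((R.filter fun c => τ c = k).card : ℝ) ≤ R.card := by
          exact_mod_cast Finset.card_le_card (Finset.filter_subset _ _)
        have hM0 : 0 ≤ u * M := by positivity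
        gcongr
      · rw [Pi.smul_apply, Pi.smul_apply, smul_eq_mul, abs_mul, abs_of_pos hu]
        exact mul_le_mul_of_nonneg_left (hM c (Finset.mem_filter.1 hc).1 d) hu.le
    have h5 := h3.trans h4
    rw [← Real.exp_sum, Real.exp_le_exp] at h5
    simp only [qR_smul] at h5
    rw [Finset.sum_add_distrib, ← Finset.sum_mul, ← hk0, ← Finset.sum_div, ← Finset.mul_sum] at h5
    have hu2 : 0 < u ^ 2 := by positivity
    have h6 : u ^ 2 * qR b R y ≤ u ^ 2 * ((∑ k ∈ S, qR b (R.filter fun c => τ c = k) y) +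
        2 * k0 * M ^ 4 * u ^ 2) := by
      nlinarith only [h5]
    exact le_of_mul_le_mul_left h6 hu2
  have htend : Tendsto (fun n : ℕ => (2 : ℝ)⁻¹ ^ n) atTop (𝓝 0) :=
    tendsto_pow_atTop_nhds_zero_of_lt_one (by norm_num) (by norm_num)
  have hlim : Tendsto (fun n : ℕ => (∑ k ∈ S, qR b (R.filter fun c => τ c = k) y) +
      2 * k0 * M ^ 4 * ((2 : ℝ)⁻¹ ^ n) ^ 2) atTop
      (𝓝 ((∑ k ∈ S, qR b (R.filter fun c => τ c = k) y) + 2 * k0 * M ^ 4 * 0 ^ 2)) :=
    tendsto_const_nhds.add (tendsto_const_nhds.mul (htend.pow 2))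
  have c1 := (htend.mul_const M).eventually (ge_mem_nhds (by norm_num : (0:ℝ) * M < 1))
  have c2 := ((htend.mul_const M).const_mul (4 * b * R.card)).eventually
    (ge_mem_nhds (by norm_num : 4 * b * R.card * ((0:ℝ) * M) < 1))
  have := ge_of_tendsto hlim (by
    filter_upwards [c1, c2] with n h1 h2
    exact key _ (by positivity) h1 h2)
  simpa using this

end Vale.Agent.P159.H950
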