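import Vale.Agent.P159.H950.B1

/-!
Blocks, and the quadratic form of constant fields in a block.
-/

set_option linter.all false
set_option autoImplicit false

open MeasureTheory Filter Topology
open scoped BigOperators

namespace Vale.Agent.P159.H950

open Vale.Agent.P159 Vale.Agent.P159.UJ

/-- the cells of the block `p + [0,L]²` -/
noncomputable def blk (p : ℤ × ℤ) (L : ℕ) : Finset (ℤ × ℤ) :=
  Finset.Ico p.1 (p.1 + L) ×ˢ Finset.Ico p.2 (p.2 + L)

theorem mem_blk {p : ℤ × ℤ} {L : ℕ} {c : ℤ × ℤ} : c ∈ blk p L ↔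
    p.1 ≤ c.1 ∧ c.1 < p.1 + L ∧ p.2 ≤ c.2 ∧ c.2 < p.2 + L := by
  unfold blk
  rw [Finset.mem_product, Finset.mem_Ico, Finset.mem_Ico]
  tauto

theorem mem_intR_blk {p : ℤ × ℤ} {L : ℕ} {v : ℤ × ℤ} : v ∈ intR (blk p L) ↔
    p.1 < v.1 ∧ v.1 < p.1 + L ∧ p.2 < v.2 ∧ v.2 < p.2 + L := by
  unfold intR
  simp only [Set.mem_setOf_eq, mem_blk, Prod.fst_sub, Prod.snd_sub]
  omega

theorem card_blk (p : ℤ × ℤ) (L : ℕ) : (blk p L).card = L ^ 2 := by
  unfold blk
  rw [Finset.card_product, Int.card_Ico, Int.card_Ico]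
  simp only [add_sub_cancel_left, Int.toNat_natCast]
  ring

/-- indexing of the half-bonds of a block -/
noncomputable def eBlk (p : ℤ × ℤ) (L : ℕ) : KR (blk p L) ≃ BI L where
  toFun e := ((⟨(e.1.1.1 - p.1).toNat, by have := mem_blk.1 e.1.2; omega⟩,
    ⟨(e.1.1.2 - p.2).toNat, by have := mem_blk.1 e.1.2; omega⟩), e.2)
  invFun e := (⟨(p.1 + (e.1.1 : ℕ), p.2 + (e.1.2 : ℕ)), by
    rw [mem_blk]
    have h1 := e.1.1.2
    have h2 := e.1.2.2
    simp only
    omega⟩, e.2)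
  left_inv e := by
    obtain ⟨⟨⟨c1, c2⟩, hc⟩, t⟩ := e
    have := mem_blk.1 hc
    simp only [Prod.mk.injEq, Subtype.mk.injEq, and_true]
    simp only at this
    omega
  right_inv e := by
    obtain ⟨⟨i, j⟩, t⟩ := e
    simp only [Prod.mk.injEq, and_true]
    constructor
    · ext; simp
    · ext; simp

theorem eBlk_hu (p : ℤ × ℤ) (L : ℕ) (e : KR (blk p L)) : hu e.1 e.2 = p + bu (eBlk p L e) := by
  obtain ⟨⟨⟨c1, c2⟩, hc⟩, t⟩ := e
  have := mem_blk.1 hc
  simp only at this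
  unfold hu bu eBlk
  simp only [Equiv.coe_fn_mk]
  ext
  · simp only [Prod.fst_add]; omega
  · simp only [Prod.snd_add]; omega

theorem eBlk_hv (p : ℤ × ℤ) (L : ℕ) (e : KR (blk p L)) : hv e.1 e.2 = p + bv (eBlk p L e) := by
  unfold hv bv
  rw [eBlk_hu, add_assoc]
  rfl

theorem proj_blk (p : ℤ × ℤ) (L : ℕ) (x : Ginf) (v : ℤ × ℤ) :
    proj (intR (blk p L)) x (p + v) =
      proj (inner L : Set (ℤ × ℤ)) (relabel (fun v : ℤ × ℤ => p + v) x) v := by
  have hiff : p + v ∈ intR (blk p L) ↔ v ∈ (inner L : Set (ℤ × ℤ)) := by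
    rw [mem_intR_blk]
    simp only [inner, Finset.coe_Icc, Set.mem_Icc, Prod.le_def, Prod.fst_add, Prod.snd_add]
    omega
  by_cases h : v ∈ (inner L : Set (ℤ × ℤ))
  · rw [proj_of_mem h, proj_of_mem (hiff.2 h)]
    rfl
  · rw [proj_of_notMem h, proj_of_notMem (fun h' => h (hiff.1 h'))]

theorem int_tr_real (p : ℤ × ℤ) (F : Ginf → ℝ) (hF : Continuous F) :
    ∫ x, F (relabel (fun v : ℤ × ℤ => p + v) x) ∂muInf = ∫ x, F x ∂muInf :=
  integral_relabel (fun v : ℤ × ℤ => p + v) (add_right_injective p) muInf muInf hF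

theorem int_tr_complex (p : ℤ × ℤ) (F : Ginf → ℂ) (hF : Continuous F) :
    ∫ x, F (relabel (fun v : ℤ × ℤ => p + v) x) ∂muInf = ∫ x, F x ∂muInf :=
  integral_relabel (fun v : ℤ × ℤ => p + v) (add_right_injective p) muInf muInf hF

theorem blk_c (p : ℤ × ℤ) (L : ℕ) (e : KR (blk p L)) (x : Ginf) :
    (chiR (blk p L) e).c x = (chi0 L (eBlk p L e)).c (relabel (fun v : ℤ × ℤ => p + v) x) := by
  show cosT (proj (intR (blk p L)) x (hu e.1 e.2) - proj (intR (blk p L)) x (hv e.1 e.2)) =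
    cosT (proj (inner L : Set (ℤ × ℤ)) (relabel (fun v : ℤ × ℤ => p + v) x) (bu (eBlk p L e)) -
      proj (inner L : Set (ℤ × ℤ)) (relabel (fun v : ℤ × ℤ => p + v) x) (bv (eBlk p L e)))
  rw [eBlk_hu, eBlk_hv, proj_blk, proj_blk]

theorem blk_s (p : ℤ × ℤ) (L : ℕ) (e : KR (blk p L)) (x : Ginf) :
    (chiR (blk p L) e).s x = (chi0 L (eBlk p L e)).s (relabel (fun v : ℤ × ℤ => p + v) x) := by
  show sinT (proj (intR (blk p L)) x (hu e.1 e.2) - proj (intR (blk p L)) x (hv e.1 e.2)) =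
    sinT (proj (inner L : Set (ℤ × ℤ)) (relabel (fun v : ℤ × ℤ => p + v) x) (bu (eBlk p L e)) -
      proj (inner L : Set (ℤ × ℤ)) (relabel (fun v : ℤ × ℤ => p + v) x) (bv (eBlk p L e)))
  rw [eBlk_hu, eBlk_hv, proj_blk, proj_blk]

theorem qR_blk (b : ℝ) (p : ℤ × ℤ) (L : ℕ) (y : Fld) (y' : BI L → ℝ)
    (h : ∀ e, twR (blk p L) y e = y' (eBlk p L e)) :
    qR b (blk p L) y = Qform muInf (fun _ => b / 2) (chi0 L) y' := by
  have h := Qform_tr muInf (J := fun _ : KR (blk p L) => b / 2) (χ := chiR (blk p L))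
    (J' := fun _ : BI L => b / 2) (χ' := chi0 L) (eBlk p L)
    (fun x => relabel (fun v : ℤ × ℤ => p + v) x) (int_tr_real p) (fun _ => 1)
    (fun _ => Or.inl rfl) (fun e => rfl) (fun e x => blk_c p L e x)
    (fun e x => by rw [one_mul]; exact blk_s p L e x)
    (y := twR (blk p L) y) (y' := y') (fun e => by rw [one_mul]; exact h e)
  exact h

theorem rR_blk (b : ℝ) (p : ℤ × ℤ) (L : ℕ) (y : Fld) (y' : BI L → ℝ)
    (h : ∀ e, twR (blk p L) y e = y' (eBlk p L e)) :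
    rR b (blk p L) y = rho muInf (fun _ => b / 2) (chi0 L) y' := by
  have h := rho_tr muInf (J := fun _ : KR (blk p L) => b / 2) (χ := chiR (blk p L))
    (J' := fun _ : BI L => b / 2) (χ' := chi0 L) (eBlk p L)
    (fun x => relabel (fun v : ℤ × ℤ => p + v) x) (int_tr_complex p) (fun _ => 1)
    (fun _ => Or.inl rfl) (fun e => rfl) (fun e x => blk_c p L e x)
    (fun e x => by rw [one_mul]; exact blk_s p L e x)
    (y := twR (blk p L) y) (y' := y') (fun e => by rw [one_mul]; exact h e)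
  exact h

/-- the constant field -/
def cst (u w : ℝ) : Fld := fun _ d => if d then w else u

theorem Q_const (b : ℝ) (L : ℕ) (hL : 1 ≤ L) (u w : ℝ) :
    Qform muInf (fun _ => b / 2) (chi0 L) (fun e => u * hh e + w * vv e) =
      (L : ℝ) ^ 2 * stiff L b * (u ^ 2 + w ^ 2) := by
  have h0 : (fun e : BI L => u * hh e + w * vv e) = u • (hh : BI L → ℝ) + w • vv := by
    ext e
    simp only [Pi.add_apply, Pi.smul_apply, smul_eq_mul]
  rw [h0, Qform_add, Qform_smul, Qform_smul, Q_h L b hL, Q_v L b hL]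
  have h1 : QQ muInf (fun _ : BI L => b / 2) (chi0 L) 0 hh vv = 0 := by
    unfold QQ
    have hB : Bt (fun _ : BI L => b / 2) (chi0 L) 0 hh vv = fun _ => 0 := by
      ext x
      unfold Bt
      refine Finset.sum_eq_zero fun e _ => ?_
      have : hh e * vv e = 0 := by
        unfold hh vv
        split_ifs <;> norm_num
      rw [this]
      ring
    rw [hB, ex_const, ex_zero, jm_zero, zero_mul, add_zero]
    have hJt : (fun x => Jt (fun _ : BI L => b / 2) (chi0 L) 0 hh x *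
        Jt (fun _ : BI L => b / 2) (chi0 L) 0 vv x) = fun x =>
        (∑ e : BI L, b / 2 * hh e * (chi0 L e).s x) *
        (∑ e : BI L, b / 2 * vv e * (chi0 L e).s x) := by
      ext x
      unfold Jt
      simp only [St_zero]
    rw [hJt, cross_zero L b]
    ring
  rw [QQ_smul, QQ_symm, QQ_smul, QQ_symm, h1]
  ring

/-- the quadratic form of a constant field in a block -/
theorem qR_const (b : ℝ) (p : ℤ × ℤ) (L : ℕ) (hL : 1 ≤ L) (u w : ℝ) :
    qR b (blk p L) (cst u w) = (L : ℝ) ^ 2 * stiff L b * (u ^ 2 + w ^ 2) := by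
  rw [← Q_const b L hL u w]
  refine qR_blk b p L _ _ fun e => ?_
  obtain ⟨c, ⟨t1, t2⟩⟩ := e
  unfold twR cst hh vv eBlk
  simp only [Equiv.coe_fn_mk]
  cases t1 <;> simp

theorem nR_const (R : Finset (ℤ × ℤ)) (u w : ℝ) :
    nR R (cst u w) = R.card * (u ^ 2 + w ^ 2) := by
  unfold nR sq2 cst
  simp
  ring

end Vale.Agent.P159.H950
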