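import Vale.Agent.P159.H950.B2

/-!
Reflections of the lattice and reflection positivity in blocks.
-/

set_option linter.all false
set_option autoImplicit false

open MeasureTheory Filter Topology
open scoped BigOperators

namespace Vale.Agent.P159.H950

open Vale.Agent.P159 Vale.Agent.P159.UJ

/-- a reflection of the lattice through a line of sites -/
structure Refl where
  s : ℤ × ℤ → ℤ × ℤ
  cm : ℤ × ℤ → ℤ × ℤ
  tm : HT → HT
  dm : Bool → Bool
  sg : Bool → ℝ
  lam : ℤ × ℤ → ℤ
  left : ℤ × ℤ → HT → Prop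
  s_s : ∀ v, s (s v) = v
  cm_cm : ∀ c, cm (cm c) = c
  tm_tm : ∀ t, tm (tm t) = t
  tm_dm : ∀ t, (tm t).1 = dm t.1
  dm_dm : ∀ d, dm (dm d) = d
  sg_or : ∀ d, sg d = 1 ∨ sg d = -1
  sg_dm : ∀ d, sg (dm d) = sg d
  ends : ∀ c t, (sg t.1 = 1 ∧ hu (cm c) (tm t) = s (hu c t) ∧ hv (cm c) (tm t) = s (hv c t)) ∨
    (sg t.1 = -1 ∧ hu (cm c) (tm t) = s (hv c t) ∧ hv (cm c) (tm t) = s (hu c t))
  lam_s : ∀ v, lam v = 0 → s v = v
  left1 : ∀ c t, left c t → lam (hu c t) ≤ 0 ∧ lam (hv c t) ≤ 0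
  left2 : ∀ c t, ¬ left c t → 0 ≤ lam (hu c t) ∧ 0 ≤ lam (hv c t)
  left3 : ∀ c t, left (cm c) (tm t) ↔ ¬ left c t

namespace Refl

variable (r : Refl)

/-- reflected field -/
noncomputable def act (y : Fld) : Fld := fun c d => r.sg d * y (r.cm c) (r.dm d)

/-- the reflection preserves the region -/
def Sym (R : Finset (ℤ × ℤ)) : Prop :=
  (∀ c, r.cm c ∈ R ↔ c ∈ R) ∧ ∀ v, r.s v ∈ intR R ↔ v ∈ intR R

theorem rp {b : ℝ} {R : Finset (ℤ × ℤ)} (h : r.Sym R) (y : Fld)
    (hy : ∀ c ∈ R, (∃ t, ¬ r.left c t) → ∀ d, y c d = 0) :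
    qR b R (y + r.act y) ≤ 2 * qR b R y := by
  classical
  have hinj : Function.Injective r.s := by
    intro u v huv
    rw [← r.s_s u, huv, r.s_s]
  set P : Ginf →+ Ginf := proj {v | r.lam v < 0} with hP
  set σ : KR R ≃ KR R :=
    { toFun := fun e => (⟨r.cm e.1, (h.1 _).2 e.1.2⟩, r.tm e.2)
      invFun := fun e => (⟨r.cm e.1, (h.1 _).2 e.1.2⟩, r.tm e.2)
      left_inv := fun e => by
        ext
        · simp only [r.cm_cm]
        · simp only [r.cm_cm]
        · simp only [r.tm_tm]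
        · simp only [r.tm_tm]
      right_inv := fun e => by
        ext
        · simp only [r.cm_cm]
        · simp only [r.cm_cm]
        · simp only [r.tm_tm]
        · simp only [r.tm_tm] } with hσ
  have hproj : ∀ (x : Ginf) (v : ℤ × ℤ), proj (intR R) (relabel r.s x) v =
      proj (intR R) x (r.s v) := by
    intro x v
    rw [relabel_proj (intR R) r.s h.2]
    rfl
  have hc : ∀ (e : KR R) (x : Ginf), (chiR R e).c (relabel r.s x) = (chiR R (σ e)).c x := by
    intro e x
    show cosT (proj (intR R) (relabel r.s x) (hu e.1 e.2) -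
        proj (intR R) (relabel r.s x) (hv e.1 e.2)) =
      cosT (proj (intR R) x (hu (r.cm e.1) (r.tm e.2)) -
        proj (intR R) x (hv (r.cm e.1) (r.tm e.2)))
    rw [hproj, hproj]
    rcases r.ends e.1 e.2 with ⟨_, h1, h2⟩ | ⟨_, h1, h2⟩
    · rw [h1, h2]
    · rw [h1, h2, ← cosT_neg]
      congr 1
      abel
  have hs : ∀ (e : KR R) (x : Ginf), (chiR R e).s (relabel r.s x) =
      r.sg e.2.1 * (chiR R (σ e)).s x := by
    intro e x
    show sinT (proj (intR R) (relabel r.s x) (hu e.1 e.2) -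
        proj (intR R) (relabel r.s x) (hv e.1 e.2)) =
      r.sg e.2.1 * sinT (proj (intR R) x (hu (r.cm e.1) (r.tm e.2)) -
        proj (intR R) x (hv (r.cm e.1) (r.tm e.2)))
    rw [hproj, hproj]
    rcases r.ends e.1 e.2 with ⟨h0, h1, h2⟩ | ⟨h0, h1, h2⟩
    · rw [h0, h1, h2, one_mul]
    · rw [h0, h1, h2, neg_one_mul, ← sinT_neg]
      congr 1
      abel
  have hPz : ∀ (z : Ginf) (v : ℤ × ℤ), 0 ≤ r.lam v → P z v = 0 := by
    intro z v hv'
    exact proj_of_notMem (by simp only [Set.mem_setOf_eq, not_lt]; exact hv') z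
  have hval : ∀ (x z : Ginf) (v : ℤ × ℤ), x v = z v →
      proj (intR R) x v = proj (intR R) z v := by
    intro x z v hxz
    by_cases h1 : v ∈ intR R
    · rw [proj_of_mem h1, proj_of_mem h1, hxz]
    · rw [proj_of_notMem h1, proj_of_notMem h1]
  have hchi : ∀ (x z : Ginf) (e : KR R), x (hu e.1 e.2) = z (hu e.1 e.2) →
      x (hv e.1 e.2) = z (hv e.1 e.2) →
      (chiR R e).c x = (chiR R e).c z ∧ (chiR R e).s x = (chiR R e).s z := by
    intro x z e h1 h2
    constructor
    · show cosT (proj (intR R) x (hu e.1 e.2) - proj (intR R) x (hv e.1 e.2)) =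
        cosT (proj (intR R) z (hu e.1 e.2) - proj (intR R) z (hv e.1 e.2))
      rw [hval x z _ h1, hval x z _ h2]
    · show sinT (proj (intR R) x (hu e.1 e.2) - proj (intR R) x (hv e.1 e.2)) =
        sinT (proj (intR R) z (hu e.1 e.2) - proj (intR R) z (hv e.1 e.2))
      rw [hval x z _ h1, hval x z _ h2]
  have key := rp_form muInf (fun _ : KR R => b / 2) (chiR R) (fun z => P z) (proj_cont _)
    (fun x => relabel r.s x) (relabel_cont _)
    (fun F hF => integral_relabel r.s hinj muInf muInf hF)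
    (fun x => by funext v; show x (r.s (r.s v)) = x v; rw [r.s_s])
    (fun e => r.left e.1 e.2) σ (fun e => r.left3 e.1 e.2)
    (fun e => σ.left_inv e) (fun e => r.sg e.2.1) (fun e => r.sg_or _)
    (fun e => by
      show r.sg (r.tm e.2).1 = r.sg e.2.1
      rw [r.tm_dm, r.sg_dm])
    (fun e => rfl) hc hs
    (fun e he x z => by
      have h1 := r.left2 e.1 e.2 he
      exact hchi _ _ e (by rw [Pi.add_apply, hPz z _ h1.1, add_zero])
        (by rw [Pi.add_apply, hPz z _ h1.2, add_zero]))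
    (fun x => by
      refine ⟨relabel r.s x - x, fun e he z => ?_⟩
      have h1 := r.left1 e.1 e.2 he
      have h2 : ∀ v, r.lam v ≤ 0 → (relabel r.s x + P z) v =
          (x + P (relabel r.s x - x + z)) v := by
        intro v hv'
        rcases hv'.lt_or_eq with h3 | h3
        · have h4 : ∀ w : Ginf, P w v = w v := fun w => proj_of_mem (by exact h3) w
          rw [Pi.add_apply, Pi.add_apply, h4, h4, Pi.add_apply, Pi.sub_apply]
          abel
        · rw [Pi.add_apply, Pi.add_apply, hPz _ _ h3.ge, hPz _ _ h3.ge]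
          show x (r.s v) + 0 = x v + 0
          rw [r.lam_s v h3]
      exact hchi _ _ e (h2 _ h1.1) (h2 _ h1.2))
    (fun y z => (map_add P y z).symm)
    (twR R y) (fun e he => hy e.1 e.1.2 ⟨e.2, he⟩ e.2.1)
  refine le_trans (le_of_eq ?_) key
  unfold qR
  congr 1
  ext e
  show y e.1 e.2.1 + r.sg e.2.1 * y (r.cm e.1) (r.dm e.2.1) =
    y e.1 e.2.1 + r.sg e.2.1 * y (r.cm e.1) (r.tm e.2).1
  rw [r.tm_dm]

end Refl

/-- reflection through the vertical line `x = a` -/
def rV (a : ℤ) : Refl where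
  s v := (2 * a - v.1, v.2)
  cm c := (2 * a - 1 - c.1, c.2)
  tm t := (t.1, if t.1 then !t.2 else t.2)
  dm d := d
  sg d := if d then 1 else -1
  lam v := v.1 - a
  left c _ := c.1 < a
  s_s v := by ext <;> simp
  cm_cm c := by ext <;> simp
  tm_tm t := by rcases t with ⟨_ | _, _ | _⟩ <;> rfl
  tm_dm t := rfl
  dm_dm d := rfl
  sg_or d := by cases d <;> simp
  sg_dm d := rfl
  ends c t := by
    rcases t with ⟨_ | _, _ | _⟩
    · right; simp [hu, hv]; constructor <;> ring
    · right; simp [hu, hv]; constructor <;> ring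
    · left; simp [hu, hv]; ring
    · left; simp [hu, hv]; ring
  lam_s v h := by ext <;> simp <;> omega
  left1 c t h := by
    rcases t with ⟨_ | _, _ | _⟩ <;> simp [hu, hv] <;> omega
  left2 c t h := by
    rcases t with ⟨_ | _, _ | _⟩ <;> simp [hu, hv] <;> omega
  left3 c t := by simp only; omega

/-- reflection through the horizontal line `y = a` -/
def rH (a : ℤ) : Refl where
  s v := (v.1, 2 * a - v.2)
  cm c := (c.1, 2 * a - 1 - c.2)
  tm t := (t.1, if t.1 then t.2 else !t.2)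
  dm d := d
  sg d := if d then -1 else 1
  lam v := v.2 - a
  left c _ := c.2 < a
  s_s v := by ext <;> simp
  cm_cm c := by ext <;> simp
  tm_tm t := by rcases t with ⟨_ | _, _ | _⟩ <;> rfl
  tm_dm t := rfl
  dm_dm d := rfl
  sg_or d := by cases d <;> simp
  sg_dm d := rfl
  ends c t := by
    rcases t with ⟨_ | _, _ | _⟩
    · left; simp [hu, hv]; ring
    · left; simp [hu, hv]; ring
    · right; simp [hu, hv]; constructor <;> ring
    · right; simp [hu, hv]; constructor <;> ring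
  lam_s v h := by ext <;> simp <;> omega
  left1 c t h := by
    rcases t with ⟨_ | _, _ | _⟩ <;> simp [hu, hv] <;> omega
  left2 c t h := by
    rcases t with ⟨_ | _, _ | _⟩ <;> simp [hu, hv] <;> omega
  left3 c t := by simp only; omega

/-- reflection through the diagonal `x - y = a` -/
def rD (a : ℤ) : Refl where
  s v := (v.2 + a, v.1 - a)
  cm c := (c.2 + a, c.1 - a)
  tm t := (!t.1, t.2)
  dm d := !d
  sg _ := 1
  lam v := v.1 - v.2 - a
  left c t := (hu c t).1 - (hu c t).2 + ((hv c t).1 - (hv c t).2) < 2 * a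
  s_s v := by ext <;> simp
  cm_cm c := by ext <;> simp
  tm_tm t := by rcases t with ⟨_ | _, _ | _⟩ <;> rfl
  tm_dm t := rfl
  dm_dm d := by cases d <;> rfl
  sg_or d := Or.inl rfl
  sg_dm d := rfl
  ends c t := by
    left
    rcases t with ⟨_ | _, _ | _⟩ <;> simp [hu, hv] <;> ring_nf <;> simp
  lam_s v h := by ext <;> simp <;> omega
  left1 c t h := by
    rcases t with ⟨_ | _, _ | _⟩ <;> simp [hu, hv] at h ⊢ <;> omega
  left2 c t h := by
    rcases t with ⟨_ | _, _ | _⟩ <;> simp [hu, hv] at h ⊢ <;> omega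
  left3 c t := by
    rcases t with ⟨_ | _, _ | _⟩ <;> simp [hu, hv] <;> omega

/-- reflection through the antidiagonal `x + y = a` -/
def rA (a : ℤ) : Refl where
  s v := (a - v.2, a - v.1)
  cm c := (a - 1 - c.2, a - 1 - c.1)
  tm t := (!t.1, !t.2)
  dm d := !d
  sg _ := -1
  lam v := v.1 + v.2 - a
  left c t := (hu c t).1 + (hu c t).2 + ((hv c t).1 + (hv c t).2) < 2 * a
  s_s v := by ext <;> simp
  cm_cm c := by ext <;> simp
  tm_tm t := by rcases t with ⟨_ | _, _ | _⟩ <;> rfl
  tm_dm t := rfl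
  dm_dm d := by cases d <;> rfl
  sg_or d := Or.inr rfl
  sg_dm d := rfl
  ends c t := by
    right
    rcases t with ⟨_ | _, _ | _⟩ <;> simp [hu, hv] <;> ring_nf <;> simp
  lam_s v h := by ext <;> simp <;> omega
  left1 c t h := by
    rcases t with ⟨_ | _, _ | _⟩ <;> simp [hu, hv] at h ⊢ <;> omega
  left2 c t h := by
    rcases t with ⟨_ | _, _ | _⟩ <;> simp [hu, hv] at h ⊢ <;> omega
  left3 c t := by
    rcases t with ⟨_ | _, _ | _⟩ <;> simp [hu, hv] <;> omega

end Vale.Agent.P159.H950
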