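import Vale.Agent.P159.H950.B3
import Vale.Agent.P159.H177.Lim

/-!
The upper bound for the twisted partition function of a region in terms of the stiffness.
-/

set_option linter.all false
set_option autoImplicit false

open MeasureTheory Filter Topology
open scoped BigOperators

namespace Vale.Agent.P159.H950

open Vale.Agent.P159 Vale.Agent.P159.UJ

/-- number of the tile of side `l` containing the cell -/
def tl (l : ℕ) (c : ℤ × ℤ) : ℤ × ℤ := (c.1 / l, c.2 / l)

/-- corner of the tile number `k` -/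
def crn (l : ℕ) (k : ℤ × ℤ) : ℤ × ℤ := (l * k.1, l * k.2)

theorem mem_tile {l : ℕ} (hl : 1 ≤ l) {c k : ℤ × ℤ} : c ∈ blk (crn l k) l ↔ tl l c = k := by
  have hl0 : (0 : ℤ) < l := by exact_mod_cast hl
  rw [mem_blk]
  unfold tl crn
  constructor
  · rintro ⟨h1, h2, h3, h4⟩
    simp only at h1 h2 h3 h4
    have e1 : c.1 / (l : ℤ) = k.1 :=
      le_antisymm (Int.lt_add_one_iff.1 (Int.ediv_lt_of_lt_mul hl0 (by linarith)))
        (Int.le_ediv_of_mul_le hl0 (by linarith))
    have e2 : c.2 / (l : ℤ) = k.2 :=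
      le_antisymm (Int.lt_add_one_iff.1 (Int.ediv_lt_of_lt_mul hl0 (by linarith)))
        (Int.le_ediv_of_mul_le hl0 (by linarith))
    rw [e1, e2]
  · rintro rfl
    simp only
    have a1 := Int.mul_ediv_add_emod c.1 l
    have a2 := Int.mul_ediv_add_emod c.2 l
    have b1 := Int.emod_nonneg c.1 hl0.ne'
    have b2 := Int.emod_nonneg c.2 hl0.ne'
    have d1 := Int.emod_lt_of_pos c.1 hl0
    have d2 := Int.emod_lt_of_pos c.2 hl0
    refine ⟨?_, ?_, ?_, ?_⟩ <;> linarith

/-- cells of the region in tiles that are not contained in the region -/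
noncomputable def cutR (R : Finset (ℤ × ℤ)) (l : ℕ) : Finset (ℤ × ℤ) := by
  classical exact R.filter fun c => ¬ (blk (crn l (tl l c)) l ⊆ R)

/-- value at the corner of the tile -/
def corF (l : ℕ) (y : Fld) : Fld := fun c d => y (crn l (tl l c)) d

theorem sum_tiles (R : Finset (ℤ × ℤ)) (l : ℕ) (F : ℤ × ℤ → ℝ) :
    ∑ k ∈ R.image (tl l), ∑ c ∈ R.filter (fun c => tl l c = k), F c = ∑ c ∈ R, F c :=
  Finset.sum_fiberwise_of_maps_to (fun c hc => Finset.mem_image_of_mem _ hc) F

/-- one full tile -/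
theorem full_tile {b : ℝ} (hb : 0 < b) {l : ℕ} (hl : 1 ≤ l) (k : ℤ × ℤ) (y : Fld) {η : ℝ}
    (hη : 0 < η) (hη1 : η ≤ 1) :
    qR b (blk (crn l k) l) y ≤ (1 + η) ^ 2 * stiff l b * nR (blk (crn l k) l) y +
      (1 + 1 / η) * (3 * b) * nR (blk (crn l k) l) (y - corF l y) := by
  set B := blk (crn l k) l with hB
  obtain ⟨u, hu⟩ : ∃ u, u = y (crn l k) false := ⟨_, rfl⟩
  obtain ⟨w, hw⟩ : ∃ w, w = y (crn l k) true := ⟨_, rfl⟩
  have hcor : ∀ c ∈ B, corF l y c = cst u w c := by
    intro c hc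
    have h1 := (mem_tile hl).1 hc
    funext d
    unfold corF cst
    rw [h1]
    cases d
    · simp [hu]
    · simp [hw]
  have e0 : y = corF l y + (y - corF l y) := by rw [add_sub_cancel]
  have h1 : qR b B y ≤ (1 + η) * qR b B (corF l y) + (1 + 1 / η) * qR b B (y - corF l y) := by
    have := qR_add_le hb.le B (corF l y) (y - corF l y) hη
    rwa [← e0] at this
  have h2 : qR b B (corF l y) = stiff l b * nR B (corF l y) := by
    rw [qR_congr b hcor, nR_congr hcor, nR_const, hB, qR_const b _ l hl, card_blk]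
    push_cast
    ring
  have h3 : nR B (corF l y) ≤ (1 + η) * nR B y + (1 + 1 / η) * nR B (y - corF l y) := by
    have := nR_add_le B y (-(y - corF l y)) hη
    have e1 : y + -(y - corF l y) = corF l y := by abel
    have e2 : nR B (-(y - corF l y)) = nR B (y - corF l y) := by
      have := nR_smul B (-1) (y - corF l y)
      rw [neg_one_smul] at this
      rw [this]; ring
    rwa [e1, e2] at this
  have h4 := qR_le hb.le B (y - corF l y)
  have hS0 : 0 ≤ stiff l b := UJ.h3_stiff_nonneg hb hl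
  have hSb : stiff l b ≤ b := UJ.h3_stiff_le hb hl
  have hn := nR_nonneg B (y - corF l y)
  have hi : 0 < 1 / η := by positivity
  have h5 : (1 + η) * qR b B (corF l y) ≤ (1 + η) * (stiff l b * ((1 + η) * nR B y +
      (1 + 1 / η) * nR B (y - corF l y))) := by
    rw [h2]
    exact mul_le_mul_of_nonneg_left (mul_le_mul_of_nonneg_left h3 hS0) (by linarith)
  have h6 : (1 + 1 / η) * qR b B (y - corF l y) ≤ (1 + 1 / η) * (b * nR B (y - corF l y)) :=
    mul_le_mul_of_nonneg_left h4 (by linarith)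
  have h7 : (1 + η) * (stiff l b * ((1 + 1 / η) * nR B (y - corF l y))) ≤
      (1 + 1 / η) * (2 * b * nR B (y - corF l y)) := by
    have a1 : (1 + η) * stiff l b ≤ 2 * b := by nlinarith only [hη1, hS0, hSb, hη]
    have a2 : 0 ≤ (1 + 1 / η) * nR B (y - corF l y) := by positivity
    nlinarith only [mul_le_mul_of_nonneg_right a1 a2]
  nlinarith only [h1, h5, h6, h7]

/-- the upper bound for a region -/
theorem ub_core {b : ℝ} (hb : 0 < b) {l : ℕ} (hl : 1 ≤ l) (R : Finset (ℤ × ℤ)) (y : Fld)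
    {η : ℝ} (hη : 0 < η) (hη1 : η ≤ 1) {δ : ℝ} (hδ0 : 0 ≤ δ) (hδ1 : δ ≤ 1)
    (hδ : 4 * b * (l : ℝ) ^ 2 * δ ≤ 1) (hy : ∀ c ∈ R, ∀ d, |y c d| ≤ δ) :
    rR b R y ≤ Real.exp ((1 + η) ^ 2 * stiff l b * nR R y / 2 +
      (1 + 1 / η) * (3 * b) * nR R (y - corF l y) + K5 (2 * b * (l : ℝ) ^ 2) * δ ^ 4 * R.card +
      2 * b * δ ^ 2 * (cutR R l).card) := by
  classical
  have hS0 : 0 ≤ stiff l b := UJ.h3_stiff_nonneg hb hl
  have hK : 0 ≤ K5 (2 * b * (l : ℝ) ^ 2) := K5_nonneg (by positivity)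
  have hi : 0 < 1 / η := by positivity
  refine (rR_tile hb.le R (R.image (tl l)) (tl l)
    (fun c hc => Finset.mem_image_of_mem _ hc) y).trans ?_
  set F : ℤ × ℤ → ℝ := fun c => (1 + η) ^ 2 * stiff l b * sq2 y c / 2 +
      (1 + 1 / η) * (3 * b) * sq2 (y - corF l y) c + K5 (2 * b * (l : ℝ) ^ 2) * δ ^ 4 +
      2 * b * δ ^ 2 * (if c ∈ cutR R l then 1 else 0) with hF
  have hsumF : ∀ A : Finset (ℤ × ℤ), ∑ c ∈ A, F c = (1 + η) ^ 2 * stiff l b * nR A y / 2 +
      (1 + 1 / η) * (3 * b) * nR A (y - corF l y) + K5 (2 * b * (l : ℝ) ^ 2) * δ ^ 4 * A.card +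
      2 * b * δ ^ 2 * (A.filter fun c => c ∈ cutR R l).card := by
    intro A
    simp only [hF]
    rw [Finset.sum_add_distrib, Finset.sum_add_distrib, Finset.sum_add_distrib,
      ← Finset.sum_div, ← Finset.mul_sum, ← Finset.mul_sum, Finset.sum_const,
      ← Finset.mul_sum, Finset.sum_boole, nsmul_eq_mul]
    unfold nR
    ring
  have hcut : R.filter (fun c => c ∈ cutR R l) = cutR R l := by
    ext c
    rw [Finset.mem_filter]
    constructor
    · exact fun h => h.2
    · exact fun h => ⟨(Finset.mem_filter.1 h).1, h⟩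
  have hend := hsumF R
  rw [hcut] at hend
  rw [← hend, ← sum_tiles R l F, Real.exp_sum]
  refine Finset.prod_le_prod (fun k _ => (rR_pos hb.le _ _).le) fun k hk => ?_
  rw [hsumF]
  set A := R.filter fun c => tl l c = k with hA
  have hAR : A ⊆ R := Finset.filter_subset _ _
  have hyA : ∀ c ∈ A, ∀ d, |y c d| ≤ δ := fun c hc => hy c (hAR hc)
  by_cases hfull : blk (crn l k) l ⊆ R
  · have hAe : A = blk (crn l k) l := by
      ext c
      rw [hA, Finset.mem_filter, mem_tile hl]
      exact ⟨fun h => h.2, fun h => ⟨hfull ((mem_tile hl).2 h), h⟩⟩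
    have hcard : (A.card : ℝ) = (l : ℝ) ^ 2 := by
      rw [hAe, card_blk]; push_cast; rfl
    have h1 := rR_upper hb.le A y hδ0 hδ1 (by rw [hcard]; exact hδ) hyA
    refine h1.trans (Real.exp_le_exp.2 ?_)
    have h2 := full_tile hb hl k y hη hη1
    rw [← hAe] at h2
    have hA1 : (1 : ℝ) ≤ A.card := by
      rw [hcard]
      have : (1 : ℝ) ≤ l := by exact_mod_cast hl
      nlinarith only [this]
    rw [hcard] at h1 ⊢
    rw [hcard] at hA1
    have h3 : K5 (2 * b * (l : ℝ) ^ 2) * δ ^ 4 ≤ K5 (2 * b * (l : ℝ) ^ 2) * δ ^ 4 * (l : ℝ) ^ 2 :=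
      le_mul_of_one_le_right (by positivity) hA1
    have h4 : 0 ≤ 2 * b * δ ^ 2 * ((A.filter fun c => c ∈ cutR R l).card : ℝ) := by positivity
    have h5 : 0 ≤ (1 + 1 / η) * (3 * b) * nR A (y - corF l y) := by
      have := nR_nonneg A (y - corF l y)
      positivity
    linarith only [h2, h3, h4, h5]
  · have h1 := rR_trivial hb.le A y (fun c hc d => (hyA c hc d).trans hδ1)
    refine h1.trans (Real.exp_le_exp.2 ?_)
    have h2 : A.filter (fun c => c ∈ cutR R l) = A := by
      ext c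
      rw [Finset.mem_filter]
      refine ⟨fun h => h.1, fun h => ⟨h, ?_⟩⟩
      unfold cutR
      rw [Finset.mem_filter]
      refine ⟨hAR h, ?_⟩
      rw [(Finset.mem_filter.1 h).2]
      exact hfull
    rw [h2]
    have h3 : nR A y ≤ 2 * δ ^ 2 * A.card := by
      unfold nR
      have : ∑ c ∈ A, sq2 y c ≤ ∑ _c ∈ A, 2 * δ ^ 2 := by
        refine Finset.sum_le_sum fun c hc => ?_
        unfold sq2
        have a1 := pow_le_pow_left₀ (abs_nonneg _) (hyA c hc false) 2
        have a2 := pow_le_pow_left₀ (abs_nonneg _) (hyA c hc true) 2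
        rw [sq_abs] at a1 a2
        linarith
      rw [Finset.sum_const, nsmul_eq_mul] at this
      linarith
    have h4 : 0 ≤ (1 + η) ^ 2 * stiff l b * nR A y / 2 := by
      have := nR_nonneg A y
      positivity
    have h5 : 0 ≤ (1 + 1 / η) * (3 * b) * nR A (y - corF l y) := by
      have := nR_nonneg A (y - corF l y)
      positivity
    have h6 : 0 ≤ K5 (2 * b * (l : ℝ) ^ 2) * δ ^ 4 * (A.card : ℝ) := by positivity
    have h7 : b * nR A y ≤ b * (2 * δ ^ 2 * A.card) := mul_le_mul_of_nonneg_left h3 hb.le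
    linarith only [h4, h5, h6, h7]

end Vale.Agent.P159.H950
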