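import Vale.Agent.P159.H950.C1

/-!
Asymptotics of the upper bound.
-/

set_option linter.all false
set_option autoImplicit false

open MeasureTheory Filter Topology
open scoped BigOperators

namespace Vale.Agent.P159.H950

open Vale.Agent.P159 Vale.Agent.P159.UJ

/-- the box of cells `[-m,m)²` -/
noncomputable def bx (m : ℕ) : Finset (ℤ × ℤ) :=
  Finset.Ico (-(m : ℤ)) m ×ˢ Finset.Ico (-(m : ℤ)) m

theorem mem_bx {m : ℕ} {c : ℤ × ℤ} : c ∈ bx m ↔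
    -(m : ℤ) ≤ c.1 ∧ c.1 < m ∧ -(m : ℤ) ≤ c.2 ∧ c.2 < m := by
  unfold bx
  rw [Finset.mem_product, Finset.mem_Ico, Finset.mem_Ico]
  tauto

theorem bx_mono {m n : ℕ} (h : m ≤ n) : bx m ⊆ bx n := by
  intro c hc
  rw [mem_bx] at hc ⊢
  omega

theorem card_bx (m : ℕ) : (bx m).card = (2 * m) ^ 2 := by
  unfold bx
  rw [Finset.card_product, Int.card_Ico]
  have : ((m : ℤ) - -(m : ℤ)).toNat = 2 * m := by omega
  rw [this]
  ring

/-- vertical strip -/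
noncomputable def st1 (m : ℕ) (a : ℤ) (l : ℕ) : Finset (ℤ × ℤ) :=
  Finset.Icc (a - l) (a + l) ×ˢ Finset.Ico (-(m : ℤ)) m

/-- horizontal strip -/
noncomputable def st2 (m : ℕ) (a : ℤ) (l : ℕ) : Finset (ℤ × ℤ) :=
  Finset.Ico (-(m : ℤ)) m ×ˢ Finset.Icc (a - l) (a + l)

theorem card_st1 (m : ℕ) (a : ℤ) (l : ℕ) : (st1 m a l).card = (2 * l + 1) * (2 * m) := by
  unfold st1
  rw [Finset.card_product, Int.card_Icc, Int.card_Ico]
  have h1 : (a + l + 1 - (a - l)).toNat = 2 * l + 1 := by omega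
  have h2 : ((m : ℤ) - -(m : ℤ)).toNat = 2 * m := by omega
  rw [h1, h2]

theorem card_st2 (m : ℕ) (a : ℤ) (l : ℕ) : (st2 m a l).card = (2 * l + 1) * (2 * m) := by
  unfold st2
  rw [Finset.card_product, Int.card_Icc, Int.card_Ico]
  have h1 : (a + l + 1 - (a - l)).toNat = 2 * l + 1 := by omega
  have h2 : ((m : ℤ) - -(m : ℤ)).toNat = 2 * m := by omega
  rw [h1, h2]
  ring

theorem cut_subset {m l : ℕ} (hl : 1 ≤ l) {p p' : ℤ × ℤ} {L L' : ℕ} (h : blk p L ⊆ bx m) :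
    cutR (blk p L \ blk p' L') l ⊆
      (st1 m p.1 l ∪ st1 m (p.1 + L) l ∪ st1 m p'.1 l ∪ st1 m (p'.1 + L') l) ∪
      (st2 m p.2 l ∪ st2 m (p.2 + L) l ∪ st2 m p'.2 l ∪ st2 m (p'.2 + L') l) := by
  intro c hc
  unfold cutR at hc
  rw [Finset.mem_filter, Finset.mem_sdiff] at hc
  obtain ⟨⟨h1, h2⟩, h3⟩ := hc
  rw [Finset.not_subset] at h3
  obtain ⟨c', h4, h5⟩ := h3
  have hcm := mem_bx.1 (h h1)
  have hct : c ∈ blk (crn l (tl l c)) l := (mem_tile hl).2 rfl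
  rw [mem_blk] at hct h4
  have hc1 : |c.1 - c'.1| ≤ l := by rw [abs_le]; omega
  have hc2 : |c.2 - c'.2| ≤ l := by rw [abs_le]; omega
  rw [abs_le] at hc1 hc2
  rw [Finset.mem_sdiff, mem_blk, mem_blk] at h5
  rw [mem_blk] at h1 h2
  simp only [Finset.mem_union, st1, st2, Finset.mem_product, Finset.mem_Icc, Finset.mem_Ico]
  by_contra hcon
  push Not at hcon
  obtain ⟨⟨⟨⟨k1, k2⟩, k3⟩, k4⟩, ⟨⟨k5, k6⟩, k7⟩, k8⟩ := hcon
  omega

theorem card_cut {m l : ℕ} (hl : 1 ≤ l) {p p' : ℤ × ℤ} {L L' : ℕ} (h : blk p L ⊆ bx m) :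
    (cutR (blk p L \ blk p' L') l).card ≤ 16 * (2 * l + 1) * m := by
  refine (Finset.card_le_card (cut_subset hl h)).trans ?_
  have h1 := Finset.card_union_le (st1 m p.1 l ∪ st1 m (p.1 + L) l ∪ st1 m p'.1 l ∪
    st1 m (p'.1 + L') l) (st2 m p.2 l ∪ st2 m (p.2 + L) l ∪ st2 m p'.2 l ∪ st2 m (p'.2 + L') l)
  have h2 := Finset.card_union_le (st1 m p.1 l ∪ st1 m (p.1 + L) l ∪ st1 m p'.1 l)
    (st1 m (p'.1 + L') l)
  have h3 := Finset.card_union_le (st1 m p.1 l ∪ st1 m (p.1 + L) l) (st1 m p'.1 l)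
  have h4 := Finset.card_union_le (st1 m p.1 l) (st1 m (p.1 + L) l)
  have h5 := Finset.card_union_le (st2 m p.2 l ∪ st2 m (p.2 + L) l ∪ st2 m p'.2 l)
    (st2 m (p'.2 + L') l)
  have h6 := Finset.card_union_le (st2 m p.2 l ∪ st2 m (p.2 + L) l) (st2 m p'.2 l)
  have h7 := Finset.card_union_le (st2 m p.2 l) (st2 m (p.2 + L) l)
  simp only [card_st1, card_st2] at h1 h2 h3 h4 h5 h6 h7
  nlinarith only [h1, h2, h3, h4, h5, h6, h7]

/-- sequences of fields -/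
abbrev SF : Type := ℕ → Fld

/-- bounded, locally asymptotically constant sequences of fields -/
structure VF (f : SF) : Prop where
  bdd : ∀ K : ℕ, ∃ M : ℝ, ∀ N : ℕ, 1 ≤ N → ∀ c ∈ bx (K * N), ∀ d, |f N c d| ≤ M
  osc : ∀ K l : ℕ, 1 ≤ l → Tendsto
    (fun N : ℕ => nR (bx (K * N)) (f N - corF l (f N)) / (N : ℝ) ^ 2) atTop (𝓝 0)

theorem nR_bound {R : Finset (ℤ × ℤ)} {y : Fld} {M : ℝ} (h : ∀ c ∈ R, ∀ d, |y c d| ≤ M) :
    nR R y ≤ 2 * M ^ 2 * R.card := by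
  unfold nR
  have : ∑ c ∈ R, sq2 y c ≤ ∑ _c ∈ R, 2 * M ^ 2 := by
    refine Finset.sum_le_sum fun c hc => ?_
    unfold sq2
    have a1 := pow_le_pow_left₀ (abs_nonneg _) (h c hc false) 2
    have a2 := pow_le_pow_left₀ (abs_nonneg _) (h c hc true) 2
    rw [sq_abs] at a1 a2
    linarith
  rw [Finset.sum_const, nsmul_eq_mul] at this
  linarith

/-- the norm of a bounded sequence is bounded -/
theorem VF.norm {f : SF} (hf : VF f) (K : ℕ) : ∃ B : ℝ, 0 ≤ B ∧ ∀ N : ℕ, 1 ≤ N →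
    nR (bx (K * N)) (f N) / (N : ℝ) ^ 2 ≤ B := by
  obtain ⟨M, hM⟩ := hf.bdd K
  refine ⟨2 * M ^ 2 * (2 * K) ^ 2, by positivity, fun N hN => ?_⟩
  have hN0 : (0 : ℝ) < N := by exact_mod_cast hN
  rw [div_le_iff₀ (by positivity)]
  refine (nR_bound (hM N hN)).trans (le_of_eq ?_)
  rw [card_bx]
  push_cast
  ring

theorem nR_div (R : Finset (ℤ × ℤ)) (y : Fld) (N : ℕ) :
    nR R ((N : ℝ)⁻¹ • y) = nR R y / (N : ℝ) ^ 2 := by
  rw [nR_smul, inv_pow]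
  ring

theorem qR_div (b : ℝ) (R : Finset (ℤ × ℤ)) (y : Fld) (N : ℕ) :
    qR b R ((N : ℝ)⁻¹ • y) = qR b R y / (N : ℝ) ^ 2 := by
  rw [qR_smul, inv_pow]
  ring

theorem corF_smul (l : ℕ) (s : ℝ) (y : Fld) : corF l (s • y) = s • corF l y := rfl

/-- upper bound for the twisted partition function of regions -/
theorem ub_asym {b : ℝ} (hb : 0 < b) {Y : ℝ} (hY : Tendsto (fun l : ℕ => stiff l b) atTop (𝓝 Y))
    {f : SF} (hf : VF f) (K : ℕ) {ε : ℝ} (hε : 0 < ε) :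
    ∀ᶠ N : ℕ in atTop, ∀ (p p' : ℤ × ℤ) (L L' : ℕ), blk p L ⊆ bx (K * N) →
      rR b (blk p L \ blk p' L') ((N : ℝ)⁻¹ • f N) ≤
        Real.exp (Y * (nR (blk p L \ blk p' L') (f N) / (N : ℝ) ^ 2) / 2 + ε) := by
  obtain ⟨M, hM⟩ := hf.bdd K
  obtain ⟨B, hB0, hB⟩ := hf.norm K
  -- choice of the tile size
  have ht : ∀ᶠ l : ℕ in atTop, stiff l b < Y + ε / (4 * (B + 1)) :=
    hY.eventually (gt_mem_nhds (by
      have : 0 < ε / (4 * (B + 1)) := by positivity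
      linarith))
  obtain ⟨l, hl2, hl⟩ := (ht.and (eventually_ge_atTop 1)).exists
  have hS0 : 0 ≤ stiff l b := UJ.h3_stiff_nonneg hb hl
  have hSb : stiff l b ≤ b := UJ.h3_stiff_le hb hl
  -- choice of eta
  obtain ⟨η, hη, hη1, hη2⟩ : ∃ η : ℝ, 0 < η ∧ η ≤ 1 ∧ 3 * η * b * (B + 1) ≤ ε / 4 := by
    refine ⟨min 1 (ε / 4 / (3 * b * (B + 1))), by positivity, min_le_left _ _, ?_⟩
    have h1 : min 1 (ε / 4 / (3 * b * (B + 1))) ≤ ε / 4 / (3 * b * (B + 1)) := min_le_right _ _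
    have h2 : 0 < 3 * b * (B + 1) := by positivity
    rw [le_div_iff₀ h2] at h1
    linarith
  have hN1 : Tendsto (fun N : ℕ => (N : ℝ)⁻¹) atTop (𝓝 0) := tendsto_inv_atTop_nhds_zero_nat
  -- small quantities
  have l1 : Tendsto (fun N : ℕ => |M| * (N : ℝ)⁻¹) atTop (𝓝 0) := by
    simpa using hN1.const_mul |M|
  have l2 : Tendsto (fun N : ℕ => 4 * b * (l : ℝ) ^ 2 * (|M| * (N : ℝ)⁻¹)) atTop (𝓝 0) := by
    simpa using l1.const_mul (4 * b * (l : ℝ) ^ 2)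
  have l3 : Tendsto (fun N : ℕ => (1 + 1 / η) * (3 * b) *
      (nR (bx (K * N)) (f N - corF l (f N)) / (N : ℝ) ^ 2)) atTop (𝓝 0) := by
    simpa using (hf.osc K l hl).const_mul ((1 + 1 / η) * (3 * b))
  have l4 : Tendsto (fun N : ℕ => K5 (2 * b * (l : ℝ) ^ 2) * M ^ 4 * (2 * K) ^ 2 *
      ((N : ℝ)⁻¹ * (N : ℝ)⁻¹)) atTop (𝓝 0) := by
    simpa using (hN1.mul hN1).const_mul (K5 (2 * b * (l : ℝ) ^ 2) * M ^ 4 * (2 * K) ^ 2)
  have l5 : Tendsto (fun N : ℕ => 2 * b * M ^ 2 * (16 * (2 * l + 1) * K) * (N : ℝ)⁻¹) atTop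
      (𝓝 0) := by
    simpa using hN1.const_mul (2 * b * M ^ 2 * (16 * (2 * l + 1) * K))
  have hε4 : (0 : ℝ) < ε / 8 := by positivity
  filter_upwards [l1.eventually (ge_mem_nhds one_pos), l2.eventually (ge_mem_nhds one_pos),
    l3.eventually (ge_mem_nhds hε4), l4.eventually (ge_mem_nhds hε4),
    l5.eventually (ge_mem_nhds hε4), eventually_ge_atTop 1] with N e1 e2 e3 e4 e5 e6
  intro p p' L L' hsub
  have hN0 : (0 : ℝ) < N := by exact_mod_cast e6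
  set R := blk p L \ blk p' L' with hR
  have hRsub : R ⊆ bx (K * N) := Finset.sdiff_subset.trans hsub
  have hδ0 : 0 ≤ |M| * (N : ℝ)⁻¹ := by positivity
  have h := ub_core hb hl R ((N : ℝ)⁻¹ • f N) hη hη1 hδ0 e1 e2 (fun c hc d => by
    rw [Pi.smul_apply, Pi.smul_apply, smul_eq_mul, abs_mul, abs_of_pos (inv_pos.2 hN0), mul_comm]
    exact mul_le_mul_of_nonneg_right ((hM N e6 c (hRsub hc) d).trans (le_abs_self M))
      (inv_nonneg.2 hN0.le))
  refine h.trans (Real.exp_le_exp.2 ?_)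
  rw [corF_smul, ← smul_sub, nR_div, nR_div]
  obtain ⟨n, hn⟩ : ∃ n, n = nR R (f N) / (N : ℝ) ^ 2 := ⟨_, rfl⟩
  have hn0 : 0 ≤ n := by rw [hn]; exact div_nonneg (nR_nonneg _ _) (by positivity)
  have hnB : n ≤ B := by
    rw [hn]
    exact (div_le_div_of_nonneg_right (nR_mono hRsub _) (by positivity)).trans (hB N e6)
  rw [← hn]
  -- the four error terms
  have t1 : (1 + 1 / η) * (3 * b) * (nR R (f N - corF l (f N)) / (N : ℝ) ^ 2) ≤ ε / 8 := by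
    refine le_trans (mul_le_mul_of_nonneg_left (div_le_div_of_nonneg_right
      (nR_mono hRsub _) (by positivity)) (by positivity)) e3
  have hcardR : (R.card : ℝ) ≤ (2 * K) ^ 2 * (N : ℝ) ^ 2 := by
    have : (R.card : ℝ) ≤ ((bx (K * N)).card : ℝ) := by
      exact_mod_cast Finset.card_le_card hRsub
    rw [card_bx] at this
    push_cast at this
    linarith
  have hK : 0 ≤ K5 (2 * b * (l : ℝ) ^ 2) := K5_nonneg (by positivity)
  have t2 : K5 (2 * b * (l : ℝ) ^ 2) * (|M| * (N : ℝ)⁻¹) ^ 4 * R.card ≤ ε / 8 := by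
    refine le_trans (mul_le_mul_of_nonneg_left hcardR (by positivity)) (le_trans (le_of_eq ?_) e4)
    have hM4 : |M| ^ 4 = M ^ 4 := by
      rw [show (4 : ℕ) = 2 * 2 by norm_num, pow_mul, pow_mul, sq_abs]
    rw [mul_pow, hM4]
    field_simp
  have t3 : 2 * b * (|M| * (N : ℝ)⁻¹) ^ 2 * (cutR R l).card ≤ ε / 8 := by
    have hc := card_cut hl (p' := p') (L' := L') hsub
    have hc' : ((cutR R l).card : ℝ) ≤ 16 * (2 * l + 1) * (K * N) := by
      exact_mod_cast hc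
    refine le_trans (mul_le_mul_of_nonneg_left hc' (by positivity)) (le_trans (le_of_eq ?_) e5)
    rw [mul_pow, sq_abs]
    field_simp
  -- the main term
  have t4 : (1 + η) ^ 2 * stiff l b * n / 2 ≤ Y * n / 2 + ε / 2 := by
    have a1 : (1 + η) ^ 2 * stiff l b ≤ Y + ε / (4 * (B + 1)) + 3 * η * b := by
      have : (1 + η) ^ 2 ≤ 1 + 3 * η := by nlinarith only [hη, hη1]
      have h5 : (1 + η) ^ 2 * stiff l b ≤ (1 + 3 * η) * stiff l b :=
        mul_le_mul_of_nonneg_right this hS0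
      have h6 : 3 * η * stiff l b ≤ 3 * η * b := mul_le_mul_of_nonneg_left hSb (by positivity)
      linarith
    have a2 : ε / (4 * (B + 1)) * n ≤ ε / 4 := by
      have : ε / (4 * (B + 1)) * n ≤ ε / (4 * (B + 1)) * (B + 1) :=
        mul_le_mul_of_nonneg_left (by linarith) (by positivity)
      refine this.trans (le_of_eq ?_)
      field_simp
    have a3 : 3 * η * b * n ≤ ε / 4 := by
      have : 3 * η * b * n ≤ 3 * η * b * (B + 1) :=
        mul_le_mul_of_nonneg_left (by linarith) (by positivity)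
      linarith
    have a4 := mul_le_mul_of_nonneg_right a1 hn0
    rw [add_mul, add_mul] at a4
    linarith
  linarith

/-- upper bound for the quadratic form -/
theorem ubq {b : ℝ} (hb : 0 < b) {Y : ℝ} (hY : Tendsto (fun l : ℕ => stiff l b) atTop (𝓝 Y))
    {f : SF} (hf : VF f) (K : ℕ) {ε : ℝ} (hε : 0 < ε) :
    ∀ᶠ N : ℕ in atTop, ∀ (p p' : ℤ × ℤ) (L L' : ℕ), blk p L ⊆ bx (K * N) →
      qR b (blk p L \ blk p' L') (f N) / (N : ℝ) ^ 2 ≤
        Y * (nR (blk p L \ blk p' L') (f N) / (N : ℝ) ^ 2) + ε := by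
  filter_upwards [ub_asym hb hY hf K (half_pos hε)] with N hN
  intro p p' L L' hsub
  have h := (rR_ge hb.le (blk p L \ blk p' L') ((N : ℝ)⁻¹ • f N)).trans (hN p p' L L' hsub)
  rw [Real.exp_le_exp, qR_div] at h
  linarith

theorem blk_zero (p : ℤ × ℤ) : blk p 0 = ∅ := by
  ext c
  rw [mem_blk]
  simp only [Finset.notMem_empty, iff_false]
  push_cast
  omega

theorem ubq_blk {b : ℝ} (hb : 0 < b) {Y : ℝ} (hY : Tendsto (fun l : ℕ => stiff l b) atTop (𝓝 Y))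
    {f : SF} (hf : VF f) (K : ℕ) {ε : ℝ} (hε : 0 < ε) :
    ∀ᶠ N : ℕ in atTop, ∀ (p : ℤ × ℤ) (L : ℕ), blk p L ⊆ bx (K * N) →
      qR b (blk p L) (f N) / (N : ℝ) ^ 2 ≤
        Y * (nR (blk p L) (f N) / (N : ℝ) ^ 2) + ε := by
  filter_upwards [ubq hb hY hf K hε] with N hN p L hsub
  have := hN p 0 L 0 hsub
  rwa [blk_zero, Finset.sdiff_empty] at this

end Vale.Agent.P159.H950
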