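import Vale.Agent.P159.H950.C2

/-!
The asymptotic kernel of the defect form, and its stability properties.
-/

set_option linter.all false
set_option autoImplicit false

open MeasureTheory Filter Topology
open scoped BigOperators

namespace Vale.Agent.P159.H950

open Vale.Agent.P159 Vale.Agent.P159.UJ

/-- the defect form vanishes asymptotically along `f`, uniformly in the blocks -/
def Ker (b Y : ℝ) (f : SF) : Prop :=
  ∀ K : ℕ, ∀ ε : ℝ, 0 < ε → ∀ᶠ N : ℕ in atTop, ∀ (p : ℤ × ℤ) (L : ℕ), blk p L ⊆ bx (K * N) →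
    Y * (nR (blk p L) (f N) / (N : ℝ) ^ 2) - qR b (blk p L) (f N) / (N : ℝ) ^ 2 ≤ ε

theorem Ker.const {b : ℝ} {Y : ℝ} (hY : ∀ L : ℕ, 1 ≤ L → Y ≤ stiff L b) (u w : ℝ) :
    Ker b Y (fun _ => cst u w) := by
  intro K ε hε
  filter_upwards [eventually_ge_atTop 1] with N hN p L _
  have hN0 : (0 : ℝ) < N := by exact_mod_cast hN
  rcases Nat.eq_zero_or_pos L with rfl | hL
  · rw [blk_zero]
    have h1 : nR ∅ (cst u w) = 0 := by simp [nR]
    have h2 : qR b ∅ (cst u w) = 0 := by
      have := qR_smul b ∅ 0 (cst u w)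
      rw [← qR_congr b (R := ∅) (y := (0 : ℝ) • cst u w) (z := cst u w) (by simp)]
      rw [this]; ring
    rw [h1, h2]
    simp only [zero_div, mul_zero, sub_zero]
    exact hε.le
  · rw [qR_const b p L hL, nR_const, card_blk]
    have h3 := hY L hL
    have h4 : 0 ≤ (L : ℝ) ^ 2 * (u ^ 2 + w ^ 2) / (N : ℝ) ^ 2 := by positivity
    have h5 := mul_le_mul_of_nonneg_right h3 h4
    have e1 : Y * ((((L ^ 2 : ℕ) : ℝ) * (u ^ 2 + w ^ 2)) / (N : ℝ) ^ 2) =
        Y * ((L : ℝ) ^ 2 * (u ^ 2 + w ^ 2) / (N : ℝ) ^ 2) := by push_cast; ring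
    have e2 : (L : ℝ) ^ 2 * stiff L b * (u ^ 2 + w ^ 2) / (N : ℝ) ^ 2 =
        stiff L b * ((L : ℝ) ^ 2 * (u ^ 2 + w ^ 2) / (N : ℝ) ^ 2) := by ring
    rw [e1, e2]
    linarith

theorem VF.add {f g : SF} (hf : VF f) (hg : VF g) : VF (fun N => f N + g N) := by
  constructor
  · intro K
    obtain ⟨M, hM⟩ := hf.bdd K
    obtain ⟨M', hM'⟩ := hg.bdd K
    refine ⟨M + M', fun N hN c hc d => ?_⟩
    exact (abs_add_le _ _).trans (add_le_add (hM N hN c hc d) (hM' N hN c hc d))
  · intro K l hl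
    have h1 := ((hf.osc K l hl).const_mul 2).add ((hg.osc K l hl).const_mul 2)
    rw [mul_zero, add_zero] at h1
    refine squeeze_zero (fun N => div_nonneg (nR_nonneg _ _) (by positivity)) (fun N => ?_) h1
    have e1 : f N + g N - corF l (f N + g N) = (f N - corF l (f N)) + (g N - corF l (g N)) := by
      have : corF l (f N + g N) = corF l (f N) + corF l (g N) := rfl
      rw [this]; abel
    rw [e1]
    have h2 := nR_add_le (bx (K * N)) (f N - corF l (f N)) (g N - corF l (g N)) one_pos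
    rw [← mul_div_assoc, ← mul_div_assoc, ← add_div]
    refine div_le_div_of_nonneg_right ?_ (by positivity)
    linarith

theorem VF.smul {f : SF} (hf : VF f) (s : ℝ) : VF (fun N => s • f N) := by
  constructor
  · intro K
    obtain ⟨M, hM⟩ := hf.bdd K
    refine ⟨|s| * M, fun N hN c hc d => ?_⟩
    rw [Pi.smul_apply, Pi.smul_apply, smul_eq_mul, abs_mul]
    exact mul_le_mul_of_nonneg_left (hM N hN c hc d) (abs_nonneg _)
  · intro K l hl
    have h1 := (hf.osc K l hl).const_mul (s ^ 2)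
    rw [mul_zero] at h1
    refine h1.congr fun N => ?_
    rw [corF_smul, ← smul_sub, nR_smul]
    ring

theorem VF.neg {f : SF} (hf : VF f) : VF (fun N => - f N) := by
  have := hf.smul (-1)
  simpa using this

theorem VF.sub {f g : SF} (hf : VF f) (hg : VF g) : VF (fun N => f N - g N) := by
  have := hf.add hg.neg
  simpa [sub_eq_add_neg] using this

section

variable {b : ℝ} {Y : ℝ}

theorem Ker.add (hb : 0 < b) (hY : Tendsto (fun l : ℕ => stiff l b) atTop (𝓝 Y)) {f g : SF}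
    (vf : VF f) (vg : VF g) (hf : Ker b Y f) (hg : Ker b Y g) :
    Ker b Y (fun N => f N + g N) := by
  intro K ε hε
  have hε8 : 0 < ε / 8 := by positivity
  filter_upwards [hf K _ hε8, hg K _ hε8, ubq_blk hb hY (vf.sub vg) K hε8] with N h1 h2 h3 p L hs
  have a1 := h1 p L hs
  have a2 := h2 p L hs
  have a3 := h3 p L hs
  have b1 := qR_par b (blk p L) (f N) (g N)
  have b2 := nR_par (blk p L) (f N) (g N)
  have b3 : qR b (blk p L) (f N + g N) = 2 * qR b (blk p L) (f N) + 2 * qR b (blk p L) (g N) -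
      qR b (blk p L) (f N - g N) := by linarith
  have b4 : nR (blk p L) (f N + g N) = 2 * nR (blk p L) (f N) + 2 * nR (blk p L) (g N) -
      nR (blk p L) (f N - g N) := by linarith
  rw [b3, b4, sub_div, sub_div, add_div, add_div, mul_div_assoc, mul_div_assoc, mul_div_assoc,
    mul_div_assoc]
  nlinarith only [a1, a2, a3, hε]

theorem Ker.smul {f : SF} (hf : Ker b Y f) (s : ℝ) : Ker b Y (fun N => s • f N) := by
  intro K ε hε
  have h : 0 < ε / (s ^ 2 + 1) := by positivity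
  filter_upwards [hf K _ h] with N h1 p L hs
  have a1 := h1 p L hs
  rw [qR_smul, nR_smul]
  have e1 : Y * (s ^ 2 * nR (blk p L) (f N) / (N : ℝ) ^ 2) -
      s ^ 2 * qR b (blk p L) (f N) / (N : ℝ) ^ 2 = s ^ 2 * (Y * (nR (blk p L) (f N) / (N : ℝ) ^ 2) -
      qR b (blk p L) (f N) / (N : ℝ) ^ 2) := by ring
  rw [e1]
  refine (mul_le_mul_of_nonneg_left a1 (sq_nonneg s)).trans ?_
  rw [← mul_div_assoc, div_le_iff₀ (by positivity)]
  nlinarith only [hε, sq_nonneg s]

/-- perturbation of the defect form -/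
theorem pert (hb : 0 < b) (hY0 : 0 ≤ Y) (hYb : Y ≤ b) (R : Finset (ℤ × ℤ)) (y z : Fld) {η : ℝ}
    (hη : 0 < η) :
    Y * nR R z - qR b R z ≤ Y * nR R y - qR b R y + 2 * b * η * nR R y +
      2 * b * (1 + 1 / η) * nR R (y - z) := by
  have h1 := qR_add_le hb.le R z (y - z) hη
  have e1 : z + (y - z) = y := by abel
  rw [e1] at h1
  have h2 := nR_add_le R y (-(y - z)) hη
  have e2 : y + -(y - z) = z := by abel
  have e3 : nR R (-(y - z)) = nR R (y - z) := by
    have := nR_smul R (-1) (y - z)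
    rw [neg_one_smul] at this
    rw [this]; ring
  rw [e2, e3] at h2
  have h3 := qR_le hb.le R (y - z)
  have h4 := qR_le hb.le R z
  have h5 := qR_le hb.le R y
  have n1 := nR_nonneg R y
  have n2 := nR_nonneg R (y - z)
  have n3 := qR_nonneg hb.le R z
  have hi : 0 < 1 / η := by positivity
  -- q(z) ≥ q(y) - η b nR y - (1 + 1/η) b n
  have h6 : qR b R y - η * (b * nR R y) - (1 + 1 / η) * (b * nR R (y - z)) ≤ qR b R z := by
    by_cases hc : qR b R z ≤ b * nR R y
    · have : η * qR b R z ≤ η * (b * nR R y) := mul_le_mul_of_nonneg_left hc hη.le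
      have h7 : (1 + 1 / η) * qR b R (y - z) ≤ (1 + 1 / η) * (b * nR R (y - z)) :=
        mul_le_mul_of_nonneg_left h3 (by linarith)
      linarith
    · push Not at hc
      have a1 : 0 ≤ η * (b * nR R y) := by positivity
      have a2 : 0 ≤ (1 + 1 / η) * (b * nR R (y - z)) := by positivity
      linarith
  have h8 : Y * nR R z ≤ Y * nR R y + η * (b * nR R y) + (1 + 1 / η) * (b * nR R (y - z)) := by
    have a1 : Y * nR R z ≤ Y * ((1 + η) * nR R y + (1 + 1 / η) * nR R (y - z)) :=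
      mul_le_mul_of_nonneg_left h2 hY0
    have a2 : Y * (η * nR R y) ≤ b * (η * nR R y) :=
      mul_le_mul_of_nonneg_right hYb (by positivity)
    have a3 : Y * ((1 + 1 / η) * nR R (y - z)) ≤ b * ((1 + 1 / η) * nR R (y - z)) :=
      mul_le_mul_of_nonneg_right hYb (by positivity)
    nlinarith only [a1, a2, a3]
  nlinarith only [h6, h8]

/-- the kernel is closed -/
theorem Ker.closed (hb : 0 < b) (hY0 : 0 ≤ Y) (hYb : Y ≤ b) {f : SF}
    (hf : ∀ K : ℕ, ∃ B : ℝ, ∀ᶠ N : ℕ in atTop, nR (bx (K * N)) (f N) / (N : ℝ) ^ 2 ≤ B)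
    (h : ∀ K : ℕ, ∀ ε : ℝ, 0 < ε → ∃ g : SF, Ker b Y g ∧
      ∀ᶠ N : ℕ in atTop, nR (bx (K * N)) (g N - f N) / (N : ℝ) ^ 2 ≤ ε) :
    Ker b Y f := by
  intro K ε hε
  obtain ⟨B, hB⟩ := hf K
  set B' : ℝ := 2 * |B| + 2 with hB'
  have hB'0 : 0 < B' := by positivity
  set η : ℝ := ε / 3 / (2 * b * B') with hη
  have hη0 : 0 < η := by positivity
  set ε' : ℝ := min 1 (ε / 3 / (2 * b * (1 + 1 / η))) with hε'
  have hε'0 : 0 < ε' := by
    rw [hε']
    have : 0 < ε / 3 / (2 * b * (1 + 1 / η)) := by positivity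
    exact lt_min one_pos this
  obtain ⟨g, hg, hg2⟩ := h K ε' hε'0
  have hε3 : 0 < ε / 3 := by positivity
  filter_upwards [hB, hg2, hg K _ hε3, eventually_ge_atTop 1] with N h1 h2 h3 h4 p L hs
  have hN0 : (0 : ℝ) < N := by exact_mod_cast h4
  have a3 := h3 p L hs
  have hp := pert hb hY0 hYb (blk p L) (g N) (f N) hη0
  -- norms in the block
  have n1 : nR (blk p L) (g N - f N) / (N : ℝ) ^ 2 ≤ ε' :=
    (div_le_div_of_nonneg_right (nR_mono hs _) (by positivity)).trans h2
  have n2 : nR (blk p L) (g N) / (N : ℝ) ^ 2 ≤ B' := by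
    refine (div_le_div_of_nonneg_right (nR_mono hs _) (by positivity)).trans ?_
    have e0 : g N = f N + (g N - f N) := by abel
    have h5 := nR_add_le (bx (K * N)) (f N) (g N - f N) one_pos
    rw [← e0] at h5
    have h6 : nR (bx (K * N)) (g N) / (N : ℝ) ^ 2 ≤
        2 * (nR (bx (K * N)) (f N) / (N : ℝ) ^ 2) +
        2 * (nR (bx (K * N)) (g N - f N) / (N : ℝ) ^ 2) := by
      rw [← mul_div_assoc, ← mul_div_assoc, ← add_div]
      refine div_le_div_of_nonneg_right ?_ (by positivity)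
      linarith
    have h7 : ε' ≤ 1 := min_le_left _ _
    have h8 := le_abs_self B
    linarith
  have hp2 := div_le_div_of_nonneg_right hp (by positivity : (0 : ℝ) ≤ (N : ℝ) ^ 2)
  have e1 : (Y * nR (blk p L) (f N) - qR b (blk p L) (f N)) / (N : ℝ) ^ 2 =
      Y * (nR (blk p L) (f N) / (N : ℝ) ^ 2) - qR b (blk p L) (f N) / (N : ℝ) ^ 2 := by ring
  have e2 : (Y * nR (blk p L) (g N) - qR b (blk p L) (g N) + 2 * b * η * nR (blk p L) (g N) +
      2 * b * (1 + 1 / η) * nR (blk p L) (g N - f N)) / (N : ℝ) ^ 2 =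
      (Y * (nR (blk p L) (g N) / (N : ℝ) ^ 2) - qR b (blk p L) (g N) / (N : ℝ) ^ 2) +
      2 * b * η * (nR (blk p L) (g N) / (N : ℝ) ^ 2) +
      2 * b * (1 + 1 / η) * (nR (blk p L) (g N - f N) / (N : ℝ) ^ 2) := by ring
  rw [e1, e2] at hp2
  have c1 : 2 * b * η * (nR (blk p L) (g N) / (N : ℝ) ^ 2) ≤ ε / 3 := by
    refine (mul_le_mul_of_nonneg_left n2 (by positivity)).trans (le_of_eq ?_)
    rw [hη]
    field_simp
  have c2 : 2 * b * (1 + 1 / η) * (nR (blk p L) (g N - f N) / (N : ℝ) ^ 2) ≤ ε / 3 := by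
    have hpos : 0 < 2 * b * (1 + 1 / η) := by positivity
    refine (mul_le_mul_of_nonneg_left (n1.trans (min_le_right _ _)) hpos.le).trans (le_of_eq ?_)
    field_simp
  linarith

/-- the kernel contains everything asymptotically equal to an element -/
theorem Ker.congr (hb : 0 < b) (hY0 : 0 ≤ Y) (hYb : Y ≤ b) {f g : SF} (vf : VF f)
    (hg : Ker b Y g)
    (h : ∀ K : ℕ, Tendsto (fun N : ℕ => nR (bx (K * N)) (g N - f N) / (N : ℝ) ^ 2) atTop (𝓝 0)) :
    Ker b Y f := by
  refine Ker.closed hb hY0 hYb (fun K => ?_) fun K ε hε => ⟨g, hg, ?_⟩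
  · obtain ⟨B, _, hB⟩ := vf.norm K
    exact ⟨B, (eventually_ge_atTop 1).mono fun N hN => hB N hN⟩
  · exact (h K).eventually (ge_mem_nhds hε)

/-! ### Cutting -/

theorem nR_act {r : Refl} {R : Finset (ℤ × ℤ)} (h : r.Sym R) (y : Fld) :
    nR R (r.act y) = nR R y := by
  unfold nR
  have e1 : ∀ c, sq2 (r.act y) c = sq2 y (r.cm c) := by
    intro c
    unfold sq2 Refl.act
    have hsq : ∀ d, r.sg d * r.sg d = 1 := by
      intro d
      rcases r.sg_or d with h | h <;> rw [h] <;> norm_num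
    have e2 : ∀ d, (r.sg d * y (r.cm c) (r.dm d)) ^ 2 = y (r.cm c) (r.dm d) ^ 2 := by
      intro d
      linear_combination (y (r.cm c) (r.dm d) ^ 2) * hsq d
    rw [e2, e2]
    have h3 := r.dm_dm false
    have h4 := r.dm_dm true
    rcases hd : r.dm false with _ | _
    · rcases hd' : r.dm true with _ | _
      · rw [hd', hd] at h4; exact absurd h4 (by decide)
      · rfl
    · rcases hd' : r.dm true with _ | _
      · ring
      · rw [hd, hd'] at h3; exact absurd h3 (by decide)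
  simp only [e1]
  refine Finset.sum_nbij' r.cm r.cm (fun c hc => (h.1 c).2 hc) (fun c hc => (h.1 c).2 hc)
    (fun c _ => r.cm_cm c) (fun c _ => r.cm_cm c) (fun c _ => rfl)

theorem qR_two {b : ℝ} (hb : 0 ≤ b) (R A : Finset (ℤ × ℤ)) (hA : A ⊆ R) (y : Fld) :
    qR b R y ≤ qR b A y + qR b (R \ A) y := by
  classical
  have h := qR_tile hb R (Finset.univ : Finset Bool) (fun c => decide (c ∈ A))
    (fun c _ => Finset.mem_univ _) y
  rw [Fintype.sum_bool] at h
  have e1 : R.filter (fun c => decide (c ∈ A) = true) = A := by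
    ext c
    simp only [decide_eq_true_eq, Finset.mem_filter]
    exact ⟨fun h => h.2, fun h => ⟨hA h, h⟩⟩
  have e2 : R.filter (fun c => decide (c ∈ A) = false) = R \ A := by
    ext c
    simp only [decide_eq_false_iff_not, Finset.mem_filter, Finset.mem_sdiff]
  rw [e1, e2] at h
  exact h

theorem nR_two (R A : Finset (ℤ × ℤ)) (hA : A ⊆ R) (y : Fld) :
    nR R y = nR A y + nR (R \ A) y := by
  unfold nR
  rw [add_comm, Finset.sum_sdiff hA]

/-- strictly left cells -/
def Lc (r : Refl) (c : ℤ × ℤ) : Prop := ∀ t, r.left c t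

/-- the field cut at the line of the reflection -/
noncomputable def cutF (r : Refl) (y : Fld) : Fld := by
  classical exact fun c d => if Lc r c then y c d else 0

/-- the middle cells -/
noncomputable def mid (r : Refl) (R : Finset (ℤ × ℤ)) : Finset (ℤ × ℤ) := by
  classical exact R.filter fun c => ¬ Lc r c ∧ ¬ Lc r (r.cm c)

theorem Lc_cm {r : Refl} {c : ℤ × ℤ} (h : Lc r c) : ¬ Lc r (r.cm c) := by
  intro h2
  have := (r.left3 c (false, false)).1 (h2 _)
  exact this (h _)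

theorem cut_diff (r : Refl) (R : Finset (ℤ × ℤ)) (y : Fld) {M : ℝ}
    (hM : ∀ c ∈ R, ∀ d, |y c d| ≤ M) :
    nR R (y - (cutF r y + r.act (cutF r y))) ≤ nR R (r.act y - y) + 2 * M ^ 2 * (mid r R).card := by
  classical
  unfold nR
  have hm : 2 * M ^ 2 * ((mid r R).card : ℝ) = ∑ c ∈ R, if c ∈ mid r R then 2 * M ^ 2 else 0 := by
    rw [← Finset.sum_filter, Finset.sum_const, nsmul_eq_mul]
    have : R.filter (fun c => c ∈ mid r R) = mid r R := by
      ext c
      rw [Finset.mem_filter]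
      exact ⟨fun h => h.2, fun h => ⟨(Finset.mem_filter.1 h).1, h⟩⟩
    rw [this]
    ring
  rw [hm, ← Finset.sum_add_distrib]
  refine Finset.sum_le_sum fun c hc => ?_
  by_cases h1 : Lc r c
  · have e1 : ∀ d, (y - (cutF r y + r.act (cutF r y))) c d = 0 := by
      intro d
      simp only [Pi.sub_apply, Pi.add_apply, cutF, Refl.act, h1, Lc_cm h1, if_true, if_false]
      ring
    have e2 : sq2 (y - (cutF r y + r.act (cutF r y))) c = 0 := by
      unfold sq2
      rw [e1, e1]; ring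
    rw [e2]
    have := sq2_nonneg (r.act y - y) c
    split_ifs <;> positivity
  · by_cases h2 : Lc r (r.cm c)
    · have e1 : ∀ d, (y - (cutF r y + r.act (cutF r y))) c d = - (r.act y - y) c d := by
        intro d
        simp only [Pi.sub_apply, Pi.add_apply, cutF, Refl.act, h1, h2, if_true, if_false]
        ring
      have e2 : sq2 (y - (cutF r y + r.act (cutF r y))) c = sq2 (r.act y - y) c := by
        unfold sq2
        rw [e1, e1]; ring
      rw [e2]
      have : (0 : ℝ) ≤ (if c ∈ mid r R then 2 * M ^ 2 else 0) := by split_ifs <;> positivity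
      linarith
    · have h3 : c ∈ mid r R := by
        unfold mid
        exact Finset.mem_filter.2 ⟨hc, h1, h2⟩
      have e1 : ∀ d, (y - (cutF r y + r.act (cutF r y))) c d = y c d := by
        intro d
        simp only [Pi.sub_apply, Pi.add_apply, cutF, Refl.act, h1, h2, if_false]
        ring
      rw [if_pos h3]
      have a1 := pow_le_pow_left₀ (abs_nonneg _) (hM c hc false) 2
      have a2 := pow_le_pow_left₀ (abs_nonneg _) (hM c hc true) 2
      rw [sq_abs] at a1 a2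
      have := sq2_nonneg (r.act y - y) c
      have e2 : sq2 (y - (cutF r y + r.act (cutF r y))) c ≤ 2 * M ^ 2 := by
        unfold sq2
        rw [e1, e1]; linarith
      linarith

theorem nR_cut2 {r : Refl} {R : Finset (ℤ × ℤ)} (h : r.Sym R) (y : Fld) :
    nR R (cutF r y + r.act (cutF r y)) = 2 * nR R (cutF r y) := by
  classical
  have h1 : nR R (cutF r y + r.act (cutF r y)) = nR R (cutF r y) + nR R (r.act (cutF r y)) := by
    unfold nR
    rw [← Finset.sum_add_distrib]
    refine Finset.sum_congr rfl fun c _ => ?_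
    unfold sq2
    by_cases h1 : Lc r c
    · simp only [Pi.add_apply, cutF, Refl.act, h1, Lc_cm h1, if_true, if_false]
      ring
    · simp only [Pi.add_apply, cutF, Refl.act, h1, if_false]
      ring
  rw [h1, nR_act h]
  ring

/-- cutting a symmetric element of the kernel -/
theorem Ker.cut (hb : 0 < b) (hY : Tendsto (fun l : ℕ => stiff l b) atTop (𝓝 Y)) (hY0 : 0 ≤ Y)
    (hYb : Y ≤ b) {f : SF} (vf : VF f) (hf : Ker b Y f) (r : ℕ → Refl)
    (hsym : ∀ K : ℕ, Tendsto (fun N : ℕ => nR (bx (K * N)) ((r N).act (f N) - f N) / (N : ℝ) ^ 2)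
      atTop (𝓝 0))
    (hmid : ∀ K : ℕ, Tendsto (fun N : ℕ => ((mid (r N) (bx (K * N))).card : ℝ) / (N : ℝ) ^ 2)
      atTop (𝓝 0))
    (hbig : ∀ K : ℕ, ∃ K' : ℕ, ∀ N : ℕ, 1 ≤ N → ∀ (p : ℤ × ℤ) (L : ℕ), blk p L ⊆ bx (K * N) →
      ∃ (p' : ℤ × ℤ) (L' : ℕ), (r N).Sym (blk p' L') ∧ blk p L ⊆ blk p' L' ∧
        blk p' L' ⊆ bx (K' * N))
    (vc : VF (fun N => cutF (r N) (f N))) :
    Ker b Y (fun N => cutF (r N) (f N)) := by
  intro K ε hε
  obtain ⟨K', hK'⟩ := hbig K
  obtain ⟨M, hM⟩ := vf.bdd K'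
  obtain ⟨B, hB0, hB⟩ := vf.norm K'
  set η : ℝ := ε / 4 / (2 * b * (B + 1)) with hη
  have hη0 : 0 < η := by positivity
  have hε4 : 0 < ε / 4 := by positivity
  -- smallness of the difference between f and the symmetrised cut
  have hd : Tendsto (fun N : ℕ => 2 * b * (1 + 1 / η) *
      (nR (bx (K' * N)) ((r N).act (f N) - f N) / (N : ℝ) ^ 2 +
      2 * M ^ 2 * (((mid (r N) (bx (K' * N))).card : ℝ) / (N : ℝ) ^ 2))) atTop (𝓝 0) := by
    have := ((hsym K').add ((hmid K').const_mul (2 * M ^ 2))).const_mul (2 * b * (1 + 1 / η))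
    simpa using this
  filter_upwards [hf K' _ hε4, hd.eventually (ge_mem_nhds hε4), ubq hb hY vc K' hε4,
    eventually_ge_atTop 1] with N h1 h2 h3 h4 p L hs
  have hN0 : (0 : ℝ) < N := by exact_mod_cast h4
  have hN2 : (0 : ℝ) ≤ (N : ℝ) ^ 2 := by positivity
  obtain ⟨p', L', hsy, hsub, hs'⟩ := hK' N h4 p L hs
  set z := cutF (r N) (f N) + (r N).act (cutF (r N) (f N)) with hz
  -- defect of z in the large block
  have hp := pert hb hY0 hYb (blk p' L') (f N) z hη0
  have a1 := h1 p' L' hs'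
  have hrp : qR b (blk p' L') z ≤ 2 * qR b (blk p' L') (cutF (r N) (f N)) := by
    refine (r N).rp hsy _ fun c _ hc d => ?_
    unfold cutF
    rw [if_neg]
    intro hL
    obtain ⟨t, ht⟩ := hc
    exact ht (hL t)
  have hn2 := nR_cut2 hsy (f N)
  have hdiff : nR (blk p' L') (f N - z) / (N : ℝ) ^ 2 ≤
      nR (bx (K' * N)) ((r N).act (f N) - f N) / (N : ℝ) ^ 2 +
      2 * M ^ 2 * (((mid (r N) (bx (K' * N))).card : ℝ) / (N : ℝ) ^ 2) := by
    have c1 := nR_mono hs' (f N - z)
    have c2 := cut_diff (r N) (bx (K' * N)) (f N) (hM N h4)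
    rw [← mul_div_assoc, ← add_div]
    exact div_le_div_of_nonneg_right (c1.trans c2) hN2
  have hnB : nR (blk p' L') (f N) / (N : ℝ) ^ 2 ≤ B + 1 := by
    have := (div_le_div_of_nonneg_right (nR_mono hs' (f N)) hN2).trans (hB N h4)
    linarith
  have hp2 := div_le_div_of_nonneg_right hp hN2
  have e1 : (Y * nR (blk p' L') z - qR b (blk p' L') z) / (N : ℝ) ^ 2 =
      Y * (nR (blk p' L') z / (N : ℝ) ^ 2) - qR b (blk p' L') z / (N : ℝ) ^ 2 := by ring
  have e2 : (Y * nR (blk p' L') (f N) - qR b (blk p' L') (f N) +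
      2 * b * η * nR (blk p' L') (f N) +
      2 * b * (1 + 1 / η) * nR (blk p' L') (f N - z)) / (N : ℝ) ^ 2 =
      (Y * (nR (blk p' L') (f N) / (N : ℝ) ^ 2) - qR b (blk p' L') (f N) / (N : ℝ) ^ 2) +
      2 * b * η * (nR (blk p' L') (f N) / (N : ℝ) ^ 2) +
      2 * b * (1 + 1 / η) * (nR (blk p' L') (f N - z) / (N : ℝ) ^ 2) := by ring
  rw [e1, e2] at hp2
  have c1 : 2 * b * η * (nR (blk p' L') (f N) / (N : ℝ) ^ 2) ≤ ε / 4 := by
    refine (mul_le_mul_of_nonneg_left hnB (by positivity)).trans (le_of_eq ?_)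
    rw [hη]
    field_simp
  have c2 : 2 * b * (1 + 1 / η) * (nR (blk p' L') (f N - z) / (N : ℝ) ^ 2) ≤ ε / 4 :=
    (mul_le_mul_of_nonneg_left hdiff (by positivity)).trans h2
  have c3 : Y * (nR (blk p' L') z / (N : ℝ) ^ 2) - qR b (blk p' L') z / (N : ℝ) ^ 2 ≤
      3 * (ε / 4) := by linarith
  -- defect of the cut field in the large block
  have c4 : 2 * (Y * (nR (blk p' L') (cutF (r N) (f N)) / (N : ℝ) ^ 2) -
      qR b (blk p' L') (cutF (r N) (f N)) / (N : ℝ) ^ 2) ≤ 3 * (ε / 4) := by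
    refine le_trans ?_ c3
    have c5 := div_le_div_of_nonneg_right hrp hN2
    rw [hn2]
    have e3 : 2 * qR b (blk p' L') (cutF (r N) (f N)) / (N : ℝ) ^ 2 =
      2 * (qR b (blk p' L') (cutF (r N) (f N)) / (N : ℝ) ^ 2) := by ring
    have e4 : Y * (2 * nR (blk p' L') (cutF (r N) (f N)) / (N : ℝ) ^ 2) =
      2 * (Y * (nR (blk p' L') (cutF (r N) (f N)) / (N : ℝ) ^ 2)) := by ring
    rw [e3] at c5
    rw [e4]
    linarith
  -- restriction to the small block
  have d1 := h3 p' p L' L hs'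
  have d2 := div_le_div_of_nonneg_right
    (qR_two hb.le (blk p' L') (blk p L) hsub (cutF (r N) (f N))) hN2
  have d3 := nR_two (blk p' L') (blk p L) hsub (cutF (r N) (f N))
  rw [add_div] at d2
  rw [d3, add_div, mul_add] at c4
  linarith

end

end Vale.Agent.P159.H950
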