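import Vale.Agent.P159.H950.D1

/-!
Macroscopic fields, their samples, and cutting of samples along the four families of lines.
-/

set_option linter.all false
set_option autoImplicit false

open MeasureTheory Filter Topology
open scoped BigOperators

namespace Vale.Agent.P159.H950

open Vale.Agent.P159 Vale.Agent.P159.UJ

/-- the four families of lines -/
inductive Dir
  | V | H | D | A

namespace Dir

/-- linear functional on cells -/
def lamZ : Dir → ℤ × ℤ → ℤ
  | V, c => c.1
  | H, c => c.2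
  | D, c => c.1 - c.2
  | A, c => c.1 + c.2

/-- the second coordinate -/
def pi : Dir → ℤ × ℤ → ℤ
  | V, c => c.2
  | H, c => c.1
  | D, c => c.2
  | A, c => c.2

/-- the reflection through the line `lam = a` -/
def refl : Dir → ℤ → Refl
  | V, a => rV a
  | H, a => rH a
  | D, a => rD a
  | A, a => rA a

/-- shift of the cut line -/
def off : Dir → ℤ
  | A => 1
  | _ => 0

theorem inj (σ : Dir) : Function.Injective fun c : ℤ × ℤ => (σ.lamZ c, σ.pi c) := by
  intro c c' h
  rw [Prod.ext_iff] at h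
  obtain ⟨h1, h2⟩ := h
  cases σ <;> simp only [lamZ, pi] at h1 h2 <;> ext <;> omega

theorem Lc_iff (σ : Dir) (a : ℤ) (c : ℤ × ℤ) : Lc (σ.refl a) c ↔ σ.lamZ c < a - σ.off := by
  cases σ
  · show (∀ t : HT, c.1 < a) ↔ c.1 < a - 0
    constructor
    · intro h; have := h (false, false); omega
    · intro h t; omega
  · show (∀ t : HT, c.2 < a) ↔ c.2 < a - 0
    constructor
    · intro h; have := h (false, false); omega
    · intro h t; omega
  · show (∀ t : HT, (hu c t).1 - (hu c t).2 + ((hv c t).1 - (hv c t).2) < 2 * a) ↔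
      c.1 - c.2 < a - 0
    constructor
    · intro h
      have := h (false, false)
      simp [hu, hv] at this
      omega
    · intro h t
      rcases t with ⟨_ | _, _ | _⟩ <;> simp [hu, hv] <;> omega
  · show (∀ t : HT, (hu c t).1 + (hu c t).2 + ((hv c t).1 + (hv c t).2) < 2 * a) ↔
      c.1 + c.2 < a - 1
    constructor
    · intro h
      have := h (true, true)
      simp [hu, hv] at this
      omega
    · intro h t
      rcases t with ⟨_ | _, _ | _⟩ <;> simp [hu, hv] <;> omega

/-- strips -/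
theorem card_strip (σ : Dir) (m : ℕ) (a : ℤ) (l : ℕ) (S : Finset (ℤ × ℤ)) (hS : S ⊆ bx m)
    (h : ∀ c ∈ S, |σ.lamZ c - a| ≤ l) : S.card ≤ (2 * l + 1) * (2 * m) := by
  have h1 : S.card ≤ (Finset.Icc (a - l) (a + l) ×ˢ Finset.Ico (-(m : ℤ)) m).card := by
    refine Finset.card_le_card_of_injOn (fun c => (σ.lamZ c, σ.pi c)) (fun c hc => ?_)
      (σ.inj.injOn)
    have h2 := h c hc
    rw [abs_le] at h2
    have h3 := mem_bx.1 (hS hc)
    simp only [Finset.coe_product, Finset.coe_Icc, Finset.coe_Ico, Set.mem_prod, Set.mem_Icc,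
      Set.mem_Ico]
    refine ⟨⟨by omega, by omega⟩, ?_⟩
    cases σ <;> simp only [pi] <;> omega
  rw [Finset.card_product, Int.card_Icc, Int.card_Ico] at h1
  have h2 : (a + l + 1 - (a - l)).toNat = 2 * l + 1 := by omega
  have h3 : ((m : ℤ) - -(m : ℤ)).toNat = 2 * m := by omega
  rwa [h2, h3] at h1

theorem lamZ_cm (σ : Dir) (a : ℤ) (c : ℤ × ℤ) :
    σ.lamZ ((σ.refl a).cm c) = 2 * a - (σ.lamZ c) - (match σ with | D => 0 | A => 2 | _ => 1) := by
  cases σ
  · show 2 * a - 1 - c.1 = _; simp only [lamZ]; omega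
  · show 2 * a - 1 - c.2 = _; simp only [lamZ]; omega
  · show c.2 + a - (c.1 - a) = _; simp only [lamZ]; omega
  · show a - 1 - c.2 + (a - 1 - c.1) = _; simp only [lamZ]; omega

theorem mid_strip (σ : Dir) (a : ℤ) (m : ℕ) : ((mid (σ.refl a) (bx m)).card : ℝ) ≤ 6 * m := by
  classical
  have h := σ.card_strip m a 1 (mid (σ.refl a) (bx m)) (Finset.filter_subset _ _) (by
    intro c hc
    unfold mid at hc
    rw [Finset.mem_filter, Lc_iff, Lc_iff, lamZ_cm] at hc
    obtain ⟨_, h1, h2⟩ := hc
    rw [abs_le]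
    cases σ <;> simp only [off] at h1 h2 <;> push_cast <;> omega)
  have : ((mid (σ.refl a) (bx m)).card : ℝ) ≤ ((2 * 1 + 1) * (2 * m) : ℕ) := by exact_mod_cast h
  push_cast at this
  linarith

/-- large symmetric blocks -/
theorem big (σ : Dir) (a : ℤ) (X Z : ℕ) (ha : |a| ≤ Z) :
    ∃ (p' : ℤ × ℤ) (L' : ℕ), (σ.refl a).Sym (blk p' L') ∧ bx X ⊆ blk p' L' ∧
      blk p' L' ⊆ bx (8 * (X + Z)) := by
  rw [abs_le] at ha
  cases σ
  · refine ⟨(a - (X + Z), -(X + Z)), 2 * (X + Z), ⟨fun c => ?_, fun v => ?_⟩, fun c hc => ?_,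
      fun c hc => ?_⟩
    · show (2 * a - 1 - c.1, c.2) ∈ _ ↔ _
      rw [mem_blk, mem_blk]; push_cast; omega
    · show (2 * a - v.1, v.2) ∈ _ ↔ _
      rw [mem_intR_blk, mem_intR_blk]; push_cast; omega
    · rw [mem_bx] at hc; rw [mem_blk]; push_cast; omega
    · rw [mem_blk] at hc; rw [mem_bx]; push_cast at hc ⊢; omega
  · refine ⟨(-(X + Z), a - (X + Z)), 2 * (X + Z), ⟨fun c => ?_, fun v => ?_⟩, fun c hc => ?_,
      fun c hc => ?_⟩
    · show (c.1, 2 * a - 1 - c.2) ∈ _ ↔ _
      rw [mem_blk, mem_blk]; push_cast; omega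
    · show (v.1, 2 * a - v.2) ∈ _ ↔ _
      rw [mem_intR_blk, mem_intR_blk]; push_cast; omega
    · rw [mem_bx] at hc; rw [mem_blk]; push_cast; omega
    · rw [mem_blk] at hc; rw [mem_bx]; push_cast at hc ⊢; omega
  · refine ⟨(a - (X + Z), -(X + Z)), 3 * (X + Z), ⟨fun c => ?_, fun v => ?_⟩, fun c hc => ?_,
      fun c hc => ?_⟩
    · show (c.2 + a, c.1 - a) ∈ _ ↔ _
      rw [mem_blk, mem_blk]; push_cast; omega
    · show (v.2 + a, v.1 - a) ∈ _ ↔ _
      rw [mem_intR_blk, mem_intR_blk]; push_cast; omega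
    · rw [mem_bx] at hc; rw [mem_blk]; push_cast; omega
    · rw [mem_blk] at hc; rw [mem_bx]; push_cast at hc ⊢; omega
  · refine ⟨(a - 3 * (X + Z), -(X + Z)), 4 * (X + Z), ⟨fun c => ?_, fun v => ?_⟩, fun c hc => ?_,
      fun c hc => ?_⟩
    · show (a - 1 - c.2, a - 1 - c.1) ∈ _ ↔ _
      rw [mem_blk, mem_blk]; push_cast; omega
    · show (a - v.2, a - v.1) ∈ _ ↔ _
      rw [mem_intR_blk, mem_intR_blk]; push_cast; omega
    · rw [mem_bx] at hc; rw [mem_blk]; push_cast; omega
    · rw [mem_blk] at hc; rw [mem_bx]; push_cast at hc ⊢; omega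

end Dir

/-- macroscopic vector fields; the flag is the direction -/
abbrev MF : Type := ℝ → ℝ → Bool → ℝ

/-- samples of a macroscopic field at the centres of the cells -/
noncomputable def smp (F : MF) : SF := fun N c d =>
  F (((c.1 : ℝ) + 1 / 2) / N) (((c.2 : ℝ) + 1 / 2) / N) d

/-- locally bounded and locally Lipschitz fields -/
def LipB (F : MF) : Prop := ∀ K : ℝ, ∃ M : ℝ, 0 ≤ M ∧
  (∀ x y d, |x| ≤ K → |y| ≤ K → |F x y d| ≤ M) ∧
  (∀ x y x' y' d, |x| ≤ K → |y| ≤ K → |x'| ≤ K → |y'| ≤ K →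
    |F x y d - F x' y' d| ≤ M * (|x - x'| + |y - y'|))

theorem center_bd {K N : ℕ} (hN : 1 ≤ N) {c : ℤ × ℤ} (hc : c ∈ bx (K * N)) :
    |((c.1 : ℝ) + 1 / 2) / N| ≤ K ∧ |((c.2 : ℝ) + 1 / 2) / N| ≤ K := by
  have hN0 : (0 : ℝ) < N := by exact_mod_cast hN
  rw [mem_bx] at hc
  obtain ⟨h1, h2, h3, h4⟩ := hc
  have g1 : (-((K : ℝ) * N)) ≤ c.1 := by exact_mod_cast h1
  have g2 : (c.1 : ℝ) + 1 ≤ K * N := by exact_mod_cast h2
  have g3 : (-((K : ℝ) * N)) ≤ c.2 := by exact_mod_cast h3
  have g4 : (c.2 : ℝ) + 1 ≤ K * N := by exact_mod_cast h4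
  constructor
  · rw [abs_div, abs_of_pos hN0, div_le_iff₀ hN0, abs_le]
    constructor <;> linarith
  · rw [abs_div, abs_of_pos hN0, div_le_iff₀ hN0, abs_le]
    constructor <;> linarith

theorem crn_close {l : ℕ} (hl : 1 ≤ l) (c : ℤ × ℤ) :
    (crn l (tl l c)).1 ≤ c.1 ∧ c.1 < (crn l (tl l c)).1 + l ∧
    (crn l (tl l c)).2 ≤ c.2 ∧ c.2 < (crn l (tl l c)).2 + l :=
  mem_blk.1 ((mem_tile hl).2 rfl)

/-- cut samples are admissible -/
theorem VF.cutSmp {F : MF} (hF : LipB F) (H : ℕ → ℤ × ℤ → Prop) (σ : Dir) (a : ℕ → ℤ)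
    (hH : (∀ N c, H N c) ∨ ∀ N c, H N c ↔ σ.lamZ c < a N) :
    VF (fun N c d => by classical exact if H N c then smp F N c d else 0) := by
  classical
  constructor
  · intro K
    obtain ⟨M, hM0, hM, _⟩ := hF K
    refine ⟨M, fun N hN c hc d => ?_⟩
    have h1 := center_bd hN hc
    by_cases h : H N c
    · simp only [h, if_true]
      exact hM _ _ d h1.1 h1.2
    · simp only [h, if_false, abs_zero]
      exact hM0
  · intro K l hl
    obtain ⟨M, hM0, hM, hL⟩ := hF (K + 1)
    -- the bound
    have hbound : ∀ N : ℕ, l ≤ N → 1 ≤ N →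
        nR (bx (K * N)) ((fun c d => if H N c then smp F N c d else 0) -
          corF l (fun c d => if H N c then smp F N c d else 0)) ≤
        2 * (M * (2 * l / N)) ^ 2 * (2 * (K * N)) ^ 2 +
          2 * M ^ 2 * ((2 * (2 * l) + 1) * (2 * (K * N))) := by
      intro N hlN hN
      have hN0 : (0 : ℝ) < N := by exact_mod_cast hN
      have hcell : ∀ c ∈ bx (K * N), sq2 ((fun c d => if H N c then smp F N c d else 0) -
          corF l (fun c d => if H N c then smp F N c d else 0)) c ≤
          2 * (M * (2 * l / N)) ^ 2 + 2 * M ^ 2 *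
            (if |σ.lamZ c - a N| ≤ (2 * l : ℕ) then 1 else 0) := by
        intro c hc
        have h1 := center_bd hN hc
        obtain ⟨k1, k2, k3, k4⟩ := crn_close hl c
        obtain ⟨c', hc'⟩ : ∃ c', c' = crn l (tl l c) := ⟨_, rfl⟩
        rw [← hc'] at k1 k2 k3 k4
        have j1 : (c'.1 : ℝ) ≤ c.1 := by exact_mod_cast k1
        have j2 : (c.1 : ℝ) < c'.1 + l := by exact_mod_cast k2
        have j3 : (c'.2 : ℝ) ≤ c.2 := by exact_mod_cast k3
        have j4 : (c.2 : ℝ) < c'.2 + l := by exact_mod_cast k4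
        have hlN' : (l : ℝ) ≤ N := by exact_mod_cast hlN
        have h5 : |((c.1 : ℝ) + 1 / 2) / N - ((c'.1 : ℝ) + 1 / 2) / N| ≤ l / N := by
          rw [← sub_div, abs_div, abs_of_pos hN0]
          refine div_le_div_of_nonneg_right ?_ hN0.le
          rw [abs_le]; constructor <;> linarith
        have h6 : |((c.2 : ℝ) + 1 / 2) / N - ((c'.2 : ℝ) + 1 / 2) / N| ≤ l / N := by
          rw [← sub_div, abs_div, abs_of_pos hN0]
          refine div_le_div_of_nonneg_right ?_ hN0.le
          rw [abs_le]; constructor <;> linarith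
        have hl1 : (l : ℝ) / N ≤ 1 := (div_le_one hN0).2 hlN'
        have q1 : |((c.1 : ℝ) + 1 / 2) / N| ≤ (K : ℝ) + 1 := by linarith [h1.1]
        have q2 : |((c.2 : ℝ) + 1 / 2) / N| ≤ (K : ℝ) + 1 := by linarith [h1.2]
        have q3 : |((c'.1 : ℝ) + 1 / 2) / N| ≤ (K : ℝ) + 1 := by
          have := abs_sub_abs_le_abs_sub (((c'.1 : ℝ) + 1 / 2) / N) (((c.1 : ℝ) + 1 / 2) / N)
          rw [abs_sub_comm] at this
          linarith [h1.1]
        have q4 : |((c'.2 : ℝ) + 1 / 2) / N| ≤ (K : ℝ) + 1 := by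
          have := abs_sub_abs_le_abs_sub (((c'.2 : ℝ) + 1 / 2) / N) (((c.2 : ℝ) + 1 / 2) / N)
          rw [abs_sub_comm] at this
          linarith [h1.2]
        have hval : ∀ d, |smp F N c d| ≤ M := fun d => hM _ _ d q1 q2
        have hval' : ∀ d, |smp F N c' d| ≤ M := fun d => hM _ _ d q3 q4
        have hdiff : ∀ d, |smp F N c d - smp F N c' d| ≤ M * (2 * l / N) := by
          intro d
          refine (hL _ _ _ _ d q1 q2 q3 q4).trans ?_
          refine mul_le_mul_of_nonneg_left ?_ hM0
          rw [mul_div_assoc]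
          linarith
        have hMl : 0 ≤ M * (2 * l / N) := by positivity
        unfold sq2 corF
        simp only [Pi.sub_apply]
        rw [← hc']
        have sqle : ∀ {u v : ℝ}, |u| ≤ v → u ^ 2 ≤ v ^ 2 := by
          intro u v huv
          rw [← sq_abs]; exact pow_le_pow_left₀ (abs_nonneg _) huv 2
        have hin : (H N c ↔ H N c') ∨ |σ.lamZ c - a N| ≤ (2 * l : ℕ) := by
          rcases hH with hH | hH
          · exact Or.inl ⟨fun _ => hH N c', fun _ => hH N c⟩
          by_contra hcon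
          push Not at hcon
          obtain ⟨hc1, hc2⟩ := hcon
          rw [hH, hH] at hc1
          have hd1 : |σ.lamZ c - σ.lamZ c'| ≤ (2 * l : ℕ) := by
            rw [abs_le]
            push_cast
            cases σ <;> simp only [Dir.lamZ] <;> omega
          rw [abs_le] at hd1
          rw [lt_abs] at hc2
          rcases hc1 with ⟨g1, g2⟩ | ⟨g1, g2⟩ <;> rcases hc2 with hc2 | hc2 <;> omega
        rcases hin with hiff | hs
        · have hnn : (0 : ℝ) ≤ 2 * M ^ 2 * (if |σ.lamZ c - a N| ≤ (2 * l : ℕ) then 1 else 0) := by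
            split_ifs <;> positivity
          by_cases hh : H N c
          · have hh' : H N c' := hiff.1 hh
            simp only [hh, hh', if_true]
            have := sqle (hdiff false)
            have := sqle (hdiff true)
            linarith
          · have hh' : ¬ H N c' := fun h => hh (hiff.2 h)
            simp only [hh, hh', if_false]
            have : 0 ≤ (M * (2 * l / N)) ^ 2 := sq_nonneg _
            nlinarith only [this, hnn]
        · rw [if_pos hs]
          have hnn : 0 ≤ (M * (2 * l / N)) ^ 2 := sq_nonneg _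
          by_cases hh : H N c
          · by_cases hh' : H N c'
            · simp only [hh, hh', if_true]
              have := sqle (hdiff false)
              have := sqle (hdiff true)
              nlinarith [sq_nonneg M]
            · simp only [hh, hh', if_true, if_false, sub_zero]
              have := sqle (hval false)
              have := sqle (hval true)
              linarith
          · by_cases hh' : H N c'
            · simp only [hh, hh', if_true, if_false, zero_sub, neg_sq]
              have := sqle (hval' false)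
              have := sqle (hval' true)
              linarith
            · simp only [hh, hh', if_false]
              nlinarith [sq_nonneg M]
      unfold nR
      refine (Finset.sum_le_sum hcell).trans ?_
      rw [Finset.sum_add_distrib, Finset.sum_const, nsmul_eq_mul, card_bx, ← Finset.mul_sum,
        Finset.sum_boole]
      have hs := σ.card_strip (K * N) (a N) (2 * l)
        ((bx (K * N)).filter fun c => |σ.lamZ c - a N| ≤ (2 * l : ℕ)) (Finset.filter_subset _ _)
        (fun c hc => (Finset.mem_filter.1 hc).2)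
      have hs' : ((((bx (K * N)).filter fun c => |σ.lamZ c - a N| ≤ (2 * l : ℕ)).card : ℕ) : ℝ) ≤
          (2 * (2 * l) + 1) * (2 * (K * N)) := by exact_mod_cast hs
      have := mul_le_mul_of_nonneg_left hs' (by positivity : 0 ≤ 2 * M ^ 2)
      push_cast
      push_cast at this
      linarith
    have hlim : Tendsto (fun N : ℕ => (2 * (M * (2 * l)) ^ 2 * (2 * K) ^ 2) *
        ((N : ℝ)⁻¹ * (N : ℝ)⁻¹) + 2 * M ^ 2 * ((2 * (2 * l) + 1) * (2 * K)) * (N : ℝ)⁻¹) atTop
        (𝓝 0) := by
      have hN1 : Tendsto (fun N : ℕ => (N : ℝ)⁻¹) atTop (𝓝 0) := tendsto_inv_atTop_nhds_zero_nat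
      have := ((hN1.mul hN1).const_mul (2 * (M * (2 * l)) ^ 2 * (2 * K) ^ 2)).add
        (hN1.const_mul (2 * M ^ 2 * ((2 * (2 * l) + 1) * (2 * K))))
      simpa using this
    refine tendsto_of_tendsto_of_tendsto_of_le_of_le' tendsto_const_nhds hlim
      (Eventually.of_forall fun N => div_nonneg (nR_nonneg _ _) (by positivity)) ?_
    filter_upwards [eventually_ge_atTop l, eventually_ge_atTop 1] with N h1 h2
    have hN0 : (0 : ℝ) < N := by exact_mod_cast h2
    rw [div_le_iff₀ (by positivity)]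
    refine (hbound N h1 h2).trans (le_of_eq ?_)
    field_simp

theorem VF.smp {F : MF} (hF : LipB F) : VF (smp F) := by
  classical
  have := VF.cutSmp hF (fun _ _ => True) Dir.V (fun _ => 0) (Or.inl fun _ _ => trivial)
  simpa using this

end Vale.Agent.P159.H950
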