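import Vale.Agent.P159.H950.E1

/-!
Cutting macroscopic fields and averaging over the position of the cut.
-/

set_option linter.all false
set_option autoImplicit false

open MeasureTheory Filter Topology
open scoped BigOperators

namespace Vale.Agent.P159.H950

open Vale.Agent.P159 Vale.Agent.P159.UJ

/-- admissible elements of the kernel -/
structure NK (b Y : ℝ) (f : SF) : Prop where
  vf : VF f
  ker : Ker b Y f

/-- data of the model -/
structure Mod (b Y : ℝ) : Prop where
  hb : 0 < b
  lim : Tendsto (fun l : ℕ => stiff l b) atTop (𝓝 Y)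
  Y0 : 0 ≤ Y
  Yb : Y ≤ b
  le : ∀ L : ℕ, 1 ≤ L → Y ≤ stiff L b

section

variable {b Y : ℝ}

theorem NK.add (m : Mod b Y) {f g : SF} (hf : NK b Y f) (hg : NK b Y g) :
    NK b Y (fun N => f N + g N) :=
  ⟨hf.vf.add hg.vf, Ker.add m.hb m.lim hf.vf hg.vf hf.ker hg.ker⟩

theorem NK.smul {f : SF} (hf : NK b Y f) (s : ℝ) : NK b Y (fun N => s • f N) :=
  ⟨hf.vf.smul s, hf.ker.smul s⟩

theorem NK.const (m : Mod b Y) (u w : ℝ) : NK b Y (fun _ => cst u w) := by
  refine ⟨⟨fun K => ⟨|u| + |w|, fun N _ c _ d => ?_⟩, fun K l _ => ?_⟩, Ker.const m.le u w⟩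
  · unfold cst
    cases d
    · simp
    · simp
  · have : ∀ N : ℕ, nR (bx (K * N)) (cst u w - corF l (cst u w)) / (N : ℝ) ^ 2 = 0 := by
      intro N
      have e : cst u w - corF l (cst u w) = 0 := by
        funext c d
        simp [corF, cst]
      rw [e]
      simp [nR, sq2]
    simp only [this]
    exact tendsto_const_nhds

theorem NK.sum (m : Mod b Y) {ι : Type*} (s : Finset ι) (f : ι → SF)
    (hf : ∀ i ∈ s, NK b Y (f i)) : NK b Y (fun N => ∑ i ∈ s, f i N) := by
  classical
  induction s using Finset.induction_on with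
  | empty =>
    have := NK.smul (NK.const m 0 0) 0
    simpa using this
  | insert i s hi ih =>
    have h1 := NK.add m (hf i (Finset.mem_insert_self _ _))
      (ih fun j hj => hf j (Finset.mem_insert_of_mem hj))
    have e : (fun N => ∑ j ∈ insert i s, f j N) = fun N => f i N + ∑ j ∈ s, f j N := by
      funext N
      rw [Finset.sum_insert hi]
    rw [e]
    exact h1

end

namespace Dir

/-- macroscopic reflection, first coordinate -/
noncomputable def reX : Dir → ℝ → ℝ → ℝ → ℝ
  | V, β, x, _ => 2 * β - x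
  | H, _, x, _ => x
  | D, β, _, y => y + β
  | A, β, _, y => β - y

/-- macroscopic reflection, second coordinate -/
noncomputable def reY : Dir → ℝ → ℝ → ℝ → ℝ
  | V, _, _, y => y
  | H, β, _, y => 2 * β - y
  | D, β, x, _ => x - β
  | A, β, x, _ => β - x

/-- sign of the reflection -/
noncomputable def sgM : Dir → Bool → ℝ
  | V, d => if d then 1 else -1
  | H, d => if d then -1 else 1
  | D, _ => 1
  | A, _ => -1

/-- direction map of the reflection -/
def dmM : Dir → Bool → Bool
  | V, d => d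
  | H, d => d
  | D, d => !d
  | A, d => !d

/-- macroscopic functional -/
noncomputable def lamM : Dir → ℝ → ℝ → ℝ
  | V, x, _ => x
  | H, _, y => y
  | D, x, y => x - y
  | A, x, y => x + y

/-- reflected macroscopic field -/
noncomputable def actM (σ : Dir) (β : ℝ) (F : MF) : MF := fun x y d =>
  σ.sgM d * F (σ.reX β x y) (σ.reY β x y) (σ.dmM d)

theorem act_smp (σ : Dir) (a : ℤ) (F : MF) {N : ℕ} (hN : 1 ≤ N) :
    (σ.refl a).act (smp F N) = smp (σ.actM (a / N) F) N := by
  have hN0 : (N : ℝ) ≠ 0 := by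
    have : (0 : ℝ) < N := by exact_mod_cast hN
    exact this.ne'
  funext c d
  cases σ
  · show (rV a).sg d * F ((((2 * a - 1 - c.1 : ℤ) : ℝ) + 1 / 2) / N) ((((c.2 : ℤ) : ℝ) + 1 / 2) / N) d =
      sgM V d * F (2 * (a / N) - ((c.1 : ℝ) + 1 / 2) / N) (((c.2 : ℝ) + 1 / 2) / N) d
    congr 2
    push_cast
    field_simp
    ring
  · show (rH a).sg d * F ((((c.1 : ℤ) : ℝ) + 1 / 2) / N) ((((2 * a - 1 - c.2 : ℤ) : ℝ) + 1 / 2) / N) d =
      sgM H d * F (((c.1 : ℝ) + 1 / 2) / N) (2 * (a / N) - ((c.2 : ℝ) + 1 / 2) / N) d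
    congr 2
    push_cast
    field_simp
    ring
  · show (rD a).sg d * F ((((c.2 + a : ℤ) : ℝ) + 1 / 2) / N) ((((c.1 - a : ℤ) : ℝ) + 1 / 2) / N) (!d) =
      sgM D d * F (((c.2 : ℝ) + 1 / 2) / N + a / N) (((c.1 : ℝ) + 1 / 2) / N - a / N) (!d)
    congr 2
    · push_cast; field_simp; ring
    · push_cast; field_simp; ring
  · show (rA a).sg d * F ((((a - 1 - c.2 : ℤ) : ℝ) + 1 / 2) / N) ((((a - 1 - c.1 : ℤ) : ℝ) + 1 / 2) / N) (!d) =
      sgM A d * F (a / N - ((c.2 : ℝ) + 1 / 2) / N) (a / N - ((c.1 : ℝ) + 1 / 2) / N) (!d)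
    congr 2
    · push_cast; field_simp; ring
    · push_cast; field_simp; ring

theorem abs_sgM (σ : Dir) (d : Bool) : |σ.sgM d| = 1 := by
  cases σ <;> cases d <;> simp [sgM]

theorem re_bd (σ : Dir) {β x y K C : ℝ} (hx : |x| ≤ K) (hy : |y| ≤ K) (hβ : |β| ≤ C) :
    |σ.reX β x y| ≤ K + 2 * C ∧ |σ.reY β x y| ≤ K + 2 * C := by
  rw [abs_le] at hx hy hβ
  cases σ <;> simp only [reX, reY] <;> constructor <;> rw [abs_le] <;> constructor <;> linarith

theorem re_diff (σ : Dir) (β β' x y : ℝ) :
    |σ.reX β x y - σ.reX β' x y| + |σ.reY β x y - σ.reY β' x y| ≤ 2 * |β - β'| := by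
  cases σ
  · simp only [reX, reY, sub_self, abs_zero, add_zero]
    rw [show 2 * β - x - (2 * β' - x) = 2 * (β - β') by ring, abs_mul, abs_two]
  · simp only [reX, reY, sub_self, abs_zero, zero_add]
    rw [show 2 * β - y - (2 * β' - y) = 2 * (β - β') by ring, abs_mul, abs_two]
  · simp only [reX, reY]
    rw [show y + β - (y + β') = β - β' by ring, show x - β - (x - β') = -(β - β') by ring, abs_neg]
    linarith
  · simp only [reX, reY]
    rw [show β - y - (β' - y) = β - β' by ring, show β - x - (β' - x) = β - β' by ring]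
    linarith

end Dir

theorem floor_close (β : ℝ) {N : ℕ} (hN : 1 ≤ N) : |((⌊β * N⌋ : ℤ) : ℝ) / N - β| ≤ 1 / N := by
  have hN0 : (0 : ℝ) < N := by exact_mod_cast hN
  have h1 := Int.floor_le (β * N)
  have h2 := Int.lt_floor_add_one (β * N)
  have h3 : ((⌊β * N⌋ : ℤ) : ℝ) / N - β = (((⌊β * N⌋ : ℤ) : ℝ) - β * N) / N := by
    field_simp
  rw [h3, abs_div, abs_of_pos hN0]
  refine div_le_div_of_nonneg_right ?_ hN0.le
  rw [abs_le]; constructor <;> linarith

section

variable {b Y : ℝ}

/-- cutting a symmetric macroscopic field -/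
theorem NK.cut (m : Mod b Y) {F : MF} (hF : LipB F) (hk : NK b Y (smp F)) (σ : Dir) (β : ℝ)
    (hs : σ.actM β F = F) : NK b Y (fun N => cutF (σ.refl ⌊β * N⌋) (smp F N)) := by
  classical
  have hvc : VF (fun N => cutF (σ.refl ⌊β * N⌋) (smp F N)) :=
    VF.cutSmp hF (fun N c => Lc (σ.refl ⌊β * N⌋) c) σ (fun N => ⌊β * N⌋ - σ.off)
      (Or.inr fun N c => σ.Lc_iff _ c)
  refine ⟨hvc, Ker.cut m.hb m.lim m.Y0 m.Yb hk.vf hk.ker (fun N => σ.refl ⌊β * N⌋) ?_ ?_ ?_ hvc⟩
  · intro K
    obtain ⟨M, hM0, _, hL⟩ := hF (K + 2 * (|β| + 1))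
    have hlim : Tendsto (fun N : ℕ => (2 * (2 * M) ^ 2 * (2 * K) ^ 2) *
        ((N : ℝ)⁻¹ * (N : ℝ)⁻¹)) atTop (𝓝 0) := by
      have hN1 : Tendsto (fun N : ℕ => (N : ℝ)⁻¹) atTop (𝓝 0) := tendsto_inv_atTop_nhds_zero_nat
      simpa using (hN1.mul hN1).const_mul (2 * (2 * M) ^ 2 * (2 * K) ^ 2)
    refine tendsto_of_tendsto_of_tendsto_of_le_of_le' tendsto_const_nhds hlim
      (Eventually.of_forall fun N => div_nonneg (nR_nonneg _ _) (by positivity)) ?_
    filter_upwards [eventually_ge_atTop 1] with N hN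
    have hN0 : (0 : ℝ) < N := by exact_mod_cast hN
    rw [div_le_iff₀ (by positivity), σ.act_smp _ F hN]
    have h1 : ∀ c ∈ bx (K * N), ∀ d,
        |(smp (σ.actM (((⌊β * N⌋ : ℤ) : ℝ) / N) F) N - smp F N) c d| ≤ 2 * M / N := by
      intro c hc d
      have hcb := center_bd hN hc
      have hfl := floor_close β hN
      have h1N : (1 : ℝ) / N ≤ 1 := by
        rw [div_le_one hN0]; exact_mod_cast hN
      have hβ1 : |((⌊β * N⌋ : ℤ) : ℝ) / N| ≤ |β| + 1 := by
        have := abs_sub_abs_le_abs_sub (((⌊β * N⌋ : ℤ) : ℝ) / N) β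
        linarith
      have hβ2 : |β| ≤ |β| + 1 := by linarith
      have r1 := σ.re_bd hcb.1 hcb.2 hβ1
      have r2 := σ.re_bd hcb.1 hcb.2 hβ2
      have e1 : (smp (σ.actM (((⌊β * N⌋ : ℤ) : ℝ) / N) F) N - smp F N) c d =
          smp (σ.actM (((⌊β * N⌋ : ℤ) : ℝ) / N) F) N c d - smp (σ.actM β F) N c d := by
        rw [hs]; rfl
      rw [e1]
      unfold smp Dir.actM
      rw [← mul_sub, abs_mul, σ.abs_sgM, one_mul]
      refine (hL _ _ _ _ _ r1.1 r1.2 r2.1 r2.2).trans ?_
      have := σ.re_diff (((⌊β * N⌋ : ℤ) : ℝ) / N) β (((c.1 : ℝ) + 1 / 2) / N)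
        (((c.2 : ℝ) + 1 / 2) / N)
      calc _ ≤ M * (2 * |((⌊β * N⌋ : ℤ) : ℝ) / N - β|) := mul_le_mul_of_nonneg_left this hM0
        _ ≤ M * (2 * (1 / N)) := by gcongr
        _ = 2 * M / N := by ring
    refine (nR_bound h1).trans (le_of_eq ?_)
    rw [card_bx]
    push_cast
    field_simp
  · intro K
    have hlim : Tendsto (fun N : ℕ => (6 * (K : ℝ)) * (N : ℝ)⁻¹) atTop (𝓝 0) := by
      simpa using (tendsto_inv_atTop_nhds_zero_nat (𝕜 := ℝ)).const_mul (6 * (K : ℝ))
    refine tendsto_of_tendsto_of_tendsto_of_le_of_le' tendsto_const_nhds hlim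
      (Eventually.of_forall fun N => by positivity) ?_
    filter_upwards [eventually_ge_atTop 1] with N hN
    have hN0 : (0 : ℝ) < N := by exact_mod_cast hN
    rw [div_le_iff₀ (by positivity)]
    refine (σ.mid_strip _ _).trans (le_of_eq ?_)
    push_cast
    field_simp
  · intro K
    refine ⟨8 * (K + (⌈|β|⌉₊ + 1)), fun N hN p L hs => ?_⟩
    have hN0 : (0 : ℝ) < N := by exact_mod_cast hN
    obtain ⟨p', L', h1, h2, h3⟩ := σ.big ⌊β * N⌋ (K * N) ((⌈|β|⌉₊ + 1) * N) (by
      have h4 : |((⌊β * N⌋ : ℤ) : ℝ)| ≤ ((((⌈|β|⌉₊ + 1) * N : ℕ) : ℤ) : ℝ) := by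
        have a1 := Int.floor_le (β * N)
        have a2 := Int.lt_floor_add_one (β * N)
        have a3 := Nat.le_ceil |β|
        have a4 : |β * N| ≤ ⌈|β|⌉₊ * N := by
          rw [abs_mul, abs_of_pos hN0]
          exact mul_le_mul_of_nonneg_right a3 hN0.le
        have a5 : (1 : ℝ) ≤ N := by exact_mod_cast hN
        rw [abs_le] at a4 ⊢
        push_cast
        constructor <;> nlinarith only [a1, a2, a4, a5]
      exact_mod_cast h4)
    refine ⟨p', L', h1, hs.trans h2, h3.trans (le_of_eq ?_)⟩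
    congr 1
    ring

end

/-- Riemann sums with a cut -/
theorem riem {A B M : ℝ} (hAB : A < B) (hM : 0 ≤ M) {u : ℝ → ℝ} (hu : Continuous u)
    (hb : ∀ β, A ≤ β → β ≤ B → |u β| ≤ M)
    (hl : ∀ β β', A ≤ β → β ≤ B → A ≤ β' → β' ≤ B → |u β - u β'| ≤ M * |β - β'|)
    (m : ℕ) (hm : 1 ≤ m) {lam s : ℝ} (h1 : A ≤ lam) (h2 : lam ≤ B) (hs : 0 ≤ s)
    (one : ℕ → Prop) [DecidablePred one]
    (ho1 : ∀ j, one j → lam - s ≤ A + (j + 1) * ((B - A) / m))
    (ho2 : ∀ j, ¬ one j → A + (j + 1) * ((B - A) / m) ≤ lam + s) :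
    |(∑ j ∈ Finset.range m, (B - A) / m * (if one j then u (A + (j + 1) * ((B - A) / m)) else 0)) -
      ∫ β in lam..B, u β| ≤ M * ((B - A) * ((B - A) / m) + 2 * ((B - A) / m + s)) := by
  have hm0 : (0 : ℝ) < m := by exact_mod_cast hm
  obtain ⟨Δ, hΔ⟩ : ∃ Δ, Δ = (B - A) / m := ⟨_, rfl⟩
  have hΔ0 : 0 < Δ := by rw [hΔ]; exact div_pos (by linarith) hm0
  have hmΔ : (m : ℝ) * Δ = B - A := by rw [hΔ]; field_simp
  rw [← hΔ] at ho1 ho2 ⊢
  set P : ℕ → ℝ := fun j => A + j * Δ with hP
  have hPs : ∀ j, P (j + 1) = P j + Δ := by intro j; simp only [hP]; push_cast; ring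
  have hPm : P m = B := by simp only [hP]; linarith
  have hP0 : P 0 = A := by simp [hP]
  have hPle : ∀ j, j ≤ m → P j ≤ B := by
    intro j hj
    rw [← hPm]
    simp only [hP]
    have : (j : ℝ) ≤ m := by exact_mod_cast hj
    nlinarith only [this, hΔ0]
  have hPge : ∀ j, A ≤ P j := by
    intro j
    simp only [hP]
    have : (0 : ℝ) ≤ j := Nat.cast_nonneg j
    nlinarith only [this, hΔ0]
  -- telescoping
  have htel : ∀ t : ℝ, ∑ j ∈ Finset.range m, (max t (P (j + 1)) - max t (P j)) =
      max t B - max t A := by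
    intro t
    rw [Finset.sum_range_sub (fun j => max t (P j)), hPm, hP0]
  have hint : ∫ β in lam..B, u β = ∑ j ∈ Finset.range m,
      ∫ β in (max lam (P j))..(max lam (P (j + 1))), u β := by
    rw [intervalIntegral.sum_integral_adjacent_intervals (a := fun j => max lam (P j))
      (fun k _ => hu.intervalIntegrable _ _), hPm, hP0, max_eq_right h2, max_eq_left h1]
  rw [hint, ← Finset.sum_sub_distrib]
  refine (Finset.abs_sum_le_sum_abs _ _).trans ?_
  set mu : ℝ → ℕ → ℝ := fun t j => max t (P (j + 1)) - max t (P j) with hmu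
  have hmu0 : ∀ t j, 0 ≤ mu t j := by
    intro t j
    simp only [hmu, sub_nonneg]
    exact max_le_max_left t (by rw [hPs]; linarith)
  have hmuΔ : ∀ t j, mu t j ≤ Δ := by
    intro t j
    simp only [hmu]
    rw [sub_le_iff_le_add, hPs]
    refine max_le ?_ ?_
    · linarith [le_max_left t (P j)]
    · linarith [le_max_right t (P j)]
  have hmumono : ∀ t t' j, t ≤ t' → mu t' j ≤ mu t j := by
    intro t t' j htt
    simp only [hmu]
    rw [hPs]
    rcases le_total t (P j) with g1 | g1
    · rw [max_eq_right g1, max_eq_right (by linarith : t ≤ P j + Δ)]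
      have := hmuΔ t' j
      simp only [hmu, hPs] at this
      linarith
    · rw [max_eq_left g1, max_eq_left (by linarith : P j ≤ t')]
      rcases le_total t (P j + Δ) with g2 | g2
      · rw [max_eq_right g2]
        rcases le_total t' (P j + Δ) with g3 | g3
        · rw [max_eq_right g3]; linarith
        · rw [max_eq_left g3]; linarith
      · rw [max_eq_left g2, max_eq_left (by linarith : P j + Δ ≤ t')]; linarith
  have hterm : ∀ j ∈ Finset.range m,
      |Δ * (if one j then u (A + (j + 1) * Δ) else 0) -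
        ∫ β in (max lam (P j))..(max lam (P (j + 1))), u β| ≤
      M * Δ * mu lam j + M * (mu (lam - s - Δ) j - mu (lam + s) j) := by
    intro j hj
    have hjm : j + 1 ≤ m := Finset.mem_range.1 hj
    have hPj : A + ((j : ℝ) + 1) * Δ = P (j + 1) := by simp only [hP]; push_cast; ring
    rw [hPj]
    have hle : max lam (P j) ≤ max lam (P (j + 1)) := max_le_max_left lam (by rw [hPs]; linarith)
    -- the integral is close to mu * u (P (j+1))
    have a1 : |(∫ β in (max lam (P j))..(max lam (P (j + 1))), u β) - mu lam j * u (P (j + 1))| ≤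
        M * Δ * mu lam j := by
      have e1 : mu lam j * u (P (j + 1)) =
          ∫ _β in (max lam (P j))..(max lam (P (j + 1))), u (P (j + 1)) := by
        rw [intervalIntegral.integral_const, smul_eq_mul]
      rw [e1, ← intervalIntegral.integral_sub (hu.intervalIntegrable _ _)
        (continuous_const.intervalIntegrable _ _)]
      have h3 : ∀ β ∈ Set.uIoc (max lam (P j)) (max lam (P (j + 1))),
          ‖u β - u (P (j + 1))‖ ≤ M * Δ := by
        intro β hβ
        rw [Set.uIoc_of_le hle, Set.mem_Ioc] at hβ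
        rw [Real.norm_eq_abs]
        by_cases hc : lam ≤ P (j + 1)
        · rw [max_eq_right hc] at hβ
          have g1 : P j < β := lt_of_le_of_lt (le_max_right _ _) hβ.1
          have g0 : A ≤ β := (hPge j).trans g1.le
          refine (hl β (P (j + 1)) g0 (hβ.2.trans (hPle _ hjm)) (hPge _) (hPle _ hjm)).trans ?_
          refine mul_le_mul_of_nonneg_left ?_ hM
          rw [abs_le]
          rw [hPs] at hβ ⊢
          constructor <;> linarith [hβ.2]
        · push Not at hc
          exfalso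
          rw [max_eq_left hc.le, max_eq_left (by rw [hPs] at hc; linarith)] at hβ
          linarith [hβ.1, hβ.2]
      have := intervalIntegral.norm_integral_le_of_norm_le_const h3
      rw [Real.norm_eq_abs] at this
      refine this.trans (le_of_eq ?_)
      rw [abs_of_nonneg (sub_nonneg.2 hle)]
    have a2 : |Δ * (if one j then u (P (j + 1)) else 0) - mu lam j * u (P (j + 1))| ≤
        M * (mu (lam - s - Δ) j - mu (lam + s) j) := by
      have hub := hb (P (j + 1)) (hPge _) (hPle _ hjm)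
      have g2 := hmumono (lam - s - Δ) lam j (by linarith)
      have g3 := hmumono lam (lam + s) j (by linarith)
      by_cases ho : one j
      · rw [if_pos ho, ← sub_mul, abs_mul, mul_comm]
        have g4 : mu (lam - s - Δ) j = Δ := by
          have := ho1 j ho
          rw [hPj, hPs] at this
          simp only [hmu]
          rw [hPs, max_eq_right (by linarith), max_eq_right (by linarith)]
          ring
        refine mul_le_mul hub ?_ (abs_nonneg _) hM
        rw [abs_of_nonneg (by linarith [hmuΔ lam j])]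
        linarith
      · rw [if_neg ho, mul_zero, zero_sub, abs_neg, abs_mul, mul_comm]
        have g4 : mu (lam + s) j = 0 := by
          have := ho2 j ho
          rw [hPj] at this
          simp only [hmu]
          rw [max_eq_left this, max_eq_left (by rw [hPs] at this; linarith)]
          ring
        refine mul_le_mul hub ?_ (abs_nonneg _) hM
        rw [abs_of_nonneg (hmu0 _ _), g4]
        linarith
    have e3 : Δ * (if one j then u (P (j + 1)) else 0) -
        ∫ β in (max lam (P j))..(max lam (P (j + 1))), u β =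
        (Δ * (if one j then u (P (j + 1)) else 0) - mu lam j * u (P (j + 1))) -
        ((∫ β in (max lam (P j))..(max lam (P (j + 1))), u β) - mu lam j * u (P (j + 1))) := by
      ring
    rw [e3]
    refine (abs_sub _ _).trans ?_
    linarith
  refine (Finset.sum_le_sum hterm).trans ?_
  have htelmu : ∀ t : ℝ, ∑ j ∈ Finset.range m, mu t j = max t B - max t A := htel
  have e5 : ∑ j ∈ Finset.range m, (M * Δ * mu lam j + M * (mu (lam - s - Δ) j - mu (lam + s) j)) =
      M * Δ * (∑ j ∈ Finset.range m, mu lam j) + M * ((∑ j ∈ Finset.range m, mu (lam - s - Δ) j) -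
        ∑ j ∈ Finset.range m, mu (lam + s) j) := by
    rw [Finset.sum_add_distrib, ← Finset.mul_sum, ← Finset.mul_sum,
      Finset.sum_sub_distrib (mu (lam - s - Δ)) (mu (lam + s))]
  rw [e5, htelmu, htelmu, htelmu]
  have c1 : max lam B - max lam A ≤ B - A := by
    rw [max_eq_right h2, max_eq_left h1]; linarith
  have c2 : (max (lam - s - Δ) B - max (lam - s - Δ) A) - (max (lam + s) B - max (lam + s) A) ≤
      2 * (Δ + s) := by
    have k1 : max (lam - s - Δ) B ≤ max (lam + s) B := max_le_max_right B (by linarith)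
    have k2 : max (lam + s) A ≤ max (lam - s - Δ) A + 2 * (Δ + s) := by
      refine max_le ?_ ?_
      · linarith [le_max_left (lam - s - Δ) A]
      · linarith [le_max_right (lam - s - Δ) A]
    linarith
  have c3 := mul_le_mul_of_nonneg_left c1 (by positivity : 0 ≤ M * Δ)
  have c4 := mul_le_mul_of_nonneg_left c2 hM
  nlinarith only [c3, c4]

end Vale.Agent.P159.H950
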