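import Vale.Agent.P159.H950.E2

/-!
Averages over the position of the cut; exponential fields belong to the kernel.
-/

set_option linter.all false
set_option autoImplicit false

open MeasureTheory Filter Topology
open scoped BigOperators

namespace Vale.Agent.P159.H950

open Vale.Agent.P159 Vale.Agent.P159.UJ

/-- centre of a cell -/
noncomputable def cX (N : ℕ) (c : ℤ × ℤ) : ℝ := ((c.1 : ℝ) + 1 / 2) / N

/-- centre of a cell -/
noncomputable def cY (N : ℕ) (c : ℤ × ℤ) : ℝ := ((c.2 : ℝ) + 1 / 2) / N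

theorem smp_apply (F : MF) (N : ℕ) (c : ℤ × ℤ) (d : Bool) : smp F N c d = F (cX N c) (cY N c) d :=
  rfl

theorem Dir.one_rel (σ : Dir) (β : ℝ) {N : ℕ} (hN : 1 ≤ N) (c : ℤ × ℤ) :
    (Lc (σ.refl ⌊β * N⌋) c → σ.lamM (cX N c) (cY N c) - 2 / N ≤ β) ∧
    (¬ Lc (σ.refl ⌊β * N⌋) c → β ≤ σ.lamM (cX N c) (cY N c) + 2 / N) := by
  have hN0 : (0 : ℝ) < N := by exact_mod_cast hN
  rw [σ.Lc_iff]
  have h1 := Int.floor_le (β * N)
  have h2 := Int.lt_floor_add_one (β * N)
  have hlam : ∃ κ : ℝ, 0 ≤ κ ∧ κ ≤ 1 ∧ (κ ≤ 1 / 2 ∨ σ.off = 1) ∧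
      σ.lamM (cX N c) (cY N c) * N = σ.lamZ c + κ := by
    cases σ
    · refine ⟨1 / 2, by norm_num, by norm_num, Or.inl le_rfl, ?_⟩
      simp only [Dir.lamM, Dir.lamZ, cX]
      field_simp
    · refine ⟨1 / 2, by norm_num, by norm_num, Or.inl le_rfl, ?_⟩
      simp only [Dir.lamM, Dir.lamZ, cY]
      field_simp
    · refine ⟨0, le_rfl, by norm_num, Or.inl (by norm_num), ?_⟩
      simp only [Dir.lamM, Dir.lamZ, cX, cY]
      field_simp
      push_cast
      ring
    · refine ⟨1, by norm_num, le_rfl, Or.inr rfl, ?_⟩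
      simp only [Dir.lamM, Dir.lamZ, cX, cY]
      field_simp
      push_cast
      ring
  have hoff : (0 : ℝ) ≤ (σ.off : ℝ) ∧ (σ.off : ℝ) ≤ 1 := by
    cases σ <;> simp [Dir.off]
  obtain ⟨κ, k0, k1, _, hk⟩ := hlam
  constructor
  · intro h
    have h3 : ((σ.lamZ c : ℤ) : ℝ) + 1 ≤ ((⌊β * N⌋ : ℤ) : ℝ) - σ.off := by
      have : σ.lamZ c + 1 ≤ ⌊β * N⌋ - σ.off := h
      exact_mod_cast this
    have h4 : σ.lamM (cX N c) (cY N c) * N ≤ β * N := by rw [hk]; linarith
    have h5 := le_of_mul_le_mul_right h4 hN0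
    have : (0 : ℝ) ≤ 2 / N := by positivity
    linarith
  · intro h
    have h3 : ((⌊β * N⌋ : ℤ) : ℝ) - σ.off ≤ ((σ.lamZ c : ℤ) : ℝ) := by
      have : ⌊β * N⌋ - σ.off ≤ σ.lamZ c := not_lt.1 h
      exact_mod_cast this
    have h4 : β * N ≤ (σ.lamM (cX N c) (cY N c) + 2 / N) * N := by
      rw [add_mul, hk, div_mul_cancel₀ _ hN0.ne']
      linarith [hoff.2]
    exact le_of_mul_le_mul_right h4 hN0

section

variable {b Y : ℝ}

/-- averaging over the position of the cut -/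
theorem avg (m : Mod b Y) (σ : Dir) (F : ℝ → MF) {A B M : ℝ} (hAB : A < B) (hM : 0 ≤ M) (K : ℕ)
    (hNK : ∀ β, A ≤ β → β ≤ B → NK b Y (fun N => cutF (σ.refl ⌊β * N⌋) (smp (F β) N)))
    (hcont : ∀ x y d, Continuous fun β => F β x y d)
    (hbd : ∀ (β x y : ℝ) d, A ≤ β → β ≤ B → |x| ≤ (K : ℝ) → |y| ≤ (K : ℝ) → |F β x y d| ≤ M)
    (hlip : ∀ (β β' x y : ℝ) d, A ≤ β → β ≤ B → A ≤ β' → β' ≤ B → |x| ≤ (K : ℝ) →
      |y| ≤ (K : ℝ) → |F β x y d - F β' x y d| ≤ M * |β - β'|)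
    (hlam : ∀ x y : ℝ, |x| ≤ (K : ℝ) → |y| ≤ (K : ℝ) → A ≤ σ.lamM x y ∧ σ.lamM x y ≤ B) {ε : ℝ} (hε : 0 < ε) :
    ∃ g : SF, NK b Y g ∧ ∀ᶠ N : ℕ in atTop, ∀ c ∈ bx (K * N), ∀ d,
      |g N c d - ∫ β in (σ.lamM (cX N c) (cY N c))..B, F β (cX N c) (cY N c) d| ≤ ε := by
  classical
  -- mesh
  have hlim : Tendsto (fun n : ℕ => M * ((B - A) * (B - A) + 2 * (B - A)) * (n : ℝ)⁻¹) atTop
      (𝓝 0) := by
    simpa using (tendsto_inv_atTop_nhds_zero_nat (𝕜 := ℝ)).const_mul
      (M * ((B - A) * (B - A) + 2 * (B - A)))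
  obtain ⟨n, hn1, hn⟩ := ((hlim.eventually (ge_mem_nhds (half_pos hε))).and
    (eventually_ge_atTop 1)).exists
  have hn0 : (0 : ℝ) < n := by exact_mod_cast hn
  set P : ℕ → ℝ := fun j => A + (j + 1) * ((B - A) / n) with hP
  have hPA : ∀ j, A ≤ P j := by
    intro j
    simp only [hP]
    have : 0 ≤ ((j : ℝ) + 1) * ((B - A) / n) :=
      mul_nonneg (by positivity) (div_nonneg (by linarith) hn0.le)
    linarith
  have hPB : ∀ j ∈ Finset.range n, P j ≤ B := by
    intro j hj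
    have h1 : ((j : ℝ) + 1) ≤ n := by exact_mod_cast Finset.mem_range.1 hj
    simp only [hP]
    have h2 : ((j : ℝ) + 1) * ((B - A) / n) ≤ n * ((B - A) / n) :=
      mul_le_mul_of_nonneg_right h1 (div_nonneg (by linarith) hn0.le)
    have h3 : (n : ℝ) * ((B - A) / n) = B - A := by field_simp
    linarith
  refine ⟨fun N => ∑ j ∈ Finset.range n,
    ((B - A) / n) • cutF (σ.refl ⌊P j * N⌋) (smp (F (P j)) N), ?_, ?_⟩
  · exact NK.sum m (Finset.range n) (fun j N => ((B - A) / n) •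
      cutF (σ.refl ⌊P j * N⌋) (smp (F (P j)) N)) fun j hj => (hNK _ (hPA j) (hPB j hj)).smul _
  · have hlim2 : Tendsto (fun N : ℕ => M * (2 * 2) * (N : ℝ)⁻¹) atTop (𝓝 0) := by
      simpa using (tendsto_inv_atTop_nhds_zero_nat (𝕜 := ℝ)).const_mul (M * (2 * 2))
    filter_upwards [hlim2.eventually (ge_mem_nhds (half_pos hε)), eventually_ge_atTop 1]
      with N hN2 hN c hc d
    have hN0 : (0 : ℝ) < N := by exact_mod_cast hN
    have hcb := center_bd hN hc
    have hl := hlam _ _ hcb.1 hcb.2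
    have key := riem hAB hM (u := fun β => F β (cX N c) (cY N c) d) (hcont _ _ _)
      (fun β h1 h2 => hbd β _ _ d h1 h2 hcb.1 hcb.2)
      (fun β β' h1 h2 h3 h4 => hlip β β' _ _ d h1 h2 h3 h4 hcb.1 hcb.2) n hn hl.1 hl.2
      (s := 2 / N) (by positivity) (fun j => Lc (σ.refl ⌊P j * N⌋) c)
      (fun j h => (σ.one_rel (P j) hN c).1 h) (fun j h => (σ.one_rel (P j) hN c).2 h)
    have e1 : (∑ j ∈ Finset.range n,
        ((B - A) / n) • cutF (σ.refl ⌊P j * N⌋) (smp (F (P j)) N)) c d =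
        ∑ j ∈ Finset.range n, (B - A) / n * (if Lc (σ.refl ⌊P j * N⌋) c then
          F (P j) (cX N c) (cY N c) d else 0) := by
      rw [Finset.sum_apply, Finset.sum_apply]
      rfl
    rw [e1]
    refine key.trans ?_
    have e2 : M * ((B - A) * ((B - A) / n) + 2 * ((B - A) / n + 2 / N)) =
        M * ((B - A) * (B - A) + 2 * (B - A)) * (n : ℝ)⁻¹ + M * (2 * 2) * (N : ℝ)⁻¹ := by
      field_simp
      ring
    rw [e2]
    linarith

/-- a sampled field that is locally uniformly approximated by the kernel is in the kernel -/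
theorem Ker.of_approx (m : Mod b Y) {F : MF}
    (hbd : ∀ K : ℕ, ∃ M : ℝ, ∀ (x y : ℝ) d, |x| ≤ (K : ℝ) → |y| ≤ (K : ℝ) → |F x y d| ≤ M)
    (h : ∀ K : ℕ, ∀ ε : ℝ, 0 < ε → ∃ g : SF, NK b Y g ∧ ∀ᶠ N : ℕ in atTop, ∀ c ∈ bx (K * N),
      ∀ d, |g N c d - smp F N c d| ≤ ε) : Ker b Y (smp F) := by
  refine Ker.closed m.hb m.Y0 m.Yb (fun K => ?_) fun K ε hε => ?_
  · obtain ⟨M, hM⟩ := hbd K
    refine ⟨2 * M ^ 2 * (2 * K) ^ 2, ?_⟩
    filter_upwards [eventually_ge_atTop 1] with N hN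
    have hN0 : (0 : ℝ) < N := by exact_mod_cast hN
    rw [div_le_iff₀ (by positivity)]
    refine (nR_bound (M := M) fun c hc d => ?_).trans (le_of_eq ?_)
    · have := center_bd hN hc
      exact hM _ _ d this.1 this.2
    · rw [card_bx]; push_cast; ring
  · set ε' : ℝ := min 1 (ε / (2 * (2 * K) ^ 2 + 1)) with hε'
    have hε'0 : 0 < ε' := lt_min one_pos (by positivity)
    obtain ⟨g, hg, hgN⟩ := h K ε' hε'0
    refine ⟨g, hg.ker, ?_⟩
    filter_upwards [hgN, eventually_ge_atTop 1] with N h1 hN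
    have hN0 : (0 : ℝ) < N := by exact_mod_cast hN
    rw [div_le_iff₀ (by positivity)]
    refine (nR_bound (M := ε') fun c hc d => h1 c hc d).trans ?_
    rw [card_bx]
    push_cast
    have h2 : ε' ^ 2 ≤ ε' := by
      have : ε' ≤ 1 := min_le_left _ _
      nlinarith only [this, hε'0]
    have h3 : ε' * (2 * (2 * K) ^ 2 + 1) ≤ ε := by
      have : ε' ≤ ε / (2 * (2 * K) ^ 2 + 1) := min_le_right _ _
      rwa [le_div_iff₀ (by positivity)] at this
    have h4 : 2 * ε' ^ 2 * (2 * (K : ℝ)) ^ 2 ≤ ε := by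
      have : 2 * ε' ^ 2 * (2 * (K : ℝ)) ^ 2 ≤ 2 * ε' * (2 * (K : ℝ)) ^ 2 := by gcongr
      nlinarith only [this, h3, hε'0]
    have h5 : 0 ≤ (N : ℝ) ^ 2 := by positivity
    nlinarith only [mul_le_mul_of_nonneg_right h4 h5]

end

/-! ### Exponential fields -/

theorem exp_lip {u v C : ℝ} (hu : u ≤ C) (hv : v ≤ C) :
    |Real.exp u - Real.exp v| ≤ Real.exp C * |u - v| := by
  wlog h : v ≤ u generalizing u v
  · rw [abs_sub_comm, abs_sub_comm u v]
    exact this hv hu (le_of_not_ge h)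
  rw [abs_of_nonneg (sub_nonneg.2 (Real.exp_le_exp.2 h)), abs_of_nonneg (sub_nonneg.2 h)]
  have h1 : Real.exp v = Real.exp u * Real.exp (v - u) := by
    rw [← Real.exp_add]; congr 1; ring
  have h2 := Real.add_one_le_exp (v - u)
  rw [h1]
  have h3 : Real.exp u - Real.exp u * Real.exp (v - u) ≤ Real.exp u * (u - v) := by
    nlinarith [Real.exp_pos u]
  exact h3.trans (mul_le_mul_of_nonneg_right (Real.exp_le_exp.2 hu) (sub_nonneg.2 h))

/-- sum of two exponentials with coefficients -/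
noncomputable def ef (c1 : Bool → ℝ) (a1 p1 q1 : ℝ) (c2 : Bool → ℝ) (a2 p2 q2 : ℝ) (β : ℝ) : MF :=
  fun x y d => c1 d * Real.exp (a1 * β + p1 * x + q1 * y) +
    c2 d * Real.exp (a2 * β + p2 * x + q2 * y)

theorem ef_cont (c1 : Bool → ℝ) (a1 p1 q1 : ℝ) (c2 : Bool → ℝ) (a2 p2 q2 : ℝ) (x y : ℝ)
    (d : Bool) : Continuous fun β => ef c1 a1 p1 q1 c2 a2 p2 q2 β x y d := by
  unfold ef
  fun_prop

theorem lin_bd {a p q β x y C K : ℝ} (hβ : |β| ≤ C) (hx : |x| ≤ K) (hy : |y| ≤ K) :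
    a * β + p * x + q * y ≤ |a| * C + |p| * K + |q| * K := by
  have h1 : a * β ≤ |a| * C := (le_abs_self _).trans (by rw [abs_mul]; gcongr)
  have h2 : p * x ≤ |p| * K := (le_abs_self _).trans (by rw [abs_mul]; gcongr)
  have h3 : q * y ≤ |q| * K := (le_abs_self _).trans (by rw [abs_mul]; gcongr)
  linarith

theorem ef_bd (c1 : Bool → ℝ) (a1 p1 q1 : ℝ) (c2 : Bool → ℝ) (a2 p2 q2 : ℝ) (C K : ℝ) :
    ∃ M : ℝ, 0 ≤ M ∧ (∀ β x y d, |β| ≤ C → |x| ≤ K → |y| ≤ K →
      |ef c1 a1 p1 q1 c2 a2 p2 q2 β x y d| ≤ M) ∧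
    (∀ β β' x y x' y' d, |β| ≤ C → |β'| ≤ C → |x| ≤ K → |y| ≤ K → |x'| ≤ K → |y'| ≤ K →
      |ef c1 a1 p1 q1 c2 a2 p2 q2 β x y d - ef c1 a1 p1 q1 c2 a2 p2 q2 β' x' y' d| ≤
        M * (|β - β'| + |x - x'| + |y - y'|)) := by
  obtain ⟨D1, hD1⟩ : ∃ D, D = |a1| * C + |p1| * K + |q1| * K := ⟨_, rfl⟩
  obtain ⟨D2, hD2⟩ : ∃ D, D = |a2| * C + |p2| * K + |q2| * K := ⟨_, rfl⟩
  obtain ⟨m1, hm1⟩ : ∃ m, m = (|c1 true| + |c1 false|) * Real.exp D1 := ⟨_, rfl⟩
  obtain ⟨m2, hm2⟩ : ∃ m, m = (|c2 true| + |c2 false|) * Real.exp D2 := ⟨_, rfl⟩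
  have hm10 : 0 ≤ m1 := by rw [hm1]; positivity
  have hm20 : 0 ≤ m2 := by rw [hm2]; positivity
  have hc1 : ∀ d, |c1 d| ≤ |c1 true| + |c1 false| := by
    intro d
    cases d
    · linarith [abs_nonneg (c1 true)]
    · linarith [abs_nonneg (c1 false)]
  have hc2 : ∀ d, |c2 d| ≤ |c2 true| + |c2 false| := by
    intro d
    cases d
    · linarith [abs_nonneg (c2 true)]
    · linarith [abs_nonneg (c2 false)]
  set W1 : ℝ := 1 + |a1| + |p1| + |q1| with hW1
  set W2 : ℝ := 1 + |a2| + |p2| + |q2| with hW2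
  have hW10 : 0 ≤ W1 := by positivity
  have hW20 : 0 ≤ W2 := by positivity
  have hW11 : 1 ≤ W1 := by rw [hW1]; linarith [abs_nonneg a1, abs_nonneg p1, abs_nonneg q1]
  have hW21 : 1 ≤ W2 := by rw [hW2]; linarith [abs_nonneg a2, abs_nonneg p2, abs_nonneg q2]
  refine ⟨m1 * W1 + m2 * W2, by positivity, ?_, ?_⟩
  · intro β x y d hβ hx hy
    unfold ef
    refine (abs_add_le _ _).trans (add_le_add ?_ ?_)
    · rw [abs_mul, Real.abs_exp]
      have h1 : |c1 d| * Real.exp (a1 * β + p1 * x + q1 * y) ≤ m1 := by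
        rw [hm1]
        refine mul_le_mul (hc1 d) (Real.exp_le_exp.2 ?_) (Real.exp_pos _).le (by positivity)
        rw [hD1]; exact lin_bd hβ hx hy
      nlinarith only [h1, hm10, hW11]
    · rw [abs_mul, Real.abs_exp]
      have h1 : |c2 d| * Real.exp (a2 * β + p2 * x + q2 * y) ≤ m2 := by
        rw [hm2]
        refine mul_le_mul (hc2 d) (Real.exp_le_exp.2 ?_) (Real.exp_pos _).le (by positivity)
        rw [hD2]; exact lin_bd hβ hx hy
      nlinarith only [h1, hm20, hW21]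
  · intro β β' x y x' y' d hβ hβ' hx hy hx' hy'
    have key : ∀ (c : Bool → ℝ) (a p q D mm W : ℝ), (∀ d, |c d| ≤ |c true| + |c false|) →
        D = |a| * C + |p| * K + |q| * K → mm = (|c true| + |c false|) * Real.exp D →
        W = 1 + |a| + |p| + |q| →
        |c d * Real.exp (a * β + p * x + q * y) - c d * Real.exp (a * β' + p * x' + q * y')| ≤
          mm * W * (|β - β'| + |x - x'| + |y - y'|) := by
      intro c a p q D mm W hc hD hmm hW
      rw [← mul_sub, abs_mul]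
      have h1 : a * β + p * x + q * y ≤ D := by rw [hD]; exact lin_bd hβ hx hy
      have h2 : a * β' + p * x' + q * y' ≤ D := by rw [hD]; exact lin_bd hβ' hx' hy'
      have h3 := exp_lip h1 h2
      have h4 : |a * β + p * x + q * y - (a * β' + p * x' + q * y')| ≤
          W * (|β - β'| + |x - x'| + |y - y'|) := by
        have e : a * β + p * x + q * y - (a * β' + p * x' + q * y') =
            a * (β - β') + p * (x - x') + q * (y - y') := by ring
        rw [e]
        have b1 := abs_add_le (a * (β - β') + p * (x - x')) (q * (y - y'))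
        have b2 := abs_add_le (a * (β - β')) (p * (x - x'))
        rw [abs_mul, abs_mul] at b2
        rw [abs_mul q] at b1
        have n1 := abs_nonneg (β - β')
        have n2 := abs_nonneg (x - x')
        have n3 := abs_nonneg (y - y')
        have n4 := abs_nonneg a
        have n5 := abs_nonneg p
        have n6 := abs_nonneg q
        rw [hW]
        nlinarith only [b1, b2, n1, n2, n3, mul_nonneg n4 n2, mul_nonneg n4 n3, mul_nonneg n5 n1,
          mul_nonneg n5 n3, mul_nonneg n6 n1, mul_nonneg n6 n2]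
      calc |c d| * |Real.exp (a * β + p * x + q * y) - Real.exp (a * β' + p * x' + q * y')|
          ≤ (|c true| + |c false|) * (Real.exp D * (W * (|β - β'| + |x - x'| + |y - y'|))) :=
            mul_le_mul (hc d) (h3.trans (mul_le_mul_of_nonneg_left h4 (Real.exp_pos _).le))
              (abs_nonneg _) (by positivity)
        _ = mm * W * (|β - β'| + |x - x'| + |y - y'|) := by rw [hmm]; ring
    have k1 := key c1 a1 p1 q1 D1 m1 W1 hc1 hD1 hm1 hW1
    have k2 := key c2 a2 p2 q2 D2 m2 W2 hc2 hD2 hm2 hW2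
    unfold ef
    have e : c1 d * Real.exp (a1 * β + p1 * x + q1 * y) +
        c2 d * Real.exp (a2 * β + p2 * x + q2 * y) -
        (c1 d * Real.exp (a1 * β' + p1 * x' + q1 * y') +
        c2 d * Real.exp (a2 * β' + p2 * x' + q2 * y')) =
        (c1 d * Real.exp (a1 * β + p1 * x + q1 * y) -
          c1 d * Real.exp (a1 * β' + p1 * x' + q1 * y')) +
        (c2 d * Real.exp (a2 * β + p2 * x + q2 * y) -
          c2 d * Real.exp (a2 * β' + p2 * x' + q2 * y')) := by ring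
    rw [e]
    refine (abs_add_le _ _).trans ?_
    rw [add_mul]
    exact add_le_add k1 k2

theorem ef_lipB (c1 : Bool → ℝ) (a1 p1 q1 : ℝ) (c2 : Bool → ℝ) (a2 p2 q2 β : ℝ) :
    LipB (ef c1 a1 p1 q1 c2 a2 p2 q2 β) := by
  intro K
  obtain ⟨M, hM0, h1, h2⟩ := ef_bd c1 a1 p1 q1 c2 a2 p2 q2 |β| K
  refine ⟨M, hM0, fun x y d hx hy => h1 β x y d le_rfl hx hy, fun x y x' y' d hx hy hx' hy' => ?_⟩
  have := h2 β β x y x' y' d le_rfl le_rfl hx hy hx' hy'
  rwa [sub_self, abs_zero, zero_add] at this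

/-- direction vector -/
def vec (u w : ℝ) : Bool → ℝ := fun d => if d then w else u

/-- one exponential -/
noncomputable def e1F (c : Bool → ℝ) (p q : ℝ) : MF := fun x y d => c d * Real.exp (p * x + q * y)

theorem e1F_eq (c : Bool → ℝ) (p q : ℝ) : e1F c p q = ef c 0 p q (fun _ => 0) 0 0 0 0 := by
  funext x y d
  unfold e1F ef
  simp

theorem e1F_lipB (c : Bool → ℝ) (p q : ℝ) : LipB (e1F c p q) := by
  rw [e1F_eq]; exact ef_lipB _ _ _ _ _ _ _ _ _

theorem int_exp {a c : ℝ} (ha : a ≠ 0) (s B : ℝ) :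
    ∫ β in s..B, Real.exp (a * β + c) = (Real.exp (a * B + c) - Real.exp (a * s + c)) / a := by
  have h : ∀ β ∈ Set.uIcc s B, HasDerivAt (fun β => Real.exp (a * β + c) / a)
      (Real.exp (a * β + c)) β := by
    intro β _
    have h1 : HasDerivAt (fun β => a * β + c) a β := by
      simpa using ((hasDerivAt_id β).const_mul a).add_const c
    have h2 := h1.exp.div_const a
    refine h2.congr_deriv ?_
    field_simp
  rw [intervalIntegral.integral_eq_sub_of_hasDerivAt h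
    ((by fun_prop : Continuous fun β => Real.exp (a * β + c)).intervalIntegrable _ _)]
  ring

section

variable {b Y : ℝ}

/-- exponential ridge fields -/
theorem NK.ridge (m : Mod b Y) (σ : Dir) (v : Bool → ℝ) (p q k : ℝ) (hk : k ≠ 0)
    (hpq : ∀ x y, p * x + q * y = k * σ.lamM x y)
    (hs : ∀ d, σ.sgM d * v (σ.dmM d) = v d) :
    NK b Y (smp (e1F v p q)) := by
  refine ⟨VF.smp (e1F_lipB _ _ _), Ker.of_approx m (fun K => ?_) fun K ε hε => ?_⟩
  · obtain ⟨M, _, h1, _⟩ := e1F_lipB v p q K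
    exact ⟨M, h1⟩
  -- averages of cut constant fields
  set B : ℝ := 2 * K + 1 with hB
  obtain ⟨M, hM0, h1, h2⟩ := ef_bd (fun d => -k * v d) k 0 0 (fun _ => 0) 0 0 0 (2 * K + 1) K
  set F : ℝ → MF := ef (fun d => -k * v d) k 0 0 (fun _ => 0) 0 0 0 with hF
  have hFe : ∀ β x y d, F β x y d = -k * v d * Real.exp (k * β) := by
    intro β x y d
    simp only [hF, ef]
    simp
  have hK0 : (0 : ℝ) ≤ K := Nat.cast_nonneg K
  have hlamb : ∀ x y, |x| ≤ (K : ℝ) → |y| ≤ (K : ℝ) → -B ≤ σ.lamM x y ∧ σ.lamM x y ≤ B := by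
    intro x y hx hy
    rw [abs_le] at hx hy
    cases σ <;> simp only [Dir.lamM, hB] <;> constructor <;> linarith
  have habs : ∀ β : ℝ, -B ≤ β → β ≤ B → |β| ≤ 2 * K + 1 := fun β h3 h4 => abs_le.2 ⟨h3, h4⟩
  obtain ⟨g, hg, hgN⟩ := avg m σ F (A := -B) (B := B) (by rw [hB]; linarith) hM0 K
    (fun β _ _ => by
      have hsm : smp (F β) = fun _ => cst (-k * v false * Real.exp (k * β))
          (-k * v true * Real.exp (k * β)) := by
        funext N c d
        rw [smp_apply, hFe]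
        cases d <;> simp [cst]
      refine NK.cut m (ef_lipB _ _ _ _ _ _ _ _ β) (by rw [hsm]; exact NK.const m _ _) σ β ?_
      funext x y d
      show σ.sgM d * F β (σ.reX β x y) (σ.reY β x y) (σ.dmM d) = F β x y d
      rw [hFe, hFe]
      have := hs d
      linear_combination (-k * Real.exp (k * β)) * this)
    (ef_cont _ _ _ _ _ _ _ _)
    (fun β x y d h3 h4 hx hy => h1 β x y d (habs β h3 h4) hx hy)
    (fun β β' x y d h3 h4 h5 h6 hx hy => by
      have := h2 β β' x y x y d (habs β h3 h4) (habs β' h5 h6) hx hy hx hy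
      simpa using this) hlamb hε
  refine ⟨fun N => g N + cst (v false * Real.exp (k * B)) (v true * Real.exp (k * B)),
    NK.add m hg (NK.const m _ _), ?_⟩
  filter_upwards [hgN] with N hN c hc d
  have h3 := hN c hc d
  have h4 : ∫ β in (σ.lamM (cX N c) (cY N c))..B, F β (cX N c) (cY N c) d =
      v d * Real.exp (k * σ.lamM (cX N c) (cY N c)) - v d * Real.exp (k * B) := by
    have e1 : ∀ β, F β (cX N c) (cY N c) d = (-k * v d) * Real.exp (k * β + 0) := by
      intro β; rw [hFe, add_zero]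
    simp only [e1]
    rw [intervalIntegral.integral_const_mul, int_exp hk]
    simp only [add_zero]
    field_simp
    ring
  rw [h4] at h3
  have h5 : smp (e1F v p q) N c d = v d * Real.exp (k * σ.lamM (cX N c) (cY N c)) := by
    rw [smp_apply]
    unfold e1F
    rw [hpq]
  have h6 : cst (v false * Real.exp (k * B)) (v true * Real.exp (k * B)) c d =
      v d * Real.exp (k * B) := by
    cases d <;> simp [cst]
  rw [Pi.add_apply, Pi.add_apply, h5, h6]
  refine le_trans (le_of_eq ?_) h3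
  congr 1
  ring

/-- the exponential fields are in the kernel -/
theorem NK.expo (m : Mod b Y) {k l : ℝ} (hk : 0 < k) (hl : 0 < l) :
    NK b Y (smp (e1F (vec l (-k)) k l)) := by
  -- diagonal ridge fields
  have hR1 : NK b Y (smp (e1F (vec 1 (-1)) k k)) := by
    refine NK.ridge m Dir.A (vec 1 (-1)) k k k hk.ne' (fun x y => ?_) (fun d => ?_)
    · simp only [Dir.lamM]; ring
    · cases d <;> simp [Dir.sgM, Dir.dmM, vec]
  have hR2 : NK b Y (smp (e1F (vec 1 1) k (-k))) := by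
    refine NK.ridge m Dir.D (vec 1 1) k (-k) k hk.ne' (fun x y => ?_) (fun d => ?_)
    · simp only [Dir.lamM]; ring
    · cases d <;> simp [Dir.sgM, Dir.dmM, vec]
  by_cases hkl : l = k
  · subst hkl
    have e : smp (e1F (vec l (-l)) l l) = fun N => l • smp (e1F (vec 1 (-1)) l l) N := by
      funext N c d
      show vec l (-l) d * _ = l * (vec 1 (-1) d * _)
      cases d <;> simp [vec]
    rw [e]
    exact hR1.smul l
  refine ⟨VF.smp (e1F_lipB _ _ _), Ker.of_approx m (fun K => ?_) fun K ε hε => ?_⟩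
  · obtain ⟨M, _, h1, _⟩ := e1F_lipB (vec l (-k)) k l K
    exact ⟨M, h1⟩
  obtain ⟨κ, hκ⟩ : ∃ κ, κ = (k ^ 2 - l ^ 2) / 2 := ⟨_, rfl⟩
  have hlk : l - k ≠ 0 := sub_ne_zero.2 hkl
  have hlk' : l + k ≠ 0 := by positivity
  set B : ℝ := K + 1 with hB
  obtain ⟨M, hM0, h1, h2⟩ := ef_bd (vec κ (-κ)) (l - k) k k (vec κ κ) (l + k) k (-k) (K + 1) K
  set F : ℝ → MF := ef (vec κ (-κ)) (l - k) k k (vec κ κ) (l + k) k (-k) with hF
  have hK0 : (0 : ℝ) ≤ K := Nat.cast_nonneg K
  have habs : ∀ β : ℝ, -B ≤ β → β ≤ B → |β| ≤ K + 1 := fun β h3 h4 => abs_le.2 ⟨h3, h4⟩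
  obtain ⟨g, hg, hgN⟩ := avg m Dir.H F (A := -B) (B := B) (by rw [hB]; linarith) hM0 K
    (fun β _ _ => by
      have hsm : smp (F β) = fun N => (κ * Real.exp ((l - k) * β)) • smp (e1F (vec 1 (-1)) k k) N +
          (κ * Real.exp ((l + k) * β)) • smp (e1F (vec 1 1) k (-k)) N := by
        funext N c d
        show vec κ (-κ) d * Real.exp ((l - k) * β + k * cX N c + k * cY N c) +
          vec κ κ d * Real.exp ((l + k) * β + k * cX N c + -k * cY N c) =
          κ * Real.exp ((l - k) * β) * (vec 1 (-1) d * Real.exp (k * cX N c + k * cY N c)) +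
          κ * Real.exp ((l + k) * β) * (vec 1 1 d * Real.exp (k * cX N c + -k * cY N c))
        rw [add_assoc ((l - k) * β), add_assoc ((l + k) * β), Real.exp_add ((l - k) * β),
          Real.exp_add ((l + k) * β)]
        cases d <;> simp [vec] <;> ring
      refine NK.cut m (ef_lipB _ _ _ _ _ _ _ _ β) (by
        rw [hsm]; exact NK.add m (hR1.smul _) (hR2.smul _)) Dir.H β ?_
      funext x y d
      have e1 : (l - k) * β + k * x + k * (2 * β - y) = (l + k) * β + k * x + -k * y := by ring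
      have e2 : (l + k) * β + k * x + -k * (2 * β - y) = (l - k) * β + k * x + k * y := by ring
      show Dir.sgM Dir.H d * (vec κ (-κ) d * Real.exp ((l - k) * β + k * x + k * (2 * β - y)) +
          vec κ κ d * Real.exp ((l + k) * β + k * x + -k * (2 * β - y))) =
        vec κ (-κ) d * Real.exp ((l - k) * β + k * x + k * y) +
          vec κ κ d * Real.exp ((l + k) * β + k * x + -k * y)
      rw [e1, e2]
      cases d <;> simp [vec, Dir.sgM] <;> ring)
    (ef_cont _ _ _ _ _ _ _ _)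
    (fun β x y d h3 h4 hx hy => h1 β x y d (habs β h3 h4) hx hy)
    (fun β β' x y d h3 h4 h5 h6 hx hy => by
      have := h2 β β' x y x y d (habs β h3 h4) (habs β' h5 h6) hx hy hx hy
      simpa using this)
    (fun x y hx hy => by
      rw [abs_le] at hy
      simp only [Dir.lamM, hB]
      constructor <;> linarith) hε
  refine ⟨fun N => (g N + ((k + l) / 2 * Real.exp ((l - k) * B)) • smp (e1F (vec 1 (-1)) k k) N) +
    (-((k - l) / 2 * Real.exp ((l + k) * B))) • smp (e1F (vec 1 1) k (-k)) N,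
    NK.add m (NK.add m hg (hR1.smul _)) (hR2.smul _), ?_⟩
  filter_upwards [hgN] with N hN c hc d
  have h3 := hN c hc d
  obtain ⟨x, hx⟩ : ∃ x, x = cX N c := ⟨_, rfl⟩
  obtain ⟨y, hy⟩ : ∃ y, y = cY N c := ⟨_, rfl⟩
  rw [← hx, ← hy] at h3
  have h4 : ∫ β in (Dir.H.lamM x y)..B, F β x y d =
      vec κ (-κ) d * ((Real.exp ((l - k) * B + (k * x + k * y)) -
        Real.exp ((l - k) * y + (k * x + k * y))) / (l - k)) +
      vec κ κ d * ((Real.exp ((l + k) * B + (k * x + -k * y)) -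
        Real.exp ((l + k) * y + (k * x + -k * y))) / (l + k)) := by
    have e1 : ∀ β, F β x y d = vec κ (-κ) d * Real.exp ((l - k) * β + (k * x + k * y)) +
        vec κ κ d * Real.exp ((l + k) * β + (k * x + -k * y)) := by
      intro β
      simp only [hF, ef, add_assoc]
    simp only [e1]
    rw [intervalIntegral.integral_add, intervalIntegral.integral_const_mul,
      intervalIntegral.integral_const_mul, int_exp hlk, int_exp hlk']
    · rfl
    · exact ((by fun_prop : Continuous fun β => vec κ (-κ) d *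
        Real.exp ((l - k) * β + (k * x + k * y)))).intervalIntegrable _ _
    · exact ((by fun_prop : Continuous fun β => vec κ κ d *
        Real.exp ((l + k) * β + (k * x + -k * y)))).intervalIntegrable _ _
  rw [h4] at h3
  have e5 : (l - k) * y + (k * x + k * y) = k * x + l * y := by ring
  have e6 : (l + k) * y + (k * x + -k * y) = k * x + l * y := by ring
  rw [e5, e6, Real.exp_add ((l - k) * B), Real.exp_add ((l + k) * B)] at h3
  show |(g N c d + (k + l) / 2 * Real.exp ((l - k) * B) *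
      (vec 1 (-1) d * Real.exp (k * cX N c + k * cY N c))) +
      -((k - l) / 2 * Real.exp ((l + k) * B)) *
      (vec 1 1 d * Real.exp (k * cX N c + -k * cY N c)) -
      vec l (-k) d * Real.exp (k * cX N c + l * cY N c)| ≤ ε
  rw [← hx, ← hy]
  refine le_trans (le_of_eq ?_) h3
  congr 1
  obtain ⟨E1, hE1⟩ : ∃ E, E = Real.exp ((l - k) * B) := ⟨_, rfl⟩
  obtain ⟨E2, hE2⟩ : ∃ E, E = Real.exp ((l + k) * B) := ⟨_, rfl⟩
  obtain ⟨E3, hE3⟩ : ∃ E, E = Real.exp (k * x + k * y) := ⟨_, rfl⟩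
  obtain ⟨E4, hE4⟩ : ∃ E, E = Real.exp (k * x + -k * y) := ⟨_, rfl⟩
  obtain ⟨E5, hE5⟩ : ∃ E, E = Real.exp (k * x + l * y) := ⟨_, rfl⟩
  rw [← hE1, ← hE2, ← hE3, ← hE4, ← hE5, hκ]
  cases d
  · simp only [vec, Bool.false_eq_true, if_false]
    field_simp
    ring
  · simp only [vec, if_true]
    field_simp
    ring

end

end Vale.Agent.P159.H950
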