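import Vale.Agent.P159.H950.E3
import Mathlib.Topology.ContinuousMap.StoneWeierstrass
import Mathlib.Algebra.Algebra.Subalgebra.Lattice
import Mathlib.RingTheory.Adjoin.Basic

/-!
Density of exponentials; divergence free fields belong to the kernel.
-/

set_option linter.all false
set_option autoImplicit false

open MeasureTheory Filter Topology
open scoped BigOperators

namespace Vale.Agent.P159.H950

open Vale.Agent.P159 Vale.Agent.P159.UJ

/-- exponential sums -/
noncomputable def exs (L : List (ℝ × ℕ × ℕ)) (x y : ℝ) : ℝ :=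
  (L.map fun t => t.1 * Real.exp (t.2.1 * x + t.2.2 * y)).sum

theorem exs_append (L L' : List (ℝ × ℕ × ℕ)) (x y : ℝ) :
    exs (L ++ L') x y = exs L x y + exs L' x y := by
  unfold exs
  rw [List.map_append, List.sum_append]

theorem sw0 {f : ℝ → ℝ → ℝ} (hf : Continuous (Function.uncurry f)) (K : ℝ) {ε : ℝ}
    (hε : 0 < ε) : ∃ L : List (ℝ × ℕ × ℕ), ∀ x y : ℝ, |x| ≤ K → |y| ≤ K →
      |exs L x y - f x y| ≤ ε := by
  let X := ↥(Set.Icc (-K) K) × ↥(Set.Icc (-K) K)
  let g1 : C(X, ℝ) := ⟨fun p => Real.exp (p.1 : ℝ),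
    Real.continuous_exp.comp (continuous_subtype_val.comp continuous_fst)⟩
  let g2 : C(X, ℝ) := ⟨fun p => Real.exp (p.2 : ℝ),
    Real.continuous_exp.comp (continuous_subtype_val.comp continuous_snd)⟩
  let A : Subalgebra ℝ C(X, ℝ) := Algebra.adjoin ℝ {g1, g2}
  have hsep : A.SeparatesPoints := by
    intro p q hpq
    have h : p.1 ≠ q.1 ∨ p.2 ≠ q.2 := by
      by_contra hcon
      push Not at hcon
      exact hpq (Prod.ext hcon.1 hcon.2)
    rcases h with h | h
    · refine ⟨g1, ⟨g1, Algebra.subset_adjoin (by simp), rfl⟩, ?_⟩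
      intro he
      exact h (Subtype.ext (Real.exp_injective he))
    · refine ⟨g2, ⟨g2, Algebra.subset_adjoin (by simp), rfl⟩, ?_⟩
      intro he
      exact h (Subtype.ext (Real.exp_injective he))
  let F : C(X, ℝ) := ⟨fun p => f (p.1 : ℝ) (p.2 : ℝ), by
    have : Continuous fun p : X => Function.uncurry f ((p.1 : ℝ), (p.2 : ℝ)) :=
      hf.comp ((continuous_subtype_val.comp continuous_fst).prodMk
        (continuous_subtype_val.comp continuous_snd))
    exact this⟩
  obtain ⟨g, hg⟩ := ContinuousMap.exists_mem_subalgebra_near_continuousMap_of_separatesPoints A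
    hsep F ε hε
  have hmem : (g : C(X, ℝ)) ∈ Submodule.span ℝ ((Submonoid.closure {g1, g2} : Submonoid C(X, ℝ)) :
      Set C(X, ℝ)) := by
    rw [← Algebra.adjoin_eq_span]
    exact g.2
  have hrep : ∀ p ∈ Submodule.span ℝ ((Submonoid.closure {g1, g2} : Submonoid C(X, ℝ)) :
      Set C(X, ℝ)), ∃ L : List (ℝ × ℕ × ℕ), ∀ z : X, p z = exs L (z.1 : ℝ) (z.2 : ℝ) := by
    intro p hp
    induction hp using Submodule.span_induction with
    | mem q hq =>
      have hmon : ∃ k l : ℕ, q = g1 ^ k * g2 ^ l := by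
        induction hq using Submonoid.closure_induction with
        | mem r hr =>
          rcases hr with rfl | hr
          · exact ⟨1, 0, by simp⟩
          · rw [Set.mem_singleton_iff] at hr
            exact ⟨0, 1, by simp [hr]⟩
        | one => exact ⟨0, 0, by simp⟩
        | mul r s _ _ hr hs =>
          obtain ⟨k, l, rfl⟩ := hr
          obtain ⟨k', l', rfl⟩ := hs
          exact ⟨k + k', l + l', by ring⟩
      obtain ⟨k, l, rfl⟩ := hmon
      refine ⟨[(1, k, l)], fun z => ?_⟩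
      show Real.exp (z.1 : ℝ) ^ k * Real.exp (z.2 : ℝ) ^ l = _
      unfold exs
      simp only [List.map_cons, List.map_nil, List.sum_cons, List.sum_nil, add_zero, one_mul]
      rw [← Real.exp_nat_mul, ← Real.exp_nat_mul, ← Real.exp_add]
    | zero => exact ⟨[], fun z => by simp [exs]⟩
    | add q r _ _ hq hr =>
      obtain ⟨L, hL⟩ := hq
      obtain ⟨L', hL'⟩ := hr
      refine ⟨L ++ L', fun z => ?_⟩
      rw [exs_append, ContinuousMap.add_apply, hL, hL']
    | smul a q _ hq =>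
      obtain ⟨L, hL⟩ := hq
      refine ⟨L.map fun t => (a * t.1, t.2), fun z => ?_⟩
      rw [ContinuousMap.smul_apply, hL, smul_eq_mul]
      unfold exs
      rw [List.map_map, ← List.sum_map_mul_left]
      congr 1
      apply List.map_congr_left
      intro t _
      simp only [Function.comp]
      ring
  obtain ⟨L, hL⟩ := hrep _ hmem
  refine ⟨L, fun x y hx hy => ?_⟩
  rw [abs_le] at hx hy
  have h1 := ContinuousMap.norm_coe_le_norm ((g : C(X, ℝ)) - F)
    (⟨⟨x, hx⟩, ⟨y, hy⟩⟩ : X)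
  have h2 := h1.trans hg.le
  rw [ContinuousMap.sub_apply, hL, Real.norm_eq_abs] at h2
  exact h2

/-- shifted exponential sums -/
noncomputable def exq (L : List (ℝ × ℕ × ℕ)) (x y : ℝ) : ℝ :=
  (L.map fun t => t.1 * Real.exp (((t.2.1 : ℝ) + 1) * x + ((t.2.2 : ℝ) + 1) * y)).sum

theorem exq_eq (L : List (ℝ × ℕ × ℕ)) (x y : ℝ) :
    exq L x y = Real.exp (x + y) * exs L x y := by
  unfold exq exs
  rw [← List.sum_map_mul_left]
  congr 1
  apply List.map_congr_left
  intro t _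
  have e : ((t.2.1 : ℝ) + 1) * x + ((t.2.2 : ℝ) + 1) * y =
      (x + y) + ((t.2.1 : ℝ) * x + (t.2.2 : ℝ) * y) := by ring
  rw [e, Real.exp_add]
  ring

theorem sw {f : ℝ → ℝ → ℝ} (hf : Continuous (Function.uncurry f)) (K : ℝ) {ε : ℝ}
    (hε : 0 < ε) : ∃ L : List (ℝ × ℕ × ℕ), ∀ x y : ℝ, |x| ≤ K → |y| ≤ K →
      |exq L x y - f x y| ≤ ε := by
  have hf' : Continuous (Function.uncurry fun x y => f x y * Real.exp (-(x + y))) := by
    refine hf.mul ?_
    fun_prop
  obtain ⟨L, hL⟩ := sw0 hf' K (ε := ε * Real.exp (-(K + K))) (by positivity)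
  refine ⟨L, fun x y hx hy => ?_⟩
  have h1 := hL x y hx hy
  rw [exq_eq]
  have e : Real.exp (x + y) * exs L x y - f x y =
      Real.exp (x + y) * (exs L x y - f x y * Real.exp (-(x + y))) := by
    rw [mul_sub, mul_comm (f x y), ← mul_assoc, ← Real.exp_add]
    simp
  rw [e, abs_mul, Real.abs_exp]
  rw [abs_le] at hx hy
  calc Real.exp (x + y) * |exs L x y - f x y * Real.exp (-(x + y))|
      ≤ Real.exp (K + K) * (ε * Real.exp (-(K + K))) := by
        refine mul_le_mul (Real.exp_le_exp.2 (by linarith)) h1 (abs_nonneg _) (Real.exp_pos _).le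
    _ = ε := by
        rw [mul_comm ε, ← mul_assoc, ← Real.exp_add]
        simp

section

variable {b Y : ℝ}

theorem NK.list (m : Mod b Y) {ι : Type*} (L : List ι) (g : ι → SF)
    (h : ∀ t, NK b Y (g t)) : NK b Y (fun N => (L.map fun t => g t N).sum) := by
  induction L with
  | nil =>
    have := NK.smul (NK.const m 0 0) 0
    simpa using this
  | cons t L ih =>
    have := NK.add m (h t) ih
    simpa using this

theorem neg_sum_map {ι : Type*} (L : List ι) (g : ι → ℝ) :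
    -(L.map g).sum = (L.map fun t => -g t).sum := by
  induction L with
  | nil => simp
  | cons t L ih =>
    simp only [List.map_cons, List.sum_cons, neg_add]
    rw [ih]

theorem list_apply {ι : Type*} (L : List ι) (g : ι → Fld) (c : ℤ × ℤ) (d : Bool) :
    (L.map g).sum c d = (L.map fun t => g t c d).sum := by
  induction L with
  | nil => simp
  | cons t L ih => simp [ih]

/-- derivative of exponential sums -/
theorem hasDerivAt_listx (L : List (ℝ × ℕ × ℕ)) (x y : ℝ) :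
    HasDerivAt (fun x => (L.map fun t => t.1 / ((t.2.1 : ℝ) + 1) *
      Real.exp (((t.2.1 : ℝ) + 1) * x + ((t.2.2 : ℝ) + 1) * y)).sum) (exq L x y) x := by
  unfold exq
  induction L with
  | nil => simpa using hasDerivAt_const x (0 : ℝ)
  | cons t L ih =>
    simp only [List.map_cons, List.sum_cons]
    refine HasDerivAt.add ?_ ih
    have h0 : ((t.2.1 : ℝ) + 1) ≠ 0 := by positivity
    have h1 : HasDerivAt (fun x => ((t.2.1 : ℝ) + 1) * x + ((t.2.2 : ℝ) + 1) * y)
        ((t.2.1 : ℝ) + 1) x := by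
      simpa using ((hasDerivAt_id x).const_mul ((t.2.1 : ℝ) + 1)).add_const
        (((t.2.2 : ℝ) + 1) * y)
    refine (h1.exp.const_mul (t.1 / ((t.2.1 : ℝ) + 1))).congr_deriv ?_
    field_simp

theorem hasDerivAt_listy (L : List (ℝ × ℕ × ℕ)) (x y : ℝ) :
    HasDerivAt (fun y => (L.map fun t => t.1 / ((t.2.2 : ℝ) + 1) *
      Real.exp (((t.2.1 : ℝ) + 1) * x + ((t.2.2 : ℝ) + 1) * y)).sum) (exq L x y) y := by
  unfold exq
  induction L with
  | nil => simpa using hasDerivAt_const y (0 : ℝ)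
  | cons t L ih =>
    simp only [List.map_cons, List.sum_cons]
    refine HasDerivAt.add ?_ ih
    have h0 : ((t.2.2 : ℝ) + 1) ≠ 0 := by positivity
    have h1 : HasDerivAt (fun y => ((t.2.1 : ℝ) + 1) * x + ((t.2.2 : ℝ) + 1) * y)
        ((t.2.2 : ℝ) + 1) y := by
      simpa using ((hasDerivAt_id y).const_mul ((t.2.2 : ℝ) + 1)).const_add
        (((t.2.1 : ℝ) + 1) * x)
    refine (h1.exp.const_mul (t.1 / ((t.2.2 : ℝ) + 1))).congr_deriv ?_
    field_simp

theorem mvt {u u' : ℝ → ℝ} {K ε : ℝ} (hK : 0 ≤ K) (hu : ∀ t, HasDerivAt u (u' t) t)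
    (hb : ∀ t, |t| ≤ K → |u' t| ≤ ε) {x : ℝ} (hx : |x| ≤ K) : |u x - u 0| ≤ ε * K := by
  have hε : 0 ≤ ε := (abs_nonneg _).trans (hb 0 (by simpa using hK))
  have h := Convex.norm_image_sub_le_of_norm_hasDerivWithin_le (s := Set.Icc (-K) K)
    (f := u) (f' := u') (C := ε) (fun t _ => (hu t).hasDerivWithinAt)
    (fun t ht => by rw [Real.norm_eq_abs]; exact hb t (abs_le.2 ht)) (convex_Icc _ _)
    (x := 0) (y := x) ⟨by linarith, hK⟩ (abs_le.1 hx)
  rw [Real.norm_eq_abs, Real.norm_eq_abs, sub_zero] at h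
  exact h.trans (mul_le_mul_of_nonneg_left hx hε)

/-- divergence free fields are approximated by the kernel -/
theorem approx (m : Mod b Y) {P Q f : ℝ → ℝ → ℝ} (hP : Continuous (Function.uncurry P))
    (hQ : Continuous (Function.uncurry Q)) (hf : Continuous (Function.uncurry f))
    (dP : ∀ x y, HasDerivAt (fun y => P x y) (f x y) y)
    (dQ : ∀ x y, HasDerivAt (fun x => Q x y) (f x y) x) (K : ℕ) {ε : ℝ} (hε : 0 < ε) :
    ∃ g : SF, NK b Y g ∧ ∀ᶠ N : ℕ in atTop, ∀ c ∈ bx (K * N), ∀ d,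
      |g N c d - smp (fun x y d => if d then -P x y else Q x y) N c d| ≤ ε := by
  have hK0 : (0 : ℝ) ≤ K := Nat.cast_nonneg K
  obtain ⟨ε', hε'⟩ : ∃ ε', ε' = ε / ((K : ℝ) + 1) := ⟨_, rfl⟩
  have hε'0 : 0 < ε' := by rw [hε']; positivity
  obtain ⟨L, hL⟩ := sw hf K hε'0
  -- the two partial antiderivatives
  set Q1 : ℝ → ℝ → ℝ := fun x y => (L.map fun t => t.1 / ((t.2.1 : ℝ) + 1) *
      Real.exp (((t.2.1 : ℝ) + 1) * x + ((t.2.2 : ℝ) + 1) * y)).sum with hQ1
  set P1 : ℝ → ℝ → ℝ := fun x y => (L.map fun t => t.1 / ((t.2.2 : ℝ) + 1) *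
      Real.exp (((t.2.1 : ℝ) + 1) * x + ((t.2.2 : ℝ) + 1) * y)).sum with hP1
  have cQ1 : Continuous (Function.uncurry Q1) := by
    show Continuous fun p : ℝ × ℝ => (L.map fun t => t.1 / ((t.2.1 : ℝ) + 1) *
      Real.exp (((t.2.1 : ℝ) + 1) * p.1 + ((t.2.2 : ℝ) + 1) * p.2)).sum
    refine continuous_list_sum L fun t _ => ?_
    fun_prop
  have cP1 : Continuous (Function.uncurry P1) := by
    show Continuous fun p : ℝ × ℝ => (L.map fun t => t.1 / ((t.2.2 : ℝ) + 1) *
      Real.exp (((t.2.1 : ℝ) + 1) * p.1 + ((t.2.2 : ℝ) + 1) * p.2)).sum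
    refine continuous_list_sum L fun t _ => ?_
    fun_prop
  have a1 : ∀ x y : ℝ, |x| ≤ K → |y| ≤ K → |(Q x y - Q1 x y) - (Q 0 y - Q1 0 y)| ≤ ε' * K := by
    intro x y hx hy
    refine mvt (u := fun x => Q x y - Q1 x y) (u' := fun x => f x y - exq L x y) hK0
      (fun t => (dQ t y).sub (hasDerivAt_listx L t y)) (fun t ht => ?_) hx
    rw [abs_sub_comm]
    exact hL t y ht hy
  have a2 : ∀ x y : ℝ, |x| ≤ K → |y| ≤ K → |(P x y - P1 x y) - (P x 0 - P1 x 0)| ≤ ε' * K := by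
    intro x y hx hy
    refine mvt (u := fun y => P x y - P1 x y) (u' := fun y => f x y - exq L x y) hK0
      (fun t => (dP x t).sub (hasDerivAt_listy L x t)) (fun t ht => ?_) hy
    rw [abs_sub_comm]
    exact hL x t hx ht
  -- ridge parts
  have cQ2 : Continuous (Function.uncurry fun (_ y : ℝ) => Q 0 y - Q1 0 y) := by
    have h1 : Continuous fun p : ℝ × ℝ => Function.uncurry Q (0, p.2) := hQ.comp (by fun_prop)
    have h2 : Continuous fun p : ℝ × ℝ => Function.uncurry Q1 (0, p.2) := cQ1.comp (by fun_prop)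
    exact h1.sub h2
  have cP2 : Continuous (Function.uncurry fun (x _ : ℝ) => P x 0 - P1 x 0) := by
    have h1 : Continuous fun p : ℝ × ℝ => Function.uncurry P (p.1, 0) := hP.comp (by fun_prop)
    have h2 : Continuous fun p : ℝ × ℝ => Function.uncurry P1 (p.1, 0) := cP1.comp (by fun_prop)
    exact h1.sub h2
  obtain ⟨L2, hL2⟩ := sw cQ2 K hε'0
  obtain ⟨L3, hL3⟩ := sw cP2 K hε'0
  -- the approximating sequence
  have n1 : ∀ t : ℝ × ℕ × ℕ, NK b Y (fun N => (t.1 / (((t.2.1 : ℝ) + 1) * ((t.2.2 : ℝ) + 1))) •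
      smp (e1F (vec ((t.2.2 : ℝ) + 1) (-((t.2.1 : ℝ) + 1))) ((t.2.1 : ℝ) + 1)
        ((t.2.2 : ℝ) + 1)) N) := fun t =>
    (NK.expo m (by positivity) (by positivity)).smul _
  have n2 : ∀ t : ℝ × ℕ × ℕ, NK b Y (fun N => t.1 •
      smp (e1F (vec 1 0) 0 ((t.2.2 : ℝ) + 1)) N) := by
    intro t
    refine NK.smul (NK.ridge m Dir.H (vec 1 0) 0 ((t.2.2 : ℝ) + 1) ((t.2.2 : ℝ) + 1)
      (by positivity) (fun x y => ?_) (fun d => ?_)) _
    · simp only [Dir.lamM]; ring
    · cases d <;> simp [Dir.sgM, Dir.dmM, vec]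
  have n3 : ∀ t : ℝ × ℕ × ℕ, NK b Y (fun N => (-t.1) •
      smp (e1F (vec 0 1) ((t.2.1 : ℝ) + 1) 0) N) := by
    intro t
    refine NK.smul (NK.ridge m Dir.V (vec 0 1) ((t.2.1 : ℝ) + 1) 0 ((t.2.1 : ℝ) + 1)
      (by positivity) (fun x y => ?_) (fun d => ?_)) _
    · simp only [Dir.lamM]; ring
    · cases d <;> simp [Dir.sgM, Dir.dmM, vec]
  refine ⟨fun N => ((L.map fun t => (t.1 / (((t.2.1 : ℝ) + 1) * ((t.2.2 : ℝ) + 1))) •
      smp (e1F (vec ((t.2.2 : ℝ) + 1) (-((t.2.1 : ℝ) + 1))) ((t.2.1 : ℝ) + 1)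
        ((t.2.2 : ℝ) + 1)) N).sum +
      (L2.map fun t => t.1 • smp (e1F (vec 1 0) 0 ((t.2.2 : ℝ) + 1)) N).sum) +
      (L3.map fun t => (-t.1) • smp (e1F (vec 0 1) ((t.2.1 : ℝ) + 1) 0) N).sum,
    NK.add m (NK.add m (NK.list m L _ n1) (NK.list m L2 _ n2)) (NK.list m L3 _ n3), ?_⟩
  filter_upwards [eventually_ge_atTop 1] with N hN c hc d
  have hcb := center_bd hN hc
  obtain ⟨x, hx⟩ : ∃ x, x = cX N c := ⟨_, rfl⟩
  obtain ⟨y, hy⟩ : ∃ y, y = cY N c := ⟨_, rfl⟩
  have hxK : |x| ≤ (K : ℝ) := by rw [hx]; exact hcb.1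
  have hyK : |y| ≤ (K : ℝ) := by rw [hy]; exact hcb.2
  rw [smp_apply, ← hx, ← hy, Pi.add_apply, Pi.add_apply, Pi.add_apply, Pi.add_apply,
    list_apply, list_apply, list_apply]
  simp only [Pi.smul_apply, smul_eq_mul, smp_apply, ← hx, ← hy, e1F]
  have b1 := a1 x y hxK hyK
  have b2 := a2 x y hxK hyK
  have b3 := hL2 0 y (by simpa using hK0) hyK
  have b4 := hL3 x 0 hxK (by simpa using hK0)
  have hfin : ε' * K + ε' = ε := by rw [hε']; field_simp
  cases d
  · -- horizontal component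
    have e1 : (L.map fun t : ℝ × ℕ × ℕ => t.1 / (((t.2.1 : ℝ) + 1) * ((t.2.2 : ℝ) + 1)) *
        (vec ((t.2.2 : ℝ) + 1) (-((t.2.1 : ℝ) + 1)) false *
          Real.exp (((t.2.1 : ℝ) + 1) * x + ((t.2.2 : ℝ) + 1) * y))).sum = Q1 x y := by
      rw [hQ1]
      congr 1
      apply List.map_congr_left
      intro t _
      have h1 : ((t.2.1 : ℝ) + 1) ≠ 0 := by positivity
      have h2 : ((t.2.2 : ℝ) + 1) ≠ 0 := by positivity
      simp only [vec, Bool.false_eq_true, if_false]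
      field_simp
    have e2 : (L2.map fun t : ℝ × ℕ × ℕ => t.1 * (vec 1 0 false *
        Real.exp (0 * x + ((t.2.2 : ℝ) + 1) * y))).sum = exq L2 0 y := by
      unfold exq
      congr 1
      apply List.map_congr_left
      intro t _
      simp [vec]
    have e3 : (L3.map fun t : ℝ × ℕ × ℕ => -t.1 * (vec 0 1 false *
        Real.exp (((t.2.1 : ℝ) + 1) * x + 0 * y))).sum = 0 := by
      have : (L3.map fun t : ℝ × ℕ × ℕ => -t.1 * (vec 0 1 false *
        Real.exp (((t.2.1 : ℝ) + 1) * x + 0 * y))) = L3.map fun _ => (0 : ℝ) := by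
        apply List.map_congr_left
        intro t _
        simp [vec]
      rw [this]
      simp
    rw [e1, e2, e3]
    simp only [Bool.false_eq_true, if_false, add_zero]
    have e4 : Q1 x y + exq L2 0 y - Q x y = (exq L2 0 y - (Q 0 y - Q1 0 y)) -
        ((Q x y - Q1 x y) - (Q 0 y - Q1 0 y)) := by ring
    rw [e4]
    refine (abs_sub _ _).trans ?_
    linarith
  · have e1 : (L.map fun t : ℝ × ℕ × ℕ => t.1 / (((t.2.1 : ℝ) + 1) * ((t.2.2 : ℝ) + 1)) *
        (vec ((t.2.2 : ℝ) + 1) (-((t.2.1 : ℝ) + 1)) true *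
          Real.exp (((t.2.1 : ℝ) + 1) * x + ((t.2.2 : ℝ) + 1) * y))).sum = -P1 x y := by
      show _ = -(L.map fun t : ℝ × ℕ × ℕ => t.1 / ((t.2.2 : ℝ) + 1) *
        Real.exp (((t.2.1 : ℝ) + 1) * x + ((t.2.2 : ℝ) + 1) * y)).sum
      rw [neg_sum_map]
      congr 1
      apply List.map_congr_left
      intro t _
      have h1 : ((t.2.1 : ℝ) + 1) ≠ 0 := by positivity
      have h2 : ((t.2.2 : ℝ) + 1) ≠ 0 := by positivity
      simp only [vec, if_true]
      field_simp
    have e2 : (L2.map fun t : ℝ × ℕ × ℕ => t.1 * (vec 1 0 true *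
        Real.exp (0 * x + ((t.2.2 : ℝ) + 1) * y))).sum = 0 := by
      have : (L2.map fun t : ℝ × ℕ × ℕ => t.1 * (vec 1 0 true *
        Real.exp (0 * x + ((t.2.2 : ℝ) + 1) * y))) = L2.map fun _ => (0 : ℝ) := by
        apply List.map_congr_left
        intro t _
        simp [vec]
      rw [this]
      simp
    have e3 : (L3.map fun t : ℝ × ℕ × ℕ => -t.1 * (vec 0 1 true *
        Real.exp (((t.2.1 : ℝ) + 1) * x + 0 * y))).sum = - exq L3 x 0 := by
      unfold exq
      rw [neg_sum_map]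
      congr 1
      apply List.map_congr_left
      intro t _
      simp [vec]
    rw [e1, e2, e3]
    simp only [if_true, add_zero]
    have e4 : -P1 x y + -exq L3 x 0 - -P x y = -((exq L3 x 0 - (P x 0 - P1 x 0)) -
        ((P x y - P1 x y) - (P x 0 - P1 x 0))) := by ring
    rw [e4, abs_neg]
    refine (abs_sub _ _).trans ?_
    linarith

end

end Vale.Agent.P159.H950
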