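import Vale.Agent.P159.H950.F1
import Vale.Agent.P159.H177.Lim

/-!
Macroscopic limit of the partition functions with imaginary twist.
-/

set_option linter.all false
set_option autoImplicit false

open MeasureTheory Filter Topology
open scoped BigOperators

namespace Vale.Agent.P159.H950

open Vale.Agent.P159 Vale.Agent.P159.UJ

/-- continuous macroscopic fields -/
def CF (F : MF) : Prop := ∀ d, Continuous fun p : ℝ × ℝ => F p.1 p.2 d

/-- the closed square -/
def sqr (K : ℝ) : Set (ℝ × ℝ) := Set.Icc (-K) K ×ˢ Set.Icc (-K) K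

theorem sqr_compact (K : ℝ) : IsCompact (sqr K) := isCompact_Icc.prod isCompact_Icc

theorem mem_sqr {K x y : ℝ} : (x, y) ∈ sqr K ↔ |x| ≤ K ∧ |y| ≤ K := by
  unfold sqr
  rw [Set.mem_prod, Set.mem_Icc, Set.mem_Icc, abs_le, abs_le]

theorem CF.bd {F : MF} (hF : CF F) (K : ℝ) : ∃ M : ℝ, ∀ (x y : ℝ) d, |x| ≤ K → |y| ≤ K →
    |F x y d| ≤ M := by
  obtain ⟨M1, h1⟩ := (sqr_compact K).exists_bound_of_continuousOn (hF false).continuousOn
  obtain ⟨M2, h2⟩ := (sqr_compact K).exists_bound_of_continuousOn (hF true).continuousOn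
  refine ⟨max M1 M2, fun x y d hx hy => ?_⟩
  cases d
  · exact (h1 (x, y) (mem_sqr.2 ⟨hx, hy⟩)).trans (le_max_left _ _)
  · exact (h2 (x, y) (mem_sqr.2 ⟨hx, hy⟩)).trans (le_max_right _ _)

/-- uniform continuity on squares -/
theorem uc {G : ℝ → ℝ → ℝ} (hG : Continuous fun p : ℝ × ℝ => G p.1 p.2) (K : ℝ) {ε : ℝ}
    (hε : 0 < ε) : ∃ δ : ℝ, 0 < δ ∧ ∀ x y x' y' : ℝ, |x| ≤ K → |y| ≤ K → |x'| ≤ K → |y'| ≤ K →
      |x - x'| ≤ δ → |y - y'| ≤ δ → |G x y - G x' y'| ≤ ε := by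
  have h := (sqr_compact K).uniformContinuousOn_of_continuous hG.continuousOn
  rw [Metric.uniformContinuousOn_iff] at h
  obtain ⟨δ, hδ, hd⟩ := h ε hε
  refine ⟨δ / 2, by positivity, fun x y x' y' h1 h2 h3 h4 h5 h6 => ?_⟩
  have := hd (x, y) (mem_sqr.2 ⟨h1, h2⟩) (x', y') (mem_sqr.2 ⟨h3, h4⟩) (by
    rw [Prod.dist_eq, max_lt_iff, Real.dist_eq, Real.dist_eq]
    constructor <;> simp only <;> linarith)
  rw [Real.dist_eq] at this
  exact this.le

theorem vf_of_cont {F : MF} (hF : CF F) : VF (smp F) := by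
  constructor
  · intro K
    obtain ⟨M, hM⟩ := hF.bd K
    refine ⟨M, fun N hN c hc d => ?_⟩
    have := center_bd hN hc
    exact hM _ _ d this.1 this.2
  · intro K l hl
    have hl0 : (0 : ℝ) < l := by exact_mod_cast hl
    rw [Metric.tendsto_atTop]
    intro ε hε
    obtain ⟨ε', hε', hε'0⟩ : ∃ ε' : ℝ, 2 * ε' ^ 2 * (2 * K) ^ 2 < ε ∧ 0 < ε' := by
      refine ⟨min 1 (ε / (2 * (2 * (K : ℝ)) ^ 2 + 1) / 2), ?_, by positivity⟩
      set t : ℝ := min 1 (ε / (2 * (2 * (K : ℝ)) ^ 2 + 1) / 2) with ht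
      have ht0 : 0 < t := by positivity
      have ht1 : t ≤ 1 := min_le_left _ _
      have ht2 : t ≤ ε / (2 * (2 * (K : ℝ)) ^ 2 + 1) / 2 := min_le_right _ _
      have ht3 : t * (2 * (2 * (K : ℝ)) ^ 2 + 1) ≤ ε / 2 := by
        have : t * (2 * (2 * (K : ℝ)) ^ 2 + 1) ≤
          ε / (2 * (2 * (K : ℝ)) ^ 2 + 1) / 2 * (2 * (2 * (K : ℝ)) ^ 2 + 1) :=
          mul_le_mul_of_nonneg_right ht2 (by positivity)
        refine this.trans (le_of_eq ?_)
        field_simp
      have ht4 : 2 * t ^ 2 * (2 * (K : ℝ)) ^ 2 ≤ 2 * t * (2 * (K : ℝ)) ^ 2 := by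
        have : t ^ 2 ≤ t := by nlinarith only [ht0, ht1]
        gcongr
      nlinarith only [ht4, ht3, ht0, hε]
    obtain ⟨δ1, hδ1, h1⟩ := uc (G := fun x y => F x y false) (hF false) ((K : ℝ) + 1) hε'0
    obtain ⟨δ2, hδ2, h2⟩ := uc (G := fun x y => F x y true) (hF true) ((K : ℝ) + 1) hε'0
    have hlim : Tendsto (fun N : ℕ => (l : ℝ) * (N : ℝ)⁻¹) atTop (𝓝 0) := by
      simpa using (tendsto_inv_atTop_nhds_zero_nat (𝕜 := ℝ)).const_mul (l : ℝ)
    have hev := ((hlim.eventually (ge_mem_nhds (lt_min hδ1 hδ2))).and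
      (hlim.eventually (ge_mem_nhds one_pos))).and (eventually_ge_atTop 1)
    obtain ⟨N0, hN0⟩ := eventually_atTop.1 hev
    refine ⟨N0, fun N hN => ?_⟩
    obtain ⟨⟨e1, e2⟩, e3⟩ := hN0 N hN
    have hNpos : (0 : ℝ) < N := by exact_mod_cast e3
    rw [Real.dist_eq, sub_zero, abs_of_nonneg (div_nonneg (nR_nonneg _ _) (by positivity)),
      div_lt_iff₀ (by positivity)]
    have hb : nR (bx (K * N)) (smp F N - corF l (smp F N)) ≤
        2 * ε' ^ 2 * (bx (K * N)).card := by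
      refine nR_bound fun c hc d => ?_
      have hcb := center_bd e3 hc
      obtain ⟨k1, k2, k3, k4⟩ := crn_close hl c
      obtain ⟨c', hc'⟩ : ∃ c', c' = crn l (tl l c) := ⟨_, rfl⟩
      rw [← hc'] at k1 k2 k3 k4
      have dx : |((c.1 : ℝ) + 1 / 2) / N - ((c'.1 : ℝ) + 1 / 2) / N| ≤ l * (N : ℝ)⁻¹ := by
        rw [← sub_div, abs_div, abs_of_pos hNpos, div_eq_mul_inv]
        refine mul_le_mul_of_nonneg_right ?_ (by positivity)
        have g1 : (c'.1 : ℝ) ≤ c.1 := by exact_mod_cast k1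
        have g2 : (c.1 : ℝ) < c'.1 + l := by exact_mod_cast k2
        rw [abs_le]; constructor <;> linarith
      have dy : |((c.2 : ℝ) + 1 / 2) / N - ((c'.2 : ℝ) + 1 / 2) / N| ≤ l * (N : ℝ)⁻¹ := by
        rw [← sub_div, abs_div, abs_of_pos hNpos, div_eq_mul_inv]
        refine mul_le_mul_of_nonneg_right ?_ (by positivity)
        have g1 : (c'.2 : ℝ) ≤ c.2 := by exact_mod_cast k3
        have g2 : (c.2 : ℝ) < c'.2 + l := by exact_mod_cast k4
        rw [abs_le]; constructor <;> linarith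
      have bx1 : |((c'.1 : ℝ) + 1 / 2) / N| ≤ (K : ℝ) + 1 := by
        have := abs_sub_abs_le_abs_sub (((c'.1 : ℝ) + 1 / 2) / N) (((c.1 : ℝ) + 1 / 2) / N)
        rw [abs_sub_comm] at this
        linarith [hcb.1]
      have by1 : |((c'.2 : ℝ) + 1 / 2) / N| ≤ (K : ℝ) + 1 := by
        have := abs_sub_abs_le_abs_sub (((c'.2 : ℝ) + 1 / 2) / N) (((c.2 : ℝ) + 1 / 2) / N)
        rw [abs_sub_comm] at this
        linarith [hcb.2]
      have m1 := min_le_left δ1 δ2
      have m2 := min_le_right δ1 δ2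
      show |smp F N c d - smp F N (crn l (tl l c)) d| ≤ ε'
      rw [← hc']
      cases d
      · exact h1 _ _ _ _ (by linarith [hcb.1]) (by linarith [hcb.2]) bx1 by1 (by linarith)
          (by linarith)
      · exact h2 _ _ _ _ (by linarith [hcb.1]) (by linarith [hcb.2]) bx1 by1 (by linarith)
          (by linarith)
    refine hb.trans_lt ?_
    rw [card_bx]
    push_cast
    have : (0 : ℝ) < (N : ℝ) ^ 2 := by positivity
    nlinarith only [this, hε', mul_lt_mul_of_pos_right hε' this]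

/-! ### Riemann sums -/

theorem r1 {u : ℝ → ℝ} (hu : Continuous u) {ε : ℝ} {N : ℕ} (hN : 1 ≤ N)
    (h : ∀ x y : ℝ, |x| ≤ 1 → |y| ≤ 1 → |x - y| ≤ (N : ℝ)⁻¹ → |u x - u y| ≤ ε) :
    |(∑ i ∈ Finset.range N, u (((i : ℝ) + 1 / 2) / N)) / N - ∫ x in (0 : ℝ)..1, u x| ≤ ε := by
  have hN0 : (0 : ℝ) < N := by exact_mod_cast hN
  have hsum : ∫ x in (0 : ℝ)..1, u x =
      ∑ i ∈ Finset.range N, ∫ x in ((i : ℝ) / N)..(((i + 1 : ℕ) : ℝ) / N), u x := by
    rw [intervalIntegral.sum_integral_adjacent_intervals (a := fun i : ℕ => (i : ℝ) / N)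
      (fun k _ => hu.intervalIntegrable _ _)]
    simp only [Nat.cast_zero, zero_div]
    rw [div_self hN0.ne']
  have hone : ∀ i ∈ Finset.range N, |u (((i : ℝ) + 1 / 2) / N) / N -
      ∫ x in ((i : ℝ) / N)..(((i + 1 : ℕ) : ℝ) / N), u x| ≤ ε / N := by
    intro i hi
    have hi1 : ((i : ℝ) + 1) ≤ N := by exact_mod_cast Finset.mem_range.1 hi
    have hi0 : (0 : ℝ) ≤ i := Nat.cast_nonneg i
    have e1 : u (((i : ℝ) + 1 / 2) / N) / N =
        ∫ x in ((i : ℝ) / N)..(((i + 1 : ℕ) : ℝ) / N), u (((i : ℝ) + 1 / 2) / N) := by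
      rw [intervalIntegral.integral_const, smul_eq_mul]
      push_cast
      field_simp
      ring
    rw [e1, ← intervalIntegral.integral_sub (by simp) (hu.intervalIntegrable _ _)]
    have h2 := intervalIntegral.norm_integral_le_of_norm_le_const
      (f := fun x => u (((i : ℝ) + 1 / 2) / N) - u x) (a := (i : ℝ) / N)
      (b := ((i + 1 : ℕ) : ℝ) / N) (C := ε) (fun x hx => by
        rw [Set.uIoc_of_le (div_le_div_of_nonneg_right (by push_cast; linarith) hN0.le)] at hx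
        obtain ⟨g1, g2⟩ := hx
        push_cast at g2
        rw [div_lt_iff₀ hN0] at g1
        rw [le_div_iff₀ hN0] at g2
        have hx0 : 0 ≤ x := by
          by_contra hc
          push Not at hc
          nlinarith only [hc, hN0, g1, hi0]
        have hx1 : x ≤ 1 := by
          by_contra hc
          push Not at hc
          nlinarith only [hc, hN0, g2, hi1]
        refine h _ _ ?_ ?_ ?_
        · rw [abs_div, abs_of_pos hN0, div_le_iff₀ hN0, abs_le]
          constructor <;> linarith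
        · rw [abs_le]; constructor <;> linarith
        · rw [show ((i : ℝ) + 1 / 2) / N - x = (((i : ℝ) + 1 / 2) - x * N) * (N : ℝ)⁻¹ by
            field_simp, abs_mul, abs_of_pos (inv_pos.2 hN0)]
          have : |((i : ℝ) + 1 / 2) - x * N| ≤ 1 := by
            rw [abs_le]; constructor <;> linarith
          nlinarith only [this, inv_pos.2 hN0])
    rw [Real.norm_eq_abs] at h2
    refine h2.trans (le_of_eq ?_)
    have e2 : ((i + 1 : ℕ) : ℝ) / N - (i : ℝ) / N = 1 / N := by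
      push_cast
      field_simp
      ring
    rw [e2, abs_of_pos (by positivity)]
    ring
  rw [hsum, Finset.sum_div, ← Finset.sum_sub_distrib]
  refine (Finset.abs_sum_le_sum_abs _ _).trans ((Finset.sum_le_sum hone).trans (le_of_eq ?_))
  rw [Finset.sum_const, Finset.card_range, nsmul_eq_mul]
  field_simp

theorem r2 {G : ℝ → ℝ → ℝ} (hG : Continuous fun p : ℝ × ℝ => G p.1 p.2) :
    Tendsto (fun N : ℕ => (∑ i ∈ Finset.range N, ∑ j ∈ Finset.range N,
      G (((i : ℝ) + 1 / 2) / N) (((j : ℝ) + 1 / 2) / N)) / (N : ℝ) ^ 2) atTop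
      (𝓝 (∫ x in (0 : ℝ)..1, ∫ y in (0 : ℝ)..1, G x y)) := by
  rw [Metric.tendsto_atTop]
  intro ε hε
  have hε3 : 0 < ε / 3 := by positivity
  obtain ⟨δ, hδ, hd⟩ := uc hG 1 hε3
  obtain ⟨N0, hN0⟩ := eventually_atTop.1
    (((tendsto_inv_atTop_nhds_zero_nat (𝕜 := ℝ)).eventually (ge_mem_nhds hδ)).and
      (eventually_ge_atTop 1))
  refine ⟨N0, fun N hN => ?_⟩
  obtain ⟨e1, e2⟩ := hN0 N hN
  have hNpos : (0 : ℝ) < N := by exact_mod_cast e2
  have hI : Continuous fun x => ∫ y in (0 : ℝ)..1, G x y :=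
    intervalIntegral.continuous_parametric_intervalIntegral_of_continuous' hG 0 1
  have hGx : ∀ x, Continuous (G x) := fun x => hG.comp (by fun_prop : Continuous fun y => (x, y))
  have hGint : ∀ x, IntervalIntegrable (G x) volume 0 1 := fun x => (hGx x).intervalIntegrable _ _
  have h1 := r1 (ε := ε / 3) hI e2 (fun x x' hx hx' hxx => by
    rw [← intervalIntegral.integral_sub (hGint x) (hGint x')]
    have h2 := intervalIntegral.norm_integral_le_of_norm_le_const
      (f := fun y => G x y - G x' y) (a := (0 : ℝ)) (b := 1) (C := ε / 3) (fun y hy => by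
        rw [Set.uIoc_of_le zero_le_one] at hy
        have hy1 : |y| ≤ 1 := by rw [abs_le]; constructor <;> linarith [hy.1, hy.2]
        exact hd _ _ _ _ hx hy1 hx' hy1 (by linarith) (by simpa using hδ.le))
    rw [Real.norm_eq_abs] at h2
    simpa using h2)
  have h3 : ∀ i ∈ Finset.range N,
      |(∑ j ∈ Finset.range N, G (((i : ℝ) + 1 / 2) / N) (((j : ℝ) + 1 / 2) / N)) / N -
      ∫ y in (0 : ℝ)..1, G (((i : ℝ) + 1 / 2) / N) y| ≤ ε / 3 := by
    intro i hi
    have hi1 : ((i : ℝ) + 1) ≤ N := by exact_mod_cast Finset.mem_range.1 hi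
    have hi0 : (0 : ℝ) ≤ i := Nat.cast_nonneg i
    have hx : |((i : ℝ) + 1 / 2) / N| ≤ 1 := by
      rw [abs_div, abs_of_pos hNpos, div_le_iff₀ hNpos, abs_le]
      constructor <;> linarith
    refine r1 (hGx _) e2 fun y y' hy hy' hyy => hd _ _ _ _ hx hy hx hy' (by simpa using hδ.le)
      (by linarith)
  have h4 : |(∑ i ∈ Finset.range N, ∑ j ∈ Finset.range N,
      G (((i : ℝ) + 1 / 2) / N) (((j : ℝ) + 1 / 2) / N)) / (N : ℝ) ^ 2 -
      (∑ i ∈ Finset.range N, ∫ y in (0 : ℝ)..1, G (((i : ℝ) + 1 / 2) / N) y) / N| ≤ ε / 3 := by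
    have e3 : (∑ i ∈ Finset.range N, ∑ j ∈ Finset.range N,
      G (((i : ℝ) + 1 / 2) / N) (((j : ℝ) + 1 / 2) / N)) / (N : ℝ) ^ 2 -
      (∑ i ∈ Finset.range N, ∫ y in (0 : ℝ)..1, G (((i : ℝ) + 1 / 2) / N) y) / N =
      (∑ i ∈ Finset.range N, ((∑ j ∈ Finset.range N,
        G (((i : ℝ) + 1 / 2) / N) (((j : ℝ) + 1 / 2) / N)) / N -
        ∫ y in (0 : ℝ)..1, G (((i : ℝ) + 1 / 2) / N) y)) / N := by
      rw [Finset.sum_sub_distrib, sub_div, ← Finset.sum_div, div_div, ← pow_two]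
    rw [e3, abs_div, abs_of_pos hNpos, div_le_iff₀ hNpos]
    refine (Finset.abs_sum_le_sum_abs _ _).trans ((Finset.sum_le_sum h3).trans (le_of_eq ?_))
    rw [Finset.sum_const, Finset.card_range, nsmul_eq_mul]
    ring
  rw [Real.dist_eq]
  have h5 := abs_sub_le ((∑ i ∈ Finset.range N, ∑ j ∈ Finset.range N,
      G (((i : ℝ) + 1 / 2) / N) (((j : ℝ) + 1 / 2) / N)) / (N : ℝ) ^ 2)
      ((∑ i ∈ Finset.range N, ∫ y in (0 : ℝ)..1, G (((i : ℝ) + 1 / 2) / N) y) / N)
      (∫ x in (0 : ℝ)..1, ∫ y in (0 : ℝ)..1, G x y)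
  linarith

/-- sum over the block -/
theorem sum_blk (N : ℕ) (w : ℤ × ℤ → ℝ) : ∑ c ∈ blk 0 N, w c =
    ∑ i ∈ Finset.range N, ∑ j ∈ Finset.range N, w ((i : ℤ), (j : ℤ)) := by
  rw [← Finset.sum_product']
  symm
  refine Finset.sum_nbij (fun p : ℕ × ℕ => ((p.1 : ℤ), (p.2 : ℤ))) ?_ ?_ ?_ ?_
  · intro p hp
    rw [Finset.mem_product, Finset.mem_range, Finset.mem_range] at hp
    rw [mem_blk]
    simp only [Prod.fst_zero, Prod.snd_zero]
    omega
  · intro p _ q _ h
    simp only [Prod.mk.injEq, Nat.cast_inj] at h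
    exact Prod.ext h.1 h.2
  · intro c hc
    rw [Finset.mem_coe, mem_blk] at hc
    simp only [Prod.fst_zero, Prod.snd_zero] at hc
    refine ⟨(c.1.toNat, c.2.toNat), ?_, ?_⟩
    · rw [Finset.mem_coe, Finset.mem_product, Finset.mem_range, Finset.mem_range]
      simp only
      omega
    · ext <;> simp only <;> omega
  · intro p _; rfl

/-- energy of a macroscopic field -/
noncomputable def en (F : MF) : ℝ := ∫ x in (0 : ℝ)..1, ∫ y in (0 : ℝ)..1,
  (F x y false ^ 2 + F x y true ^ 2)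

theorem nR_lim {F : MF} (hF : CF F) :
    Tendsto (fun N : ℕ => nR (blk 0 N) (smp F N) / (N : ℝ) ^ 2) atTop (𝓝 (en F)) := by
  have h := r2 (G := fun x y => F x y false ^ 2 + F x y true ^ 2)
    (((hF false).pow 2).add ((hF true).pow 2))
  refine h.congr fun N => ?_
  unfold nR
  rw [sum_blk]
  rfl

theorem blk_sub_bx (N : ℕ) : blk 0 N ⊆ bx (1 * N) := by
  intro c hc
  rw [mem_blk] at hc
  rw [mem_bx]
  simp only [Prod.fst_zero, Prod.snd_zero] at hc
  push_cast
  omega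

/-- the model -/
theorem mod_helicity {b : ℝ} (hb : 0 < b) : Mod b (helicity b) := by
  have hbdd : BddBelow (Set.range fun l : ℕ => stiff (l + 1) b) :=
    ⟨0, by rintro _ ⟨l, rfl⟩; exact UJ.h3_stiff_nonneg hb (Nat.succ_le_succ (Nat.zero_le l))⟩
  refine ⟨hb, Vale.Agent.P159.H177.tendsto_stiff hb, ?_, ?_, fun L hL => ?_⟩
  · exact le_ciInf fun l => UJ.h3_stiff_nonneg hb (Nat.succ_le_succ (Nat.zero_le l))
  · exact (ciInf_le hbdd 0).trans (UJ.h3_stiff_le hb (le_refl 1))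
  · obtain ⟨l, rfl⟩ : ∃ l, L = l + 1 := ⟨L - 1, by omega⟩
    exact ciInf_le hbdd l

/-- limit of the partition function at imaginary twist -/
theorem imag_lim {b Y : ℝ} (m : Mod b Y) {F : MF} (hF : CF F) (hk : Ker b Y (smp F)) :
    Tendsto (fun N : ℕ => rR b (blk 0 N) ((N : ℝ)⁻¹ • smp F N)) atTop
      (𝓝 (Real.exp (Y * en F / 2))) := by
  have hv := vf_of_cont hF
  -- logarithms
  have hlog : Tendsto (fun N : ℕ => Real.log (rR b (blk 0 N) ((N : ℝ)⁻¹ • smp F N))) atTop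
      (𝓝 (Y * en F / 2)) := by
    have hn : Tendsto (fun N : ℕ => Y * (nR (blk 0 N) (smp F N) / (N : ℝ) ^ 2) / 2) atTop
        (𝓝 (Y * en F / 2)) := ((nR_lim hF).const_mul Y).div_const 2
    have hdiff : Tendsto (fun N : ℕ => Real.log (rR b (blk 0 N) ((N : ℝ)⁻¹ • smp F N)) -
        Y * (nR (blk 0 N) (smp F N) / (N : ℝ) ^ 2) / 2) atTop (𝓝 0) := by
      rw [Metric.tendsto_atTop]
      intro ε hε
      have hε2 : 0 < ε / 2 := by positivity
      obtain ⟨N0, hN0⟩ := eventually_atTop.1 ((ub_asym m.hb m.lim hv 1 hε2).and (hk 1 ε hε))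
      refine ⟨N0, fun N hN => ?_⟩
      obtain ⟨h1, h2⟩ := hN0 N hN
      have g1 := h1 0 0 N 0 (blk_sub_bx N)
      rw [blk_zero, Finset.sdiff_empty] at g1
      have g2 := h2 0 N (blk_sub_bx N)
      have g3 := rR_ge m.hb.le (blk 0 N) ((N : ℝ)⁻¹ • smp F N)
      have g4 := rR_pos m.hb.le (blk 0 N) ((N : ℝ)⁻¹ • smp F N)
      rw [qR_div] at g3
      obtain ⟨t, ht⟩ : ∃ t, t = rR b (blk 0 N) ((N : ℝ)⁻¹ • smp F N) := ⟨_, rfl⟩
      rw [← ht] at g1 g3 g4 ⊢
      have l1 := (Real.log_le_iff_le_exp g4).2 g1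
      have l2 := (Real.le_log_iff_exp_le g4).2 g3
      rw [Real.dist_eq, sub_zero, abs_lt]
      constructor <;> linarith
    have := hdiff.add hn
    simpa using this
  have := (Real.continuous_exp.tendsto _).comp hlog
  refine this.congr fun N => ?_
  exact Real.exp_log (rR_pos m.hb.le _ _)

/-- macroscopic divergence free fields -/
structure DF (F : MF) : Prop where
  cont : CF F
  div : ∃ f : ℝ → ℝ → ℝ, (Continuous fun p : ℝ × ℝ => f p.1 p.2) ∧
    (∀ x y, HasDerivAt (fun x => F x y false) (f x y) x) ∧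
    (∀ x y, HasDerivAt (fun y => F x y true) (-f x y) y)

theorem DF.ker {b Y : ℝ} (m : Mod b Y) {F : MF} (hF : DF F) : Ker b Y (smp F) := by
  obtain ⟨f, hf, hx, hy⟩ := hF.div
  refine Ker.of_approx m (fun K => hF.cont.bd K) fun K ε hε => ?_
  have hA := approx m (P := fun x y => -F x y true) (Q := fun x y => F x y false) (f := f)
    (hF.cont true).neg (hF.cont false) hf (fun x y => by
      have h1 := (hy x y).neg
      rw [neg_neg] at h1
      exact h1) hx K hε
  obtain ⟨g, hg, hgN⟩ := hA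
  refine ⟨g, hg, ?_⟩
  filter_upwards [hgN] with N h c hc d
  have := h c hc d
  have e : smp F N c d = smp (fun x y d => if d then -(-F x y true) else F x y false) N c d := by
    unfold smp
    cases d <;> simp
  rw [e]
  exact this

theorem DF.smul {F : MF} (hF : DF F) (s : ℝ) : DF (fun x y d => s * F x y d) := by
  obtain ⟨f, hf, hx, hy⟩ := hF.div
  refine ⟨fun d => (hF.cont d).const_mul s, fun x y => s * f x y, hf.const_mul s, fun x y => ?_,
    fun x y => ?_⟩
  · exact (hx x y).const_mul s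
  · have := (hy x y).const_mul s
    rwa [mul_neg] at this

theorem en_smul (F : MF) (s : ℝ) : en (fun x y d => s * F x y d) = s ^ 2 * en F := by
  unfold en
  have : ∀ x y : ℝ, (s * F x y false) ^ 2 + (s * F x y true) ^ 2 =
      s ^ 2 * (F x y false ^ 2 + F x y true ^ 2) := fun x y => by ring
  simp only [this, intervalIntegral.integral_const_mul]

theorem imag_lim' {b Y : ℝ} (m : Mod b Y) {F : MF} (hF : DF F) (s : ℝ) :
    Tendsto (fun N : ℕ => rR b (blk 0 N) ((s / N) • smp F N)) atTop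
      (𝓝 (Real.exp (s ^ 2 * (Y * en F) / 2))) := by
  have h := imag_lim m (hF.smul s).cont (DF.ker m (hF.smul s))
  rw [en_smul] at h
  have e : Y * (s ^ 2 * en F) / 2 = s ^ 2 * (Y * en F) / 2 := by ring
  rw [e] at h
  refine h.congr fun N => ?_
  congr 1
  funext c d
  simp only [Pi.smul_apply, smul_eq_mul, smp]
  ring

end Vale.Agent.P159.H950
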