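import Vale.Agent.P159.H950.F2
import Mathlib.Analysis.Complex.TaylorSeries
import Mathlib.Analysis.Complex.Liouville
import Mathlib.Analysis.Normed.Group.Tannery

/-!
A convergence lemma for entire functions, and the passage from imaginary to real twists.
-/

set_option linter.all false
set_option autoImplicit false

open MeasureTheory Filter Topology
open scoped BigOperators

namespace Vale.Agent.P159.H950

open Vale.Agent.P159 Vale.Agent.P159.UJ

/-! ### Entire functions -/

/-- Taylor coefficients at the origin -/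
noncomputable def tc (f : ℂ → ℂ) (k : ℕ) : ℂ := (k.factorial : ℂ)⁻¹ * iteratedDeriv k f 0

theorem tc_hasSum {f : ℂ → ℂ} (hf : Differentiable ℂ f) (w : ℂ) :
    HasSum (fun k : ℕ => tc f k * w ^ k) (f w) := by
  have h := Complex.hasSum_taylorSeries_of_entire hf 0 w
  have e : (fun k : ℕ => tc f k * w ^ k) =
      fun k : ℕ => (k.factorial : ℂ)⁻¹ • (w - 0) ^ k • iteratedDeriv k f 0 := by
    funext k
    rw [sub_zero, smul_eq_mul, smul_eq_mul]
    unfold tc
    ring
  rw [e]
  exact h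

theorem tc_le {f : ℂ → ℂ} (hf : Differentiable ℂ f) {R M : ℝ} (hR : 0 < R)
    (h : ∀ w : ℂ, ‖w‖ ≤ R → ‖f w‖ ≤ M) (k : ℕ) : ‖tc f k‖ ≤ M / R ^ k := by
  have h1 := Complex.norm_iteratedDeriv_le_of_forall_mem_sphere_norm_le (c := 0) (R := R) (C := M)
    (f := f) k hR hf.diffContOnCl (fun z hz => h z (by
      rw [mem_sphere_iff_norm, sub_zero] at hz
      exact hz.le))
  unfold tc
  rw [norm_mul, norm_inv, Complex.norm_natCast]
  have hk : (0 : ℝ) < k.factorial := by exact_mod_cast Nat.factorial_pos k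
  rw [inv_mul_le_iff₀ hk]
  refine h1.trans (le_of_eq ?_)
  ring

/-- convergence to zero on the imaginary axis and local boundedness imply convergence to zero -/
theorem vitali0 {h : ℕ → ℂ → ℂ} (hd : ∀ N, Differentiable ℂ (h N))
    (hb : ∀ R : ℝ, 0 < R → ∃ M : ℝ, ∀ᶠ N : ℕ in atTop, ∀ w : ℂ, ‖w‖ ≤ R → ‖h N w‖ ≤ M)
    (h0 : ∀ s : ℝ, Tendsto (fun N => h N (s * Complex.I)) atTop (𝓝 0)) (w : ℂ) :
    Tendsto (fun N => h N w) atTop (𝓝 0) := by
  -- coefficients
  obtain ⟨M1, hM1⟩ := hb 1 one_pos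
  have hc : ∀ k : ℕ, Tendsto (fun N => tc (h N) k) atTop (𝓝 0) := by
    intro k
    induction k using Nat.strong_induction_on with
    | _ k ih =>
      rw [tendsto_zero_iff_norm_tendsto_zero]
      rw [Metric.tendsto_atTop]
      intro ε hε
      have hM0 : 0 ≤ |M1| := abs_nonneg _
      obtain ⟨s, hs0, hs1, hs2⟩ : ∃ s : ℝ, 0 < s ∧ s ≤ 1 / 2 ∧ 2 * |M1| * s ≤ ε / 4 := by
        refine ⟨min (1 / 2) (ε / 4 / (2 * |M1| + 1)), by positivity, min_le_left _ _, ?_⟩
        have h1 : min (1 / 2) (ε / 4 / (2 * |M1| + 1)) ≤ ε / 4 / (2 * |M1| + 1) := min_le_right _ _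
        rw [le_div_iff₀ (by positivity)] at h1
        have h2 : 0 < min (1 / 2) (ε / 4 / (2 * |M1| + 1)) := by positivity
        nlinarith only [h1, h2, hM0]
      have hlim : Tendsto (fun N => ‖h N (s * Complex.I)‖ +
          ∑ j ∈ Finset.range k, ‖tc (h N) j‖ * s ^ j) atTop (𝓝 0) := by
        have h1 : Tendsto (fun N => ‖h N (s * Complex.I)‖) atTop (𝓝 0) := by
          simpa using (h0 s).norm
        have h2 : Tendsto (fun N => ∑ j ∈ Finset.range k, ‖tc (h N) j‖ * s ^ j) atTop (𝓝 0) := by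
          have := tendsto_finsetSum (Finset.range k) (f := fun j N => ‖tc (h N) j‖ * s ^ j)
            (a := fun _ => 0) (x := atTop) (fun j hj => by
              simpa using ((ih j (Finset.mem_range.1 hj)).norm).mul_const (s ^ j))
          simpa using this
        simpa using h1.add h2
      have hpos : 0 < s ^ k * (ε / 4) := by positivity
      obtain ⟨N0, hN0⟩ := eventually_atTop.1 (hM1.and (hlim.eventually (gt_mem_nhds hpos)))
      refine ⟨N0, fun N hN => ?_⟩
      obtain ⟨b1, b2⟩ := hN0 N hN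
      rw [Real.dist_eq, sub_zero, abs_norm]
      -- tail estimate
      have hsum := tc_hasSum (hd N) (s * Complex.I)
      have htail := (hasSum_nat_add_iff' (k + 1)).2 hsum
      have hns : ‖(s : ℂ) * Complex.I‖ = s := by
        rw [norm_mul, Complex.norm_I, mul_one, Complex.norm_real, Real.norm_of_nonneg hs0.le]
      have hcoef : ∀ n, ‖tc (h N) n‖ ≤ |M1| := by
        intro n
        have := tc_le (hd N) one_pos b1 n
        rw [one_pow, div_one] at this
        exact this.trans (le_abs_self _)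
      have hgeo : HasSum (fun n : ℕ => |M1| * s ^ (k + 1) * s ^ n)
          (|M1| * s ^ (k + 1) * (1 - s)⁻¹) :=
        (hasSum_geometric_of_lt_one hs0.le (by linarith)).mul_left _
      have hnorm : ‖h N (s * Complex.I) - ∑ i ∈ Finset.range (k + 1),
          tc (h N) i * (s * Complex.I) ^ i‖ ≤ |M1| * s ^ (k + 1) * (1 - s)⁻¹ := by
        refine HasSum.norm_le_of_bounded htail hgeo fun n => ?_
        rw [norm_mul, norm_pow, hns]
        calc ‖tc (h N) (n + (k + 1))‖ * s ^ (n + (k + 1)) ≤ |M1| * s ^ (n + (k + 1)) :=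
              mul_le_mul_of_nonneg_right (hcoef _) (by positivity)
          _ = |M1| * s ^ (k + 1) * s ^ n := by rw [pow_add]; ring
      have hinv : (1 - s)⁻¹ ≤ 2 := by
        rw [inv_le_comm₀ (by linarith) (by norm_num)]
        linarith
      have hnorm2 : ‖h N (s * Complex.I) - ∑ i ∈ Finset.range (k + 1),
          tc (h N) i * (s * Complex.I) ^ i‖ ≤ s ^ k * (ε / 4) := by
        refine hnorm.trans ?_
        have a1 : |M1| * s ^ (k + 1) * (1 - s)⁻¹ ≤ |M1| * s ^ (k + 1) * 2 :=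
          mul_le_mul_of_nonneg_left hinv (by positivity)
        have a2 : |M1| * s ^ (k + 1) * 2 = s ^ k * (2 * |M1| * s) := by rw [pow_succ]; ring
        rw [a2] at a1
        exact a1.trans (mul_le_mul_of_nonneg_left hs2 (by positivity))
      rw [Finset.sum_range_succ] at hnorm2
      have key : ‖tc (h N) k * (s * Complex.I) ^ k‖ ≤ ‖h N (s * Complex.I)‖ +
          ∑ j ∈ Finset.range k, ‖tc (h N) j‖ * s ^ j + s ^ k * (ε / 4) := by
        have e1 : tc (h N) k * (s * Complex.I) ^ k = h N (s * Complex.I) -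
            (∑ i ∈ Finset.range k, tc (h N) i * (s * Complex.I) ^ i) -
            (h N (s * Complex.I) - ((∑ i ∈ Finset.range k, tc (h N) i * (s * Complex.I) ^ i) +
            tc (h N) k * (s * Complex.I) ^ k)) := by ring
        have e2 : ‖∑ i ∈ Finset.range k, tc (h N) i * (s * Complex.I) ^ i‖ ≤
            ∑ j ∈ Finset.range k, ‖tc (h N) j‖ * s ^ j := by
          refine (norm_sum_le _ _).trans (le_of_eq (Finset.sum_congr rfl fun i _ => ?_))
          rw [norm_mul, norm_pow, hns]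
        have e3 := norm_sub_le (h N (s * Complex.I) -
            (∑ i ∈ Finset.range k, tc (h N) i * (s * Complex.I) ^ i))
            (h N (s * Complex.I) - ((∑ i ∈ Finset.range k, tc (h N) i * (s * Complex.I) ^ i) +
            tc (h N) k * (s * Complex.I) ^ k))
        have e4 := norm_sub_le (h N (s * Complex.I))
          (∑ i ∈ Finset.range k, tc (h N) i * (s * Complex.I) ^ i)
        rw [← e1] at e3
        linarith
      rw [norm_mul, norm_pow, hns] at key
      have hsk : 0 < s ^ k := by positivity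
      have hpe := mul_pos hsk hε
      have : ‖tc (h N) k‖ * s ^ k < ε * s ^ k := by
        nlinarith only [key, b2, hpe]
      exact lt_of_mul_lt_mul_right this hsk.le
  -- conclusion by dominated convergence
  set R : ℝ := 2 * ‖w‖ + 1 with hR
  have hR0 : 0 < R := by positivity
  obtain ⟨M, hM⟩ := hb R hR0
  have hq : ‖w‖ / R ≤ 1 / 2 := by
    rw [div_le_div_iff₀ hR0 (by norm_num)]
    linarith
  have hdom := tendsto_tsum_of_dominated_convergence (𝓕 := atTop)
    (f := fun N k => tc (h N) k * w ^ k) (g := fun _ : ℕ => (0 : ℂ))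
    (bound := fun k => |M| * (1 / 2) ^ k)
    ((summable_geometric_two).mul_left |M|)
    (fun k => by simpa using (hc k).mul_const (w ^ k))
    (by
      filter_upwards [hM] with N hN k
      rw [norm_mul, norm_pow]
      have h1 := tc_le (hd N) hR0 hN k
      calc ‖tc (h N) k‖ * ‖w‖ ^ k ≤ M / R ^ k * ‖w‖ ^ k :=
            mul_le_mul_of_nonneg_right h1 (by positivity)
        _ = M * (‖w‖ / R) ^ k := by rw [div_pow]; ring
        _ ≤ |M| * (‖w‖ / R) ^ k := mul_le_mul_of_nonneg_right (le_abs_self _) (by positivity)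
        _ ≤ |M| * (1 / 2) ^ k := by gcongr)
  rw [tsum_zero] at hdom
  refine hdom.congr fun N => ?_
  exact (tc_hasSum (hd N) w).tsum_eq

/-! ### Partition functions at complex twists -/

section Cx

variable {G : Type*} [AddCommGroup G] [TopologicalSpace G] [IsTopologicalAddGroup G]
  [CompactSpace G] [SecondCountableTopology G] [MeasurableSpace G] [BorelSpace G]
  (μ : Measure G) [μ.IsAddHaarMeasure] [IsProbabilityMeasure μ]
  {κ : Type*} [Fintype κ] (J : κ → ℝ) (χ : κ → Chr G)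

/-- the trivial character -/
def trivC (G : Type*) [AddCommGroup G] [TopologicalSpace G] : Chr G where
  c := fun _ => 1
  s := fun _ => 0
  cont_c := continuous_const
  cont_s := continuous_const
  c_add := by intro x y; ring
  s_add := by intro x y; ring
  norm_sq := by intro x; ring

/-- the partition function along a complex line -/
noncomputable def Zl (t : κ → ℝ) (w : ℂ) : ℂ := ZZ μ J χ (fun e => w * t e)

theorem Zl_diff (t : κ → ℝ) : Differentiable ℂ (Zl μ J χ t) := by
  have h := Phi_differentiable μ J χ (trivC G) t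
  have e : Zl μ J χ t = Phi μ J χ (trivC G) t := by
    funext w
    unfold Zl ZZ Phi
    congr 1
    ext x
    have : (trivC G).e x = 1 := by simp [Chr.e, trivC]
    rw [this, one_mul]
  rw [e]
  exact h

theorem Zl_zero (t : κ → ℝ) : Zl μ J χ t 0 = ZZ μ J χ 0 := by
  unfold Zl
  congr 1
  funext e
  simp

theorem ZZ0_eq : ZZ μ J χ 0 = (Zr μ J χ 0 : ℂ) := by
  rw [← ZZ_eq_Zr]
  have h : (fun e : κ => (((0 : κ → ℝ) e : ℝ) : ℂ)) = 0 := by
    funext e
    simp
  rw [h]

theorem Zl_one (t : κ → ℝ) : Zl μ J χ t 1 = (Zr μ J χ t : ℂ) := by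
  rw [← ZZ_eq_Zr]
  unfold Zl
  congr 1
  funext e
  simp

variable (h2 : ∀ g : G, ∃ h : G, h + h = g)

theorem norm_I (t : κ → ℝ) (s : ℝ) :
    ‖Zl μ J χ t (s * Complex.I)‖ = rho μ J χ (s • t) * ‖ZZ μ J χ 0‖ := by
  unfold rho
  rw [div_mul_cancel₀ _ (ZZ_zero_pos μ J χ).ne']
  unfold Zl
  congr 2
  funext e
  simp only [Pi.smul_apply, smul_eq_mul]
  push_cast
  ring

include h2 in
theorem Zl_bound (hJ : ∀ e, 0 ≤ J e) (t : κ → ℝ) (w : ℂ) :
    ‖Zl μ J χ t w / ZZ μ J χ 0‖ ≤ rho μ J χ (w.im • t) := by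
  have h := main_P μ J χ h2 hJ (w.re • t) (w.im • t)
  have e1 : (fun e => (((w.re • t) e : ℝ) : ℂ) + (((w.im • t) e : ℝ) : ℂ) * Complex.I) =
      fun e => w * (t e : ℂ) := by
    funext e
    simp only [Pi.smul_apply, smul_eq_mul]
    push_cast
    conv_rhs => rw [← Complex.re_add_im w]
    ring
  rw [e1] at h
  have h3 : ‖ZZ μ J χ (fun e => (((w.re • t) e : ℝ) : ℂ))‖ ≤ ‖ZZ μ J χ 0‖ := by
    rw [ZZ_eq_Zr, ZZ0_eq, Complex.norm_real, Complex.norm_real,
      Real.norm_of_nonneg (Zr_pos μ J χ _).le, Real.norm_of_nonneg (Zr_pos μ J χ _).le]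
    exact Zr_le μ J χ h2 hJ _
  have hz := ZZ_zero_pos μ J χ
  rw [norm_div, div_le_iff₀ hz]
  unfold rho
  rw [div_mul_cancel₀ _ hz.ne']
  have h4 : ‖ZZ μ J χ (fun e => w * (t e : ℂ))‖ * ‖ZZ μ J χ 0‖ ≤
      ‖ZZ μ J χ 0‖ * ‖ZZ μ J χ (fun e => (((w.im • t) e : ℝ) : ℂ) * Complex.I)‖ :=
    h.trans (mul_le_mul_of_nonneg_right h3 (norm_nonneg _))
  unfold Zl
  nlinarith only [h4, hz]

include h2 in
theorem rho_pos2 (hJ : ∀ e, 0 ≤ J e) (y : κ → ℝ) : 0 < rho μ J χ y :=
  lt_of_lt_of_le (Real.exp_pos _) (rho_ge μ J χ h2 hJ y)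

include h2 in
/-- the partition function is positive on the imaginary axis -/
theorem Zl_imag (hJ : ∀ e, 0 ≤ J e) (t : κ → ℝ) (s : ℝ) :
    Zl μ J χ t (s * Complex.I) / ZZ μ J χ 0 = (rho μ J χ (s • t) : ℂ) := by
  have hre : ∀ s : ℝ, ∃ r : ℝ, Zl μ J χ t (s * Complex.I) = (r : ℂ) := by
    intro s
    have h := ZZ_imag μ J χ (s • t)
    refine ⟨_, Eq.trans ?_ h⟩
    unfold Zl
    congr 1
    funext e
    simp only [Pi.smul_apply, smul_eq_mul]
    push_cast
    ring
  set R : ℝ → ℝ := fun s => (Zl μ J χ t (s * Complex.I)).re with hR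
  have hRs : ∀ s : ℝ, Zl μ J χ t (s * Complex.I) = (R s : ℂ) := by
    intro s
    obtain ⟨r, hr⟩ := hre s
    simp only [hR]
    rw [hr, Complex.ofReal_re]
  have hRc : Continuous R := by
    simp only [hR]
    exact Complex.continuous_re.comp ((Zl_diff μ J χ t).continuous.comp
      (Complex.continuous_ofReal.mul continuous_const))
  have hRn : ∀ s : ℝ, R s ≠ 0 := by
    intro s h0
    have h := norm_I μ J χ t s
    rw [hRs, h0, Complex.ofReal_zero, norm_zero] at h
    have := mul_pos (rho_pos2 μ J χ h2 hJ (s • t)) (ZZ_zero_pos μ J χ)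
    linarith
  have hz := ZZ0_eq μ J χ
  have hR0 : 0 < R 0 := by
    have h1 : (R 0 : ℂ) = (Zr μ J χ 0 : ℂ) := by
      rw [← hRs, ← hz, ← Zl_zero μ J χ t]
      simp
    have h2 : R 0 = Zr μ J χ 0 := by exact_mod_cast h1
    rw [h2]
    exact Zr_pos μ J χ 0
  have hRp : ∀ s : ℝ, 0 < R s := by
    intro s
    by_contra hs
    push Not at hs
    have hiv := intermediate_value_uIcc (f := R) (a := s) (b := 0) hRc.continuousOn
    have h0 : (0 : ℝ) ∈ Set.uIcc (R s) (R 0) := by
      rw [Set.mem_uIcc]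
      exact Or.inl ⟨hs, hR0.le⟩
    obtain ⟨r, _, hr⟩ := hiv h0
    exact hRn r hr
  have h3 := norm_I μ J χ t s
  rw [hRs, Complex.norm_real, Real.norm_of_nonneg (hRp s).le, hz, Complex.norm_real,
    Real.norm_of_nonneg (Zr_pos μ J χ 0).le] at h3
  rw [hRs, h3, hz]
  have hne : (Zr μ J χ 0 : ℂ) ≠ 0 := by
    exact_mod_cast (Zr_pos μ J χ 0).ne'
  push_cast
  field_simp

end Cx

/-- from imaginary to complex twists -/
theorem cplx_lim {G : Type*} [AddCommGroup G] [TopologicalSpace G] [IsTopologicalAddGroup G]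
    [CompactSpace G] [SecondCountableTopology G] [MeasurableSpace G] [BorelSpace G]
    (μ : Measure G) [μ.IsAddHaarMeasure] [IsProbabilityMeasure μ]
    (h2 : ∀ g : G, ∃ h : G, h + h = g)
    {κ : ℕ → Type*} [∀ N, Fintype (κ N)] (J : ∀ N, κ N → ℝ) (χ : ∀ N, κ N → Chr G)
    (hJ : ∀ N e, 0 ≤ J N e) (t : ∀ N, κ N → ℝ) {V : ℝ}
    (hs : ∀ s : ℝ, Tendsto (fun N => rho μ (J N) (χ N) (s • t N)) atTop
      (𝓝 (Real.exp (s ^ 2 * V / 2))))
    (hb : ∀ R : ℝ, 0 < R → ∃ M : ℝ, ∀ᶠ N : ℕ in atTop, ∀ s : ℝ, |s| ≤ R →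
      rho μ (J N) (χ N) (s • t N) ≤ M) (w : ℂ) :
    Tendsto (fun N => Zl μ (J N) (χ N) (t N) w / ZZ μ (J N) (χ N) 0) atTop
      (𝓝 (Complex.exp (-(w ^ 2 * V / 2)))) := by
  have hE : Differentiable ℂ fun w : ℂ => Complex.exp (-(w ^ 2 * V / 2)) := by
    fun_prop
  have key := vitali0 (h := fun N w => Zl μ (J N) (χ N) (t N) w / ZZ μ (J N) (χ N) 0 -
      Complex.exp (-(w ^ 2 * V / 2)))
    (fun N => ((Zl_diff μ (J N) (χ N) (t N)).div_const _).sub hE) (fun R hR => by
      obtain ⟨M, hM⟩ := hb R hR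
      obtain ⟨M', hM'⟩ := (isCompact_closedBall (0 : ℂ) R).exists_bound_of_continuousOn
        hE.continuous.continuousOn
      refine ⟨M + M', ?_⟩
      filter_upwards [hM] with N h w hw
      refine (norm_sub_le _ _).trans (add_le_add ?_ ?_)
      · exact (Zl_bound μ (J N) (χ N) h2 (hJ N) (t N) w).trans
          (h _ ((Complex.abs_im_le_norm w).trans hw))
      · exact hM' w (by rwa [mem_closedBall_zero_iff])) (fun s => by
      have h1 : Tendsto (fun N => ((rho μ (J N) (χ N) (s • t N) : ℝ) : ℂ)) atTop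
          (𝓝 ((Real.exp (s ^ 2 * V / 2) : ℝ) : ℂ)) :=
        (Complex.continuous_ofReal.tendsto _).comp (hs s)
      have h3 : Complex.exp (-((s * Complex.I) ^ 2 * V / 2)) =
          ((Real.exp (s ^ 2 * V / 2) : ℝ) : ℂ) := by
        rw [Complex.ofReal_exp]
        congr 1
        push_cast
        rw [mul_pow, Complex.I_sq]
        ring
      have h4 := h1.sub_const ((Real.exp (s ^ 2 * V / 2) : ℝ) : ℂ)
      rw [sub_self] at h4
      refine h4.congr fun N => ?_
      rw [Zl_imag μ (J N) (χ N) h2 (hJ N), h3]) w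
  have := key.add_const (Complex.exp (-(w ^ 2 * V / 2)))
  simpa using this

/-- from imaginary to real twists -/
theorem real_lim {G : Type*} [AddCommGroup G] [TopologicalSpace G] [IsTopologicalAddGroup G]
    [CompactSpace G] [SecondCountableTopology G] [MeasurableSpace G] [BorelSpace G]
    (μ : Measure G) [μ.IsAddHaarMeasure] [IsProbabilityMeasure μ]
    (h2 : ∀ g : G, ∃ h : G, h + h = g)
    {κ : ℕ → Type*} [∀ N, Fintype (κ N)] (J : ∀ N, κ N → ℝ) (χ : ∀ N, κ N → Chr G)
    (hJ : ∀ N e, 0 ≤ J N e) (t : ∀ N, κ N → ℝ) {V : ℝ}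
    (hs : ∀ s : ℝ, Tendsto (fun N => rho μ (J N) (χ N) (s • t N)) atTop
      (𝓝 (Real.exp (s ^ 2 * V / 2))))
    (hb : ∀ R : ℝ, 0 < R → ∃ M : ℝ, ∀ᶠ N : ℕ in atTop, ∀ s : ℝ, |s| ≤ R →
      rho μ (J N) (χ N) (s • t N) ≤ M) :
    Tendsto (fun N => Zr μ (J N) (χ N) (t N) / Zr μ (J N) (χ N) 0) atTop
      (𝓝 (Real.exp (-(V / 2)))) := by
  have h := cplx_lim μ h2 J χ hJ t hs hb 1
  have h3 := (Complex.continuous_re.tendsto _).comp h
  have e1 : (Complex.exp (-(1 ^ 2 * V / 2))).re = Real.exp (-(V / 2)) := by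
    have : Complex.exp (-(1 ^ 2 * V / 2)) = ((Real.exp (-(V / 2)) : ℝ) : ℂ) := by
      rw [Complex.ofReal_exp]
      congr 1
      push_cast
      ring
    rw [this, Complex.ofReal_re]
  rw [e1] at h3
  refine h3.congr fun N => ?_
  simp only [Function.comp]
  rw [Zl_one, ZZ0_eq, ← Complex.ofReal_div, Complex.ofReal_re]

end Vale.Agent.P159.H950
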