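import Vale.Agent.P159.H950.F3

/-!
Stability of the limit under perturbations of the twist.
-/

set_option linter.all false
set_option autoImplicit false

open MeasureTheory Filter Topology
open scoped BigOperators

namespace Vale.Agent.P159.H950

open Vale.Agent.P159 Vale.Agent.P159.UJ

section Lr

variable {G : Type*} [AddCommGroup G] [TopologicalSpace G] [IsTopologicalAddGroup G]
  [CompactSpace G] [SecondCountableTopology G] [MeasurableSpace G] [BorelSpace G]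
  (μ : Measure G) [μ.IsAddHaarMeasure] [IsProbabilityMeasure μ]
  {κ : Type*} [Fintype κ] (J : κ → ℝ) (χ : κ → Chr G)

/-- logarithm of the ratio of partition functions -/
noncomputable def lr (y : κ → ℝ) : ℝ := Real.log (rho μ J χ y)

variable (h2 : ∀ g : G, ∃ h : G, h + h = g)

include h2 in
theorem rho_ge_one (hJ : ∀ e, 0 ≤ J e) (y : κ → ℝ) : 1 ≤ rho μ J χ y := by
  refine le_trans ?_ (rho_ge μ J χ h2 hJ y)
  rw [← Real.exp_zero]
  exact Real.exp_le_exp.2 (by have := Qform_nonneg μ J χ h2 hJ y; linarith)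

include h2 in
theorem exp_lr (hJ : ∀ e, 0 ≤ J e) (y : κ → ℝ) : Real.exp (lr μ J χ y) = rho μ J χ y :=
  Real.exp_log (rho_pos2 μ J χ h2 hJ y)

include h2 in
theorem lr_le (hJ : ∀ e, 0 ≤ J e) (y : κ → ℝ) :
    lr μ J χ y ≤ ∑ e, J e * (Real.cosh (y e) - 1) := by
  unfold lr
  exact (Real.log_le_iff_le_exp (rho_pos2 μ J χ h2 hJ y)).2 (rho_trivial μ J χ hJ y)

include h2 in
theorem lr_mid (hJ : ∀ e, 0 ≤ J e) (a c : κ → ℝ) :
    lr μ J χ ((1 / 2 : ℝ) • a + (1 / 2 : ℝ) • c) ≤ 1 / 2 * lr μ J χ a + 1 / 2 * lr μ J χ c := by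
  have h := par_imag μ J χ h2 hJ ((1 / 2 : ℝ) • a + (1 / 2 : ℝ) • c)
    ((1 / 2 : ℝ) • a - (1 / 2 : ℝ) • c)
  have e1 : ((1 / 2 : ℝ) • a + (1 / 2 : ℝ) • c) + ((1 / 2 : ℝ) • a - (1 / 2 : ℝ) • c) = a := by
    funext e
    simp only [Pi.add_apply, Pi.sub_apply, Pi.smul_apply, smul_eq_mul]
    ring
  have e2 : ((1 / 2 : ℝ) • a + (1 / 2 : ℝ) • c) - ((1 / 2 : ℝ) • a - (1 / 2 : ℝ) • c) = c := by
    funext e
    simp only [Pi.add_apply, Pi.sub_apply, Pi.smul_apply, smul_eq_mul]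
    ring
  rw [e1, e2] at h
  have p1 := rho_pos2 μ J χ h2 hJ ((1 / 2 : ℝ) • a + (1 / 2 : ℝ) • c)
  have p2 := rho_ge_one μ J χ h2 hJ ((1 / 2 : ℝ) • a - (1 / 2 : ℝ) • c)
  have p3 := rho_pos2 μ J χ h2 hJ a
  have p4 := rho_pos2 μ J χ h2 hJ c
  unfold lr
  obtain ⟨m, hm⟩ : ∃ m, m = rho μ J χ ((1 / 2 : ℝ) • a + (1 / 2 : ℝ) • c) := ⟨_, rfl⟩
  obtain ⟨n, hn⟩ : ∃ n, n = rho μ J χ ((1 / 2 : ℝ) • a - (1 / 2 : ℝ) • c) := ⟨_, rfl⟩
  rw [← hm, ← hn] at h
  rw [← hm] at p1 ⊢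
  rw [← hn] at p2
  have h3 : m ^ 2 ≤ rho μ J χ a * rho μ J χ c := by
    have h4 : (1 : ℝ) ≤ n ^ 2 := by nlinarith only [p2]
    have h5 : m ^ 2 * 1 ≤ m ^ 2 * n ^ 2 := mul_le_mul_of_nonneg_left h4 (sq_nonneg m)
    linarith
  have h6 : Real.log (m ^ 2) ≤ Real.log (rho μ J χ a * rho μ J χ c) :=
    Real.log_le_log (by positivity) h3
  rw [Real.log_pow, Real.log_mul p3.ne' p4.ne'] at h6
  push_cast at h6
  linarith

include h2 in
theorem lr_dy (hJ : ∀ e, 0 ≤ J e) (k : ℕ) (a c : κ → ℝ) :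
    lr μ J χ ((1 - (1 / 2 : ℝ) ^ k) • a + ((1 / 2 : ℝ) ^ k) • c) ≤
      (1 - (1 / 2 : ℝ) ^ k) * lr μ J χ a + (1 / 2 : ℝ) ^ k * lr μ J χ c := by
  induction k with
  | zero =>
    have e : (1 - (1 / 2 : ℝ) ^ 0) • a + ((1 / 2 : ℝ) ^ 0) • c = c := by
      funext e
      simp only [Pi.add_apply, Pi.smul_apply, smul_eq_mul]
      ring
    rw [e]
    simp
  | succ k ih =>
    have h := lr_mid μ J χ h2 hJ a ((1 - (1 / 2 : ℝ) ^ k) • a + ((1 / 2 : ℝ) ^ k) • c)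
    have e : (1 / 2 : ℝ) • a + (1 / 2 : ℝ) • ((1 - (1 / 2 : ℝ) ^ k) • a + ((1 / 2 : ℝ) ^ k) • c) =
        (1 - (1 / 2 : ℝ) ^ (k + 1)) • a + ((1 / 2 : ℝ) ^ (k + 1)) • c := by
      funext e
      simp only [Pi.add_apply, Pi.smul_apply, smul_eq_mul]
      ring
    rw [e] at h
    have e2 : (1 / 2 : ℝ) ^ (k + 1) = 1 / 2 * (1 / 2 : ℝ) ^ k := by ring
    rw [e2]
    rw [e2] at h
    nlinarith only [h, ih]

end Lr

/-- stability of the limit -/
theorem pert_lim {G : Type*} [AddCommGroup G] [TopologicalSpace G] [IsTopologicalAddGroup G]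
    [CompactSpace G] [SecondCountableTopology G] [MeasurableSpace G] [BorelSpace G]
    (μ : Measure G) [μ.IsAddHaarMeasure] [IsProbabilityMeasure μ]
    (h2 : ∀ g : G, ∃ h : G, h + h = g)
    {κ : ℕ → Type*} [∀ N, Fintype (κ N)] (J : ∀ N, κ N → ℝ) (χ : ∀ N, κ N → Chr G)
    (hJ : ∀ N e, 0 ≤ J N e) (y t : ∀ N, κ N → ℝ) {V : ℝ}
    (hs : ∀ s : ℝ, Tendsto (fun N => lr μ (J N) (χ N) (s • y N)) atTop (𝓝 (s ^ 2 * V / 2)))
    (hd : ∀ C : ℝ, Tendsto (fun N => ∑ e, J N e * (Real.cosh (C * (t N e - y N e)) - 1)) atTop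
      (𝓝 0)) (s : ℝ) :
    Tendsto (fun N => lr μ (J N) (χ N) (s • t N)) atTop (𝓝 (s ^ 2 * V / 2)) := by
  have hpow : Tendsto (fun k : ℕ => (1 / 2 : ℝ) ^ k) atTop (𝓝 0) :=
    tendsto_pow_atTop_nhds_zero_of_lt_one (by norm_num) (by norm_num)
  rw [tendsto_order]
  constructor
  · intro a ha
    -- lower bound
    have hl : Tendsto (fun k : ℕ => (1 - (1 / 2 : ℝ) ^ k) * (s ^ 2 * V / 2)) atTop
        (𝓝 (s ^ 2 * V / 2)) := by
      simpa using (hpow.const_sub 1).mul_const (s ^ 2 * V / 2)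
    obtain ⟨k, hk1, hk2⟩ := ((hl.eventually (lt_mem_nhds ha)).and (eventually_ge_atTop 1)).exists
    obtain ⟨δ, hδ⟩ : ∃ δ, δ = (1 / 2 : ℝ) ^ k := ⟨_, rfl⟩
    rw [← hδ] at hk1
    have hδ0 : 0 < δ := by rw [hδ]; positivity
    have hδ1 : δ ≤ 1 / 2 := by
      rw [hδ]
      calc (1 / 2 : ℝ) ^ k ≤ (1 / 2 : ℝ) ^ 1 :=
            pow_le_pow_of_le_one (by norm_num) (by norm_num) hk2
        _ = 1 / 2 := by norm_num
    have h1d : 0 < 1 - δ := by linarith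
    -- the estimate
    have hest : ∀ N, (lr μ (J N) (χ N) ((s * (1 - δ)) • y N) -
        δ * ∑ e, J N e * (Real.cosh (-(s * (1 - δ) / δ) * (t N e - y N e)) - 1)) / (1 - δ) ≤
        lr μ (J N) (χ N) (s • t N) := by
      intro N
      rw [div_le_iff₀ h1d]
      have h := lr_dy μ (J N) (χ N) h2 (hJ N) k (s • t N)
        (fun e => -(s * (1 - δ) / δ) * (t N e - y N e))
      rw [← hδ] at h
      have e1 : (1 - δ) • (s • t N) + δ • (fun e => -(s * (1 - δ) / δ) * (t N e - y N e)) =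
          (s * (1 - δ)) • y N := by
        funext e
        simp only [Pi.add_apply, Pi.smul_apply, smul_eq_mul]
        field_simp
        ring
      rw [e1] at h
      have h3 := lr_le μ (J N) (χ N) h2 (hJ N) (fun e => -(s * (1 - δ) / δ) * (t N e - y N e))
      have h4 := mul_le_mul_of_nonneg_left h3 hδ0.le
      linarith
    have hlim : Tendsto (fun N => (lr μ (J N) (χ N) ((s * (1 - δ)) • y N) -
        δ * ∑ e, J N e * (Real.cosh (-(s * (1 - δ) / δ) * (t N e - y N e)) - 1)) / (1 - δ)) atTop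
        (𝓝 (((s * (1 - δ)) ^ 2 * V / 2 - δ * 0) / (1 - δ))) :=
      ((hs _).sub ((hd _).const_mul δ)).div_const _
    have e2 : ((s * (1 - δ)) ^ 2 * V / 2 - δ * 0) / (1 - δ) = (1 - δ) * (s ^ 2 * V / 2) := by
      field_simp
      ring
    rw [e2] at hlim
    filter_upwards [hlim.eventually (lt_mem_nhds hk1)] with N hN
    exact hN.trans_le (hest N)
  · intro a ha
    have hl : Tendsto (fun k : ℕ => (1 - (1 / 2 : ℝ) ^ k)⁻¹ * (s ^ 2 * V / 2)) atTop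
        (𝓝 (s ^ 2 * V / 2)) := by
      have h1 : Tendsto (fun k : ℕ => (1 - (1 / 2 : ℝ) ^ k)⁻¹) atTop (𝓝 (1 - 0)⁻¹) :=
        (hpow.const_sub 1).inv₀ (by norm_num)
      simpa using h1.mul_const (s ^ 2 * V / 2)
    obtain ⟨k, hk1, hk2⟩ := ((hl.eventually (gt_mem_nhds ha)).and (eventually_ge_atTop 1)).exists
    obtain ⟨δ, hδ⟩ : ∃ δ, δ = (1 / 2 : ℝ) ^ k := ⟨_, rfl⟩
    rw [← hδ] at hk1
    have hδ0 : 0 < δ := by rw [hδ]; positivity
    have hδ1 : δ ≤ 1 / 2 := by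
      rw [hδ]
      calc (1 / 2 : ℝ) ^ k ≤ (1 / 2 : ℝ) ^ 1 :=
            pow_le_pow_of_le_one (by norm_num) (by norm_num) hk2
        _ = 1 / 2 := by norm_num
    have h1d : 0 < 1 - δ := by linarith
    have hest : ∀ N, lr μ (J N) (χ N) (s • t N) ≤
        (1 - δ) * lr μ (J N) (χ N) ((s / (1 - δ)) • y N) +
        δ * ∑ e, J N e * (Real.cosh (s / δ * (t N e - y N e)) - 1) := by
      intro N
      have h := lr_dy μ (J N) (χ N) h2 (hJ N) k ((s / (1 - δ)) • y N)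
        (fun e => s / δ * (t N e - y N e))
      rw [← hδ] at h
      have e1 : (1 - δ) • ((s / (1 - δ)) • y N) + δ • (fun e => s / δ * (t N e - y N e)) =
          s • t N := by
        funext e
        simp only [Pi.add_apply, Pi.smul_apply, smul_eq_mul]
        field_simp
        ring
      rw [e1] at h
      have h3 := lr_le μ (J N) (χ N) h2 (hJ N) (fun e => s / δ * (t N e - y N e))
      have h4 := mul_le_mul_of_nonneg_left h3 hδ0.le
      linarith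
    have hlim : Tendsto (fun N => (1 - δ) * lr μ (J N) (χ N) ((s / (1 - δ)) • y N) +
        δ * ∑ e, J N e * (Real.cosh (s / δ * (t N e - y N e)) - 1)) atTop
        (𝓝 ((1 - δ) * ((s / (1 - δ)) ^ 2 * V / 2) + δ * 0)) :=
      ((hs _).const_mul _).add ((hd _).const_mul δ)
    have e2 : (1 - δ) * ((s / (1 - δ)) ^ 2 * V / 2) + δ * 0 = (1 - δ)⁻¹ * (s ^ 2 * V / 2) := by
      field_simp
      ring
    rw [e2] at hlim
    filter_upwards [hlim.eventually (gt_mem_nhds hk1)] with N hN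
    exact (hest N).trans_lt hN

end Vale.Agent.P159.H950
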