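import Vale.Agent.P159.H950.F4

/-!
The macroscopic limit for arbitrary lattice approximations of a divergence free field.
-/

set_option linter.all false
set_option autoImplicit false

open MeasureTheory Filter Topology
open scoped BigOperators

namespace Vale.Agent.P159.H950

open Vale.Agent.P159 Vale.Agent.P159.UJ

theorem cosh_le2 {x : ℝ} (h : |x| ≤ 1) : Real.cosh x - 1 ≤ 2 * x ^ 2 := by
  have h1 := (abs_le.1 (cosh_sub_bound h)).2
  have h2 : |x| ^ 4 ≤ x ^ 2 := by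
    rw [← sq_abs x, show (4 : ℕ) = 2 + 2 by norm_num, pow_add]
    have : |x| ^ 2 ≤ 1 := pow_le_one₀ (abs_nonneg _) h
    nlinarith only [this, sq_nonneg |x|]
  nlinarith only [h1, h2, sq_nonneg x]

theorem sum_cosh_le {b : ℝ} (hb : 0 < b) {N : ℕ} (hN : 1 ≤ N) {C m : ℝ}
    {u : KR (blk 0 N) → ℝ} (hu : ∀ e, |u e| ≤ m / N) (hCm : |C| * m ≤ N) :
    ∑ e : KR (blk 0 N), b / 2 * (Real.cosh (C * u e) - 1) ≤ 4 * b * (C * m) ^ 2 := by
  have hN0 : (0 : ℝ) < N := by exact_mod_cast hN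
  have h1 : ∀ e ∈ (Finset.univ : Finset (KR (blk 0 N))),
      b / 2 * (Real.cosh (C * u e) - 1) ≤ b * (C * m) ^ 2 / (N : ℝ) ^ 2 := by
    intro e _
    have h2 : |C * u e| ≤ |C| * m / N := by
      rw [abs_mul, mul_div_assoc]
      exact mul_le_mul_of_nonneg_left (hu e) (abs_nonneg _)
    have h3 : |C| * m / N ≤ 1 := (div_le_one hN0).2 hCm
    have h4 := cosh_le2 (h2.trans h3)
    have h5 : (C * u e) ^ 2 ≤ (C * m) ^ 2 / (N : ℝ) ^ 2 := by
      have h8 := pow_le_pow_left₀ (abs_nonneg _) h2 2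
      have e2 : (|C| * m / N) ^ 2 = (C * m) ^ 2 / (N : ℝ) ^ 2 := by
        rw [div_pow, mul_pow, mul_pow, sq_abs]
      rw [sq_abs, e2] at h8
      exact h8
    have h6 : b / 2 * (Real.cosh (C * u e) - 1) ≤ b / 2 * (2 * (C * u e) ^ 2) :=
      mul_le_mul_of_nonneg_left h4 (by positivity)
    have h7 : b * (C * u e) ^ 2 ≤ b * ((C * m) ^ 2 / (N : ℝ) ^ 2) :=
      mul_le_mul_of_nonneg_left h5 hb.le
    have e1 : b * ((C * m) ^ 2 / (N : ℝ) ^ 2) = b * (C * m) ^ 2 / (N : ℝ) ^ 2 := by ring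
    linarith
  refine (Finset.sum_le_sum h1).trans (le_of_eq ?_)
  rw [Finset.sum_const, nsmul_eq_mul, Finset.card_univ, card_KR, card_blk]
  push_cast
  field_simp

/-- approximating twists -/
def Apx (F : MF) (t : ∀ N : ℕ, KR (blk 0 N) → ℝ) : Prop :=
  ∀ ε : ℝ, 0 < ε → ∀ᶠ N : ℕ in atTop, ∀ e : KR (blk 0 N), |N * t N e - smp F N e.1 e.2.1| ≤ ε

/-- the limits at imaginary twists -/
theorem imag_tw {b : ℝ} (hb : 0 < b) {F : MF} (hF : DF F) {t : ∀ N : ℕ, KR (blk 0 N) → ℝ}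
    (ht : Apx F t) (s : ℝ) :
    Tendsto (fun N => lr muInf (fun _ : KR (blk 0 N) => b / 2) (chiR (blk 0 N)) (s • t N)) atTop
      (𝓝 (s ^ 2 * (helicity b * en F) / 2)) := by
  have hm := mod_helicity hb
  have hJ : ∀ (N : ℕ) (_e : KR (blk 0 N)), 0 ≤ b / 2 := fun _ _ => by positivity
  refine pert_lim muInf G_div2 (fun N _ => b / 2) (fun N => chiR (blk 0 N)) hJ
    (fun N e => (N : ℝ)⁻¹ * smp F N e.1 e.2.1) t (fun s => ?_) (fun C => ?_) s
  · have h := (imag_lim' hm hF s).log (Real.exp_pos _).ne'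
    rw [Real.log_exp] at h
    refine h.congr fun N => ?_
    unfold lr rR
    congr 2
    funext e
    simp only [twR, Pi.smul_apply, smul_eq_mul]
    ring
  · rw [Metric.tendsto_atTop]
    intro ε hε
    obtain ⟨ε', hε'0, hε'1, hε'2⟩ : ∃ ε' : ℝ, 0 < ε' ∧ |C| * ε' ≤ 1 ∧
        4 * b * (C * ε') ^ 2 < ε := by
      have hl : Tendsto (fun x : ℝ => |C| * x) (𝓝[>] 0) (𝓝 0) := by
        have : Tendsto (fun x : ℝ => |C| * x) (𝓝 0) (𝓝 (|C| * 0)) :=
          (continuous_const.mul continuous_id).tendsto 0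
        rw [mul_zero] at this
        exact this.mono_left nhdsWithin_le_nhds
      have hl2 : Tendsto (fun x : ℝ => 4 * b * (C * x) ^ 2) (𝓝[>] 0) (𝓝 0) := by
        have : Tendsto (fun x : ℝ => 4 * b * (C * x) ^ 2) (𝓝 0) (𝓝 (4 * b * (C * 0) ^ 2)) :=
          (by fun_prop : Continuous fun x : ℝ => 4 * b * (C * x) ^ 2).tendsto 0
        have e0 : 4 * b * (C * 0) ^ 2 = 0 := by ring
        rw [e0] at this
        exact this.mono_left nhdsWithin_le_nhds
      obtain ⟨x, ⟨h1, h2⟩, h3⟩ := (((hl.eventually (ge_mem_nhds one_pos)).and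
        (hl2.eventually (gt_mem_nhds hε))).and self_mem_nhdsWithin).exists
      exact ⟨x, h3, h1, h2⟩
    obtain ⟨N0, hN0⟩ := eventually_atTop.1 ((ht ε' hε'0).and (eventually_ge_atTop 1))
    refine ⟨N0, fun N hN => ?_⟩
    obtain ⟨h1, h2⟩ := hN0 N hN
    have hNpos : (0 : ℝ) < N := by exact_mod_cast h2
    have hN1 : (1 : ℝ) ≤ N := by exact_mod_cast h2
    have h3 := sum_cosh_le hb h2 (C := C) (m := ε')
      (u := fun e => t N e - (N : ℝ)⁻¹ * smp F N e.1 e.2.1) (fun e => by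
        have := h1 e
        have e1 : t N e - (N : ℝ)⁻¹ * smp F N e.1 e.2.1 =
            (N * t N e - smp F N e.1 e.2.1) / N := by
          field_simp
        rw [e1, abs_div, abs_of_pos hNpos]
        exact div_le_div_of_nonneg_right this hNpos.le) (by linarith)
    have h4 : 0 ≤ ∑ e : KR (blk 0 N), b / 2 *
        (Real.cosh (C * (t N e - (N : ℝ)⁻¹ * smp F N e.1 e.2.1)) - 1) :=
      Finset.sum_nonneg fun e _ => mul_nonneg (by positivity)
        (by have := Real.one_le_cosh (C * (t N e - (N : ℝ)⁻¹ * smp F N e.1 e.2.1)); linarith)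
    rw [Real.dist_eq, sub_zero, abs_of_nonneg h4]
    linarith

/-- the limit at complex twists -/
theorem cplx_tw {b : ℝ} (hb : 0 < b) {F : MF} (hF : DF F) {t : ∀ N : ℕ, KR (blk 0 N) → ℝ}
    (ht : Apx F t) :
    (∀ w : ℂ, Tendsto (fun N => Zl muInf (fun _ : KR (blk 0 N) => b / 2) (chiR (blk 0 N)) (t N) w /
      ZZ muInf (fun _ : KR (blk 0 N) => b / 2) (chiR (blk 0 N)) 0) atTop
      (𝓝 (Complex.exp (-(w ^ 2 * (helicity b * en F : ℝ) / 2))))) ∧
    Tendsto (fun N => Zr muInf (fun _ : KR (blk 0 N) => b / 2) (chiR (blk 0 N)) (t N) /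
      Zr muInf (fun _ : KR (blk 0 N) => b / 2) (chiR (blk 0 N)) 0) atTop
      (𝓝 (Real.exp (-(helicity b * en F / 2)))) := by
  have hJ : ∀ (N : ℕ) (_e : KR (blk 0 N)), 0 ≤ b / 2 := fun _ _ => by positivity
  have hs : ∀ s : ℝ, Tendsto (fun N => rho muInf (fun _ : KR (blk 0 N) => b / 2)
      (chiR (blk 0 N)) (s • t N)) atTop
      (𝓝 (Real.exp (s ^ 2 * (helicity b * en F) / 2))) := by
    intro s
    have h := (Real.continuous_exp.tendsto _).comp (imag_tw hb hF ht s)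
    refine h.congr fun N => ?_
    exact exp_lr muInf _ _ G_div2 (hJ N) _
  have hbd : ∀ R : ℝ, 0 < R → ∃ M : ℝ, ∀ᶠ N : ℕ in atTop, ∀ s : ℝ, |s| ≤ R →
      rho muInf (fun _ : KR (blk 0 N) => b / 2) (chiR (blk 0 N)) (s • t N) ≤ M := by
    intro R hR
    obtain ⟨M0, hM0⟩ := hF.cont.bd 1
    obtain ⟨M1, hM1⟩ : ∃ M1, M1 = |M0| + 1 := ⟨_, rfl⟩
    have hM1p : 0 < M1 := by rw [hM1]; positivity
    refine ⟨Real.exp (4 * b * (R * M1) ^ 2), ?_⟩
    have hlarge : ∀ᶠ N : ℕ in atTop, R * M1 ≤ N :=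
      tendsto_natCast_atTop_atTop.eventually (eventually_ge_atTop (R * M1))
    filter_upwards [ht 1 one_pos, eventually_ge_atTop 1, hlarge] with N h1 h2 h3 s hsR
    have hNpos : (0 : ℝ) < N := by exact_mod_cast h2
    refine (rho_trivial muInf _ _ (hJ N) _).trans (Real.exp_le_exp.2 ?_)
    have hu : ∀ e : KR (blk 0 N), |t N e| ≤ M1 / N := by
      intro e
      rw [le_div_iff₀ hNpos]
      have g1 := h1 e
      have g2 : |smp F N e.1 e.2.1| ≤ |M0| := by
        have g3 := center_bd (K := 1) h2 (blk_sub_bx N e.1.2)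
        rw [Nat.cast_one] at g3
        exact (hM0 _ _ _ g3.1 g3.2).trans (le_abs_self _)
      have g4 : |t N e| * N = |N * t N e| := by
        rw [abs_mul, abs_of_pos hNpos, mul_comm]
      rw [g4, hM1]
      have g5 := abs_sub_abs_le_abs_sub (N * t N e) (smp F N e.1 e.2.1)
      linarith
    have h4 := sum_cosh_le hb h2 (C := s) (m := M1) (u := t N) hu
      ((mul_le_mul_of_nonneg_right hsR hM1p.le).trans h3)
    refine le_trans (le_of_eq ?_) (h4.trans ?_)
    · refine Finset.sum_congr rfl fun e _ => ?_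
      simp only [Pi.smul_apply, smul_eq_mul]
    · have h5 : (s * M1) ^ 2 ≤ (R * M1) ^ 2 := by
        rw [mul_pow, mul_pow, ← sq_abs s]
        have := pow_le_pow_left₀ (abs_nonneg s) hsR 2
        exact mul_le_mul_of_nonneg_right this (sq_nonneg _)
      nlinarith only [h5, hb]
  exact ⟨fun w => cplx_lim muInf G_div2 (fun N _ => b / 2) (fun N => chiR (blk 0 N)) hJ t hs hbd w,
    real_lim muInf G_div2 (fun N _ => b / 2) (fun N => chiR (blk 0 N)) hJ t hs hbd⟩

end Vale.Agent.P159.H950
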