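import Vale.Agent.P159.Helicity

/-!
Partition functions of the block with a gauge field or with slowly varying boundary spins.
-/

open MeasureTheory Filter Topology

namespace Vale.Agent.P159

/-- energy of the spins `φ` in the block `[0,N]²` in a gauge field with value `α v` on the bond
from `v` to its right neighbour and `β v` on the bond from `v` to its upper neighbour; weight
`b/2` for each unit square containing the bond, as in `horiz` and `vert` -/
noncomputable def gaugeEnergy (N : ℕ) (b : ℝ) (α β : ℤ × ℤ → ℝ) (φ : ℤ × ℤ → T) : ℝ :=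
  ∑ i ∈ Finset.range N, ∑ j ∈ Finset.range N, b / 2 *
    (cosT (φ ((i : ℤ), (j : ℤ)) - φ ((i : ℤ) + 1, (j : ℤ)) + (α ((i : ℤ), (j : ℤ)) : T))
      + cosT (φ ((i : ℤ), (j : ℤ) + 1) - φ ((i : ℤ) + 1, (j : ℤ) + 1)
        + (α ((i : ℤ), (j : ℤ) + 1) : T))
      + cosT (φ ((i : ℤ), (j : ℤ)) - φ ((i : ℤ), (j : ℤ) + 1) + (β ((i : ℤ), (j : ℤ)) : T))
      + cosT (φ ((i : ℤ) + 1, (j : ℤ)) - φ ((i : ℤ) + 1, (j : ℤ) + 1)
        + (β ((i : ℤ) + 1, (j : ℤ)) : T)))

/-- partition function of the block `[0,N]²` in a gauge field; spins off `inner N` are `0` -/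
noncomputable def gaugeZ (N : ℕ) (b : ℝ) (α β : ℤ × ℤ → ℝ) : ℝ :=
  ∫ θ : inner N → T, Real.exp (gaugeEnergy N b α β (ext θ)) ∂torusHaar (inner N)

/-- `cos (x + w)` for an angle `x` and a complex number `w` -/
noncomputable def cosC (x : T) (w : ℂ) : ℂ := cosT x * Complex.cos w - sinT x * Complex.sin w

/-- energy in the complex gauge field with values `w * α v`, `w * β v` -/
noncomputable def gaugeEnergyC (N : ℕ) (b : ℝ) (α β : ℤ × ℤ → ℝ) (w : ℂ) (φ : ℤ × ℤ → T) : ℂ :=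
  ∑ i ∈ Finset.range N, ∑ j ∈ Finset.range N, (b : ℂ) / 2 *
    (cosC (φ ((i : ℤ), (j : ℤ)) - φ ((i : ℤ) + 1, (j : ℤ))) (w * α ((i : ℤ), (j : ℤ)))
      + cosC (φ ((i : ℤ), (j : ℤ) + 1) - φ ((i : ℤ) + 1, (j : ℤ) + 1))
        (w * α ((i : ℤ), (j : ℤ) + 1))
      + cosC (φ ((i : ℤ), (j : ℤ)) - φ ((i : ℤ), (j : ℤ) + 1)) (w * β ((i : ℤ), (j : ℤ)))
      + cosC (φ ((i : ℤ) + 1, (j : ℤ)) - φ ((i : ℤ) + 1, (j : ℤ) + 1))
        (w * β ((i : ℤ) + 1, (j : ℤ))))

/-- partition function of the block `[0,N]²` in a complex gauge field; spins off `inner N` are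
`0` -/
noncomputable def gaugeZC (N : ℕ) (b : ℝ) (α β : ℤ × ℤ → ℝ) (w : ℂ) : ℂ :=
  ∫ θ : inner N → T, Complex.exp (gaugeEnergyC N b α β w (ext θ)) ∂torusHaar (inner N)

/-- spins `θ` on `inner N`, and the spin `g (v / N)` at the sites `v` off `inner N` -/
noncomputable def extBy (N : ℕ) (g : ℝ → ℝ → ℝ) (θ : inner N → T) (v : ℤ × ℤ) : T :=
  if h : v ∈ inner N then θ ⟨v, h⟩ else (g ((v.1 : ℝ) / N) ((v.2 : ℝ) / N) : T)

/-- partition function of the block `[0,N]²` with boundary spins `g (v / N)` -/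
noncomputable def bdryZ (N : ℕ) (b : ℝ) (g : ℝ → ℝ → ℝ) : ℝ :=
  ∫ θ : inner N → T, Real.exp (horiz N b cosT (extBy N g θ) + vert N b cosT (extBy N g θ))
    ∂torusHaar (inner N)

end Vale.Agent.P159
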