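import Vale.Agent.P159.H950.F5
import Vale.Agent.P159.H950.GDefs

/-!
The macroscopic limit in terms of explicit integrals.
-/

set_option linter.all false
set_option autoImplicit false

open MeasureTheory Filter Topology
open scoped BigOperators

namespace Vale.Agent.P159.H950

open Vale.Agent.P159 Vale.Agent.P159.UJ

theorem cosT_add_coe (x : T) (r : ℝ) :
    cosT x * Real.cos r - sinT x * Real.sin r = cosT (x + (r : T)) := by
  have h := Real.Angle.cos_add x (r : T)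
  have h1 : Real.Angle.cos ((r : ℝ) : T) = Real.cos r := Real.Angle.cos_coe r
  have h2 : Real.Angle.sin ((r : ℝ) : T) = Real.sin r := Real.Angle.sin_coe r
  rw [h1, h2] at h
  exact h.symm

/-- twist given by a gauge field -/
noncomputable def tG (α β : ℤ × ℤ → ℝ) (N : ℕ) (e : KR (blk 0 N)) : ℝ :=
  if e.2.1 then β (hu e.1 e.2) else α (hu e.1 e.2)

theorem intR_blk0 (N : ℕ) : intR (blk 0 N) = (inner N : Set (ℤ × ℤ)) := by
  ext v
  rw [mem_intR_blk]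
  simp only [Prod.fst_zero, Prod.snd_zero, inner, Finset.coe_Icc, Set.mem_Icc, Prod.le_def]
  omega

theorem gaugeEnergy_cont (N : ℕ) (b : ℝ) (α β : ℤ × ℤ → ℝ) :
    Continuous (gaugeEnergy N b α β) := by
  have h : ∀ (u v : ℤ × ℤ) (r : T), Continuous fun φ : ℤ × ℤ → T => cosT (φ u - φ v + r) :=
    fun u v r => cont_cos.comp (((continuous_apply u).sub (continuous_apply v)).add
      continuous_const)
  unfold gaugeEnergy
  refine continuous_finsetSum _ fun i _ => continuous_finsetSum _ fun j _ => ?_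
  exact continuous_const.mul ((((h _ _ _).add (h _ _ _)).add (h _ _ _)).add (h _ _ _))

theorem gauge_sum (N : ℕ) (b : ℝ) (α β : ℤ × ℤ → ℝ) (φ : ℤ × ℤ → T) :
    ∑ e : KR (blk 0 N), b / 2 * cosT (φ (hu e.1 e.2) - φ (hv e.1 e.2) + (tG α β N e : T)) =
      gaugeEnergy N b α β φ := by
  have h := sum_KR (blk 0 N) (fun c t => b / 2 * cosT (φ (hu c t) - φ (hv c t) +
    ((if t.1 then β (hu c t) else α (hu c t) : ℝ) : T)))
  unfold tG
  refine h.trans ?_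
  rw [sum_blk]
  unfold gaugeEnergy
  refine Finset.sum_congr rfl fun i _ => Finset.sum_congr rfl fun j _ => ?_
  simp [hu, hv]
  ring

theorem Zr_gauge (N : ℕ) (b : ℝ) (α β : ℤ × ℤ → ℝ) :
    Zr muInf (fun _ : KR (blk 0 N) => b / 2) (chiR (blk 0 N)) (tG α β N) = gaugeZ N b α β := by
  unfold Zr gaugeZ
  have hc : Continuous fun φ : Ginf => Real.exp (gaugeEnergy N b α β φ) :=
    Real.continuous_exp.comp (gaugeEnergy_cont N b α β)
  rw [integral_ext (inner N) hc]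
  congr 1
  ext x
  congr 1
  rw [← gauge_sum, ← intR_blk0]
  refine Finset.sum_congr rfl fun e _ => ?_
  rw [← cosT_add_coe]
  rfl

theorem tG_zero (N : ℕ) : tG 0 0 N = 0 := by
  funext e
  unfold tG
  simp

/-- lattice approximations of a macroscopic field -/
def ApxG (P Q : ℝ → ℝ → ℝ) (α β : ℕ → ℤ × ℤ → ℝ) : Prop :=
  ∀ ε : ℝ, 0 < ε → ∀ᶠ N : ℕ in atTop, ∀ v : ℤ × ℤ, 0 ≤ v.1 → v.1 ≤ N → 0 ≤ v.2 → v.2 ≤ N →
    |N * α N v - P (v.1 / N) (v.2 / N)| ≤ ε ∧ |N * β N v - Q (v.1 / N) (v.2 / N)| ≤ ε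

/-- the field with components `P`, `Q` -/
def mkF (P Q : ℝ → ℝ → ℝ) : MF := fun x y d => if d then Q x y else P x y

theorem apx_of_apxG {P Q : ℝ → ℝ → ℝ} {α β : ℕ → ℤ × ℤ → ℝ}
    (hP : Continuous fun p : ℝ × ℝ => P p.1 p.2) (hQ : Continuous fun p : ℝ × ℝ => Q p.1 p.2)
    (h : ApxG P Q α β) : Apx (mkF P Q) (fun N => tG (α N) (β N) N) := by
  intro ε hε
  have hε2 : 0 < ε / 2 := by positivity
  obtain ⟨δ1, hδ1, h1⟩ := uc hP 1 hε2
  obtain ⟨δ2, hδ2, h2⟩ := uc hQ 1 hε2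
  have hlim : Tendsto (fun N : ℕ => (N : ℝ)⁻¹) atTop (𝓝 0) := tendsto_inv_atTop_nhds_zero_nat
  filter_upwards [h (ε / 2) hε2, hlim.eventually (ge_mem_nhds (lt_min hδ1 hδ2)),
    eventually_ge_atTop 1] with N hN e1 e2 e
  obtain ⟨⟨c, hc⟩, t⟩ := e
  have hNpos : (0 : ℝ) < N := by exact_mod_cast e2
  have hc2 := mem_blk.1 hc
  simp only [Prod.fst_zero, Prod.snd_zero, zero_add] at hc2
  obtain ⟨g1, g2, g3, g4⟩ := hc2
  obtain ⟨u, hu'⟩ : ∃ u, u = hu c t := ⟨_, rfl⟩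
  -- location of the base point
  have hu1 : c.1 ≤ u.1 ∧ u.1 ≤ c.1 + 1 ∧ c.2 ≤ u.2 ∧ u.2 ≤ c.2 + 1 := by
    rw [hu']
    rcases t with ⟨_ | _, _ | _⟩ <;> simp [hu]
  obtain ⟨k1, k2, k3, k4⟩ := hu1
  have hb := hN u (by omega) (by omega) (by omega) (by omega)
  have r1 : (c.1 : ℝ) ≤ u.1 := by exact_mod_cast k1
  have r2 : (u.1 : ℝ) ≤ c.1 + 1 := by exact_mod_cast k2
  have r3 : (c.2 : ℝ) ≤ u.2 := by exact_mod_cast k3
  have r4 : (u.2 : ℝ) ≤ c.2 + 1 := by exact_mod_cast k4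
  have r5 : (0 : ℝ) ≤ c.1 := by exact_mod_cast g1
  have r6 : (c.1 : ℝ) + 1 ≤ N := by exact_mod_cast g2
  have r7 : (0 : ℝ) ≤ c.2 := by exact_mod_cast g3
  have r8 : (c.2 : ℝ) + 1 ≤ N := by exact_mod_cast g4
  have a1 : |(u.1 : ℝ) / N| ≤ 1 := by
    rw [abs_div, abs_of_pos hNpos, div_le_iff₀ hNpos, abs_le]
    constructor <;> linarith
  have a2 : |(u.2 : ℝ) / N| ≤ 1 := by
    rw [abs_div, abs_of_pos hNpos, div_le_iff₀ hNpos, abs_le]
    constructor <;> linarith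
  have a3 : |((c.1 : ℝ) + 1 / 2) / N| ≤ 1 := by
    rw [abs_div, abs_of_pos hNpos, div_le_iff₀ hNpos, abs_le]
    constructor <;> linarith
  have a4 : |((c.2 : ℝ) + 1 / 2) / N| ≤ 1 := by
    rw [abs_div, abs_of_pos hNpos, div_le_iff₀ hNpos, abs_le]
    constructor <;> linarith
  have d1 : |(u.1 : ℝ) / N - ((c.1 : ℝ) + 1 / 2) / N| ≤ min δ1 δ2 := by
    refine le_trans ?_ e1
    rw [← sub_div, abs_div, abs_of_pos hNpos, div_eq_mul_inv]
    refine mul_le_of_le_one_left (inv_nonneg.2 hNpos.le) ?_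
    rw [abs_le]; constructor <;> linarith
  have d2 : |(u.2 : ℝ) / N - ((c.2 : ℝ) + 1 / 2) / N| ≤ min δ1 δ2 := by
    refine le_trans ?_ e1
    rw [← sub_div, abs_div, abs_of_pos hNpos, div_eq_mul_inv]
    refine mul_le_of_le_one_left (inv_nonneg.2 hNpos.le) ?_
    rw [abs_le]; constructor <;> linarith
  have m1 := min_le_left δ1 δ2
  have m2 := min_le_right δ1 δ2
  rcases t with ⟨dd, tt⟩
  cases dd
  · have h3 := h1 _ _ _ _ a1 a2 a3 a4 (by linarith) (by linarith)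
    show |N * (α N (hu c (false, tt))) - P (((c.1 : ℝ) + 1 / 2) / N) (((c.2 : ℝ) + 1 / 2) / N)| ≤ ε
    rw [← hu']
    have := abs_sub_le (N * α N u) (P ((u.1 : ℝ) / N) ((u.2 : ℝ) / N))
      (P (((c.1 : ℝ) + 1 / 2) / N) (((c.2 : ℝ) + 1 / 2) / N))
    linarith [hb.1]
  · have h3 := h2 _ _ _ _ a1 a2 a3 a4 (by linarith) (by linarith)
    show |N * (β N (hu c (true, tt))) - Q (((c.1 : ℝ) + 1 / 2) / N) (((c.2 : ℝ) + 1 / 2) / N)| ≤ ε
    rw [← hu']
    have := abs_sub_le (N * β N u) (Q ((u.1 : ℝ) / N) ((u.2 : ℝ) / N))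
      (Q (((c.1 : ℝ) + 1 / 2) / N) (((c.2 : ℝ) + 1 / 2) / N))
    linarith [hb.2]

/-- the macroscopic limit in a gauge field -/
theorem gauge_lim {b : ℝ} (hb : 0 < b) {P Q f : ℝ → ℝ → ℝ} {α β : ℕ → ℤ × ℤ → ℝ}
    (hP : Continuous fun p : ℝ × ℝ => P p.1 p.2) (hQ : Continuous fun p : ℝ × ℝ => Q p.1 p.2)
    (hf : Continuous fun p : ℝ × ℝ => f p.1 p.2)
    (dP : ∀ x y, HasDerivAt (fun x => P x y) (f x y) x)
    (dQ : ∀ x y, HasDerivAt (fun y => Q x y) (-f x y) y) (h : ApxG P Q α β) :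
    Tendsto (fun N => gaugeZ N b (α N) (β N) / gaugeZ N b 0 0) atTop
      (𝓝 (Real.exp (-(helicity b / 2 *
        ∫ x in (0 : ℝ)..1, ∫ y in (0 : ℝ)..1, (P x y ^ 2 + Q x y ^ 2))))) := by
  have hF : DF (mkF P Q) := ⟨fun d => by cases d <;> simpa [mkF], f, hf, dP, dQ⟩
  have h1 := (cplx_tw hb hF (apx_of_apxG hP hQ h)).2
  have e1 : helicity b * en (mkF P Q) / 2 = helicity b / 2 *
      ∫ x in (0 : ℝ)..1, ∫ y in (0 : ℝ)..1, (P x y ^ 2 + Q x y ^ 2) := by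
    unfold en mkF
    simp only [Bool.false_eq_true, if_false, if_true]
    ring
  rw [e1] at h1
  refine h1.congr fun N => ?_
  rw [Zr_gauge, ← tG_zero, Zr_gauge]

/-! ### Boundary spins -/

theorem extBy_eq (N : ℕ) (g : ℝ → ℝ → ℝ) (θ : inner N → T) (v : ℤ × ℤ) :
    extBy N g (θ + fun w => (g ((w.1.1 : ℝ) / N) ((w.1.2 : ℝ) / N) : T)) v =
      ext θ v + (g ((v.1 : ℝ) / N) ((v.2 : ℝ) / N) : T) := by
  unfold extBy ext
  by_cases h : v ∈ inner N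
  · simp only [h, ↓reduceDIte, Pi.add_apply]
  · simp only [h, ↓reduceDIte, zero_add]

/-- gauge field of boundary spins -/
noncomputable def gA (g : ℝ → ℝ → ℝ) (N : ℕ) (v : ℤ × ℤ) : ℝ :=
  g ((v.1 : ℝ) / N) ((v.2 : ℝ) / N) - g (((v.1 : ℝ) + 1) / N) ((v.2 : ℝ) / N)

/-- gauge field of boundary spins -/
noncomputable def gB (g : ℝ → ℝ → ℝ) (N : ℕ) (v : ℤ × ℤ) : ℝ :=
  g ((v.1 : ℝ) / N) ((v.2 : ℝ) / N) - g ((v.1 : ℝ) / N) (((v.2 : ℝ) + 1) / N)

theorem energy_bdry (N : ℕ) (b : ℝ) (g : ℝ → ℝ → ℝ) (θ : inner N → T) :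
    horiz N b cosT (extBy N g (θ + fun w => (g ((w.1.1 : ℝ) / N) ((w.1.2 : ℝ) / N) : T))) +
      vert N b cosT (extBy N g (θ + fun w => (g ((w.1.1 : ℝ) / N) ((w.1.2 : ℝ) / N) : T))) =
      gaugeEnergy N b (gA g N) (gB g N) (ext θ) := by
  unfold horiz vert gaugeEnergy
  rw [← Finset.sum_add_distrib]
  refine Finset.sum_congr rfl fun i _ => ?_
  rw [← Finset.sum_add_distrib]
  refine Finset.sum_congr rfl fun j _ => ?_
  simp only [extBy_eq]
  have key : ∀ (x y : T) (p q : ℝ), cosT (x + (p : T) - (y + (q : T))) =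
      cosT (x - y + ((p - q : ℝ) : T)) := by
    intro x y p q
    congr 1
    rw [AddCircle.coe_sub]
    abel
  simp only [key, gA, gB]
  push_cast
  ring

theorem bdryZ_eq (N : ℕ) (b : ℝ) (g : ℝ → ℝ → ℝ) :
    bdryZ N b g = gaugeZ N b (gA g N) (gB g N) := by
  unfold bdryZ gaugeZ
  have : (torusHaar (inner N)).IsAddRightInvariant := by
    unfold torusHaar
    infer_instance
  rw [← integral_add_right_eq_self _ (fun w : inner N => (g ((w.1.1 : ℝ) / N) ((w.1.2 : ℝ) / N) : T))]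
  simp only [energy_bdry]

end Vale.Agent.P159.H950
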