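import Vale.Agent.P159.H950.F7

/-!
Stability of partition functions at real twists.
-/

set_option linter.all false
set_option autoImplicit false

open MeasureTheory Filter Topology
open scoped BigOperators

namespace Vale.Agent.P159.H950

open Vale.Agent.P159 Vale.Agent.P159.UJ

section Ell

variable {G : Type*} [AddCommGroup G] [TopologicalSpace G] [IsTopologicalAddGroup G]
  [CompactSpace G] [SecondCountableTopology G] [MeasurableSpace G] [BorelSpace G]
  (μ : Measure G) [μ.IsAddHaarMeasure] [IsProbabilityMeasure μ]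
  {κ : Type*} [Fintype κ] (J : κ → ℝ) (χ : κ → Chr G)

/-- minus the logarithm of the ratio of partition functions at a real twist -/
noncomputable def ell (t : κ → ℝ) : ℝ := -Real.log (Zr μ J χ t / Zr μ J χ 0)

theorem exp_ell (t : κ → ℝ) : Real.exp (-ell μ J χ t) = Zr μ J χ t / Zr μ J χ 0 := by
  unfold ell
  rw [neg_neg, Real.exp_log (div_pos (Zr_pos μ J χ t) (Zr_pos μ J χ 0))]

variable (h2 : ∀ g : G, ∃ h : G, h + h = g)

include h2 in
theorem ell_nonneg (hJ : ∀ e, 0 ≤ J e) (t : κ → ℝ) : 0 ≤ ell μ J χ t := by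
  unfold ell
  have h1 : Zr μ J χ t / Zr μ J χ 0 ≤ 1 :=
    (div_le_one (Zr_pos μ J χ 0)).2 (Zr_le μ J χ h2 hJ t)
  have := Real.log_nonpos (div_pos (Zr_pos μ J χ t) (Zr_pos μ J χ 0)).le h1
  linarith

include h2 in
theorem ell_le (hJ : ∀ e, 0 ≤ J e) (t : κ → ℝ) :
    ell μ J χ t ≤ (∑ e, J e * t e ^ 2) / 2 := by
  have h1 := lowerZ μ J χ h2 hJ t
  rw [QQ_zero] at h1
  have h3 := (Real.le_log_iff_exp_le (div_pos (Zr_pos μ J χ t) (Zr_pos μ J χ 0))).2 h1
  have h4 := Qform_le μ J χ hJ t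
  unfold ell
  linarith

include h2 in
theorem ell_par (hJ : ∀ e, 0 ≤ J e) (t s : κ → ℝ) :
    ell μ J χ (t + s) + ell μ J χ (t - s) ≤ 2 * ell μ J χ t + 2 * ell μ J χ s := by
  have h := four μ J χ h2 hJ t s
  have z0 := Zr_pos μ J χ 0
  have z1 := Zr_pos μ J χ t
  have z2 := Zr_pos μ J χ s
  have z3 := Zr_pos μ J χ (t + s)
  have z4 := Zr_pos μ J χ (t - s)
  have hl := Real.log_le_log (by positivity) h
  rw [Real.log_mul (by positivity) (by positivity), Real.log_mul (by positivity) (by positivity),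
    Real.log_mul (by positivity) (by positivity), Real.log_pow, Real.log_pow, Real.log_pow] at hl
  unfold ell
  rw [Real.log_div z3.ne' z0.ne', Real.log_div z4.ne' z0.ne', Real.log_div z1.ne' z0.ne',
    Real.log_div z2.ne' z0.ne']
  push_cast at hl
  linarith

include h2 in
/-- stability -/
theorem ell_stab (hJ : ∀ e, 0 ≤ J e) (t r : κ → ℝ) {K : ℕ} (hK : 1 ≤ K) :
    |ell μ J χ (t + r) - ell μ J χ t| ≤
      (ell μ J χ t + ell μ J χ (t + r)) / K + K * ell μ J χ r := by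
  obtain ⟨c, hc⟩ : ∃ c, c = ell μ J χ r := ⟨_, rfl⟩
  have hc0 : 0 ≤ c := by rw [hc]; exact ell_nonneg μ J χ h2 hJ r
  have hK0 : (0 : ℝ) < K := by exact_mod_cast hK
  set a : ℤ → ℝ := fun k => ell μ J χ (t + (k : ℝ) • r) with ha
  have ha0 : a 0 = ell μ J χ t := by simp [ha]
  have ha1 : a 1 = ell μ J χ (t + r) := by simp [ha]
  have han : ∀ k, 0 ≤ a k := fun k => ell_nonneg μ J χ h2 hJ _
  have hpar : ∀ k : ℤ, a (k + 1) - a k ≤ a k - a (k - 1) + 2 * c := by
    intro k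
    have h := ell_par μ J χ h2 hJ (t + (k : ℝ) • r) r
    have e1 : t + (k : ℝ) • r + r = t + ((k + 1 : ℤ) : ℝ) • r := by
      funext e; simp only [Pi.add_apply, Pi.smul_apply, smul_eq_mul]; push_cast; ring
    have e2 : t + (k : ℝ) • r - r = t + ((k - 1 : ℤ) : ℝ) • r := by
      funext e; simp only [Pi.add_apply, Pi.sub_apply, Pi.smul_apply, smul_eq_mul]; push_cast; ring
    rw [e1, e2, ← hc] at h
    simp only [ha]
    linarith
  have hdown : ∀ j : ℕ, a 1 - a 0 ≤ a (1 - j) - a (-j) + 2 * c * j := by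
    intro j
    induction j with
    | zero => simp
    | succ j ih =>
      have h := hpar (-j)
      have e1 : (-(j : ℤ) + 1) = 1 - j := by ring
      have e2 : (-(j : ℤ) - 1) = -((j + 1 : ℕ) : ℤ) := by push_cast; ring
      have e3 : (1 - ((j + 1 : ℕ) : ℤ)) = -j := by push_cast; ring
      rw [e1, e2] at h
      rw [e3]
      push_cast at h ⊢
      linarith
  have hup : ∀ j : ℕ, a (j + 1) - a j ≤ a 1 - a 0 + 2 * c * j := by
    intro j
    induction j with
    | zero => simp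
    | succ j ih =>
      have h := hpar (j + 1)
      have e1 : ((j : ℤ) + 1 - 1) = j := by ring
      rw [e1] at h
      push_cast at h ⊢
      linarith
  -- sums
  have hsum1 : ∀ n : ℕ, n * (a 1 - a 0) ≤ a 1 - a (1 - n) + c * n ^ 2 := by
    intro n
    induction n with
    | zero => simp
    | succ n ih =>
      have h := hdown n
      have e3 : (1 - ((n + 1 : ℕ) : ℤ)) = -n := by push_cast; ring
      rw [e3]
      push_cast
      nlinarith only [ih, h, hc0]
  have hsum2 : ∀ n : ℕ, a n - a 0 ≤ n * (a 1 - a 0) + c * n ^ 2 := by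
    intro n
    induction n with
    | zero => simp
    | succ n ih =>
      have h := hup n
      push_cast
      nlinarith only [ih, h, hc0]
  have s1 := hsum1 K
  have s2 := hsum2 K
  have n1 := han (1 - K)
  have n2 := han K
  have n3 := han 0
  have n4 := han 1
  rw [← hc, ← ha0, ← ha1, abs_le, div_add' _ _ _ hK0.ne']
  constructor
  · rw [neg_le, le_div_iff₀ hK0]
    nlinarith only [s2, n2, n4]
  · rw [le_div_iff₀ hK0]
    nlinarith only [s1, n1, n3]

end Ell

/-! ### Application to the block -/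

/-- the Dirichlet sum of an approximating twist -/
theorem apx_sum {b : ℝ} (hb : 0 < b) {F : MF} (hF : CF F) {t : ∀ N : ℕ, KR (blk 0 N) → ℝ}
    (ht : Apx F t) {ε : ℝ} (hε : 0 < ε) :
    ∀ᶠ N : ℕ in atTop, ∑ e : KR (blk 0 N), b / 2 * t N e ^ 2 ≤ b * en F + ε := by
  obtain ⟨M, hM⟩ := hF.bd 1
  have hM0 : 0 ≤ M := (abs_nonneg _).trans (hM 0 0 false (by simp) (by simp))
  have hbd : ∀ N : ℕ, 1 ≤ N → ∀ e : KR (blk 0 N), |smp F N e.1 e.2.1| ≤ M := by
    intro N hN e
    have g3 := center_bd (K := 1) hN (blk_sub_bx N e.1.2)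
    rw [Nat.cast_one] at g3
    exact hM _ _ _ g3.1 g3.2
  obtain ⟨ε', hε'0, hε'⟩ : ∃ ε' : ℝ, 0 < ε' ∧ 2 * b * (2 * M * ε' + ε' ^ 2) ≤ ε / 2 := by
    have hl : Tendsto (fun x : ℝ => 2 * b * (2 * M * x + x ^ 2)) (𝓝[>] 0) (𝓝 0) := by
      have : Tendsto (fun x : ℝ => 2 * b * (2 * M * x + x ^ 2)) (𝓝 0)
          (𝓝 (2 * b * (2 * M * 0 + 0 ^ 2))) :=
        (by fun_prop : Continuous fun x : ℝ => 2 * b * (2 * M * x + x ^ 2)).tendsto 0
      have e0 : 2 * b * (2 * M * 0 + (0 : ℝ) ^ 2) = 0 := by ring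
      rw [e0] at this
      exact this.mono_left nhdsWithin_le_nhds
    obtain ⟨x, h1, h2⟩ := ((hl.eventually (ge_mem_nhds (half_pos hε))).and
      self_mem_nhdsWithin).exists
    exact ⟨x, h2, h1⟩
  have hn := ((nR_lim hF).const_mul b).eventually (ge_mem_nhds
    (by linarith : b * en F < b * en F + ε / 2))
  filter_upwards [ht ε' hε'0, hn, eventually_ge_atTop 1] with N h1 h2 h3
  have hN0 : (0 : ℝ) < N := by exact_mod_cast h3
  have hone : ∀ e ∈ (Finset.univ : Finset (KR (blk 0 N))), b / 2 * t N e ^ 2 ≤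
      b / 2 * smp F N e.1 e.2.1 ^ 2 / (N : ℝ) ^ 2 +
        b / 2 * (2 * M * ε' + ε' ^ 2) / (N : ℝ) ^ 2 := by
    intro e _
    have a1 := h1 e
    have a2 := hbd N h3 e
    obtain ⟨x, hx⟩ : ∃ x, x = smp F N e.1 e.2.1 := ⟨_, rfl⟩
    rw [← hx] at a1 a2 ⊢
    have a3 : (N * t N e) ^ 2 ≤ x ^ 2 + (2 * M * ε' + ε' ^ 2) := by
      obtain ⟨d, hd⟩ : ∃ d, d = N * t N e - x := ⟨_, rfl⟩
      have e1 : N * t N e = x + d := by rw [hd]; ring
      rw [← hd] at a1
      rw [e1]
      have a4 : x * d ≤ M * ε' := by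
        calc x * d ≤ |x * d| := le_abs_self _
          _ = |x| * |d| := abs_mul _ _
          _ ≤ M * ε' := mul_le_mul a2 a1 (abs_nonneg _) hM0
      have a5 : d ^ 2 ≤ ε' ^ 2 := by
        rw [← sq_abs d]; exact pow_le_pow_left₀ (abs_nonneg _) a1 2
      nlinarith only [a4, a5]
    rw [← add_div, le_div_iff₀ (by positivity)]
    nlinarith only [a3, hb]
  refine (Finset.sum_le_sum hone).trans ?_
  rw [Finset.sum_add_distrib]
  have e1 : ∑ e : KR (blk 0 N), b / 2 * smp F N e.1 e.2.1 ^ 2 / (N : ℝ) ^ 2 =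
      b * (nR (blk 0 N) (smp F N) / (N : ℝ) ^ 2) := by
    have h := sum_KR (blk 0 N) (fun c t => b / 2 * smp F N c t.1 ^ 2 / (N : ℝ) ^ 2)
    rw [h]
    unfold nR sq2
    rw [Finset.sum_div, Finset.mul_sum]
    refine Finset.sum_congr rfl fun c _ => ?_
    ring
  have e2 : ∑ _e : KR (blk 0 N), b / 2 * (2 * M * ε' + ε' ^ 2) / (N : ℝ) ^ 2 =
      2 * b * (2 * M * ε' + ε' ^ 2) := by
    rw [Finset.sum_const, nsmul_eq_mul, Finset.card_univ, card_KR, card_blk]
    push_cast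
    field_simp
    ring
  rw [e1, e2]
  linarith

end Vale.Agent.P159.H950
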