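import Vale.Agent.P159.H950.GDefs

/-!
Dirichlet energies on the unit square.
-/

open MeasureTheory Filter Topology

namespace Vale.Agent.P159

/-- `u` has the continuous partial derivatives `p`, `q` -/
def IsC1 (u p q : ℝ → ℝ → ℝ) : Prop :=
  Continuous (fun z : ℝ × ℝ => p z.1 z.2) ∧ Continuous (fun z : ℝ × ℝ => q z.1 z.2) ∧
    (∀ x y : ℝ, HasDerivAt (fun x => u x y) (p x y) x) ∧
    ∀ x y : ℝ, HasDerivAt (fun y => u x y) (q x y) y

/-- `u` and `g` agree on the boundary of the square `[0,1]²` -/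
def EqBdry (u g : ℝ → ℝ → ℝ) : Prop :=
  ∀ t : ℝ, 0 ≤ t → t ≤ 1 → u 0 t = g 0 t ∧ u 1 t = g 1 t ∧ u t 0 = g t 0 ∧ u t 1 = g t 1

/-- integral of `|(P, Q)|²` over the square `[0,1]²` -/
noncomputable def sqNorm (P Q : ℝ → ℝ → ℝ) : ℝ :=
  ∫ x in (0 : ℝ)..1, ∫ y in (0 : ℝ)..1, (P x y ^ 2 + Q x y ^ 2)

/-- squared distance of the field `(P, Q)` to the gradients of the continuously differentiable
functions vanishing on the boundary of the square -/
noncomputable def gaugeDist (P Q : ℝ → ℝ → ℝ) : ℝ :=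
  sInf {E : ℝ | ∃ u p q : ℝ → ℝ → ℝ, IsC1 u p q ∧ EqBdry u 0 ∧ E = sqNorm (P - p) (Q - q)}

/-- smallest Dirichlet energy of a continuously differentiable function with the boundary values
of `g` -/
noncomputable def dirichletE (g : ℝ → ℝ → ℝ) : ℝ :=
  sInf {E : ℝ | ∃ u p q : ℝ → ℝ → ℝ, IsC1 u p q ∧ EqBdry u g ∧ E = sqNorm p q}

end Vale.Agent.P159
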