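import Vale.Agent.P159.H950.G1
import Vale.Agent.P159.H950.HDefs

/-!
Gauge invariance, and the limit for fields with a decomposition.
-/

set_option linter.all false
set_option autoImplicit false

open MeasureTheory Filter Topology
open scoped BigOperators

namespace Vale.Agent.P159.H950

open Vale.Agent.P159 Vale.Agent.P159.UJ

theorem ext_shift {N : ℕ} (hN : 1 ≤ N) {φ : ℝ → ℝ → ℝ} (hφ : EqBdry φ 0) (θ : inner N → T)
    {v : ℤ × ℤ} (h1 : 0 ≤ v.1) (h2 : v.1 ≤ N) (h3 : 0 ≤ v.2) (h4 : v.2 ≤ N) :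
    ext (θ + fun w => (φ ((w.1.1 : ℝ) / N) ((w.1.2 : ℝ) / N) : T)) v =
      ext θ v + (φ ((v.1 : ℝ) / N) ((v.2 : ℝ) / N) : T) := by
  have hN0 : (0 : ℝ) < N := by exact_mod_cast hN
  unfold ext
  by_cases h : v ∈ inner N
  · simp only [h, ↓reduceDIte, Pi.add_apply]
  · simp only [h, ↓reduceDIte, zero_add]
    have r1 : (0 : ℝ) ≤ (v.1 : ℝ) / N := by
      have : (0 : ℝ) ≤ v.1 := by exact_mod_cast h1
      positivity
    have r2 : (v.1 : ℝ) / N ≤ 1 := (div_le_one hN0).2 (by exact_mod_cast h2)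
    have r3 : (0 : ℝ) ≤ (v.2 : ℝ) / N := by
      have : (0 : ℝ) ≤ v.2 := by exact_mod_cast h3
      positivity
    have r4 : (v.2 : ℝ) / N ≤ 1 := (div_le_one hN0).2 (by exact_mod_cast h4)
    have hcase : v.1 = 0 ∨ v.1 = N ∨ v.2 = 0 ∨ v.2 = N := by
      by_contra hcon
      push Not at hcon
      obtain ⟨k1, k2, k3, k4⟩ := hcon
      apply h
      unfold inner
      rw [Finset.mem_Icc, Prod.le_def, Prod.le_def]
      simp only
      omega
    have hz : φ ((v.1 : ℝ) / N) ((v.2 : ℝ) / N) = 0 := by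
      rcases hcase with k | k | k | k
      · rw [k]
        have := (hφ _ r3 r4).1
        simpa using this
      · have e : ((v.1 : ℤ) : ℝ) / N = 1 := by
          rw [k]; push_cast; exact div_self hN0.ne'
        rw [e]
        exact (hφ _ r3 r4).2.1
      · rw [k]
        have := (hφ _ r1 r2).2.2.1
        simpa using this
      · have e : ((v.2 : ℤ) : ℝ) / N = 1 := by
          rw [k]; push_cast; exact div_self hN0.ne'
        rw [e]
        exact (hφ _ r1 r2).2.2.2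
    rw [hz]
    simp

theorem energy_shift {N : ℕ} (hN : 1 ≤ N) (b : ℝ) (α β : ℤ × ℤ → ℝ) {φ : ℝ → ℝ → ℝ}
    (hφ : EqBdry φ 0) (θ : inner N → T) :
    gaugeEnergy N b α β (ext (θ + fun w => (φ ((w.1.1 : ℝ) / N) ((w.1.2 : ℝ) / N) : T))) =
      gaugeEnergy N b (α + gA φ N) (β + gB φ N) (ext θ) := by
  unfold gaugeEnergy
  refine Finset.sum_congr rfl fun i hi => Finset.sum_congr rfl fun j hj => ?_
  rw [Finset.mem_range] at hi hj
  have s1 := ext_shift hN hφ θ (v := ((i : ℤ), (j : ℤ))) (by simp only; omega)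
    (by simp only; omega) (by simp only; omega) (by simp only; omega)
  have s2 := ext_shift hN hφ θ (v := ((i : ℤ) + 1, (j : ℤ))) (by simp only; omega)
    (by simp only; omega) (by simp only; omega) (by simp only; omega)
  have s3 := ext_shift hN hφ θ (v := ((i : ℤ), (j : ℤ) + 1)) (by simp only; omega)
    (by simp only; omega) (by simp only; omega) (by simp only; omega)
  have s4 := ext_shift hN hφ θ (v := ((i : ℤ) + 1, (j : ℤ) + 1)) (by simp only; omega)
    (by simp only; omega) (by simp only; omega) (by simp only; omega)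
  rw [s1, s2, s3, s4]
  have key : ∀ (x y : T) (p q r : ℝ), cosT (x + (p : T) - (y + (q : T)) + (r : T)) =
      cosT (x - y + ((r + (p - q) : ℝ) : T)) := by
    intro x y p q r
    congr 1
    rw [AddCircle.coe_add, AddCircle.coe_sub]
    abel
  simp only [key, gA, gB, Pi.add_apply]
  push_cast
  ring

theorem gauge_inv {N : ℕ} (hN : 1 ≤ N) (b : ℝ) (α β : ℤ × ℤ → ℝ) {φ : ℝ → ℝ → ℝ}
    (hφ : EqBdry φ 0) : gaugeZ N b (α + gA φ N) (β + gB φ N) = gaugeZ N b α β := by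
  unfold gaugeZ
  have : (torusHaar (inner N)).IsAddRightInvariant := by
    unfold torusHaar
    infer_instance
  rw [← integral_add_right_eq_self (fun θ : inner N → T => Real.exp (gaugeEnergy N b α β (ext θ)))
    (fun w : inner N => (φ ((w.1.1 : ℝ) / N) ((w.1.2 : ℝ) / N) : T))]
  simp only [energy_shift hN b α β hφ]

theorem ApxG.add {P Q P' Q' : ℝ → ℝ → ℝ} {α β α' β' : ℕ → ℤ × ℤ → ℝ} (h : ApxG P Q α β)
    (h' : ApxG P' Q' α' β') : ApxG (P + P') (Q + Q') (α + α') (β + β') := by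
  intro ε hε
  filter_upwards [h (ε / 2) (by positivity), h' (ε / 2) (by positivity)]
    with N h1 h2 v v1 v2 v3 v4
  obtain ⟨a1, a2⟩ := h1 v v1 v2 v3 v4
  obtain ⟨b1, b2⟩ := h2 v v1 v2 v3 v4
  constructor
  · have e : (N : ℝ) * (α + α') N v - (P + P') (v.1 / N) (v.2 / N) =
        (N * α N v - P (v.1 / N) (v.2 / N)) + (N * α' N v - P' (v.1 / N) (v.2 / N)) := by
      simp only [Pi.add_apply]; ring
    rw [e]
    exact (abs_add_le _ _).trans (by linarith)
  · have e : (N : ℝ) * (β + β') N v - (Q + Q') (v.1 / N) (v.2 / N) =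
        (N * β N v - Q (v.1 / N) (v.2 / N)) + (N * β' N v - Q' (v.1 / N) (v.2 / N)) := by
      simp only [Pi.add_apply]; ring
    rw [e]
    exact (abs_add_le _ _).trans (by linarith)

theorem ApxG.neg {P Q : ℝ → ℝ → ℝ} {α β : ℕ → ℤ × ℤ → ℝ} (h : ApxG P Q α β) :
    ApxG (-P) (-Q) (-α) (-β) := by
  intro ε hε
  filter_upwards [h ε hε] with N h1 v v1 v2 v3 v4
  obtain ⟨a1, a2⟩ := h1 v v1 v2 v3 v4
  constructor
  · have e : (N : ℝ) * (-α) N v - (-P) (v.1 / N) (v.2 / N) =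
        -(N * α N v - P (v.1 / N) (v.2 / N)) := by
      simp only [Pi.neg_apply]; ring
    rw [e, abs_neg]
    exact a1
  · have e : (N : ℝ) * (-β) N v - (-Q) (v.1 / N) (v.2 / N) =
        -(N * β N v - Q (v.1 / N) (v.2 / N)) := by
      simp only [Pi.neg_apply]; ring
    rw [e, abs_neg]
    exact a2

theorem ApxG.sub {P Q P' Q' : ℝ → ℝ → ℝ} {α β α' β' : ℕ → ℤ × ℤ → ℝ} (h : ApxG P Q α β)
    (h' : ApxG P' Q' α' β') : ApxG (P - P') (Q - Q') (α - α') (β - β') := by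
  rw [sub_eq_add_neg, sub_eq_add_neg, sub_eq_add_neg, sub_eq_add_neg]
  exact h.add h'.neg

/-- samples at the sites -/
noncomputable def spl (P : ℝ → ℝ → ℝ) (N : ℕ) (v : ℤ × ℤ) : ℝ :=
  P ((v.1 : ℝ) / N) ((v.2 : ℝ) / N) / N

theorem apx_spl (P Q : ℝ → ℝ → ℝ) : ApxG P Q (spl P) (spl Q) := by
  intro ε hε
  filter_upwards [eventually_ge_atTop 1] with N hN v _ _ _ _
  have hN0 : (0 : ℝ) < N := by exact_mod_cast hN
  have e : ∀ x : ℝ, (N : ℝ) * (x / N) - x = 0 := by intro x; field_simp; ring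
  unfold spl
  rw [e, e, abs_zero]
  exact ⟨hε.le, hε.le⟩

/-- minus the logarithm of the ratio of partition functions in a gauge field -/
noncomputable def gl (b : ℝ) (α β : ℕ → ℤ × ℤ → ℝ) (N : ℕ) : ℝ :=
  ell muInf (fun _ : KR (blk 0 N) => b / 2) (chiR (blk 0 N)) (tG (α N) (β N) N)

theorem exp_gl (b : ℝ) (α β : ℕ → ℤ × ℤ → ℝ) (N : ℕ) :
    Real.exp (-gl b α β N) = gaugeZ N b (α N) (β N) / gaugeZ N b 0 0 := by
  unfold gl
  rw [exp_ell, Zr_gauge, ← tG_zero, Zr_gauge]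

theorem tG_add (α β α' β' : ℤ × ℤ → ℝ) (N : ℕ) :
    tG (α + α') (β + β') N = tG α β N + tG α' β' N := by
  funext e
  unfold tG
  simp only [Pi.add_apply]
  split_ifs <;> rfl

/-- gauge invariance -/
theorem gl_gauge (b : ℝ) (α β : ℕ → ℤ × ℤ → ℝ) {φ : ℝ → ℝ → ℝ} (hφ : EqBdry φ 0) {N : ℕ}
    (hN : 1 ≤ N) : gl b (α + gA φ) (β + gB φ) N = gl b α β N := by
  have h : Real.exp (-gl b (α + gA φ) (β + gB φ) N) = Real.exp (-gl b α β N) := by
    rw [exp_gl, exp_gl, Pi.add_apply, Pi.add_apply, gauge_inv hN b _ _ hφ]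
  have := Real.exp_injective h
  linarith

/-- divergence free pairs -/
def DFP (P Q : ℝ → ℝ → ℝ) : Prop :=
  Continuous (fun z : ℝ × ℝ => P z.1 z.2) ∧ Continuous (fun z : ℝ × ℝ => Q z.1 z.2) ∧
    ∃ f : ℝ → ℝ → ℝ, Continuous (fun z : ℝ × ℝ => f z.1 z.2) ∧
      (∀ x y, HasDerivAt (fun x => P x y) (f x y) x) ∧
      ∀ x y, HasDerivAt (fun y => Q x y) (-f x y) y

theorem gl_df {b : ℝ} (hb : 0 < b) {P Q : ℝ → ℝ → ℝ} (h : DFP P Q) {α β : ℕ → ℤ × ℤ → ℝ}
    (ha : ApxG P Q α β) :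
    Tendsto (fun N => gl b α β N) atTop (𝓝 (helicity b / 2 * sqNorm P Q)) := by
  obtain ⟨hP, hQ, f, hf, dP, dQ⟩ := h
  have h1 := (gauge_lim hb hP hQ hf dP dQ ha).log (Real.exp_pos _).ne'
  rw [Real.log_exp] at h1
  have h2 := h1.neg
  rw [neg_neg] at h2
  refine h2.congr fun N => ?_
  rw [← exp_gl, Real.log_exp, neg_neg]

theorem apx_c1 {u p q : ℝ → ℝ → ℝ} (h : IsC1 u p q) : ApxG (-p) (-q) (gA u) (gB u) :=
  apx_bdry h.1 h.2.1 h.2.2.1 h.2.2.2

/-- the limit for the sum of a divergence free field and a gradient -/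
theorem gl_hodge {b : ℝ} (hb : 0 < b) {P Q : ℝ → ℝ → ℝ} (h : DFP P Q) {u p q : ℝ → ℝ → ℝ}
    (hu : IsC1 u p q) (hu0 : EqBdry u 0) {α β : ℕ → ℤ × ℤ → ℝ}
    (ha : ApxG (P + p) (Q + q) α β) :
    Tendsto (fun N => gl b α β N) atTop (𝓝 (helicity b / 2 * sqNorm P Q)) := by
  have h1 : ApxG P Q (α + gA u) (β + gB u) := by
    have := ha.add (apx_c1 hu)
    have e1 : P + p + -p = P := by abel
    have e2 : Q + q + -q = Q := by abel
    rw [e1, e2] at this
    exact this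
  have h2 := gl_df hb h h1
  refine h2.congr' ?_
  filter_upwards [eventually_ge_atTop 1] with N hN
  exact gl_gauge b α β hu0 hN

end Vale.Agent.P159.H950
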