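import Vale.Agent.P159.H950.G2

/-!
Double integrals over the square, and orthogonality.
-/

set_option linter.all false
set_option autoImplicit false

open MeasureTheory Filter Topology
open scoped BigOperators

namespace Vale.Agent.P159.H950

open Vale.Agent.P159 Vale.Agent.P159.UJ

/-- integral over the square -/
noncomputable def II (G : ℝ → ℝ → ℝ) : ℝ := ∫ x in (0 : ℝ)..1, ∫ y in (0 : ℝ)..1, G x y

/-- jointly continuous functions -/
def JC (G : ℝ → ℝ → ℝ) : Prop := Continuous fun z : ℝ × ℝ => G z.1 z.2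

theorem JC.left {G : ℝ → ℝ → ℝ} (h : JC G) (x : ℝ) : Continuous (G x) := by
  have h1 : Continuous fun y : ℝ => (fun z : ℝ × ℝ => G z.1 z.2) (x, y) :=
    Continuous.comp h (by fun_prop)
  exact h1

theorem JC.right {G : ℝ → ℝ → ℝ} (h : JC G) (y : ℝ) : Continuous fun x => G x y := by
  have h1 : Continuous fun x : ℝ => (fun z : ℝ × ℝ => G z.1 z.2) (x, y) :=
    Continuous.comp h (by fun_prop)
  exact h1

theorem JC.inner {G : ℝ → ℝ → ℝ} (h : JC G) : Continuous fun x => ∫ y in (0 : ℝ)..1, G x y :=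
  intervalIntegral.continuous_parametric_intervalIntegral_of_continuous' h 0 1

theorem JC.swap {G : ℝ → ℝ → ℝ} (h : JC G) : JC fun y x => G x y :=
  Continuous.comp h continuous_swap

theorem JC.add {G H : ℝ → ℝ → ℝ} (h : JC G) (k : JC H) : JC (G + H) := Continuous.add h k
theorem JC.sub {G H : ℝ → ℝ → ℝ} (h : JC G) (k : JC H) : JC (G - H) := Continuous.sub h k
theorem JC.neg {G : ℝ → ℝ → ℝ} (h : JC G) : JC (-G) := Continuous.neg h
theorem JC.mul {G H : ℝ → ℝ → ℝ} (h : JC G) (k : JC H) : JC (G * H) := Continuous.mul h k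
theorem JC.smul {G : ℝ → ℝ → ℝ} (h : JC G) (c : ℝ) : JC (c • G) := Continuous.const_smul h c

theorem II_add {G H : ℝ → ℝ → ℝ} (h : JC G) (k : JC H) : II (G + H) = II G + II H := by
  unfold II
  rw [← intervalIntegral.integral_add (h.inner.intervalIntegrable _ _)
    (k.inner.intervalIntegrable _ _)]
  congr 1
  funext x
  exact intervalIntegral.integral_add ((h.left x).intervalIntegrable _ _)
    ((k.left x).intervalIntegrable _ _)

theorem II_smul (c : ℝ) (G : ℝ → ℝ → ℝ) : II (c • G) = c * II G := by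
  unfold II
  rw [← intervalIntegral.integral_const_mul]
  congr 1
  funext x
  rw [← intervalIntegral.integral_const_mul]
  rfl

theorem II_mono {G H : ℝ → ℝ → ℝ} (h : JC G) (k : JC H)
    (hle : ∀ x y : ℝ, 0 ≤ x → x ≤ 1 → 0 ≤ y → y ≤ 1 → G x y ≤ H x y) : II G ≤ II H := by
  unfold II
  refine intervalIntegral.integral_mono_on zero_le_one (h.inner.intervalIntegrable _ _)
    (k.inner.intervalIntegrable _ _) fun x hx => ?_
  exact intervalIntegral.integral_mono_on zero_le_one ((h.left x).intervalIntegrable _ _)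
    ((k.left x).intervalIntegrable _ _) fun y hy => hle x y hx.1 hx.2 hy.1 hy.2

theorem II_nonneg {G : ℝ → ℝ → ℝ} (h : JC G)
    (hle : ∀ x y : ℝ, 0 ≤ x → x ≤ 1 → 0 ≤ y → y ≤ 1 → 0 ≤ G x y) : 0 ≤ II G := by
  unfold II
  refine intervalIntegral.integral_nonneg zero_le_one fun x hx => ?_
  exact intervalIntegral.integral_nonneg zero_le_one fun y hy => hle x y hx.1 hx.2 hy.1 hy.2

theorem II_swap {G : ℝ → ℝ → ℝ} (h : JC G) : II G = II fun y x => G x y := by
  unfold II
  refine intervalIntegral_intervalIntegral_swap ?_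
  have hc : ContinuousOn (Function.uncurry G) (Set.uIcc (0 : ℝ) 1 ×ˢ Set.uIcc (0 : ℝ) 1) := by
    exact Continuous.continuousOn h
  have hi := hc.integrableOn_compact (μ := (volume : Measure (ℝ × ℝ)))
    (isCompact_uIcc.prod isCompact_uIcc)
  have hsub : Set.uIoc (0 : ℝ) 1 ×ˢ Set.uIoc (0 : ℝ) 1 ⊆ Set.uIcc (0 : ℝ) 1 ×ˢ Set.uIcc (0 : ℝ) 1 :=
    Set.prod_mono Set.uIoc_subset_uIcc Set.uIoc_subset_uIcc
  exact hi.mono_set hsub

theorem IsC1.jc {u p q : ℝ → ℝ → ℝ} (h : IsC1 u p q) : JC u := by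
  obtain ⟨hp, hq, dx, dy⟩ := h
  have e : (fun z : ℝ × ℝ => u z.1 z.2) = fun z : ℝ × ℝ =>
      u 0 0 + (∫ t in (0 : ℝ)..z.2, q 0 t) + ∫ s in (0 : ℝ)..z.1, p s z.2 := by
    funext z
    have h1 := intervalIntegral.integral_eq_sub_of_hasDerivAt (a := 0) (b := z.2)
      (fun t _ => dy 0 t) ((JC.left hq 0).intervalIntegrable _ _)
    have h2 := intervalIntegral.integral_eq_sub_of_hasDerivAt (a := 0) (b := z.1)
      (fun s _ => dx s z.2) ((JC.right hp z.2).intervalIntegrable _ _)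
    rw [h1, h2]
    ring
  unfold JC
  rw [e]
  have c1 : Continuous fun z : ℝ × ℝ => ∫ t in (0 : ℝ)..z.2, q 0 t := by
    refine intervalIntegral.continuous_parametric_intervalIntegral_of_continuous
      (f := fun (_ : ℝ × ℝ) t => q 0 t) ?_ continuous_snd
    exact (JC.left hq 0).comp continuous_snd
  have c2 : Continuous fun z : ℝ × ℝ => ∫ s in (0 : ℝ)..z.1, p s z.2 := by
    refine intervalIntegral.continuous_parametric_intervalIntegral_of_continuous
      (f := fun (z : ℝ × ℝ) s => p s z.2) ?_ continuous_fst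
    exact Continuous.comp hp (by fun_prop : Continuous fun w : (ℝ × ℝ) × ℝ => (w.2, w.1.2))
  exact (continuous_const.add c1).add c2

/-- gradients of functions vanishing on the boundary are orthogonal to divergence free fields -/
theorem orth {P Q : ℝ → ℝ → ℝ} (h : DFP P Q) {u p q : ℝ → ℝ → ℝ} (hu : IsC1 u p q)
    (hu0 : EqBdry u 0) : II (P * p + Q * q) = 0 := by
  obtain ⟨hP, hQ, f, hf, dP, dQ⟩ := h
  have hju := IsC1.jc hu
  obtain ⟨hp, hq, dx, dy⟩ := hu
  have hfu : JC (f * u) := JC.mul hf hju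
  rw [II_add (JC.mul hP hp) (JC.mul hQ hq)]
  have e1 : II (Q * q) = II (f * u) := by
    unfold II
    refine intervalIntegral.integral_congr fun x hx => ?_
    rw [Set.uIcc_of_le zero_le_one] at hx
    have h1 := intervalIntegral.integral_mul_deriv_eq_deriv_mul (a := 0) (b := 1)
      (u := fun y => Q x y) (v := fun y => u x y) (u' := fun y => -f x y) (v' := fun y => q x y)
      (fun y _ => dQ x y) (fun y _ => dy x y)
      ((JC.left hf x).neg.intervalIntegrable _ _) ((JC.left hq x).intervalIntegrable _ _)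
    have h2 := hu0 x hx.1 hx.2
    have z1 : u x 0 = 0 := h2.2.2.1
    have z2 : u x 1 = 0 := h2.2.2.2
    show ∫ y in (0 : ℝ)..1, Q x y * q x y = ∫ y in (0 : ℝ)..1, f x y * u x y
    rw [h1, z1, z2, mul_zero, mul_zero, sub_zero, zero_sub, ← intervalIntegral.integral_neg]
    congr 1
    funext y
    ring
  have e2 : II (P * p) = - II (f * u) := by
    rw [II_swap (JC.mul hP hp), II_swap hfu]
    unfold II
    rw [← intervalIntegral.integral_neg]
    refine intervalIntegral.integral_congr fun y hy => ?_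
    rw [Set.uIcc_of_le zero_le_one] at hy
    have h1 := intervalIntegral.integral_mul_deriv_eq_deriv_mul (a := 0) (b := 1)
      (u := fun x => P x y) (v := fun x => u x y) (u' := fun x => f x y) (v' := fun x => p x y)
      (fun x _ => dP x y) (fun x _ => dx x y)
      ((JC.right hf y).intervalIntegrable _ _) ((JC.right hp y).intervalIntegrable _ _)
    have h2 := hu0 y hy.1 hy.2
    have z1 : u 0 y = 0 := h2.1
    have z2 : u 1 y = 0 := h2.2.1
    show ∫ x in (0 : ℝ)..1, P x y * p x y = -∫ x in (0 : ℝ)..1, f x y * u x y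
    rw [h1, z1, z2, mul_zero, mul_zero, sub_zero, zero_sub]
  rw [e1, e2]
  ring

theorem sqNorm_eq (P Q : ℝ → ℝ → ℝ) : sqNorm P Q = II (P * P + Q * Q) := by
  unfold sqNorm II
  congr 1
  funext x
  congr 1
  funext y
  simp only [Pi.add_apply, Pi.mul_apply]
  ring

theorem sqNorm_nonneg {P Q : ℝ → ℝ → ℝ} (hP : JC P) (hQ : JC Q) : 0 ≤ sqNorm P Q := by
  rw [sqNorm_eq]
  refine II_nonneg ((hP.mul hP).add (hQ.mul hQ)) fun x y _ _ _ _ => ?_
  simp only [Pi.add_apply, Pi.mul_apply]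
  nlinarith only [sq_nonneg (P x y), sq_nonneg (Q x y)]

/-- expansion of the square -/
theorem sqNorm_add {P Q P' Q' : ℝ → ℝ → ℝ} (hP : JC P) (hQ : JC Q) (hP' : JC P') (hQ' : JC Q') :
    sqNorm (P + P') (Q + Q') = sqNorm P Q + 2 * II (P * P' + Q * Q') + sqNorm P' Q' := by
  rw [sqNorm_eq, sqNorm_eq, sqNorm_eq]
  have e : (P + P') * (P + P') + (Q + Q') * (Q + Q') =
      ((P * P + Q * Q) + (2 : ℝ) • (P * P' + Q * Q')) + (P' * P' + Q' * Q') := by
    funext x y
    simp only [Pi.add_apply, Pi.mul_apply, Pi.smul_apply, smul_eq_mul]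
    ring
  have j1 := (hP.mul hP).add (hQ.mul hQ)
  have j2 := (hP.mul hP').add (hQ.mul hQ')
  have j3 := (hP'.mul hP').add (hQ'.mul hQ')
  rw [e, II_add (j1.add (j2.smul 2)) j3, II_add j1 (j2.smul 2), II_smul]

theorem sqNorm_smul (P Q : ℝ → ℝ → ℝ) (c : ℝ) : sqNorm (c • P) (c • Q) = c ^ 2 * sqNorm P Q := by
  rw [sqNorm_eq, sqNorm_eq, ← II_smul]
  congr 1
  funext x y
  simp only [Pi.add_apply, Pi.mul_apply, Pi.smul_apply, smul_eq_mul]
  ring

/-- the elementary inequality -/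
theorem sqNorm_add_le {P Q P' Q' : ℝ → ℝ → ℝ} (hP : JC P) (hQ : JC Q) (hP' : JC P')
    (hQ' : JC Q') {η : ℝ} (hη : 0 < η) :
    sqNorm (P + P') (Q + Q') ≤ (1 + η) * sqNorm P Q + (1 + 1 / η) * sqNorm P' Q' := by
  have h := sqNorm_nonneg (((hP.smul η).add hP'.neg)) ((hQ.smul η).add hQ'.neg)
  rw [sqNorm_add (hP.smul η) (hQ.smul η) hP'.neg hQ'.neg, sqNorm_smul] at h
  have e1 : (η • P * -P' + η • Q * -Q') = (-η) • (P * P' + Q * Q') := by
    funext x y
    simp only [Pi.add_apply, Pi.mul_apply, Pi.smul_apply, Pi.neg_apply, smul_eq_mul]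
    ring
  have e2 : sqNorm (-P') (-Q') = sqNorm P' Q' := by
    have := sqNorm_smul P' Q' (-1)
    rw [neg_one_smul, neg_one_smul] at this
    rw [this]; ring
  rw [e1, II_smul, e2] at h
  rw [sqNorm_add hP hQ hP' hQ']
  obtain ⟨I, hI⟩ : ∃ I, I = II (P * P' + Q * Q') := ⟨_, rfl⟩
  obtain ⟨A, hA⟩ : ∃ A, A = sqNorm P Q := ⟨_, rfl⟩
  obtain ⟨B, hB⟩ : ∃ B, B = sqNorm P' Q' := ⟨_, rfl⟩
  rw [← hI, ← hA, ← hB] at h ⊢
  have h3 : 2 * I ≤ η * A + 1 / η * B := by
    have h4 : 0 ≤ (1 / η) * (η ^ 2 * A + 2 * (-η * I) + B) := mul_nonneg (by positivity) h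
    have h5 : (1 / η) * (η ^ 2 * A + 2 * (-η * I) + B) = η * A - 2 * I + 1 / η * B := by
      field_simp
      ring
    linarith
  linarith

/-- divergence free fields minimise the norm in their gauge class -/
theorem df_min {P Q : ℝ → ℝ → ℝ} (h : DFP P Q) {u p q : ℝ → ℝ → ℝ} (hu : IsC1 u p q)
    (hu0 : EqBdry u 0) : sqNorm P Q ≤ sqNorm (P + p) (Q + q) := by
  have ho := orth h hu hu0
  rw [sqNorm_add h.1 h.2.1 hu.1 hu.2.1, ho]
  have := sqNorm_nonneg hu.1 hu.2.1
  linarith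

end Vale.Agent.P159.H950
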