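import Vale.Agent.P159.H950.G3

/-!
Approximate Hodge decomposition on the square.
-/

set_option linter.all false
set_option autoImplicit false

open MeasureTheory Filter Topology
open scoped BigOperators

namespace Vale.Agent.P159.H950

open Vale.Agent.P159 Vale.Agent.P159.UJ

theorem dfp_add {P Q P' Q' : ℝ → ℝ → ℝ} (h : DFP P Q) (h' : DFP P' Q') :
    DFP (P + P') (Q + Q') := by
  obtain ⟨hP, hQ, f, hf, dP, dQ⟩ := h
  obtain ⟨hP', hQ', f', hf', dP', dQ'⟩ := h'
  refine ⟨JC.add hP hP', JC.add hQ hQ', f + f', JC.add hf hf', fun x y => ?_, fun x y => ?_⟩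
  · exact (dP x y).add (dP' x y)
  · have := (dQ x y).add (dQ' x y)
    have e : -f x y + -f' x y = -(f + f') x y := by simp only [Pi.add_apply]; ring
    rw [e] at this
    exact this

theorem dfp_smul {P Q : ℝ → ℝ → ℝ} (h : DFP P Q) (c : ℝ) : DFP (c • P) (c • Q) := by
  obtain ⟨hP, hQ, f, hf, dP, dQ⟩ := h
  refine ⟨JC.smul hP c, JC.smul hQ c, c • f, JC.smul hf c, fun x y => ?_, fun x y => ?_⟩
  · exact (dP x y).const_mul c
  · have := (dQ x y).const_mul c
    have e : c * -f x y = -(c • f) x y := by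
      simp only [Pi.smul_apply, smul_eq_mul]; ring
    rw [e] at this
    exact this

theorem c1_add {u p q u' p' q' : ℝ → ℝ → ℝ} (h : IsC1 u p q) (h' : IsC1 u' p' q') :
    IsC1 (u + u') (p + p') (q + q') :=
  ⟨JC.add h.1 h'.1, JC.add h.2.1 h'.2.1, fun x y => (h.2.2.1 x y).add (h'.2.2.1 x y),
    fun x y => (h.2.2.2 x y).add (h'.2.2.2 x y)⟩

theorem c1_smul {u p q : ℝ → ℝ → ℝ} (h : IsC1 u p q) (c : ℝ) : IsC1 (c • u) (c • p) (c • q) :=
  ⟨JC.smul h.1 c, JC.smul h.2.1 c, fun x y => (h.2.2.1 x y).const_mul c,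
    fun x y => (h.2.2.2 x y).const_mul c⟩

theorem bd_add {u u' : ℝ → ℝ → ℝ} (h : EqBdry u 0) (h' : EqBdry u' 0) : EqBdry (u + u') 0 := by
  intro t h1 h2
  obtain ⟨a1, a2, a3, a4⟩ := h t h1 h2
  obtain ⟨b1, b2, b3, b4⟩ := h' t h1 h2
  simp only [Pi.add_apply, Pi.zero_apply] at *
  refine ⟨by linarith, by linarith, by linarith, by linarith⟩

theorem bd_smul {u : ℝ → ℝ → ℝ} (h : EqBdry u 0) (c : ℝ) : EqBdry (c • u) 0 := by
  intro t h1 h2
  obtain ⟨a1, a2, a3, a4⟩ := h t h1 h2
  simp only [Pi.smul_apply, Pi.zero_apply, smul_eq_mul] at *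
  rw [a1, a2, a3, a4]
  simp

/-- fields that are the sum of a divergence free field and a gradient -/
def HD (P Q : ℝ → ℝ → ℝ) : Prop :=
  ∃ P0 Q0 u p q : ℝ → ℝ → ℝ, DFP P0 Q0 ∧ IsC1 u p q ∧ EqBdry u 0 ∧ P = P0 + p ∧ Q = Q0 + q

theorem HD.add {P Q P' Q' : ℝ → ℝ → ℝ} (h : HD P Q) (h' : HD P' Q') : HD (P + P') (Q + Q') := by
  obtain ⟨P0, Q0, u, p, q, h1, h2, h3, rfl, rfl⟩ := h
  obtain ⟨P0', Q0', u', p', q', h1', h2', h3', rfl, rfl⟩ := h'
  exact ⟨_, _, _, _, _, dfp_add h1 h1', c1_add h2 h2', bd_add h3 h3', by abel, by abel⟩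

theorem HD.smul {P Q : ℝ → ℝ → ℝ} (h : HD P Q) (c : ℝ) : HD (c • P) (c • Q) := by
  obtain ⟨P0, Q0, u, p, q, h1, h2, h3, rfl, rfl⟩ := h
  exact ⟨_, _, _, _, _, dfp_smul h1 c, c1_smul h2 c, bd_smul h3 c, smul_add _ _ _,
    smul_add _ _ _⟩

theorem HD.zero : HD 0 0 := by
  refine ⟨0, 0, 0, 0, 0, ⟨?_, ?_, 0, ?_, fun x y => ?_, fun x y => ?_⟩,
    ⟨?_, ?_, fun x y => ?_, fun x y => ?_⟩, fun t _ _ => ⟨rfl, rfl, rfl, rfl⟩, by simp, by simp⟩
  · exact continuous_const
  · exact continuous_const
  · exact continuous_const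
  · exact hasDerivAt_const x (0 : ℝ)
  · simpa using hasDerivAt_const y (0 : ℝ)
  · exact continuous_const
  · exact continuous_const
  · exact hasDerivAt_const x (0 : ℝ)
  · exact hasDerivAt_const y (0 : ℝ)

theorem HD.swap {P Q : ℝ → ℝ → ℝ} (h : HD P Q) : HD (fun x y => Q y x) (fun x y => P y x) := by
  obtain ⟨P0, Q0, u, p, q, ⟨hP, hQ, f, hf, dP, dQ⟩, ⟨hp, hq, dx, dy⟩, h3, rfl, rfl⟩ := h
  refine ⟨fun x y => Q0 y x, fun x y => P0 y x, fun x y => u y x, fun x y => q y x,
    fun x y => p y x, ⟨JC.swap hQ, JC.swap hP, fun x y => -f y x, (JC.swap hf).neg,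
      fun x y => dQ y x, fun x y => ?_⟩, ⟨JC.swap hq, JC.swap hp, fun x y => dy y x,
      fun x y => dx y x⟩, fun t h1 h2 => ?_, rfl, rfl⟩
  · rw [neg_neg]
    exact dP y x
  · obtain ⟨a1, a2, a3, a4⟩ := h3 t h1 h2
    exact ⟨a3, a4, a1, a2⟩

/-- basis functions -/
noncomputable def cs (k l : ℕ) : ℝ → ℝ → ℝ := fun x y =>
  Real.cos (k * Real.pi * x) * Real.sin (l * Real.pi * y)

theorem d_sin (k : ℝ) (x : ℝ) : HasDerivAt (fun x => Real.sin (k * Real.pi * x))
    (k * Real.pi * Real.cos (k * Real.pi * x)) x := by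
  have h1 : HasDerivAt (fun x => k * Real.pi * x) (k * Real.pi) x := by
    simpa using (hasDerivAt_id x).const_mul (k * Real.pi)
  refine (h1.sin).congr_deriv ?_
  ring

theorem d_cos (k : ℝ) (x : ℝ) : HasDerivAt (fun x => Real.cos (k * Real.pi * x))
    (-(k * Real.pi * Real.sin (k * Real.pi * x))) x := by
  have h1 : HasDerivAt (fun x => k * Real.pi * x) (k * Real.pi) x := by
    simpa using (hasDerivAt_id x).const_mul (k * Real.pi)
  refine (h1.cos).congr_deriv ?_
  ring

theorem hd_cs (k l : ℕ) : HD (cs k l) 0 := by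
  rcases Nat.eq_zero_or_pos l with rfl | hl
  · have e : cs k 0 = 0 := by
      funext x y
      simp [cs]
    rw [e]
    exact HD.zero
  · have hl0 : (0 : ℝ) < l := by exact_mod_cast hl
    have hk0 : (0 : ℝ) ≤ k := Nat.cast_nonneg k
    obtain ⟨D, hD⟩ : ∃ D : ℝ, D = (k : ℝ) ^ 2 + (l : ℝ) ^ 2 := ⟨_, rfl⟩
    have hD0 : 0 < D := by rw [hD]; positivity
    have hpi := Real.pi_pos
    refine ⟨fun x y => (l : ℝ) ^ 2 / D * (Real.cos (k * Real.pi * x) * Real.sin (l * Real.pi * y)),
      fun x y => -((k : ℝ) * l / D) * (Real.sin (k * Real.pi * x) * Real.cos (l * Real.pi * y)),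
      fun x y => (k : ℝ) / (D * Real.pi) * (Real.sin (k * Real.pi * x) *
        Real.sin (l * Real.pi * y)),
      fun x y => (k : ℝ) ^ 2 / D * (Real.cos (k * Real.pi * x) * Real.sin (l * Real.pi * y)),
      fun x y => (k : ℝ) * l / D * (Real.sin (k * Real.pi * x) * Real.cos (l * Real.pi * y)),
      ⟨by fun_prop, by fun_prop, fun x y => -((l : ℝ) ^ 2 / D * (k * Real.pi) *
        (Real.sin (k * Real.pi * x) * Real.sin (l * Real.pi * y))), by fun_prop,
        fun x y => ?_, fun x y => ?_⟩, ⟨by fun_prop, by fun_prop, fun x y => ?_, fun x y => ?_⟩,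
        fun t _ _ => ?_, ?_, ?_⟩
    · refine (((d_cos k x).mul_const (Real.sin (l * Real.pi * y))).const_mul
        ((l : ℝ) ^ 2 / D)).congr_deriv ?_
      ring
    · refine (((d_cos l y).const_mul (Real.sin (k * Real.pi * x))).const_mul
        (-((k : ℝ) * l / D))).congr_deriv ?_
      ring
    · refine (((d_sin k x).mul_const (Real.sin (l * Real.pi * y))).const_mul
        ((k : ℝ) / (D * Real.pi))).congr_deriv ?_
      field_simp
    · refine (((d_sin l y).const_mul (Real.sin (k * Real.pi * x))).const_mul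
        ((k : ℝ) / (D * Real.pi))).congr_deriv ?_
      field_simp
    · have s1 : Real.sin (k * Real.pi) = 0 := Real.sin_nat_mul_pi k
      have s2 : Real.sin (l * Real.pi) = 0 := Real.sin_nat_mul_pi l
      refine ⟨?_, ?_, ?_, ?_⟩ <;> simp [s1, s2]
    · funext x y
      simp only [cs, Pi.add_apply]
      rw [← add_mul, ← add_div, add_comm ((l : ℝ) ^ 2), ← hD, div_self hD0.ne', one_mul]
    · funext x y
      simp only [Pi.add_apply, Pi.zero_apply]
      ring

/-- the span of the basis functions -/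
def SC : Submodule ℝ (ℝ → ℝ → ℝ) := Submodule.span ℝ (Set.range fun t : ℕ × ℕ => cs t.1 t.2)

theorem cs_mem (k l : ℕ) : cs k l ∈ SC := Submodule.subset_span ⟨(k, l), rfl⟩

theorem hd_SC {u : ℝ → ℝ → ℝ} (hu : u ∈ SC) : HD u 0 := by
  unfold SC at hu
  induction hu using Submodule.span_induction with
  | mem v hv =>
    obtain ⟨t, rfl⟩ := hv
    exact hd_cs _ _
  | zero => exact HD.zero
  | add v w _ _ hv hw =>
    have := hv.add hw
    rwa [add_zero] at this
  | smul a v _ hv =>
    have := hv.smul a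
    rwa [smul_zero] at this

theorem jc_SC {u : ℝ → ℝ → ℝ} (hu : u ∈ SC) : JC u := by
  unfold SC at hu
  induction hu using Submodule.span_induction with
  | mem v hv =>
    obtain ⟨t, rfl⟩ := hv
    show Continuous fun z : ℝ × ℝ => Real.cos (t.1 * Real.pi * z.1) * Real.sin (t.2 * Real.pi * z.2)
    fun_prop
  | zero => exact continuous_const
  | add v w _ _ hv hw => exact hv.add hw
  | smul a v _ hv => exact hv.smul a

theorem mulX {u : ℝ → ℝ → ℝ} (hu : u ∈ SC) :
    (fun x y => Real.cos (Real.pi * x) * u x y) ∈ SC := by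
  have hgoal : ∀ v ∈ SC, (fun x y => Real.cos (Real.pi * x) * v x y) ∈ SC := by
    intro v hv
    unfold SC at hv
    induction hv using Submodule.span_induction with
    | mem v hv =>
      obtain ⟨⟨k, l⟩, rfl⟩ := hv
      rcases k with _ | k
      · have e : (fun x y => Real.cos (Real.pi * x) * cs 0 l x y) = cs 1 l := by
          funext x y
          simp [cs]
        show (fun x y => Real.cos (Real.pi * x) * cs 0 l x y) ∈ SC
        rw [e]
        exact cs_mem 1 l
      · have e : (fun x y => Real.cos (Real.pi * x) * cs (k + 1) l x y) =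
            (1 / 2 : ℝ) • (cs (k + 2) l + cs k l) := by
          funext x y
          simp only [cs, Pi.smul_apply, Pi.add_apply, smul_eq_mul]
          push_cast
          have e1 : ((k : ℝ) + 2) * Real.pi * x = ((k : ℝ) + 1) * Real.pi * x + Real.pi * x := by
            ring
          have e2 : (k : ℝ) * Real.pi * x = ((k : ℝ) + 1) * Real.pi * x - Real.pi * x := by ring
          rw [e1, e2, Real.cos_add, Real.cos_sub]
          ring
        show (fun x y => Real.cos (Real.pi * x) * cs (k + 1) l x y) ∈ SC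
        rw [e]
        exact SC.smul_mem _ (SC.add_mem (cs_mem _ _) (cs_mem _ _))
    | zero =>
      have e : (fun x y => Real.cos (Real.pi * x) * (0 : ℝ → ℝ → ℝ) x y) = 0 := by
        funext x y; simp
      rw [e]
      exact SC.zero_mem
    | add v w _ _ hv hw =>
      have e : (fun x y => Real.cos (Real.pi * x) * (v + w) x y) =
          (fun x y => Real.cos (Real.pi * x) * v x y) +
            fun x y => Real.cos (Real.pi * x) * w x y := by
        funext x y; simp only [Pi.add_apply]; ring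
      rw [e]
      exact SC.add_mem hv hw
    | smul a v _ hv =>
      have e : (fun x y => Real.cos (Real.pi * x) * (a • v) x y) =
          a • fun x y => Real.cos (Real.pi * x) * v x y := by
        funext x y; simp only [Pi.smul_apply, smul_eq_mul]; ring
      rw [e]
      exact SC.smul_mem _ hv
  exact hgoal u hu

theorem mulY {u : ℝ → ℝ → ℝ} (hu : u ∈ SC) :
    (fun x y => Real.cos (Real.pi * y) * u x y) ∈ SC := by
  have hgoal : ∀ v ∈ SC, (fun x y => Real.cos (Real.pi * y) * v x y) ∈ SC := by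
    intro v hv
    unfold SC at hv
    induction hv using Submodule.span_induction with
    | mem v hv =>
      obtain ⟨⟨k, l⟩, rfl⟩ := hv
      rcases l with _ | l
      · have e : (fun x y => Real.cos (Real.pi * y) * cs k 0 x y) = 0 := by
          funext x y
          simp [cs]
        show (fun x y => Real.cos (Real.pi * y) * cs k 0 x y) ∈ SC
        rw [e]
        exact SC.zero_mem
      · have e : (fun x y => Real.cos (Real.pi * y) * cs k (l + 1) x y) =
            (1 / 2 : ℝ) • (cs k (l + 2) + cs k l) := by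
          funext x y
          simp only [cs, Pi.smul_apply, Pi.add_apply, smul_eq_mul]
          push_cast
          have e1 : ((l : ℝ) + 2) * Real.pi * y = ((l : ℝ) + 1) * Real.pi * y + Real.pi * y := by
            ring
          have e2 : (l : ℝ) * Real.pi * y = ((l : ℝ) + 1) * Real.pi * y - Real.pi * y := by ring
          rw [e1, e2, Real.sin_add, Real.sin_sub]
          ring
        show (fun x y => Real.cos (Real.pi * y) * cs k (l + 1) x y) ∈ SC
        rw [e]
        exact SC.smul_mem _ (SC.add_mem (cs_mem _ _) (cs_mem _ _))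
    | zero =>
      have e : (fun x y => Real.cos (Real.pi * y) * (0 : ℝ → ℝ → ℝ) x y) = 0 := by
        funext x y; simp
      rw [e]
      exact SC.zero_mem
    | add v w _ _ hv hw =>
      have e : (fun x y => Real.cos (Real.pi * y) * (v + w) x y) =
          (fun x y => Real.cos (Real.pi * y) * v x y) +
            fun x y => Real.cos (Real.pi * y) * w x y := by
        funext x y; simp only [Pi.add_apply]; ring
      rw [e]
      exact SC.add_mem hv hw
    | smul a v _ hv =>
      have e : (fun x y => Real.cos (Real.pi * y) * (a • v) x y) =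
          a • fun x y => Real.cos (Real.pi * y) * v x y := by
        funext x y; simp only [Pi.smul_apply, smul_eq_mul]; ring
      rw [e]
      exact SC.smul_mem _ hv
  exact hgoal u hu

theorem mono_mem (k l : ℕ) : (fun x y => Real.sin (Real.pi * y) *
    (Real.cos (Real.pi * x) ^ k * Real.cos (Real.pi * y) ^ l)) ∈ SC := by
  induction k with
  | zero =>
    induction l with
    | zero =>
      have e : (fun x y => Real.sin (Real.pi * y) *
          (Real.cos (Real.pi * x) ^ 0 * Real.cos (Real.pi * y) ^ 0)) = cs 0 1 := by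
        funext x y
        simp [cs]
      rw [e]
      exact cs_mem 0 1
    | succ l ih =>
      have h := mulY ih
      have e : (fun x y => Real.cos (Real.pi * y) * (Real.sin (Real.pi * y) *
          (Real.cos (Real.pi * x) ^ 0 * Real.cos (Real.pi * y) ^ l))) =
          fun x y => Real.sin (Real.pi * y) *
          (Real.cos (Real.pi * x) ^ 0 * Real.cos (Real.pi * y) ^ (l + 1)) := by
        funext x y
        ring
      rw [e] at h
      exact h
  | succ k ih =>
    have h := mulX ih
    have e : (fun x y => Real.cos (Real.pi * x) * (Real.sin (Real.pi * y) *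
        (Real.cos (Real.pi * x) ^ k * Real.cos (Real.pi * y) ^ l))) =
        fun x y => Real.sin (Real.pi * y) *
        (Real.cos (Real.pi * x) ^ (k + 1) * Real.cos (Real.pi * y) ^ l) := by
      funext x y
      ring
    rw [e] at h
    exact h

/-- Stone-Weierstrass with cosines -/
theorem swc {f : ℝ → ℝ → ℝ} (hf : JC f) {ε : ℝ} (hε : 0 < ε) :
    ∃ t : ℝ → ℝ → ℝ, JC t ∧ (fun x y => Real.sin (Real.pi * y) * t x y) ∈ SC ∧
      ∀ x y : ℝ, 0 ≤ x → x ≤ 1 → 0 ≤ y → y ≤ 1 → |t x y - f x y| ≤ ε := by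
  let X := ↥(Set.Icc (0 : ℝ) 1) × ↥(Set.Icc (0 : ℝ) 1)
  let g1 : C(X, ℝ) := ⟨fun p => Real.cos (Real.pi * (p.1 : ℝ)),
    Real.continuous_cos.comp (continuous_const.mul
      (continuous_subtype_val.comp continuous_fst))⟩
  let g2 : C(X, ℝ) := ⟨fun p => Real.cos (Real.pi * (p.2 : ℝ)),
    Real.continuous_cos.comp (continuous_const.mul
      (continuous_subtype_val.comp continuous_snd))⟩
  let A : Subalgebra ℝ C(X, ℝ) := Algebra.adjoin ℝ {g1, g2}
  have hpi := Real.pi_pos
  have hinj : ∀ s t : ↥(Set.Icc (0 : ℝ) 1), Real.cos (Real.pi * (s : ℝ)) =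
      Real.cos (Real.pi * (t : ℝ)) → s = t := by
    intro s t h
    obtain ⟨s, hs⟩ := s
    obtain ⟨t, ht⟩ := t
    have h1 := Real.injOn_cos (x₁ := Real.pi * s) (x₂ := Real.pi * t)
      ⟨by have := hs.1; positivity, by nlinarith only [hs.2, hpi]⟩
      ⟨by have := ht.1; positivity, by nlinarith only [ht.2, hpi]⟩ h
    exact Subtype.ext (mul_left_cancel₀ hpi.ne' h1)
  have hsep : A.SeparatesPoints := by
    intro p q hpq
    have h : p.1 ≠ q.1 ∨ p.2 ≠ q.2 := by
      by_contra hcon
      push Not at hcon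
      exact hpq (Prod.ext hcon.1 hcon.2)
    rcases h with h | h
    · refine ⟨g1, ⟨g1, Algebra.subset_adjoin (by simp), rfl⟩, ?_⟩
      intro he
      exact h (hinj _ _ he)
    · refine ⟨g2, ⟨g2, Algebra.subset_adjoin (by simp), rfl⟩, ?_⟩
      intro he
      exact h (hinj _ _ he)
  let F : C(X, ℝ) := ⟨fun p => f (p.1 : ℝ) (p.2 : ℝ), by
    have : Continuous fun p : X => (fun z : ℝ × ℝ => f z.1 z.2) ((p.1 : ℝ), (p.2 : ℝ)) :=
      Continuous.comp hf ((continuous_subtype_val.comp continuous_fst).prodMk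
        (continuous_subtype_val.comp continuous_snd))
    exact this⟩
  obtain ⟨g, hg⟩ := ContinuousMap.exists_mem_subalgebra_near_continuousMap_of_separatesPoints A
    hsep F ε hε
  have hmem : (g : C(X, ℝ)) ∈ Submodule.span ℝ ((Submonoid.closure {g1, g2} : Submonoid C(X, ℝ)) :
      Set C(X, ℝ)) := by
    rw [← Algebra.adjoin_eq_span]
    exact g.2
  have hrep : ∀ p ∈ Submodule.span ℝ ((Submonoid.closure {g1, g2} : Submonoid C(X, ℝ)) :
      Set C(X, ℝ)), ∃ t : ℝ → ℝ → ℝ, JC t ∧ (fun x y => Real.sin (Real.pi * y) * t x y) ∈ SC ∧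
        ∀ z : X, p z = t (z.1 : ℝ) (z.2 : ℝ) := by
    intro p hp
    induction hp using Submodule.span_induction with
    | mem q hq =>
      have hmon : ∃ k l : ℕ, q = g1 ^ k * g2 ^ l := by
        induction hq using Submonoid.closure_induction with
        | mem r hr =>
          rcases hr with rfl | hr
          · exact ⟨1, 0, by simp⟩
          · rw [Set.mem_singleton_iff] at hr
            exact ⟨0, 1, by simp [hr]⟩
        | one => exact ⟨0, 0, by simp⟩
        | mul r s _ _ hr hs =>
          obtain ⟨k, l, rfl⟩ := hr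
          obtain ⟨k', l', rfl⟩ := hs
          exact ⟨k + k', l + l', by ring⟩
      obtain ⟨k, l, rfl⟩ := hmon
      refine ⟨fun x y => Real.cos (Real.pi * x) ^ k * Real.cos (Real.pi * y) ^ l, ?_,
        mono_mem k l, fun z => rfl⟩
      show Continuous fun z : ℝ × ℝ => Real.cos (Real.pi * z.1) ^ k * Real.cos (Real.pi * z.2) ^ l
      fun_prop
    | zero =>
      refine ⟨0, continuous_const, ?_, fun z => rfl⟩
      have e : (fun x y => Real.sin (Real.pi * y) * (0 : ℝ → ℝ → ℝ) x y) = 0 := by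
        funext x y; simp
      rw [e]
      exact SC.zero_mem
    | add q r _ _ hq hr =>
      obtain ⟨t, ht1, ht2, ht3⟩ := hq
      obtain ⟨t', ht1', ht2', ht3'⟩ := hr
      refine ⟨t + t', ht1.add ht1', ?_, fun z => ?_⟩
      · have e : (fun x y => Real.sin (Real.pi * y) * (t + t') x y) =
            (fun x y => Real.sin (Real.pi * y) * t x y) +
              fun x y => Real.sin (Real.pi * y) * t' x y := by
          funext x y; simp only [Pi.add_apply]; ring
        rw [e]
        exact SC.add_mem ht2 ht2'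
      · rw [ContinuousMap.add_apply, ht3, ht3']
        rfl
    | smul a q _ hq =>
      obtain ⟨t, ht1, ht2, ht3⟩ := hq
      refine ⟨a • t, ht1.smul a, ?_, fun z => ?_⟩
      · have e : (fun x y => Real.sin (Real.pi * y) * (a • t) x y) =
            a • fun x y => Real.sin (Real.pi * y) * t x y := by
          funext x y; simp only [Pi.smul_apply, smul_eq_mul]; ring
        rw [e]
        exact SC.smul_mem _ ht2
      · rw [ContinuousMap.smul_apply, ht3]
        rfl
  obtain ⟨t, ht1, ht2, ht3⟩ := hrep _ hmem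
  refine ⟨t, ht1, ht2, fun x y hx0 hx1 hy0 hy1 => ?_⟩
  have h1 := ContinuousMap.norm_coe_le_norm ((g : C(X, ℝ)) - F)
    (⟨⟨x, ⟨hx0, hx1⟩⟩, ⟨y, ⟨hy0, hy1⟩⟩⟩ : X)
  have h2 := h1.trans hg.le
  rw [ContinuousMap.sub_apply, ht3, Real.norm_eq_abs] at h2
  exact h2

end Vale.Agent.P159.H950
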