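import Vale.Agent.P159.H950.G4

/-!
The macroscopic limit for arbitrary continuous fields and arbitrary boundary spins.
-/

set_option linter.all false
set_option autoImplicit false

open MeasureTheory Filter Topology
open scoped BigOperators

namespace Vale.Agent.P159.H950

open Vale.Agent.P159 Vale.Agent.P159.UJ

theorem wall : Tendsto (fun n : ℕ => ∫ y in (0 : ℝ)..1, (1 - Real.sin (Real.pi * y)) ^ (2 * n))
    atTop (𝓝 0) := by
  have hpi := Real.pi_pos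
  have h := intervalIntegral.tendsto_integral_filter_of_dominated_convergence (μ := volume)
    (a := (0 : ℝ)) (b := 1) (l := (atTop : Filter ℕ))
    (F := fun (n : ℕ) (y : ℝ) => (1 - Real.sin (Real.pi * y)) ^ (2 * n)) (f := fun _ => (0 : ℝ))
    (fun _ => (1 : ℝ)) (Eventually.of_forall fun n => by
      have hc : Continuous fun y : ℝ => (1 - Real.sin (Real.pi * y)) ^ (2 * n) := by fun_prop
      exact hc.aestronglyMeasurable)
    (Eventually.of_forall fun n => Eventually.of_forall fun y hy => by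
      rw [Set.uIoc_of_le zero_le_one] at hy
      have h0 : 0 ≤ Real.sin (Real.pi * y) := Real.sin_nonneg_of_nonneg_of_le_pi
        (by have := hy.1; positivity) (by nlinarith only [hy.2, hpi])
      have h1 := Real.sin_le_one (Real.pi * y)
      rw [Real.norm_eq_abs, abs_of_nonneg (pow_nonneg (by linarith) _)]
      exact pow_le_one₀ (by linarith) (by linarith))
    (by simp) (by
      have hne : ∀ᵐ y ∂(volume : Measure ℝ), y ≠ (1 : ℝ) := by
        simp [ae_iff, measure_singleton]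
      filter_upwards [hne] with y hy1 hy
      rw [Set.uIoc_of_le zero_le_one] at hy
      have hlt : y < 1 := lt_of_le_of_ne hy.2 hy1
      have h0 : 0 < Real.sin (Real.pi * y) := Real.sin_pos_of_pos_of_lt_pi
        (by have := hy.1; positivity) (by nlinarith only [hlt, hpi])
      have h1 := Real.sin_le_one (Real.pi * y)
      have h2 : (fun n : ℕ => (1 - Real.sin (Real.pi * y)) ^ (2 * n)) =
          fun n : ℕ => ((1 - Real.sin (Real.pi * y)) ^ 2) ^ n := by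
        funext n
        rw [pow_mul]
      rw [h2]
      refine tendsto_pow_atTop_nhds_zero_of_lt_one (sq_nonneg _) ?_
      nlinarith only [h0, h1])
  simpa using h

theorem geo (s : ℝ) (n : ℕ) : s * ∑ j ∈ Finset.range n, (1 - s) ^ j = 1 - (1 - s) ^ n := by
  induction n with
  | zero => simp
  | succ n ih =>
    rw [Finset.sum_range_succ, mul_add, ih, pow_succ]
    ring

theorem approxL2 {P : ℝ → ℝ → ℝ} (hP : JC P) {ε : ℝ} (hε : 0 < ε) :
    ∃ S : ℝ → ℝ → ℝ, S ∈ SC ∧ II ((P - S) * (P - S)) ≤ ε := by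
  obtain ⟨M, hM⟩ := (sqr_compact 1).exists_bound_of_continuousOn (Continuous.continuousOn hP)
  have hMb : ∀ x y : ℝ, 0 ≤ x → x ≤ 1 → 0 ≤ y → y ≤ 1 → |P x y| ≤ M := by
    intro x y h1 h2 h3 h4
    exact hM (x, y) (mem_sqr.2 ⟨by rw [abs_le]; constructor <;> linarith,
      by rw [abs_le]; constructor <;> linarith⟩)
  have hw := (wall.const_mul (2 * M ^ 2)).eventually (ge_mem_nhds
    (by rw [mul_zero]; positivity : 2 * M ^ 2 * 0 < ε / 2))
  obtain ⟨n, hn⟩ := hw.exists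
  obtain ⟨ε', hε'0, hε'⟩ : ∃ ε' : ℝ, 0 < ε' ∧ 2 * ε' ^ 2 ≤ ε / 2 := by
    refine ⟨Real.sqrt (ε / 4), Real.sqrt_pos.2 (by positivity), ?_⟩
    rw [Real.sq_sqrt (by positivity)]
    linarith
  have hg : JC fun x y => P x y * ∑ j ∈ Finset.range n, (1 - Real.sin (Real.pi * y)) ^ j := by
    refine Continuous.mul hP ?_
    fun_prop
  obtain ⟨t, ht1, ht2, ht3⟩ := swc hg hε'0
  refine ⟨_, ht2, ?_⟩
  have hS := jc_SC ht2
  have hw2 : JC fun (_ : ℝ) y => (1 - Real.sin (Real.pi * y)) ^ (2 * n) := by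
    show Continuous fun z : ℝ × ℝ => (1 - Real.sin (Real.pi * z.2)) ^ (2 * n)
    fun_prop
  have hone : JC fun (_ _ : ℝ) => (1 : ℝ) := continuous_const
  have hle := II_mono ((hP.sub hS).mul (hP.sub hS))
    ((hw2.smul (2 * M ^ 2)).add (hone.smul (2 * ε' ^ 2))) (fun x y h1 h2 h3 h4 => by
      simp only [Pi.mul_apply, Pi.sub_apply, Pi.add_apply, Pi.smul_apply, smul_eq_mul, mul_one]
      obtain ⟨s, hs⟩ : ∃ s, s = Real.sin (Real.pi * y) := ⟨_, rfl⟩
      have hpi := Real.pi_pos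
      have hs0 : 0 ≤ s := by
        rw [hs]
        exact Real.sin_nonneg_of_nonneg_of_le_pi (by positivity) (by nlinarith only [h4, hpi])
      have hs1 : s ≤ 1 := by rw [hs]; exact Real.sin_le_one _
      have h5 := ht3 x y h1 h2 h3 h4
      have h6 := hMb x y h1 h2 h3 h4
      rw [← hs] at h5 ⊢
      obtain ⟨g, hgg⟩ : ∃ g, g = ∑ j ∈ Finset.range n, (1 - s) ^ j := ⟨_, rfl⟩
      have h7 := geo s n
      rw [← hgg] at h5 h7
      have e1 : P x y - s * t x y = P x y * (1 - s) ^ n - s * (t x y - P x y * g) := by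
        have : P x y * (1 - s) ^ n = P x y * (1 - s * g) := by rw [h7]; ring
        rw [this]; ring
      obtain ⟨A, hA⟩ : ∃ A, A = P x y * (1 - s) ^ n := ⟨_, rfl⟩
      obtain ⟨B, hB⟩ : ∃ B, B = s * (t x y - P x y * g) := ⟨_, rfl⟩
      rw [e1, ← hA, ← hB]
      have hA2 : A ^ 2 ≤ M ^ 2 * (1 - s) ^ (2 * n) := by
        rw [hA, mul_pow, ← pow_mul, mul_comm n 2]
        refine mul_le_mul_of_nonneg_right ?_ (pow_nonneg (by linarith) _)
        rw [← sq_abs]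
        exact pow_le_pow_left₀ (abs_nonneg _) h6 2
      have hB2 : B ^ 2 ≤ ε' ^ 2 := by
        have : |B| ≤ ε' := by
          rw [hB, abs_mul, abs_of_nonneg hs0]
          calc s * |t x y - P x y * g| ≤ 1 * ε' := mul_le_mul hs1 h5 (abs_nonneg _) zero_le_one
            _ = ε' := one_mul _
        rw [← sq_abs]
        exact pow_le_pow_left₀ (abs_nonneg _) this 2
      nlinarith only [hA2, hB2, sq_nonneg (A + B)])
  refine hle.trans ?_
  rw [II_add (hw2.smul (2 * M ^ 2)) (hone.smul (2 * ε' ^ 2)), II_smul, II_smul]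
  have e1 : II (fun (_ : ℝ) y => (1 - Real.sin (Real.pi * y)) ^ (2 * n)) =
      ∫ y in (0 : ℝ)..1, (1 - Real.sin (Real.pi * y)) ^ (2 * n) := by
    unfold II
    rw [intervalIntegral.integral_const]
    simp
  have e2 : II (fun (_ _ : ℝ) => (1 : ℝ)) = 1 := by
    unfold II
    simp
  rw [e1, e2]
  linarith

/-- approximate Hodge decomposition -/
theorem hodge {P Q : ℝ → ℝ → ℝ} (hP : JC P) (hQ : JC Q) {ε : ℝ} (hε : 0 < ε) :
    ∃ P0 Q0 u p q : ℝ → ℝ → ℝ, DFP P0 Q0 ∧ IsC1 u p q ∧ EqBdry u 0 ∧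
      sqNorm (P - (P0 + p)) (Q - (Q0 + q)) ≤ ε := by
  obtain ⟨S1, hS1, h1⟩ := approxL2 hP (half_pos hε)
  obtain ⟨S2, hS2, h2⟩ := approxL2 hQ.swap (half_pos hε)
  have hd : HD S1 fun x y => S2 y x := by
    have a := (hd_SC hS1).add (hd_SC hS2).swap
    have e1 : (S1 + fun x y => (0 : ℝ → ℝ → ℝ) y x) = S1 := by
      funext x y; simp
    have e2 : ((0 : ℝ → ℝ → ℝ) + fun x y => S2 y x) = fun x y => S2 y x := by
      funext x y; simp
    rw [e1, e2] at a
    exact a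
  obtain ⟨P0, Q0, u, p, q, g1, g2, g3, g4, g5⟩ := hd
  refine ⟨P0, Q0, u, p, q, g1, g2, g3, ?_⟩
  rw [← g4, ← g5, sqNorm_eq]
  have j1 := jc_SC hS1
  have j2 := jc_SC hS2
  have j2' : JC fun x y => S2 y x := j2.swap
  rw [II_add ((hP.sub j1).mul (hP.sub j1)) ((hQ.sub j2').mul (hQ.sub j2')),
    II_swap ((hQ.sub j2').mul (hQ.sub j2'))]
  have e : (fun y x => ((Q - fun x y => S2 y x) * (Q - fun x y => S2 y x)) x y) =
      ((fun y x => Q x y) - S2) * ((fun y x => Q x y) - S2) := by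
    funext y x
    rfl
  rw [e]
  linarith

/-! ### The distance -/

theorem gd_bdd (P Q : ℝ → ℝ → ℝ) (hP : JC P) (hQ : JC Q) :
    BddBelow {E : ℝ | ∃ u p q : ℝ → ℝ → ℝ, IsC1 u p q ∧ EqBdry u 0 ∧
      E = sqNorm (P - p) (Q - q)} := by
  refine ⟨0, ?_⟩
  rintro E ⟨u, p, q, h1, _, rfl⟩
  exact sqNorm_nonneg (hP.sub h1.1) (hQ.sub h1.2.1)

theorem zero_c1 : IsC1 0 0 0 :=
  ⟨continuous_const, continuous_const, fun x _ => hasDerivAt_const x (0 : ℝ),
    fun _ y => hasDerivAt_const y (0 : ℝ)⟩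

theorem gd_mem (P Q : ℝ → ℝ → ℝ) : sqNorm P Q ∈ {E : ℝ | ∃ u p q : ℝ → ℝ → ℝ, IsC1 u p q ∧
    EqBdry u 0 ∧ E = sqNorm (P - p) (Q - q)} :=
  ⟨0, 0, 0, zero_c1, fun t _ _ => ⟨rfl, rfl, rfl, rfl⟩, by rw [sub_zero, sub_zero]⟩

theorem gd_nonneg {P Q : ℝ → ℝ → ℝ} (hP : JC P) (hQ : JC Q) : 0 ≤ gaugeDist P Q := by
  refine Real.sInf_nonneg ?_
  rintro E ⟨u, p, q, h1, _, rfl⟩
  exact sqNorm_nonneg (hP.sub h1.1) (hQ.sub h1.2.1)

theorem gd_le {P Q : ℝ → ℝ → ℝ} (hP : JC P) (hQ : JC Q) : gaugeDist P Q ≤ sqNorm P Q :=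
  csInf_le (gd_bdd P Q hP hQ) (gd_mem P Q)

theorem gd_df {P Q : ℝ → ℝ → ℝ} (h : DFP P Q) : gaugeDist P Q = sqNorm P Q := by
  refine le_antisymm (gd_le h.1 h.2.1) ?_
  refine le_csInf ⟨_, gd_mem P Q⟩ ?_
  rintro E ⟨u, p, q, h1, h2, rfl⟩
  have h3 := df_min h (c1_smul h1 (-1)) (bd_smul h2 (-1))
  have e1 : P + (-1 : ℝ) • p = P - p := by
    funext x y; simp only [Pi.add_apply, Pi.smul_apply, Pi.sub_apply, smul_eq_mul]; ring
  have e2 : Q + (-1 : ℝ) • q = Q - q := by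
    funext x y; simp only [Pi.add_apply, Pi.smul_apply, Pi.sub_apply, smul_eq_mul]; ring
  rwa [e1, e2] at h3

/-- comparison of the distance with the norm of the divergence free part -/
theorem gd_comp {P Q : ℝ → ℝ → ℝ} (hP : JC P) (hQ : JC Q) {P0 Q0 u p q : ℝ → ℝ → ℝ}
    (h0 : DFP P0 Q0) (hu : IsC1 u p q) (hu0 : EqBdry u 0) {η : ℝ} (hη : 0 < η) (hη1 : η ≤ 1)
    (hR : sqNorm (P - (P0 + p)) (Q - (Q0 + q)) ≤ η ^ 2) :
    |sqNorm P0 Q0 - gaugeDist P Q| ≤ η * (2 * sqNorm P Q + 4) ∧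
      sqNorm P0 Q0 ≤ 2 * sqNorm P Q + 2 := by
  have jP0 : JC P0 := h0.1
  have jQ0 : JC Q0 := h0.2.1
  have jp : JC p := hu.1
  have jq : JC q := hu.2.1
  have j1 : JC (P - (P0 + p)) := hP.sub (jP0.add jp)
  have j2 : JC (Q - (Q0 + q)) := hQ.sub (jQ0.add jq)
  have hE0 := gd_nonneg hP hQ
  have hES := gd_le hP hQ
  have hG0 := sqNorm_nonneg jP0 jQ0
  have hsmall : (1 + 1 / η) * sqNorm (P - (P0 + p)) (Q - (Q0 + q)) ≤ 2 * η := by
    refine (mul_le_mul_of_nonneg_left hR (by positivity)).trans ?_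
    have : (1 + 1 / η) * η ^ 2 = η ^ 2 + η := by field_simp
    rw [this]
    nlinarith only [hη, hη1]
  -- upper bound for the distance
  have a1 : gaugeDist P Q ≤ (1 + η) * sqNorm P0 Q0 + 2 * η := by
    have h1 : gaugeDist P Q ≤ sqNorm (P - p) (Q - q) :=
      csInf_le (gd_bdd P Q hP hQ) ⟨u, p, q, hu, hu0, rfl⟩
    have e1 : P - p = P0 + (P - (P0 + p)) := by abel
    have e2 : Q - q = Q0 + (Q - (Q0 + q)) := by abel
    rw [e1, e2] at h1
    have h2 := sqNorm_add_le jP0 jQ0 j1 j2 hη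
    linarith
  -- lower bound
  have a2 : sqNorm P0 Q0 ≤ (1 + η) * gaugeDist P Q + 2 * η := by
    have h3 : (sqNorm P0 Q0 - 2 * η) / (1 + η) ≤ gaugeDist P Q := by
      refine le_csInf ⟨_, gd_mem P Q⟩ ?_
      rintro E ⟨u', p', q', h1, h2, rfl⟩
      rw [div_le_iff₀ (by linarith)]
      have jp' : JC p' := h1.1
      have jq' : JC q' := h1.2.1
      have h4 := df_min h0 (c1_add hu (c1_smul h1 (-1))) (bd_add hu0 (bd_smul h2 (-1)))
      have e1 : P0 + (p + (-1 : ℝ) • p') = (P - p') + (-(P - (P0 + p))) := by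
        funext x y
        simp only [Pi.add_apply, Pi.smul_apply, Pi.sub_apply, Pi.neg_apply, smul_eq_mul]; ring
      have e2 : Q0 + (q + (-1 : ℝ) • q') = (Q - q') + (-(Q - (Q0 + q))) := by
        funext x y
        simp only [Pi.add_apply, Pi.smul_apply, Pi.sub_apply, Pi.neg_apply, smul_eq_mul]; ring
      rw [e1, e2] at h4
      have h5 := sqNorm_add_le (hP.sub jp') (hQ.sub jq') j1.neg j2.neg hη
      have e3 : sqNorm (-(P - (P0 + p))) (-(Q - (Q0 + q))) =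
          sqNorm (P - (P0 + p)) (Q - (Q0 + q)) := by
        have := sqNorm_smul (P - (P0 + p)) (Q - (Q0 + q)) (-1)
        rw [neg_one_smul, neg_one_smul] at this
        rw [this]; ring
      rw [e3] at h5
      linarith
    rw [div_le_iff₀ (by linarith)] at h3
    linarith
  have a3 : sqNorm P0 Q0 ≤ 2 * sqNorm P Q + 2 := by
    nlinarith only [a2, hES, hη1, hη, hE0]
  refine ⟨?_, a3⟩
  rw [abs_le]
  constructor
  · nlinarith only [a1, a3, hη, hη1, hG0]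
  · nlinarith only [a2, hES, hη, hE0]

/-! ### The limit -/

theorem en_mkF (P Q : ℝ → ℝ → ℝ) : en (mkF P Q) = sqNorm P Q := by
  unfold en mkF sqNorm
  simp only [Bool.false_eq_true, if_false, if_true]

theorem gl_le {b : ℝ} (hb : 0 < b) {P Q : ℝ → ℝ → ℝ} (hP : JC P) (hQ : JC Q)
    {α β : ℕ → ℤ × ℤ → ℝ} (ha : ApxG P Q α β) {ε : ℝ} (hε : 0 < ε) :
    ∀ᶠ N : ℕ in atTop, gl b α β N ≤ (b * sqNorm P Q + ε) / 2 := by
  have hF : CF (mkF P Q) := fun d => by cases d <;> simpa [mkF]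
  filter_upwards [apx_sum hb hF (apx_of_apxG hP hQ ha) hε] with N h
  rw [en_mkF] at h
  have h2 := ell_le muInf (fun _ : KR (blk 0 N) => b / 2) (chiR (blk 0 N)) G_div2
    (fun _ => by positivity) (tG (α N) (β N) N)
  unfold gl
  linarith

theorem gl_nonneg {b : ℝ} (hb : 0 < b) (α β : ℕ → ℤ × ℤ → ℝ) (N : ℕ) : 0 ≤ gl b α β N :=
  ell_nonneg muInf _ _ G_div2 (fun _ => by positivity) _

/-- the macroscopic limit in an arbitrary continuous gauge field -/
theorem gl_lim {b : ℝ} (hb : 0 < b) {P Q : ℝ → ℝ → ℝ} (hP : JC P) (hQ : JC Q)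
    {α β : ℕ → ℤ × ℤ → ℝ} (ha : ApxG P Q α β) :
    Tendsto (fun N => gl b α β N) atTop (𝓝 (helicity b / 2 * gaugeDist P Q)) := by
  have hm := mod_helicity hb
  have hY0 := hm.Y0
  have hYb := hm.Yb
  have hS0 := sqNorm_nonneg hP hQ
  rw [Metric.tendsto_atTop]
  intro ε hε
  obtain ⟨M, hM⟩ : ∃ M, M = (b / 2 * (2 * sqNorm P Q + 2) + 1) + (b * sqNorm P Q + 1) / 2 :=
    ⟨_, rfl⟩
  have hM0 : 0 < M := by rw [hM]; positivity
  obtain ⟨K, hK⟩ := exists_nat_gt (M / (ε / 8))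
  have hK0 : (0 : ℝ) < K := lt_of_le_of_lt (by positivity) hK
  have hK1 : 1 ≤ K := by exact_mod_cast Nat.succ_le_of_lt (by exact_mod_cast hK0)
  have hMK : M / K ≤ ε / 8 := by
    rw [div_lt_iff₀ (by positivity)] at hK
    rw [div_le_iff₀ hK0]
    linarith
  obtain ⟨η, hη, hη1, hη2, hη3⟩ : ∃ η : ℝ, 0 < η ∧ η ≤ 1 ∧
      K * ((b * η ^ 2 + η ^ 2) / 2) ≤ ε / 8 ∧ b / 2 * (η * (2 * sqNorm P Q + 4)) ≤ ε / 8 := by
    have l1 : Tendsto (fun x : ℝ => (K : ℝ) * ((b * x ^ 2 + x ^ 2) / 2)) (𝓝[>] 0) (𝓝 0) := by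
      have : Tendsto (fun x : ℝ => (K : ℝ) * ((b * x ^ 2 + x ^ 2) / 2)) (𝓝 0)
          (𝓝 ((K : ℝ) * ((b * 0 ^ 2 + 0 ^ 2) / 2))) :=
        (by fun_prop : Continuous fun x : ℝ => (K : ℝ) * ((b * x ^ 2 + x ^ 2) / 2)).tendsto 0
      have e0 : (K : ℝ) * ((b * 0 ^ 2 + 0 ^ 2) / 2) = 0 := by ring
      rw [e0] at this
      exact this.mono_left nhdsWithin_le_nhds
    have l2 : Tendsto (fun x : ℝ => b / 2 * (x * (2 * sqNorm P Q + 4))) (𝓝[>] 0) (𝓝 0) := by
      have : Tendsto (fun x : ℝ => b / 2 * (x * (2 * sqNorm P Q + 4))) (𝓝 0)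
          (𝓝 (b / 2 * (0 * (2 * sqNorm P Q + 4)))) :=
        (by fun_prop : Continuous fun x : ℝ => b / 2 * (x * (2 * sqNorm P Q + 4))).tendsto 0
      have e0 : b / 2 * (0 * (2 * sqNorm P Q + 4)) = 0 := by ring
      rw [e0] at this
      exact this.mono_left nhdsWithin_le_nhds
    have l3 : ∀ᶠ x : ℝ in 𝓝[>] 0, x ≤ 1 := by
      have : ∀ᶠ x : ℝ in 𝓝 0, x ≤ 1 := ge_mem_nhds one_pos
      exact this.filter_mono nhdsWithin_le_nhds
    have hε8 : 0 < ε / 8 := by positivity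
    obtain ⟨x, ⟨⟨h1, h2⟩, h3⟩, h4⟩ := ((((l1.eventually (ge_mem_nhds hε8)).and
      (l2.eventually (ge_mem_nhds hε8))).and l3).and self_mem_nhdsWithin).exists
    exact ⟨x, h4, h3, h1, h2⟩
  obtain ⟨P0, Q0, u, p, q, h0, hu, hu0, hR⟩ := hodge hP hQ (by positivity : 0 < η ^ 2)
  obtain ⟨c1, c2⟩ := gd_comp hP hQ h0 hu hu0 hη hη1 hR
  have jP0 : JC P0 := h0.1
  have jQ0 : JC Q0 := h0.2.1
  have jp : JC p := hu.1
  have jq : JC q := hu.2.1
  have hap := apx_spl (P0 + p) (Q0 + q)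
  have hlim := gl_hodge hb h0 hu hu0 hap
  have hε8 : 0 < ε / 8 := by positivity
  rw [Metric.tendsto_atTop] at hlim
  obtain ⟨N1, hN1⟩ := hlim (min (ε / 8) 1) (lt_min hε8 one_pos)
  have hη2' : 0 < η ^ 2 := by positivity
  obtain ⟨N2, hN2⟩ := eventually_atTop.1 ((gl_le hb hP hQ ha one_pos).and
    (gl_le hb (hP.sub (jP0.add jp)) (hQ.sub (jQ0.add jq)) (ha.sub hap) hη2'))
  refine ⟨max N1 N2, fun N hN => ?_⟩
  have d1 := hN1 N (le_trans (le_max_left _ _) hN)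
  obtain ⟨d2, d3⟩ := hN2 N (le_trans (le_max_right _ _) hN)
  rw [Real.dist_eq] at d1 ⊢
  have m1 := min_le_left (ε / 8) (1 : ℝ)
  have m2 := min_le_right (ε / 8) (1 : ℝ)
  obtain ⟨L, hL⟩ : ∃ L, L = gl b (spl (P0 + p)) (spl (Q0 + q)) N := ⟨_, rfl⟩
  rw [← hL] at d1
  have hG0 := sqNorm_nonneg jP0 jQ0
  have hLM : L ≤ b / 2 * (2 * sqNorm P Q + 2) + 1 := by
    have h1 := (abs_lt.1 d1).2
    have h2 : helicity b / 2 * sqNorm P0 Q0 ≤ b / 2 * (2 * sqNorm P Q + 2) :=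
      mul_le_mul (by linarith) c2 hG0 (by positivity)
    linarith
  -- stability
  have hst := ell_stab muInf (fun _ : KR (blk 0 N) => b / 2) (chiR (blk 0 N)) G_div2
    (fun _ => by positivity) (tG (spl (P0 + p) N) (spl (Q0 + q) N) N)
    (tG ((α - spl (P0 + p)) N) ((β - spl (Q0 + q)) N) N) hK1
  have hsum : tG (spl (P0 + p) N) (spl (Q0 + q) N) N +
      tG ((α - spl (P0 + p)) N) ((β - spl (Q0 + q)) N) N = tG (α N) (β N) N := by
    rw [← tG_add]
    congr 1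
    · funext v; simp only [Pi.add_apply, Pi.sub_apply]; ring
    · funext v; simp only [Pi.add_apply, Pi.sub_apply]; ring
  rw [hsum] at hst
  have f1 : ell muInf (fun _ : KR (blk 0 N) => b / 2) (chiR (blk 0 N)) (tG (α N) (β N) N) =
    gl b α β N := rfl
  have f2 : ell muInf (fun _ : KR (blk 0 N) => b / 2) (chiR (blk 0 N))
    (tG (spl (P0 + p) N) (spl (Q0 + q) N) N) = L := by rw [hL]; rfl
  have f3 : ell muInf (fun _ : KR (blk 0 N) => b / 2) (chiR (blk 0 N))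
    (tG ((α - spl (P0 + p)) N) ((β - spl (Q0 + q)) N) N) =
    gl b (α - spl (P0 + p)) (β - spl (Q0 + q)) N := rfl
  rw [f1, f2, f3] at hst
  have hs1 : (L + gl b α β N) / K ≤ ε / 8 := by
    refine le_trans (div_le_div_of_nonneg_right ?_ hK0.le) hMK
    rw [hM]
    linarith
  have hs2 : K * gl b (α - spl (P0 + p)) (β - spl (Q0 + q)) N ≤ ε / 8 := by
    refine le_trans (mul_le_mul_of_nonneg_left (d3.trans ?_) hK0.le) hη2
    have : b * sqNorm (P - (P0 + p)) (Q - (Q0 + q)) ≤ b * η ^ 2 :=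
      mul_le_mul_of_nonneg_left hR hb.le
    linarith
  have hs3 : |helicity b / 2 * sqNorm P0 Q0 - helicity b / 2 * gaugeDist P Q| ≤ ε / 8 := by
    rw [← mul_sub, abs_mul, abs_of_nonneg (by linarith)]
    refine le_trans (mul_le_mul (by linarith : helicity b / 2 ≤ b / 2) c1 (abs_nonneg _)
      (by positivity)) hη3
  have t1 := abs_le.1 hst
  have t2 := abs_lt.1 d1
  have t3 := abs_le.1 hs3
  rw [abs_lt]
  constructor <;> linarith

theorem gauge_lim_all {b : ℝ} (hb : 0 < b) {P Q : ℝ → ℝ → ℝ} (hP : JC P) (hQ : JC Q)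
    {α β : ℕ → ℤ × ℤ → ℝ} (ha : ApxG P Q α β) :
    Tendsto (fun N => gaugeZ N b (α N) (β N) / gaugeZ N b 0 0) atTop
      (𝓝 (Real.exp (-(helicity b / 2 * gaugeDist P Q)))) := by
  have h := (Real.continuous_exp.tendsto _).comp (gl_lim hb hP hQ ha).neg
  refine h.congr fun N => ?_
  exact exp_gl b α β N

/-- the Dirichlet energy as a distance -/
theorem dirichlet_eq {g p q : ℝ → ℝ → ℝ} (hg : IsC1 g p q) :
    gaugeDist (-p) (-q) = dirichletE g := by
  unfold gaugeDist dirichletE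
  congr 1
  ext E
  constructor
  · rintro ⟨u, p', q', h1, h2, rfl⟩
    refine ⟨g + u, p + p', q + q', c1_add hg h1, fun t t1 t2 => ?_, ?_⟩
    · obtain ⟨a1, a2, a3, a4⟩ := h2 t t1 t2
      simp only [Pi.add_apply, Pi.zero_apply] at *
      exact ⟨by rw [a1, add_zero], by rw [a2, add_zero], by rw [a3, add_zero],
        by rw [a4, add_zero]⟩
    · have e1 : -p - p' = (-1 : ℝ) • (p + p') := by
        funext x y
        simp only [Pi.add_apply, Pi.smul_apply, Pi.sub_apply, Pi.neg_apply, smul_eq_mul]; ring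
      have e2 : -q - q' = (-1 : ℝ) • (q + q') := by
        funext x y
        simp only [Pi.add_apply, Pi.smul_apply, Pi.sub_apply, Pi.neg_apply, smul_eq_mul]; ring
      rw [e1, e2, sqNorm_smul]
      ring
  · rintro ⟨u, p', q', h1, h2, rfl⟩
    refine ⟨u + (-1 : ℝ) • g, p' + (-1 : ℝ) • p, q' + (-1 : ℝ) • q, c1_add h1 (c1_smul hg (-1)),
      fun t t1 t2 => ?_, ?_⟩
    · obtain ⟨a1, a2, a3, a4⟩ := h2 t t1 t2
      simp only [Pi.add_apply, Pi.zero_apply, Pi.smul_apply, smul_eq_mul]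
      exact ⟨by rw [a1]; ring, by rw [a2]; ring, by rw [a3]; ring, by rw [a4]; ring⟩
    · have e1 : -p - (p' + (-1 : ℝ) • p) = (-1 : ℝ) • p' := by
        funext x y
        simp only [Pi.add_apply, Pi.smul_apply, Pi.sub_apply, Pi.neg_apply, smul_eq_mul]; ring
      have e2 : -q - (q' + (-1 : ℝ) • q) = (-1 : ℝ) • q' := by
        funext x y
        simp only [Pi.add_apply, Pi.smul_apply, Pi.sub_apply, Pi.neg_apply, smul_eq_mul]; ring
      rw [e1, e2, sqNorm_smul]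
      ring

theorem bdry_lim_all {b : ℝ} (hb : 0 < b) {g p q : ℝ → ℝ → ℝ} (hg : IsC1 g p q) :
    Tendsto (fun N => bdryZ N b g / bdryZ N b 0) atTop
      (𝓝 (Real.exp (-(helicity b / 2 * dirichletE g)))) := by
  rw [← dirichlet_eq hg]
  have jp : JC p := hg.1
  have jq : JC q := hg.2.1
  refine (gauge_lim_all hb jp.neg jq.neg (apx_c1 hg)).congr fun N => ?_
  rw [bdryZ_eq, bdryZ_zero]

end Vale.Agent.P159.H950
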