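import Vale.Agent.P159.H454.Final

/-!
A parallelogram inequality for the correlations of integer charges.
-/

open MeasureTheory Filter Topology
open scoped BigOperators

namespace Vale.Agent.P159.H950

open Vale.Agent.P159 Vale.Agent.P159.H454

section Abstract

variable {G : Type*} [AddCommGroup G] [TopologicalSpace G] [IsTopologicalAddGroup G]
  [CompactSpace G] [SecondCountableTopology G] [MeasurableSpace G] [BorelSpace G]
  (μ : Measure G) [μ.IsAddHaarMeasure] [IsProbabilityMeasure μ]

theorem parallelogram (h2 : ∀ g : G, ∃ h : G, h + h = g) {H : G → ℝ} (hH : InCone H)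
    (A B P M : Chr G) (hP : ∀ x, P.c x = A.c x * B.c x - A.s x * B.s x)
    (hM : ∀ x, M.c x = A.c x * B.c x + A.s x * B.s x) :
    (∫ x, A.c x * Real.exp (H x) ∂μ) ^ 2 * (∫ x, B.c x * Real.exp (H x) ∂μ) ^ 2 ≤
      ((∫ x, P.c x * Real.exp (H x) ∂μ) * (∫ x, M.c x * Real.exp (H x) ∂μ)) *
        (∫ x, Real.exp (H x) ∂μ) ^ 2 := by
  have cH := hH.cont
  obtain ⟨κ, _, J, χ, hJ, hHe⟩ := hH
  set Z := ∫ x, Real.exp (H x) ∂μ with hZ
  set a := ∫ x, A.c x * Real.exp (H x) ∂μ with ha
  set b := ∫ x, B.c x * Real.exp (H x) ∂μ with hb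
  set p := ∫ x, P.c x * Real.exp (H x) ∂μ with hp
  set m := ∫ x, M.c x * Real.exp (H x) ∂μ with hm
  have cE : Continuous fun x => Real.exp (H x) := Real.continuous_exp.comp cH
  have hq : ∀ t : ℝ, 0 ≤ (m * Z) * (t * t) + (2 * (a * b)) * t + p * Z := by
    intro t
    have key := kernel_nonneg (μ := μ) (fun e => 2 * J e)
      (fun e => by have := hJ e; positivity) (fun e => (χ e).c) (fun e => (χ e).cont_c)
      (g := fun x => P.c x + t * M.c x) (P.cont_c.add (continuous_const.mul M.cont_c))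
    set F : G × G → ℝ := fun q =>
      (1 / 2) * ((P.c q.1 * Real.exp (H q.1)) * Real.exp (H q.2) +
        Real.exp (H q.1) * (P.c q.2 * Real.exp (H q.2))) +
      (t * ((A.c q.1 * Real.exp (H q.1)) * (B.c q.2 * Real.exp (H q.2)) +
        (B.c q.1 * Real.exp (H q.1)) * (A.c q.2 * Real.exp (H q.2))) +
      t ^ 2 * ((1 / 2) * ((M.c q.1 * Real.exp (H q.1)) * Real.exp (H q.2) +
        Real.exp (H q.1) * (M.c q.2 * Real.exp (H q.2))))) with hF
    have c1 : ∀ D : Chr G, Continuous fun q : G × G => D.c q.1 * Real.exp (H q.1) := fun D =>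
      (D.cont_c.comp continuous_fst).mul (cE.comp continuous_fst)
    have c2 : ∀ D : Chr G, Continuous fun q : G × G => D.c q.2 * Real.exp (H q.2) := fun D =>
      (D.cont_c.comp continuous_snd).mul (cE.comp continuous_snd)
    have c3 : Continuous fun q : G × G => Real.exp (H q.1) := cE.comp continuous_fst
    have c4 : Continuous fun q : G × G => Real.exp (H q.2) := cE.comp continuous_snd
    have d1 : ∀ D : Chr G, Continuous fun q : G × G =>
        (D.c q.1 * Real.exp (H q.1)) * Real.exp (H q.2) +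
        Real.exp (H q.1) * (D.c q.2 * Real.exp (H q.2)) := fun D =>
      ((c1 D).mul c4).add (c3.mul (c2 D))
    have d2 : Continuous fun q : G × G =>
        (A.c q.1 * Real.exp (H q.1)) * (B.c q.2 * Real.exp (H q.2)) +
        (B.c q.1 * Real.exp (H q.1)) * (A.c q.2 * Real.exp (H q.2)) :=
      ((c1 A).mul (c2 B)).add ((c1 B).mul (c2 A))
    have cF : Continuous F :=
      (continuous_const.mul (d1 P)).add ((continuous_const.mul d2).add
        (continuous_const.mul (continuous_const.mul (d1 M))))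
    have hrot := integral_rot μ h2 cF
    have e1 : ∀ q : G × G, F (q.1 + q.2, q.1 - q.2) =
        ((fun x => P.c x + t * M.c x) q.1 * (fun x => P.c x + t * M.c x) q.2) *
        Real.exp (∑ k, (fun e => 2 * J e) k * ((fun e => (χ e).c) k q.1 *
          (fun e => (χ e).c) k q.2)) := by
      intro q
      have hs : ∀ D : Chr G, D.c (q.1 - q.2) = D.c q.1 * D.c q.2 + D.s q.1 * D.s q.2 := by
        intro D
        rw [sub_eq_add_neg, D.c_add, D.c_neg, D.s_neg]; ring
      have hE : Real.exp (H (q.1 + q.2)) * Real.exp (H (q.1 - q.2)) =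
          Real.exp (∑ k, (2 * J k) * ((χ k).c q.1 * (χ k).c q.2)) := by
        rw [← Real.exp_add, hHe, hHe, ← Finset.sum_add_distrib]
        congr 1
        exact Finset.sum_congr rfl fun e _ => by rw [hs, Chr.c_add]; ring
      have : F (q.1 + q.2, q.1 - q.2) =
          ((1 / 2) * (P.c (q.1 + q.2) + P.c (q.1 - q.2)) +
          (t * (A.c (q.1 + q.2) * B.c (q.1 - q.2) + B.c (q.1 + q.2) * A.c (q.1 - q.2)) +
          t ^ 2 * ((1 / 2) * (M.c (q.1 + q.2) + M.c (q.1 - q.2))))) *
          (Real.exp (H (q.1 + q.2)) * Real.exp (H (q.1 - q.2))) := by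
        simp only [hF]
        ring
      rw [this, hE]
      congr 1
      simp only [hs, Chr.c_add]
      rw [hP, hP, hM, hM]
      ring
    have e2 : ∫ q, F q ∂(μ.prod μ) = (m * Z) * (t * t) + (2 * (a * b)) * t + p * Z := by
      have i1 : ∀ D : Chr G, ∫ q : G × G, ((D.c q.1 * Real.exp (H q.1)) * Real.exp (H q.2) +
          Real.exp (H q.1) * (D.c q.2 * Real.exp (H q.2))) ∂(μ.prod μ) =
          2 * ((∫ x, D.c x * Real.exp (H x) ∂μ) * Z) := by
        intro D
        have k1 : Continuous fun q : G × G =>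
            (D.c q.1 * Real.exp (H q.1)) * Real.exp (H q.2) := (c1 D).mul c4
        have k2 : Continuous fun q : G × G =>
            Real.exp (H q.1) * (D.c q.2 * Real.exp (H q.2)) := c3.mul (c2 D)
        rw [integral_add (cint k1) (cint k2),
          integral_prod_mul (μ := μ) (ν := μ) (fun x => D.c x * Real.exp (H x))
            (fun x => Real.exp (H x)),
          integral_prod_mul (μ := μ) (ν := μ) (fun x => Real.exp (H x))
            (fun x => D.c x * Real.exp (H x)), ← hZ]
        ring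
      have i2 : ∫ q : G × G, ((A.c q.1 * Real.exp (H q.1)) * (B.c q.2 * Real.exp (H q.2)) +
          (B.c q.1 * Real.exp (H q.1)) * (A.c q.2 * Real.exp (H q.2))) ∂(μ.prod μ) =
          2 * (a * b) := by
        have k1 : Continuous fun q : G × G =>
            (A.c q.1 * Real.exp (H q.1)) * (B.c q.2 * Real.exp (H q.2)) := (c1 A).mul (c2 B)
        have k2 : Continuous fun q : G × G =>
            (B.c q.1 * Real.exp (H q.1)) * (A.c q.2 * Real.exp (H q.2)) := (c1 B).mul (c2 A)
        rw [integral_add (cint k1) (cint k2),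
          integral_prod_mul (μ := μ) (ν := μ) (fun x => A.c x * Real.exp (H x))
            (fun x => B.c x * Real.exp (H x)),
          integral_prod_mul (μ := μ) (ν := μ) (fun x => B.c x * Real.exp (H x))
            (fun x => A.c x * Real.exp (H x))]
        ring
      have k1 : Continuous fun q : G × G =>
          (1 / 2) * ((P.c q.1 * Real.exp (H q.1)) * Real.exp (H q.2) +
            Real.exp (H q.1) * (P.c q.2 * Real.exp (H q.2))) := continuous_const.mul (d1 P)
      have k2 : Continuous fun q : G × G =>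
          t * ((A.c q.1 * Real.exp (H q.1)) * (B.c q.2 * Real.exp (H q.2)) +
            (B.c q.1 * Real.exp (H q.1)) * (A.c q.2 * Real.exp (H q.2))) :=
        continuous_const.mul d2
      have k3 : Continuous fun q : G × G =>
          t ^ 2 * ((1 / 2) * ((M.c q.1 * Real.exp (H q.1)) * Real.exp (H q.2) +
            Real.exp (H q.1) * (M.c q.2 * Real.exp (H q.2)))) :=
        continuous_const.mul (continuous_const.mul (d1 M))
      have k4 : Continuous fun q : G × G =>
          t * ((A.c q.1 * Real.exp (H q.1)) * (B.c q.2 * Real.exp (H q.2)) +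
            (B.c q.1 * Real.exp (H q.1)) * (A.c q.2 * Real.exp (H q.2))) +
          t ^ 2 * ((1 / 2) * ((M.c q.1 * Real.exp (H q.1)) * Real.exp (H q.2) +
            Real.exp (H q.1) * (M.c q.2 * Real.exp (H q.2)))) := k2.add k3
      rw [hF]
      rw [integral_add (cint k1) (cint k4), integral_add (cint k2) (cint k3),
        integral_const_mul, integral_const_mul, integral_const_mul, integral_const_mul,
        i1, i1, i2]
      ring
    rw [← e2, ← hrot]
    simp_rw [e1]
    exact key
  have h := discrim_le_zero hq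
  unfold discrim at h
  nlinarith only [h]

end Abstract

theorem mchr_c_add {k : ℕ} (m m' : Fin k → ℤ) (x : Fin k → ℤ × ℤ) (θ : Ginf) :
    (mchr (m + m') x).c θ = (mchr m x).c θ * (mchr m' x).c θ -
      (mchr m x).s θ * (mchr m' x).s θ := by
  unfold mchr
  simp only
  have : ∑ j, (m + m') j • θ (x j) = ∑ j, m j • θ (x j) + ∑ j, m' j • θ (x j) := by
    rw [← Finset.sum_add_distrib]
    exact Finset.sum_congr rfl fun j _ => by rw [Pi.add_apply, add_zsmul]
  rw [this]
  exact Real.Angle.cos_add _ _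

theorem mchr_c_sub {k : ℕ} (m m' : Fin k → ℤ) (x : Fin k → ℤ × ℤ) (θ : Ginf) :
    (mchr (m - m') x).c θ = (mchr m x).c θ * (mchr m' x).c θ +
      (mchr m x).s θ * (mchr m' x).s θ := by
  unfold mchr
  simp only
  have : ∑ j, (m - m') j • θ (x j) = ∑ j, m j • θ (x j) + -(∑ j, m' j • θ (x j)) := by
    rw [← Finset.sum_neg_distrib, ← Finset.sum_add_distrib]
    exact Finset.sum_congr rfl fun j _ => by rw [Pi.sub_apply, sub_zsmul]
  rw [this]
  have h : ∀ u v : T, cosT (u + -v) = cosT u * cosT v + sinT u * sinT v := by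
    intro u v
    have h1 : cosT (u + -v) = cosT u * cosT (-v) - sinT u * sinT (-v) :=
      Real.Angle.cos_add _ _
    have h2 : cosT (-v) = cosT v := Real.Angle.cos_neg _
    have h3 : sinT (-v) = -sinT v := Real.Angle.sin_neg _
    rw [h1, h2, h3]; ring
  exact h _ _

theorem chargeCorr_par {R : ℕ} {b : ℝ} (hb : 0 ≤ b) {k : ℕ} (m m' : Fin k → ℤ)
    {x : Fin k → ℤ × ℤ} (hx : ∀ j, x j ∈ box R) :
    chargeCorr R b m x ^ 2 * chargeCorr R b m' x ^ 2 ≤
      chargeCorr R b (m + m') x * chargeCorr R b (m - m') x := by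
  have h := parallelogram muInf pi_div2 (boxE_cone R hb) (mchr m x) (mchr m' x)
    (mchr (m + m') x) (mchr (m - m') x) (mchr_c_add m m' x) (mchr_c_sub m m' x)
  have hZ := exp_pos_int (boxE_cont R b)
  rw [chargeCorr_eq R b m hx, chargeCorr_eq R b m' hx, chargeCorr_eq R b (m + m') hx,
    chargeCorr_eq R b (m - m') hx, div_pow, div_pow, div_mul_div_comm, div_mul_div_comm,
    div_le_div_iff₀ (by positivity) (by positivity)]
  have h3 := mul_le_mul_of_nonneg_right h (sq_nonneg (∫ θ, Real.exp (boxE R b θ) ∂muInf))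
  refine le_trans (le_of_eq ?_) (h3.trans (le_of_eq ?_)) <;> ring

/-- infinite volume correlation of integer charges -/
noncomputable def chargeInf (b : ℝ) {k : ℕ} (m : Fin k → ℤ) (x : Fin k → ℤ × ℤ) : ℝ :=
  limUnder atTop fun R : ℕ => chargeCorr R b m x

theorem eventually_box {k : ℕ} (x : Fin k → ℤ × ℤ) : ∀ᶠ R : ℕ in atTop, ∀ j, x j ∈ box R := by
  refine eventually_atTop.2 ⟨∑ j, ((x j).1.natAbs + (x j).2.natAbs), fun R hR j => ?_⟩
  have h := Finset.single_le_sum (f := fun j => (x j).1.natAbs + (x j).2.natAbs)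
    (fun i _ => Nat.zero_le _) (Finset.mem_univ j)
  rw [mem_box, Int.abs_eq_natAbs, Int.abs_eq_natAbs]
  constructor <;> omega

theorem tendsto_chargeInf {b : ℝ} (hb : 0 ≤ b) {k : ℕ} (m : Fin k → ℤ) (x : Fin k → ℤ × ℤ) :
    Tendsto (fun R : ℕ => chargeCorr R b m x) atTop (𝓝 (chargeInf b m x)) := by
  obtain ⟨c, hc, -⟩ := chargeCorr_tendsto hb m x
  unfold chargeInf
  rw [hc.limUnder_eq]
  exact hc

theorem chargeInf_nonneg {b : ℝ} (hb : 0 ≤ b) {k : ℕ} (m : Fin k → ℤ) (x : Fin k → ℤ × ℤ) :
    0 ≤ chargeInf b m x :=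
  ge_of_tendsto (tendsto_chargeInf hb m x)
    ((eventually_box x).mono fun R hR => chargeCorr_nonneg R hb m hR)

theorem chargeInf_le_one {b : ℝ} (hb : 0 ≤ b) {k : ℕ} (m : Fin k → ℤ) (x : Fin k → ℤ × ℤ) :
    chargeInf b m x ≤ 1 :=
  le_of_tendsto (tendsto_chargeInf hb m x)
    ((eventually_box x).mono fun R hR => chargeCorr_le_one R m hR)

theorem chargeInf_par {b : ℝ} (hb : 0 ≤ b) {k : ℕ} (m m' : Fin k → ℤ) (x : Fin k → ℤ × ℤ) :
    chargeInf b m x ^ 2 * chargeInf b m' x ^ 2 ≤
      chargeInf b (m + m') x * chargeInf b (m - m') x :=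
  le_of_tendsto_of_tendsto
    (((tendsto_chargeInf hb m x).pow 2).mul ((tendsto_chargeInf hb m' x).pow 2))
    ((tendsto_chargeInf hb (m + m') x).mul (tendsto_chargeInf hb (m - m') x))
    ((eventually_box x).mono fun R hR => chargeCorr_par hb m m' hR)

theorem chargeInf_zero {b : ℝ} (hb : 0 ≤ b) {k : ℕ} (x : Fin k → ℤ × ℤ) :
    chargeInf b (0 : Fin k → ℤ) x = 1 := by
  refine tendsto_nhds_unique (tendsto_chargeInf hb 0 x) ?_
  refine tendsto_const_nhds.congr' ((eventually_box x).mono fun R hR => ?_)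
  show (1 : ℝ) = chargeCorr R b 0 x
  rw [chargeCorr_eq R b 0 hR]
  have : ∀ θ : Ginf, (mchr (0 : Fin k → ℤ) x).c θ = 1 := by
    intro θ
    unfold mchr
    simp only [Pi.zero_apply, zero_smul, Finset.sum_const_zero]
    exact Real.Angle.cos_zero
  simp only [this, one_mul]
  exact (div_self (exp_pos_int (boxE_cont R b)).ne').symm

/-- powers from a doubling and a bisection inequality -/
theorem pow_sq_le {f : ℕ → ℝ} {E : ℝ} (hE0 : 0 ≤ E) (hf : ∀ q, 0 ≤ f q) (f0 : f 0 = 1)
    (f1 : f 1 = E) (hpar : ∀ i j : ℕ, f (i + j) ^ 2 * f i ^ 2 ≤ f (2 * i + j) * f j) (q : ℕ) :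
    E ^ (q ^ 2) ≤ f q := by
  induction q using Nat.strong_induction_on with
  | _ q ih =>
    rcases Nat.lt_or_ge q 2 with h | h
    · interval_cases q
      · rw [f0]; simp
      · rw [f1]; simp
    · obtain ⟨i, hi⟩ := Nat.even_or_odd' q
      have hi1 : 1 ≤ i := by omega
      have ih1 := ih i (by omega)
      have p1 := pow_nonneg hE0 (i ^ 2)
      have ih1s : (E ^ (i ^ 2)) ^ 2 ≤ f i ^ 2 := pow_le_pow_left₀ p1 ih1 2
      rcases hi with hi | hi
      · have h3 := hpar i 0
        rw [f0, mul_one, add_zero, add_zero, ← hi] at h3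
        have h4 : E ^ (q ^ 2) = (E ^ (i ^ 2)) ^ 2 * (E ^ (i ^ 2)) ^ 2 := by
          rw [← pow_mul, ← pow_add, hi]
          congr 1
          ring
        rw [h4]
        exact le_trans (mul_le_mul ih1s ih1s (sq_nonneg _) (sq_nonneg _)) h3
      · have h3 := hpar i 1
        rw [f1, ← hi] at h3
        have ih2 := ih (i + 1) (by omega)
        have p2 := pow_nonneg hE0 ((i + 1) ^ 2)
        have ih2s : (E ^ ((i + 1) ^ 2)) ^ 2 ≤ f (i + 1) ^ 2 := pow_le_pow_left₀ p2 ih2 2
        rcases hE0.eq_or_lt with h0 | h0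
        · rw [← h0, zero_pow (by positivity)]
          exact hf q
        · have h5 : E ^ (q ^ 2) * E = (E ^ ((i + 1) ^ 2)) ^ 2 * (E ^ (i ^ 2)) ^ 2 := by
            rw [← pow_mul, ← pow_mul, ← pow_add, ← pow_succ, hi]
            congr 1
            ring
          have h6 : E ^ (q ^ 2) * E ≤ f q * E := by
            rw [h5]
            exact le_trans (mul_le_mul ih2s ih1s (sq_nonneg _) (sq_nonneg _)) h3
          exact le_of_mul_le_mul_right h6 h0

/-- multiples of a charge configuration -/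
theorem chargeInf_mul {b : ℝ} (hb : 0 ≤ b) {k : ℕ} (m : Fin k → ℤ) (x : Fin k → ℤ × ℤ) (q : ℕ) :
    chargeInf b m x ^ (q ^ 2) ≤ chargeInf b (fun j => (q : ℤ) * m j) x := by
  have f1 : chargeInf b (fun j => ((1 : ℕ) : ℤ) * m j) x = chargeInf b m x := by
    congr 1
    funext j
    push_cast
    ring
  have f0 : chargeInf b (fun j => ((0 : ℕ) : ℤ) * m j) x = 1 := by
    have : (fun j => ((0 : ℕ) : ℤ) * m j) = 0 := by
      funext j
      push_cast
      simp
    rw [this]
    exact chargeInf_zero hb x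
  refine pow_sq_le (f := fun q : ℕ => chargeInf b (fun j => (q : ℤ) * m j) x)
    (chargeInf_nonneg hb m x) (fun q => chargeInf_nonneg hb _ x) f0 f1 (fun i j => ?_) q
  have h := chargeInf_par hb (fun l => ((i + j : ℕ) : ℤ) * m l) (fun l => (i : ℤ) * m l) x
  have e1 : (fun l => ((i + j : ℕ) : ℤ) * m l) + (fun l => (i : ℤ) * m l) =
      fun l => ((2 * i + j : ℕ) : ℤ) * m l := by
    funext l
    simp only [Pi.add_apply]
    push_cast
    ring
  have e2 : (fun l => ((i + j : ℕ) : ℤ) * m l) - (fun l => (i : ℤ) * m l) =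
      fun l => (j : ℤ) * m l := by
    funext l
    simp only [Pi.sub_apply]
    push_cast
    ring
  rwa [e1, e2] at h

end Vale.Agent.P159.H950
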