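import Vale.Agent.P159.H950.K1
import Vale.Agent.P159.H556.Low
import Vale.Agent.P159.H177.Exp

/-!
Lower bounds for the correlations of all integer charges in the massless phase.
-/

open MeasureTheory Filter Topology
open scoped BigOperators

namespace Vale.Agent.P159.H950

open Vale.Agent.P159 Vale.Agent.P159.H454

theorem chargeCorr_two (R : ℕ) (b : ℝ) (q : ℤ) (x : ℤ × ℤ) :
    chargeCorr R b ![q, -q] ![0, x] =
      expect (boxEnergy R b) fun θ => Real.Angle.cos (q • (ext θ 0 - ext θ x)) := by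
  have h : ∀ θ : box R → T, ∑ j : Fin 2, (![q, -q] : Fin 2 → ℤ) j •
      ext θ ((![0, x] : Fin 2 → ℤ × ℤ) j) = q • (ext θ 0 - ext θ x) := by
    intro θ
    rw [Fin.sum_univ_two]
    show q • ext θ 0 + (-q) • ext θ x = q • (ext θ 0 - ext θ x)
    rw [neg_zsmul, zsmul_sub, sub_eq_add_neg]
  unfold chargeCorr
  congr 1
  funext θ
  exact congrArg Real.Angle.cos (h θ)

theorem chargeInf_one (b : ℝ) (x : ℤ × ℤ) : chargeInf b ![1, -1] ![0, x] = corrInf b x := by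
  unfold chargeInf corrInf
  congr 1
  funext R
  rw [chargeCorr_two]
  unfold corr
  simp only [one_zsmul]

theorem charge_lower {b : ℝ} (hb : 0 ≤ b) (x : ℤ × ℤ) (q : ℕ) :
    corrInf b x ^ (q ^ 2) ≤ chargeInf b ![(q : ℤ), -(q : ℤ)] ![0, x] := by
  have h := chargeInf_mul hb ![1, -1] ![0, x] q
  rw [chargeInf_one] at h
  have e : (fun j => (q : ℤ) * (![1, -1] : Fin 2 → ℤ) j) = ![(q : ℤ), -(q : ℤ)] := by
    funext j
    fin_cases j <;> simp
  rwa [e] at h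

theorem charge_axis {b : ℝ} (hb : bCrit ≤ b) (q : ℕ) {n : ℕ} (hn : 1 ≤ n) :
    (1 / (48 * b * n)) ^ (q ^ 2) ≤ chargeInf b ![(q : ℤ), -(q : ℤ)] ![0, ((n : ℤ), 0)] := by
  have hb0 : 0 < b := H170.bCrit_pos.trans_le hb
  have h := H556.axis_lower hb0 ((H170.mass_iff hb0).2 hb) hn
  refine le_trans (pow_le_pow_left₀ (by positivity) h _) ?_
  exact charge_lower hb0.le _ q

theorem charge_axis_above {b : ℝ} (hb : bCrit < b) :
    ∃ c : ℝ, 0 < c ∧ ∀ q n : ℕ, 1 ≤ n →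
      (c * (n : ℝ) ^ (-1 + (1 / bCrit - 1 / b) / 8)) ^ (q ^ 2) ≤
        chargeInf b ![(q : ℤ), -(q : ℤ)] ![0, ((n : ℤ), 0)] := by
  have hb0 : 0 < b := H170.bCrit_pos.trans hb
  obtain ⟨c, hc, h⟩ := H556.axis_lower_above hb
  refine ⟨c, hc, fun q n hn => ?_⟩
  refine le_trans (pow_le_pow_left₀ (by positivity) (h n hn) _) ?_
  exact charge_lower hb0.le _ q

theorem charge_upper {b : ℝ} (hb : 0 < b) (q : ℕ) {η : ℝ}
    (hη : η * (2 * Real.pi * helicity b) < (q : ℝ) ^ 2) :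
    ∃ K : ℝ, ∀ x : ℤ × ℤ, x ≠ 0 →
      chargeInf b ![(q : ℤ), -(q : ℤ)] ![0, x] ≤ K * ((max |x.1| |x.2| : ℤ) : ℝ) ^ (-η) := by
  obtain ⟨K, hK⟩ := H177.charge_helicity hb q hη
  refine ⟨K, fun x hx => ?_⟩
  obtain ⟨c, hc, -, hc2⟩ := hK x hx
  have h1 : (fun R : ℕ => chargeCorr R b ![(q : ℤ), -(q : ℤ)] ![0, x]) =
      fun R : ℕ => H177.corrQ q R b x := by
    funext R
    rw [chargeCorr_two]
    unfold H177.corrQ
    congr 1
  have h2 := tendsto_chargeInf hb.le ![(q : ℤ), -(q : ℤ)] ![0, x]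
  rw [h1] at h2
  rwa [tendsto_nhds_unique h2 hc]

end Vale.Agent.P159.H950
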