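import Vale.Agent.P159.H950.K2

/-!
In the massless phase all neutral charge configurations have power law lower bounds.
-/

open MeasureTheory Filter Topology
open scoped BigOperators

namespace Vale.Agent.P159.H950

open Vale.Agent.P159 Vale.Agent.P159.H454

theorem pair_sum {k : ℕ} (j j0 : Fin k) (v : Fin k → T) :
    ∑ i, (Pi.single j (1 : ℤ) - Pi.single j0 1 : Fin k → ℤ) i • v i = v j - v j0 := by
  have h : ∀ l : Fin k, ∑ i, (Pi.single l (1 : ℤ) : Fin k → ℤ) i • v i = v l := by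
    intro l
    rw [Finset.sum_eq_single l]
    · rw [Pi.single_eq_same, one_zsmul]
    · intro i _ hi
      rw [Pi.single_eq_of_ne hi, zero_zsmul]
    · intro h
      exact absurd (Finset.mem_univ l) h
  simp only [Pi.sub_apply, sub_zsmul, Finset.sum_add_distrib, Finset.sum_neg_distrib,
    ← sub_eq_add_neg, h, Finset.sum_sub_distrib]

theorem chargeCorr_pair {R : ℕ} (b : ℝ) {k : ℕ} (j j0 : Fin k) {x : Fin k → ℤ × ℤ}
    (hx : ∀ i, x i ∈ box R) :
    chargeCorr R b (Pi.single j 1 - Pi.single j0 1) x = XY.KS (box R) b (x j) (x j0) := by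
  rw [XY.KS_of_mem b (hx j) (hx j0)]
  have h0 : ∀ (θ : box R → T) (i : Fin k), ext θ (x i) = θ ⟨x i, hx i⟩ := fun θ i => by
    unfold ext; rw [dif_pos (hx i)]
  have h2 : ∀ θ : box R → T, Real.Angle.cos
      (∑ i, (Pi.single j (1 : ℤ) - Pi.single j0 1 : Fin k → ℤ) i • ext θ (x i)) =
      XY.ct (θ ⟨x j, hx j⟩ - θ ⟨x j0, hx j0⟩) := by
    intro θ
    have h1 := pair_sum j j0 fun i => ext θ (x i)
    simp only [h0 θ j, h0 θ j0] at h1
    exact congrArg Real.Angle.cos h1
  unfold chargeCorr expect XY.corr XY.ev XY.un XY.part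
  simp_rw [XY.boxEnergy_eq, h2]
  rfl

theorem chargeInf_pair {b : ℝ} (hb : 0 ≤ b) {k : ℕ} (j j0 : Fin k) (x : Fin k → ℤ × ℤ) :
    chargeInf b (Pi.single j 1 - Pi.single j0 1) x = XY.C b (x j0 - x j) := by
  rw [← XY.CI_eq hb]
  refine tendsto_nhds_unique (tendsto_chargeInf hb _ x) ?_
  refine (XY.tendsto_KS hb (x j) (x j0)).congr' ((eventually_box x).mono fun R hR => ?_)
  exact (chargeCorr_pair b j j0 hR).symm

theorem chargeInf_neg (b : ℝ) {k : ℕ} (m : Fin k → ℤ) (x : Fin k → ℤ × ℤ) :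
    chargeInf b (fun i => -m i) x = chargeInf b m x := by
  unfold chargeInf
  congr 1
  funext R
  unfold chargeCorr
  congr 1
  funext θ
  have h : ∑ j, (fun i => -m i) j • ext θ (x j) = -(∑ j, m j • ext θ (x j) : T) := by
    rw [← Finset.sum_neg_distrib]
    exact Finset.sum_congr rfl fun j _ => neg_zsmul _ _
  have h2 := congrArg Real.Angle.cos h
  exact h2.trans (Real.Angle.cos_neg _)

theorem chargeInf_zmul {b : ℝ} (hb : 0 ≤ b) {k : ℕ} (m : Fin k → ℤ) (x : Fin k → ℤ × ℤ) (z : ℤ) :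
    chargeInf b m x ^ (z.natAbs ^ 2) ≤ chargeInf b (fun j => z * m j) x := by
  have h := chargeInf_mul hb m x z.natAbs
  rcases Int.natAbs_eq z with hz | hz
  · rw [← hz] at h
    exact h
  · have e : (fun j => ((z.natAbs : ℕ) : ℤ) * m j) = fun i => -(fun j => z * m j) i := by
      funext j
      simp only
      rw [← neg_mul]
      congr 1
      omega
    rw [e, chargeInf_neg] at h
    exact h

theorem axis_ge {b : ℝ} (hb : bCrit ≤ b) {n d : ℕ} (hn : n ≤ d) :
    1 / (48 * b * (d + 1)) ≤ XY.C b ((n : ℤ), 0) := by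
  have hb0 : 0 < b := H170.bCrit_pos.trans_le hb
  have hb1 : 1 ≤ 48 * b := by
    have h1 : 2 / Real.pi < bCrit := H170.lt_bCrit
    have h2 : (1 : ℝ) / 2 ≤ 2 / Real.pi := by
      rw [div_le_div_iff₀ (by norm_num) Real.pi_pos]
      linarith [Real.pi_le_four]
    linarith
  have hd : (0 : ℝ) ≤ d := Nat.cast_nonneg d
  rcases Nat.eq_zero_or_pos n with h0 | h0
  · subst h0
    have h1 : XY.C b (((0 : ℕ) : ℤ), 0) = 1 := XY.C_zero b
    rw [h1, div_le_one (by positivity)]
    nlinarith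
  · have h := H556.axis_lower hb0 ((H170.mass_iff hb0).2 hb) (n := n) h0
    rw [XY.corrInf_eq hb0.le] at h
    refine le_trans ?_ h
    have hn0 : (0 : ℝ) < n := by exact_mod_cast h0
    have hnd : (n : ℝ) ≤ d := by exact_mod_cast hn
    refine one_div_le_one_div_of_le (by positivity) ?_
    refine mul_le_mul_of_nonneg_left (by linarith) (by positivity)

theorem C_ge {b : ℝ} (hb : bCrit ≤ b) {d : ℕ} {y : ℤ × ℤ} (h1 : y.1.natAbs ≤ d)
    (h2 : y.2.natAbs ≤ d) : (1 / (48 * b * (d + 1))) ^ 2 ≤ XY.C b y := by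
  have hb0 : 0 < b := H170.bCrit_pos.trans_le hb
  have h3 := XY.C_supermul hb0.le (y.1, 0) (0, y.2)
  have e0 : ((y.1, 0) : ℤ × ℤ) + (0, y.2) = y := by
    refine Prod.ext ?_ ?_ <;> simp
  rw [e0] at h3
  have e1 : XY.C b (y.1, 0) = XY.C b ((y.1.natAbs : ℤ), 0) := by
    have := H556.C_abs hb0.le (y.1, 0)
    simpa using this
  have e2 : XY.C b (0, y.2) = XY.C b ((y.2.natAbs : ℤ), 0) := by
    have h4 := XY.C_swap hb0.le (0, y.2)
    rw [Prod.swap_prod_mk] at h4
    have := H556.C_abs hb0.le (y.2, 0)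
    rw [← h4, this]
    simp
  rw [e1, e2] at h3
  refine le_trans ?_ h3
  rw [pow_two]
  have hd : (0 : ℝ) ≤ d := Nat.cast_nonneg d
  exact mul_le_mul (axis_ge hb h1) (axis_ge hb h2) (by positivity) (XY.C_nonneg hb0.le _)

/-- all neutral charge configurations decay at most like a power -/
theorem neutral_lower {b : ℝ} (hb : bCrit ≤ b) {k : ℕ} (m : Fin k → ℤ) (hm : ∑ j, m j = 0) :
    ∃ N : ℕ, ∀ (x : Fin k → ℤ × ℤ) (d : ℕ),
      (∀ i j, max |(x i - x j).1| |(x i - x j).2| ≤ (d : ℤ)) →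
      (1 / (48 * b * (d + 1))) ^ N ≤ chargeInf b m x := by
  classical
  have hb0 : 0 < b := H170.bCrit_pos.trans_le hb
  rcases Nat.eq_zero_or_pos k with hk | hk
  · subst hk
    refine ⟨0, fun x d _ => ?_⟩
    have : m = 0 := funext fun i => i.elim0
    rw [this, chargeInf_zero hb0.le, pow_zero]
  set j0 : Fin k := ⟨0, hk⟩ with hj0
  set a : Fin k → Fin k → ℤ := fun j i => m j * (Pi.single j 1 - Pi.single j0 1 : Fin k → ℤ) i
    with ha
  have hsum : m = ∑ j, a j := by
    funext i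
    rw [Finset.sum_apply]
    simp only [ha, Pi.sub_apply, mul_sub, Finset.sum_sub_distrib]
    rw [← Finset.sum_mul, hm, zero_mul, sub_zero, Finset.sum_eq_single i]
    · rw [Pi.single_eq_same, mul_one]
    · intro j _ hj
      rw [Pi.single_eq_of_ne hj.symm, mul_zero]
    · intro h
      exact absurd (Finset.mem_univ i) h
  have key : ∀ S : Finset (Fin k), ∃ N : ℕ, ∀ (x : Fin k → ℤ × ℤ) (d : ℕ),
      (∀ i j, max |(x i - x j).1| |(x i - x j).2| ≤ (d : ℤ)) →
      (1 / (48 * b * (d + 1))) ^ N ≤ chargeInf b (∑ j ∈ S, a j) x := by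
    intro S
    induction S using Finset.induction_on with
    | empty =>
      refine ⟨0, fun x d _ => ?_⟩
      rw [Finset.sum_empty, chargeInf_zero hb0.le, pow_zero]
    | insert j S hj ih =>
      obtain ⟨N, hN⟩ := ih
      refine ⟨2 * ((m j).natAbs ^ 2) * 2 + N * 2, fun x d hx => ?_⟩
      set L : ℝ := 1 / (48 * b * (d + 1)) with hL
      have hd : (0 : ℝ) ≤ d := Nat.cast_nonneg d
      have hL0 : 0 ≤ L := by positivity
      rw [Finset.sum_insert hj]
      have h1 := hN x d hx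
      have h2 : L ^ (2 * ((m j).natAbs ^ 2)) ≤ chargeInf b (a j) x := by
        have h3 := chargeInf_zmul hb0.le (Pi.single j 1 - Pi.single j0 1 : Fin k → ℤ) x (m j)
        refine le_trans ?_ h3
        rw [chargeInf_pair hb0.le, pow_mul]
        have h4 := hx j0 j
        rw [max_le_iff] at h4
        refine pow_le_pow_left₀ (by positivity) (C_ge hb ?_ ?_) _
        · have := h4.1
          rw [Int.abs_eq_natAbs] at this
          exact_mod_cast this
        · have := h4.2
          rw [Int.abs_eq_natAbs] at this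
          exact_mod_cast this
      have h5 := chargeInf_par hb0.le (a j) (∑ j ∈ S, a j) x
      have h6 : chargeInf b (a j + ∑ j ∈ S, a j) x * chargeInf b (a j - ∑ j ∈ S, a j) x ≤
          chargeInf b (a j + ∑ j ∈ S, a j) x :=
        mul_le_of_le_one_right (chargeInf_nonneg hb0.le _ x) (chargeInf_le_one hb0.le _ x)
      refine le_trans ?_ (h5.trans h6)
      rw [pow_add, pow_mul L _ 2, pow_mul L N 2]
      exact mul_le_mul (pow_le_pow_left₀ (by positivity) h2 2)
        (pow_le_pow_left₀ (by positivity) h1 2) (by positivity) (sq_nonneg _)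
  obtain ⟨N, hN⟩ := key Finset.univ
  refine ⟨N, fun x d hx => ?_⟩
  have := hN x d hx
  rw [← hsum] at this
  exact this

end Vale.Agent.P159.H950
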