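import Vale.Agent.P159.H950.K3

/-!
Assembly.
-/

open MeasureTheory Filter Topology
open scoped BigOperators

namespace Vale.Agent.P159.H950

open Vale.Agent.P159 Vale.Agent.P159.H454

theorem charge_below {b : ℝ} (hb : 0 < b) (hc : b < bCrit) {q : ℕ} (hq : 1 ≤ q) (η : ℝ) :
    ∃ K : ℝ, ∀ x : ℤ × ℤ, x ≠ 0 →
      chargeInf b ![(q : ℤ), -(q : ℤ)] ![0, x] ≤ K * ((max |x.1| |x.2| : ℤ) : ℝ) ^ (-η) := by
  refine charge_upper hb q ?_
  have h0 : mass b ≠ 0 := by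
    intro h
    exact absurd ((H170.mass_iff hb).1 h) (not_le.2 hc)
  have h1 : 0 < mass b := by
    have := XY.mass_nonneg hb
    exact lt_of_le_of_ne this h0.symm
  rw [UJ.helicity_massive hb h1, mul_zero, mul_zero]
  have : (1 : ℝ) ≤ q := by exact_mod_cast hq
  positivity

theorem charges :
    -- the infinite volume limit, and the case of the two-point function
    (∀ b : ℝ, 0 ≤ b → ∀ (k : ℕ) (m : Fin k → ℤ) (x : Fin k → ℤ × ℤ),
      Tendsto (fun R : ℕ => chargeCorr R b m x) atTop (𝓝 (chargeInf b m x)) ∧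
        0 ≤ chargeInf b m x ∧ chargeInf b m x ≤ 1) ∧
    (∀ (b : ℝ) (x : ℤ × ℤ), chargeInf b ![1, -1] ![0, x] = corrInf b x) ∧
    -- the parallelogram inequality, in boxes and in infinite volume
    (∀ b : ℝ, 0 ≤ b → ∀ (k : ℕ) (m m' : Fin k → ℤ) (x : Fin k → ℤ × ℤ),
      (∀ R : ℕ, (∀ j, x j ∈ box R) → chargeCorr R b m x ^ 2 * chargeCorr R b m' x ^ 2 ≤
        chargeCorr R b (m + m') x * chargeCorr R b (m - m') x) ∧
      chargeInf b m x ^ 2 * chargeInf b m' x ^ 2 ≤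
        chargeInf b (m + m') x * chargeInf b (m - m') x) ∧
    -- multiples of a charge configuration
    (∀ b : ℝ, 0 ≤ b → ∀ (k : ℕ) (m : Fin k → ℤ) (x : Fin k → ℤ × ℤ) (q : ℕ),
      chargeInf b m x ^ (q ^ 2) ≤ chargeInf b (fun j => (q : ℤ) * m j) x) ∧
    -- below the critical point each charge decays faster than all powers
    (∀ b : ℝ, 0 < b → b < bCrit → ∀ q : ℕ, 1 ≤ q → ∀ η : ℝ, ∃ K : ℝ, ∀ x : ℤ × ℤ, x ≠ 0 →
      chargeInf b ![(q : ℤ), -(q : ℤ)] ![0, x] ≤ K * ((max |x.1| |x.2| : ℤ) : ℝ) ^ (-η)) ∧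
    -- at and above the critical point each charge has power law bounds on both sides
    (∀ b : ℝ, bCrit ≤ b → ∀ q : ℕ, 1 ≤ q →
      (∀ n : ℕ, 1 ≤ n →
        (1 / (48 * b * n)) ^ (q ^ 2) ≤ chargeInf b ![(q : ℤ), -(q : ℤ)] ![0, ((n : ℤ), 0)]) ∧
      ∀ η : ℝ, η < (q : ℝ) ^ 2 / (2 * Real.pi * helicity b) → ∃ K : ℝ, ∀ x : ℤ × ℤ, x ≠ 0 →
        chargeInf b ![(q : ℤ), -(q : ℤ)] ![0, x] ≤ K * ((max |x.1| |x.2| : ℤ) : ℝ) ^ (-η)) ∧
    (∀ b : ℝ, bCrit < b → 0 < (1 / bCrit - 1 / b) / 8 ∧ ∃ c : ℝ, 0 < c ∧ ∀ q n : ℕ, 1 ≤ n →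
      (c * (n : ℝ) ^ (-1 + (1 / bCrit - 1 / b) / 8)) ^ (q ^ 2) ≤
        chargeInf b ![(q : ℤ), -(q : ℤ)] ![0, ((n : ℤ), 0)]) ∧
    -- at and above the critical point no neutral correlation decays faster than a power
    (∀ b : ℝ, bCrit ≤ b → ∀ (k : ℕ) (m : Fin k → ℤ), ∑ j, m j = 0 →
      ∃ N : ℕ, ∀ (x : Fin k → ℤ × ℤ) (d : ℕ),
        (∀ i j, max |(x i - x j).1| |(x i - x j).2| ≤ (d : ℤ)) →
        (1 / (48 * b * (d + 1))) ^ N ≤ chargeInf b m x) := by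
  refine ⟨fun b hb k m x => ⟨tendsto_chargeInf hb m x, chargeInf_nonneg hb m x,
    chargeInf_le_one hb m x⟩, chargeInf_one, fun b hb k m m' x =>
    ⟨fun R hx => chargeCorr_par hb m m' hx, chargeInf_par hb m m' x⟩,
    fun b hb k m x q => chargeInf_mul hb m x q, fun b hb hc q hq η => charge_below hb hc hq η,
    fun b hb q hq => ⟨fun n hn => charge_axis hb q hn, fun η hη => ?_⟩,
    fun b hb => ⟨?_, charge_axis_above hb⟩, fun b hb k m hm => neutral_lower hb m hm⟩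
  · have hb0 : 0 < b := H170.bCrit_pos.trans_le hb
    have h1 : 2 / Real.pi ≤ helicity b :=
      UJ.helicity_massless hb0 ((H170.mass_iff hb0).2 hb)
    have hpi := Real.pi_pos
    have h2 : 0 < helicity b := lt_of_lt_of_le (by positivity) h1
    refine charge_upper hb0 q ?_
    rwa [lt_div_iff₀ (by positivity)] at hη
  · have hc := H170.bCrit_pos
    have : 1 / b < 1 / bCrit := one_div_lt_one_div_of_lt hc hb
    linarith

end Vale.Agent.P159.H950
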